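import Vale.Agent.P212.Defs
import Vale.Agent.P089.BaseB

/-
P212 internal definitions.  See skel/P212/BLUEPRINT.md.
-/

noncomputable section

namespace Vale.Agent.P212

open scoped ZeroAtInfty Classical

/- ### Groups with a spectral gap and a dilation -/

/-- Unitary representation. -/
def IsURep {Γ K : Type} [Group Γ] [NormedAddCommGroup K] [InnerProductSpace ℂ K] [CompleteSpace K]
    (U : Γ →* (K →L[ℂ] K)) : Prop := ∀ g, star (U g) = U g⁻¹

/-- Spectral gap in all unitary representations. -/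
def Gap {Γ : Type} [Group Γ] (S : Finset Γ) : Prop :=
  ∃ κ : ℝ, 0 < κ ∧ ∀ (K : Type) [NormedAddCommGroup K] [InnerProductSpace ℂ K] [CompleteSpace K]
    (U : Γ →* (K →L[ℂ] K)), IsURep U → ∀ ξ : K,
    (∀ η : K, (∀ g, U g η = η) → inner ℂ η ξ = 0) → κ * ‖ξ‖ ^ 2 ≤ ∑ s ∈ S, ‖U s ξ - ξ‖ ^ 2

/-- The group data. -/
structure GD (Γ : Type) [Group Γ] where
  S : Finset Γ
  gen : Subgroup.closure (S : Set Γ) = ⊤
  φ : Γ →* Γ
  inj : Function.Injective φ
  fin : φ.range.FiniteIndex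
  z : Γ
  cen : ∀ g, g * z = z * g
  φz : φ z = z ^ 4
  gap : Gap S
  free : ∀ g : Γ, ∃ D : ℕ, 0 < D ∧ ∃ n0 : ℕ, ∀ n, n0 ≤ n → ∀ (x : Γ) (i : ℤ),
    (∃ y, φ^[4 * n] y = x⁻¹ * g * x * z ^ ((4 : ℤ) ^ (3 * n) * i)) → (4 : ℤ) ^ n ∣ D * i

/- ### The interface of the space -/

/-- Length of the loop number `n`. -/
def LL (n : ℕ) : ℕ := 2 ^ (n + 3)

/-- Order of the covering group of the piece number `n`. -/
def MM (n : ℕ) : ℕ := 4 ^ (n + 3)

instance (n : ℕ) : NeZero (LL n) := ⟨pow_ne_zero _ two_ne_zero⟩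

instance (n : ℕ) : NeZero (MM n) := ⟨pow_ne_zero _ four_ne_zero⟩

/-- The space with its pieces and loops. -/
structure Spc (X : Type) [MetricSpace X] where
  ud : UnifDiscrete X
  bg : BddGeom X
  comp : X → ℕ
  comp_fin : ∀ n, {x | comp x = n}.Finite
  comp_far : ∀ x x', comp x ≠ comp x' → (comp x : ℝ) < dist x x'
  loop : ∀ n, ZMod (LL n) → X
  loop_inj : ∀ n, Function.Injective (loop n)
  loop_comp : ∀ n c, comp (loop n c) = n
  loop_dist : ∀ n c, dist (loop n c) (loop n (c + 1)) ≤ 1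

/-- The covering cocycles. -/
def Spc.Coc {X : Type} [MetricSpace X] (sp : Spc X) : Prop :=
  ∀ r : ℝ, 1 ≤ r → ∃ D : ℕ, 0 < D ∧ ∃ n0 : ℕ, ∀ n, n0 ≤ n → ∃ c : X → X → ZMod (MM n),
    (∀ x y z, sp.comp x = n → sp.comp y = n → sp.comp z = n → dist x y ≤ r → dist y z ≤ r →
      dist x z ≤ r → c x y + c y z = c x z) ∧
    ∀ i, c (sp.loop n i) (sp.loop n (i + 1)) = D

/-- A finite left transversal of the range of `ψ`. -/
structure IsTr {Γ : Type} [Group Γ] (ψ : Γ →* Γ) (T : Finset Γ) : Prop where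
  ex : ∀ g, ∃ t ∈ T, ∃ l, g = t * ψ l
  uniq : ∀ t ∈ T, ∀ t' ∈ T, ∀ l l', t * ψ l = t' * ψ l' → t = t'

/-- The tower over the space. -/
structure Sys (Γ X Y : Type) [Group Γ] [MetricSpace X] [MulAction Γ Y] (sp : Spc X) where
  pr : Y → X
  lev : Y → ℕ
  top : ℕ → ℕ
  top_pos : ∀ n, 0 < top n
  lev_le : ∀ y, lev y ≤ top (sp.comp (pr y))
  fib_fin : ∀ x, {y | pr y = x}.Finite
  slot : Y × ℕ ≃ X × ℕ
  slot_fst : ∀ ω, (slot ω).1 = pr ω.1
  slot_zero : ∀ y j, lev y = 0 → slot (y, j) = (pr y, j)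
  S : Equiv.Perm Y
  S_smul : ∀ (g : Γ) y, S (g • y) = g • S y
  lev_smul : ∀ (g : Γ) y, lev (g • y) = lev y
  comp_smul : ∀ (g : Γ) y, sp.comp (pr (g • y)) = sp.comp (pr y)
  lev_S : ∀ y, lev (S y) = lev y
  comp_S : ∀ y, sp.comp (pr (S y)) = sp.comp (pr y)
  disp_smul : ∀ g : Γ, ∃ R : ℝ, ∀ y, dist (pr (g • y)) (pr y) ≤ R
  disp_S : ∀ y, dist (pr (S y)) (pr y) ≤ 1
  top_S : ∀ y, lev y = top (sp.comp (pr y)) → pr (S y) = pr y
  top_lev : ∀ y y', pr y = pr y' → lev y = lev y'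
  lft : ∀ n, ZMod (LL n) → Y
  pr_lft : ∀ n c, pr (lft n c) = sp.loop n c
  lev_lft : ∀ n c, lev (lft n c) = 0
  S_lft : ∀ n c, S (lft n c) = lft n (c + 1)
  smul_lft : ∀ (g : Γ) n c, g • lft n c = lft n c
  lft_surj : ∀ y, lev y = 0 → ∃ n c, y = lft n c
  typ : ℕ → ℕ → Fin 3
  ψ : Fin 3 → (Γ →* Γ)
  Tr : Fin 3 → Finset Γ
  tr : ∀ θ, IsTr (ψ θ) (Tr θ)
  gc : Fin 3 → Γ
  gc_cen : ∀ θ g, g * gc θ = gc θ * g
  up : Y → Y
  lev_up : ∀ y, lev y < top (sp.comp (pr y)) → lev (up y) = lev y + 1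
  comp_up : ∀ y, sp.comp (pr (up y)) = sp.comp (pr y)
  disp_up : ∀ y, dist (pr (up y)) (pr y) ≤ 1
  up_smul : ∀ (g : Γ) y, lev y < top (sp.comp (pr y)) →
    up (g • y) = ψ (typ (sp.comp (pr y)) (lev y)) g • up y
  S_up : ∀ y, lev y < top (sp.comp (pr y)) →
    S (up y) = gc (typ (sp.comp (pr y)) (lev y)) • up (S y)
  up_inj : ∀ y y', lev y < top (sp.comp (pr y)) → lev y' < top (sp.comp (pr y')) →
    ∀ t ∈ Tr (typ (sp.comp (pr y)) (lev y)), ∀ t' ∈ Tr (typ (sp.comp (pr y')) (lev y')),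
    t • up y = t' • up y' → t = t' ∧ y = y'
  up_surj : ∀ y', 0 < lev y' → ∃ y, lev y + 1 = lev y' ∧ sp.comp (pr y) = sp.comp (pr y') ∧
    ∃ t ∈ Tr (typ (sp.comp (pr y)) (lev y)), y' = t • up y

/- ### Weighted translations on a Hilbert sum -/

/-- `A` is the weighted translation with map `σ` and coefficients `T`. -/
def IsW {Ω H E : Type} [NormedAddCommGroup H] [InnerProductSpace ℂ H] [NormedAddCommGroup E]
    [InnerProductSpace ℂ E] (I : Ω → H →ₗᵢ[ℂ] E) (σ : Ω → Ω) (T : Ω → H →L[ℂ] H)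
    (A : E →L[ℂ] E) : Prop :=
  ∀ ω ξ, A (I ω ξ) = I (σ ω) (T ω ξ)

/-- The standard module. -/
abbrev EX (X H : Type) [NormedAddCommGroup H] : Type := lp (fun _ : X => H) 2

/-- The coordinate embeddings of the standard module. -/
def JX (X H : Type) [NormedAddCommGroup H] [InnerProductSpace ℂ H] (x : X) :
    H →ₗᵢ[ℂ] EX X H where
  toFun ξ := lp.single 2 x ξ
  map_add' ξ η := lp.single_add (E := fun _ : X => H) 2 x ξ η
  map_smul' c ξ := lp.single_smul (E := fun _ : X => H) 2 x c ξ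
  norm_map' ξ := lp.norm_single (E := fun _ : X => H) (p := 2) (by norm_num) x ξ

/-- The refined embeddings. -/
def IX {X H Ω : Type} [NormedAddCommGroup H] [InnerProductSpace ℂ H] (Kf : ℕ → H →ₗᵢ[ℂ] H)
    (slot : Ω ≃ X × ℕ) (ω : Ω) : H →ₗᵢ[ℂ] EX X H :=
  (JX X H (slot ω).1).comp (Kf (slot ω).2)

/-- Operators of finite propagation. -/
def FP (X H : Type) [MetricSpace X] [NormedAddCommGroup H] [InnerProductSpace ℂ H]
    [CompleteSpace H] : StarSubalgebra ℂ (EX X H →L[ℂ] EX X H) :=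
  StarAlgebra.adjoin ℂ {T | ∃ R : ℝ, ∀ x y, R < dist x y → ent T x y = 0}

/- ### The exponential calculus -/

section Exp

variable {B : Type} [CStarAlgebra B]

/-- Multipliers. -/
def Mlt (A : NonUnitalStarSubalgebra ℂ B) (m : B) : Prop := ∀ a ∈ A, m * a ∈ A ∧ a * m ∈ A

/-- Unitaries congruent to one. -/
def UA (A : NonUnitalStarSubalgebra ℂ B) : Set B := {u | u ∈ unitary B ∧ u - 1 ∈ A}

/-- The index unitary. -/
def EE (a : B) : B := NormedSpace.exp (((2 * Real.pi : ℝ) * Complex.I : ℂ) • a)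

/-- Essential projections. -/
structure Ess (A : NonUnitalStarSubalgebra ℂ B) (a : B) : Prop where
  sa : IsSelfAdjoint a
  mul : Mlt A a
  sq : a * a - a ∈ A

end Exp

/- ### The circle -/

/-- Functions on the circle, the Hardy projection and the rotations. -/
structure Circ (H : Type) [NormedAddCommGroup H] [InnerProductSpace ℂ H] [CompleteSpace H] where
  π0 : C(UnitAddCircle, ℂ) →⋆ₐ[ℂ] (H →L[ℂ] H)
  Pi : H →L[ℂ] H
  proj : IsStarProjection Pi
  R : UnitAddCircle → H →L[ℂ] H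
  R_zero : R 0 = 1
  R_add : ∀ θ θ', R (θ + θ') = R θ * R θ'
  R_star : ∀ θ, star (R θ) = R (-θ)
  R_Pi : ∀ θ, Commute (R θ) Pi
  R_π : ∀ θ (f f' : C(UnitAddCircle, ℂ)), (∀ s, f' s = f (s - θ)) → R θ * π0 f = π0 f' * R θ
  cpt : ∀ f, IsCompactOperator (Pi * π0 f - π0 f * Pi : H →L[ℂ] H)
  shift : Pi * π0 (fourier 1) * Pi = π0 (fourier 1) * Pi
  v0 : H
  norm_v0 : ‖v0‖ = 1
  defect : Pi - π0 (fourier 1) * Pi * star (π0 (fourier 1)) = InnerProductSpace.rankOne ℂ v0 v0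

/-- Tent functions. -/
def tent (L : ℕ) [NeZero L] (c : ZMod L) (s : UnitAddCircle) : ℝ :=
  max 0 (1 - L * ‖s - ZMod.toAddCircle c‖)

/-- Square roots of the tent functions. -/
def sqt (L : ℕ) [NeZero L] (c : ZMod L) : C(UnitAddCircle, ℂ) where
  toFun s := ((Real.sqrt (tent L c s) : ℝ) : ℂ)
  continuous_toFun := by unfold tent; fun_prop

section Coef

variable {H : Type} [NormedAddCommGroup H] [InnerProductSpace ℂ H] [CompleteSpace H]

/-- The diagonal coefficient. -/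
def T0 (C : Circ H) (L : ℕ) [NeZero L] : H →L[ℂ] H := C.π0 (sqt L 0) * C.Pi * C.π0 (sqt L 0)

/-- The off diagonal coefficient. -/
def T1 (C : Circ H) (L : ℕ) [NeZero L] : H →L[ℂ] H :=
  C.π0 (sqt L 0) * C.Pi * C.R (-ZMod.toAddCircle (1 : ZMod L)) * C.π0 (sqt L 0)

end Coef

/-- Square roots of the barycentric coordinates. -/
def Bary {X : Type} [MetricSpace X] {r : ℝ} (a : X → C₀(Rips X r, ℂ)) : Prop :=
  ∀ x p, a x p = ((Real.sqrt (p.t x) : ℝ) : ℂ)

/-- The Fredholm module of the loops. -/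
structure IsY {X H : Type} [MetricSpace X] [NormedAddCommGroup H] [InnerProductSpace ℂ H]
    [CompleteSpace H] (sp : Spc X) (C : Circ H) (Kf : ℕ → H →ₗᵢ[ℂ] H) {r : ℝ}
    (y : Fred (Rips X r) H) : Prop where
  op : IsW Kf id (fun _ => (2 : ℂ) • C.Pi - 1) y.F
  on : ∀ a, Bary a → ∀ n c,
    IsW Kf id (fun m => if m = n then C.π0 (sqt (LL n) c) else 0) (y.π (a (sp.loop n c)))
  off : ∀ a, Bary a → ∀ x, (∀ n c, x ≠ sp.loop n c) → y.π (a x) = 0

/- ### The operators of the tower -/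

section Tower

variable {Γ X Y H : Type} [Group Γ] [MetricSpace X] [MulAction Γ Y] [NormedAddCommGroup H]
  [InnerProductSpace ℂ H] [CompleteSpace H] {sp : Spc X}

/-- The piece and level of a point of the tower. -/
def Sys.pos (sy : Sys Γ X Y sp) (y : Y) : ℕ × ℕ := (sp.comp (sy.pr y), sy.lev y)

/-- The operators on the standard module. -/
structure Ops (sy : Sys Γ X Y sp) (C : Circ H) (Kf : ℕ → H →ₗᵢ[ℂ] H) where
  u : Γ →* FP X H
  hu : ∀ g, IsW (IX Kf sy.slot) (fun ω => (g • ω.1, ω.2)) (fun _ => 1) (u g).1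
  u_star : ∀ g, star (u g) = u g⁻¹
  s : FP X H
  hs : IsW (IX Kf sy.slot) (fun ω => (sy.S ω.1, ω.2)) (fun _ => 1) s.1
  s_unit : s ∈ unitary (FP X H)
  t0 : FP X H
  ht0 : IsW (IX Kf sy.slot) id
    (fun ω => if ω.2 = sp.comp (sy.pr ω.1) then T0 C (LL ω.2) else 0) t0.1
  t1 : FP X H
  ht1 : IsW (IX Kf sy.slot) id
    (fun ω => if ω.2 = sp.comp (sy.pr ω.1) then T1 C (LL ω.2) else 0) t1.1
  e : Set (ℕ × ℕ) → FP X H
  he : ∀ A, IsW (IX Kf sy.slot) id (fun ω => if sy.pos ω.1 ∈ A then 1 else 0) (e A).1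

/-- The essential projection of the tower. -/
def Ops.P {sy : Sys Γ X Y sp} {C : Circ H} {Kf : ℕ → H →ₗᵢ[ℂ] H} (o : Ops sy C Kf) : FP X H :=
  o.t0 + o.s * o.t1 + star (o.s * o.t1)

end Tower

/- ### Index data -/

section Index

open Vale.Agent.P089

/-- The standard trace ideal. -/
structure StdT {H : Type} [NormedAddCommGroup H] [InnerProductSpace ℂ H] [CompleteSpace H]
    (t : TrSet (H →L[ℂ] H)) : Prop where
  K_iff : ∀ k, k ∈ t.K ↔ IsCompactOperator k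
  int : ∀ P Q T z, IsStarProjection P → IsStarProjection Q → HasInd t P Q T z → ∃ n : ℤ, z = n
  rk : ∀ v : H, ‖v‖ = 1 → InnerProductSpace.rankOne ℂ v v ∈ t.I ∧
    t.τ (InnerProductSpace.rankOne ℂ v v) = 1

/-- Isometries with orthogonal ranges which fill the space. -/
structure Cuntz {κ B : Type} [Fintype κ] [Ring B] [StarRing B] (s : κ → B) : Prop where
  orth : ∀ i j, star (s i) * s j = if i = j then 1 else 0
  sum : ∑ i, s i * star (s i) = 1

/-- A finite set of vertices with a cocycle. -/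
structure Geo (v M : ℕ) where
  adj : Fin v → Fin v → Prop
  refl : ∀ x, adj x x
  symm : ∀ x y, adj x y → adj y x
  c : Fin v → Fin v → ZMod M
  coc : ∀ x y z, adj x y → adj y z → adj x z → c x y + c y z = c x z

/-- The algebraic relations of the square roots of barycentric coordinates. -/
structure IsA {v M : ℕ} (G : Geo v M) {B : Type} [Ring B] [StarRing B] (a : Fin v → B) :
    Prop where
  sa : ∀ x, star (a x) = a x
  comm : ∀ x y, Commute (a x) (a y)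
  orth : ∀ x y, ¬ G.adj x y → a x * a y = 0
  sum : ∀ y, (∑ x, a x * a x) * a y = a y

/-- flip one coordinate -/
def fl {v : ℕ} (j : Fin v) (ε : Fin v → Bool) : Fin v → Bool := Function.update ε j (!ε j)

/-- a sign -/
def sg {v : ℕ} (T : Finset (Fin v)) (ε : Fin v → Bool) : ℤ := ∏ l ∈ T, if ε l then -1 else 1

/-- the degree -/
def dg {v : ℕ} (ε : Fin v → Bool) : ℤ := ∑ l, if ε l then 1 else 0

/-- the parity -/
def par {v : ℕ} (ε : Fin v → Bool) : Bool := decide (sg Finset.univ ε = 1)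

/-- The Clifford matrix. -/
def cw {v : ℕ} {R : Type} [Ring R] (d : Fin v → ℤ → ℤ → R) (j : ℤ) :
    Matrix (Fin v → Bool) (Fin v → Bool) R :=
  Matrix.of fun ε δ => ∑ l, if ε = fl l δ then
    sg (Finset.Iio l) δ • d l (j + dg ε) (j + dg δ) else 0

/-- The alternating sum. -/
def Alt (v : ℕ) (k : ℤ → ℂ) (j : ℤ) : ℂ :=
  ∑ ε : Fin v → Bool, if par ε then k (j + dg ε) else -k (j + dg ε)

/-- The indeterminacy. -/
def NN (v M : ℕ) : AddSubgroup (ℤ → ℂ) :=
  AddSubgroup.closure {f | ∃ (k : ZMod M → ℤ) (c : ℂ),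
    ∀ j, f j = Alt v (fun i => (k (i : ZMod M) : ℂ)) j + c}

variable {H : Type} [NormedAddCommGroup H] [InnerProductSpace ℂ H] [CompleteSpace H]
  {v M : ℕ} [NeZero M]

/-- Local compactness conditions. -/
structure IsF (a : Fin v → H →L[ℂ] H) (F : H →L[ℂ] H) : Prop where
  comm : ∀ x, IsCompactOperator (F * a x - a x * F : H →L[ℂ] H)
  sa : ∀ x, IsCompactOperator ((F - star F) * a x : H →L[ℂ] H)
  sq : ∀ x, IsCompactOperator ((F * F - 1) * a x : H →L[ℂ] H)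

/-- The frame of the line bundle of degree `i` over the star of `w`. -/
def uu (G : Geo v M) (s a : Fin v → H →L[ℂ] H) (i : ZMod M) (w : Fin v) : H →L[ℂ] H :=
  ∑ x, (ZMod.stdAddChar (i * G.c x w) : ℂ) • (s x * a x)

/-- The section attached to a vertex. -/
def dd (G : Geo v M) (s a : Fin v → H →L[ℂ] H) (w : Fin v) (i' i : ZMod M) : H →L[ℂ] H :=
  uu G s a i' w * a w * star (uu G s a i w)

/-- The projection of the line bundle of degree `i`. -/
def pp (G : Geo v M) (s a : Fin v → H →L[ℂ] H) (i : ZMod M) : H →L[ℂ] H :=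
  ∑ w, uu G s a i w * (a w * a w) * star (uu G s a i w)

/-- The ampliation. -/
def amp {κ : Type} [Fintype κ] (s : κ → H →L[ℂ] H) (T : H →L[ℂ] H) : H →L[ℂ] H :=
  ∑ x, s x * T * star (s x)

/-- The twisted essential projection. -/
def PP (G : Geo v M) (s a : Fin v → H →L[ℂ] H) (F : H →L[ℂ] H) (i : ZMod M) : H →L[ℂ] H :=
  (4⁻¹ : ℂ) • (pp G s a i * (2 + amp s (F + star F)) * pp G s a i)

/-- A matrix as an operator. -/
def Ph {ι : Type} [Fintype ι] (w : ι → H →L[ℂ] H) (A : Matrix ι ι (H →L[ℂ] H)) : H →L[ℂ] H :=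
  ∑ i, ∑ j, w i * A i j * star (w j)

/-- The even or odd part of a family. -/
def DD (w : (Fin v → Bool) → H →L[ℂ] H) (b : Bool) (Q : (Fin v → Bool) → H →L[ℂ] H) :
    H →L[ℂ] H :=
  Ph w (Matrix.diagonal fun ε => if par ε = b then Q ε else 0)

/-- The Clifford operator. -/
def WW (G : Geo v M) (s a : Fin v → H →L[ℂ] H) (j : ℤ) :
    Matrix (Fin v → Bool) (Fin v → Bool) (H →L[ℂ] H) :=
  cw (fun l i' i => dd G s a l (i' : ZMod M) (i : ZMod M)) j

/-- The index of a matrix compressed by a family of idempotents. -/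
def MInd (t : TrSet (H →L[ℂ] H)) (w : (Fin v → Bool) → H →L[ℂ] H)
    (W : Matrix (Fin v → Bool) (Fin v → Bool) (H →L[ℂ] H)) (Q : (Fin v → Bool) → H →L[ℂ] H)
    (z : ℂ) : Prop :=
  HasInd t (DD w true Q) (DD w false Q) (DD w false Q * Ph w W * DD w true Q) z

/-- The index function of a local Fredholm module. -/
def IsInd (t : TrSet (H →L[ℂ] H)) (G : Geo v M) (s : Fin v → H →L[ℂ] H)
    (w : (Fin v → Bool) → H →L[ℂ] H) (a : Fin v → H →L[ℂ] H) (F : H →L[ℂ] H) (ind : ℤ → ℂ) :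
    Prop :=
  ∃ Q : ZMod M → H →L[ℂ] H, (∀ i, IsStarProjection (Q i) ∧
    IsCompactOperator (Q i - PP G s a F i : H →L[ℂ] H)) ∧
    ∀ j : ℤ, MInd t w (WW G s a j) (fun ε => Q ((j + dg ε : ℤ) : ZMod M)) (ind j)

end Index

end Vale.Agent.P212
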