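import Vale.Agent.P212.Base

/-
More internal definitions.
-/

noncomputable section

namespace Vale.Agent.P212

open scoped Classical

/-- The projection onto the invariant vectors, as a limit of group ring elements. -/
structure IsKaz {Γ K : Type} [Group Γ] [NormedAddCommGroup K] [InnerProductSpace ℂ K]
    [CompleteSpace K] (U : Γ →* (K →L[ℂ] K)) (Q : K →L[ℂ] K) : Prop where
  proj : IsStarProjection Q
  inv : ∀ g, U g * Q = Q
  fix : ∀ ξ, (∀ g, U g ξ = ξ) → Q ξ = ξ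
  lim : Q ∈ closure (Submodule.span ℂ (Set.range U) : Set (K →L[ℂ] K))

/-- The partial isometry between invariant vectors of consecutive levels. -/
def vv {Γ B : Type} [Group Γ] [Ring B] [Algebra ℂ B] (U : Γ →* B) (T : Finset Γ) (V Q : B) : B :=
  (((Real.sqrt T.card)⁻¹ : ℝ) : ℂ) • ((∑ t ∈ T, U t * V) * Q)

/-- The relations of a vertical map. -/
structure IsV {Γ B : Type} [Group Γ] [Ring B] [StarRing B] (U : Γ →* B) (ψ : Γ →* Γ)
    (T : Finset Γ) (V e e' : B) : Prop where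
  cov : ∀ g, V * U g = U (ψ g) * V
  orth : ∀ t ∈ T, ∀ t' ∈ T, star V * U t⁻¹ * (U t' * V) = if t = t' then e else 0
  sum : ∑ t ∈ T, U t * V * (star V * U t⁻¹) = e'
  supp : V * e = V

/-- The levels of given type and parity. -/
def Cl (top : ℕ → ℕ) (typ : ℕ → ℕ → Fin 3) (θ : Fin 3) (b : ℕ) : Set (ℕ × ℕ) :=
  {p | p.2 < top p.1 ∧ typ p.1 p.2 = θ ∧ p.2 % 2 = b}

/-- The next levels. -/
def nxt (A : Set (ℕ × ℕ)) : Set (ℕ × ℕ) := {p | ∃ l, p.2 = l + 1 ∧ (p.1, l) ∈ A}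

/-- The local coordinate near a vertex of the loop. -/
def loc (L : ℕ) [NeZero L] (c : ZMod L) (s : UnitAddCircle) : ℝ :=
  L * (AddCircle.equivIco 1 (-1 / 2) (s - ZMod.toAddCircle c) : ℝ)

section Coef

variable {H : Type} [NormedAddCommGroup H] [InnerProductSpace ℂ H] [CompleteSpace H]

/-- The averaged Hardy projection. -/
def Pav (C : Circ H) (L : ℕ) [NeZero L] : H →L[ℂ] H :=
  ∑ z : ZMod L, C.π0 (sqt L z) * C.Pi * C.π0 (sqt L z)

/-- The exact coefficients. -/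
def Mk (C : Circ H) (L : ℕ) [NeZero L] (k : ℤ) : H →L[ℂ] H :=
  C.π0 (sqt L 0) * Pav C L * C.R (-ZMod.toAddCircle (k : ZMod L)) * C.π0 (sqt L 0)

end Coef

end Vale.Agent.P212
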