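import Vale.Agent.P212.Cw

/- The flat line bundles. -/

noncomputable section

namespace Vale.Agent.P212

open scoped Classical

variable {H : Type} [NormedAddCommGroup H] [InnerProductSpace ℂ H] [CompleteSpace H] {v M : ℕ}
  [NeZero M] {G : Geo v M} {s a : Fin v → H →L[ℂ] H} {F : H →L[ℂ] H}

theorem Geo.c_self (G : Geo v M) (x : Fin v) : G.c x x = 0 := by
  have := G.coc x x x (G.refl x) (G.refl x) (G.refl x)
  linear_combination this

theorem Geo.c_symm (G : Geo v M) {x y : Fin v} (h : G.adj x y) : G.c y x = -G.c x y := by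
  have := G.coc x y x h (G.symm _ _ h) (G.refl x)
  rw [G.c_self] at this
  linear_combination this

namespace Bund

theorem star_ch (k : ZMod M) : star (ZMod.stdAddChar k : ℂ) = ZMod.stdAddChar (-k) :=
  (AddChar.map_neg_eq_conj _ k).symm

omit [NeZero M] in
theorem trip (ha : IsA G a) {z x y : Fin v} (h : ¬ (G.adj z x ∧ G.adj x y ∧ G.adj z y)) :
    a z * a x * a y = 0 := by
  by_cases h1 : G.adj z x
  · by_cases h2 : G.adj x y
    · have h3 : ¬ G.adj z y := fun h3 => h ⟨h1, h2, h3⟩
      rw [(ha.comm z x).eq, mul_assoc, ha.orth z y h3, mul_zero]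
    · rw [mul_assoc, ha.orth x y h2, mul_zero]
  · rw [ha.orth z x h1, zero_mul]

theorem phase (ha : IsA G a) (i : ZMod M) (z x y : Fin v) :
    (ZMod.stdAddChar (i * G.c z x) : ℂ) • (a z * a x * a y) =
      (ZMod.stdAddChar (-(i * G.c x y)) : ℂ) •
        (ZMod.stdAddChar (i * G.c z y) : ℂ) • (a z * a x * a y) := by
  by_cases h : G.adj z x ∧ G.adj x y ∧ G.adj z y
  · rw [smul_smul, ← AddChar.map_add_eq_mul, ← G.coc z x y h.1 h.2.1 h.2.2]
    congr 2
    ring
  · rw [trip ha h, smul_zero, smul_zero, smul_zero]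

theorem star_uu (ha : IsA G a) (i : ZMod M) (x : Fin v) : star (uu G s a i x) =
    ∑ z, (ZMod.stdAddChar (-(i * G.c z x)) : ℂ) • (a z * star (s z)) := by
  rw [uu, star_sum]
  refine Finset.sum_congr rfl fun z _ => ?_
  rw [star_smul, star_ch, star_mul, ha.sa]

theorem gram0 (hs : Cuntz s) (ha : IsA G a) (i : ZMod M) (x y : Fin v) :
    star (uu G s a i x) * uu G s a i y = ∑ z, (ZMod.stdAddChar (-(i * G.c z x)) : ℂ) •
      (ZMod.stdAddChar (i * G.c z y) : ℂ) • (a z * a z) := by
  rw [star_uu ha, Finset.sum_mul]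
  refine Finset.sum_congr rfl fun z _ => ?_
  rw [smul_mul_assoc, uu, Finset.mul_sum, Finset.sum_eq_single z]
  · rw [mul_smul_comm, mul_assoc, ← mul_assoc (star (s z)), hs.orth, if_pos rfl, one_mul]
  · intro w _ hw
    rw [mul_smul_comm, mul_assoc, ← mul_assoc (star (s z)), hs.orth, if_neg (Ne.symm hw),
      zero_mul, mul_zero, smul_zero]
  · intro h
    exact absurd (Finset.mem_univ z) h

end Bund

theorem uu_move (ha : IsA G a) (i : ZMod M) (x y : Fin v) : uu G s a i x * a x * a y =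
    (ZMod.stdAddChar (-(i * G.c x y)) : ℂ) • (uu G s a i y * a x * a y) := by
  simp only [uu, Finset.sum_mul, Finset.smul_sum]
  refine Finset.sum_congr rfl fun z _ => ?_
  have h := congrArg (fun t => s z * t) (Bund.phase ha i z x y)
  simp only [mul_smul_comm, smul_mul_assoc, mul_assoc] at h ⊢
  exact h

theorem uu_gram (hs : Cuntz s) (ha : IsA G a) (i : ZMod M) (x y : Fin v) :
    a x * star (uu G s a i x) * uu G s a i y * a y =
      (ZMod.stdAddChar (i * G.c x y) : ℂ) • (a x * a y) := by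
  have e : a x * a y = ∑ z, a z * (a z * a x * a y) := by
    conv_lhs => rw [← ha.sum x]
    simp only [Finset.sum_mul, mul_assoc]
  rw [mul_assoc (a x), Bund.gram0 hs ha, e, Finset.mul_sum, Finset.sum_mul, Finset.smul_sum]
  refine Finset.sum_congr rfl fun z _ => ?_
  have e2 : a x * (a z * a z) * a y = a z * (a z * a x * a y) := by
    rw [← mul_assoc (a x), (ha.comm x z).eq, mul_assoc (a z) (a x), (ha.comm x z).eq]
    simp only [mul_assoc]
  rw [mul_smul_comm, mul_smul_comm, smul_mul_assoc, smul_mul_assoc, e2]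
  by_cases h : G.adj z x ∧ G.adj x y ∧ G.adj z y
  · rw [smul_smul, ← AddChar.map_add_eq_mul, ← G.coc z x y h.1 h.2.1 h.2.2]
    congr 2
    ring
  · rw [Bund.trip ha h, mul_zero, smul_zero, smul_zero, smul_zero]

theorem dd_star (ha : IsA G a) (x : Fin v) (i' i : ZMod M) :
    star (dd G s a x i' i) = dd G s a x i i' := by
  rw [dd, dd, star_mul, star_mul, star_star, ha.sa, mul_assoc]

namespace Bund

theorem dd_dd (hs : Cuntz s) (ha : IsA G a) (x y : Fin v) (k j i : ZMod M) :
    dd G s a x k j * dd G s a y j i = (ZMod.stdAddChar (j * G.c x y) : ℂ) •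
      (uu G s a k x * a x * a y * star (uu G s a i y)) := by
  have e : dd G s a x k j * dd G s a y j i = uu G s a k x *
      (a x * star (uu G s a j x) * uu G s a j y * a y) * star (uu G s a i y) := by
    simp only [dd, mul_assoc]
  rw [e, uu_gram hs ha, mul_smul_comm, smul_mul_assoc]
  simp only [mul_assoc]

theorem move_star (ha : IsA G a) (i : ZMod M) (x y : Fin v) :
    a y * a x * star (uu G s a i x) =
      (ZMod.stdAddChar (i * G.c x y) : ℂ) • (a y * a x * star (uu G s a i y)) := by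
  have h := congrArg star (uu_move (s := s) ha i x y)
  rw [star_smul, star_ch, neg_neg] at h
  simpa only [star_mul, ha.sa, mul_assoc] using h

theorem pp_ua (hs : Cuntz s) (ha : IsA G a) (x : Fin v) (i : ZMod M) :
    pp G s a i * (uu G s a i x * a x) = uu G s a i x * a x := by
  conv_rhs => rw [← ha.sum x]
  rw [pp, Finset.sum_mul, Finset.sum_mul, Finset.mul_sum]
  refine Finset.sum_congr rfl fun w _ => ?_
  have e : uu G s a i w * (a w * a w) * star (uu G s a i w) * (uu G s a i x * a x) =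
      uu G s a i w * a w * (a w * star (uu G s a i w) * uu G s a i x * a x) := by
    simp only [mul_assoc]
  have e2 : uu G s a i w * a w * (a w * a x) = uu G s a i w * a w * a x * a w := by
    rw [(ha.comm w x).eq]
    simp only [mul_assoc]
  have e3 : uu G s a i x * a w * a x * a w = uu G s a i x * (a w * a w * a x) := by
    rw [mul_assoc _ (a x), (ha.comm x w).eq]
    simp only [mul_assoc]
  rw [e, uu_gram hs ha, mul_smul_comm, e2, uu_move ha, smul_mul_assoc, smul_smul,
    ← AddChar.map_add_eq_mul, add_neg_cancel, AddChar.map_zero_eq_one, one_smul, e3]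

theorem pp_star (ha : IsA G a) (i : ZMod M) : star (pp G s a i) = pp G s a i := by
  rw [pp, star_sum]
  refine Finset.sum_congr rfl fun w _ => ?_
  simp only [star_mul, star_star, ha.sa, mul_assoc]

end Bund

theorem dd_comm (hs : Cuntz s) (ha : IsA G a) (x y : Fin v) (i c d : ZMod M) :
    dd G s a x (i + c + d) (i + c) * dd G s a y (i + c) i =
      dd G s a y (i + c + d) (i + d) * dd G s a x (i + d) i := by
  rw [Bund.dd_dd hs ha, Bund.dd_dd hs ha, uu_move ha _ x y]
  have e : uu G s a (i + c + d) y * a y * a x * star (uu G s a i x) =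
      uu G s a (i + c + d) y * (a y * a x * star (uu G s a i x)) := by
    simp only [mul_assoc]
  have e2 : uu G s a (i + c + d) y * (a y * a x * star (uu G s a i y)) =
      uu G s a (i + c + d) y * a x * a y * star (uu G s a i y) := by
    rw [(ha.comm y x).eq]
    simp only [mul_assoc]
  rw [e, Bund.move_star ha i x y, mul_smul_comm, e2, smul_mul_assoc, smul_smul, smul_smul]
  by_cases h : G.adj x y
  · rw [← AddChar.map_add_eq_mul, ← AddChar.map_add_eq_mul, G.c_symm h]
    congr 2
    ring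
  · rw [mul_assoc _ (a x), ha.orth x y h, mul_zero, zero_mul, smul_zero, smul_zero]

theorem dd_sum (hs : Cuntz s) (ha : IsA G a) (i : ZMod M) (c : Fin v → ZMod M) :
    ∑ x, dd G s a x i (c x) * dd G s a x (c x) i = pp G s a i := by
  rw [pp]
  refine Finset.sum_congr rfl fun x _ => ?_
  rw [Bund.dd_dd hs ha, G.c_self, mul_zero, AddChar.map_zero_eq_one, one_smul,
    mul_assoc _ (a x) (a x)]

theorem pp_dd (hs : Cuntz s) (ha : IsA G a) (x : Fin v) (i' i : ZMod M) :
    pp G s a i' * dd G s a x i' i = dd G s a x i' i := by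
  rw [dd, ← mul_assoc, Bund.pp_ua hs ha]

theorem dd_pp (hs : Cuntz s) (ha : IsA G a) (x : Fin v) (i' i : ZMod M) :
    dd G s a x i' i * pp G s a i = dd G s a x i' i := by
  have h := congrArg star (pp_dd hs ha x i i')
  rwa [star_mul, dd_star ha, Bund.pp_star ha] at h

theorem pp_proj (hs : Cuntz s) (ha : IsA G a) (i : ZMod M) : IsStarProjection (pp G s a i) := by
  refine ⟨?_, Bund.pp_star ha i⟩
  have h : pp G s a i * ∑ w, uu G s a i w * (a w * a w) * star (uu G s a i w) =
      ∑ w, uu G s a i w * (a w * a w) * star (uu G s a i w) := by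
    rw [Finset.mul_sum]
    refine Finset.sum_congr rfl fun w _ => ?_
    rw [← mul_assoc (uu G s a i w), ← mul_assoc, ← mul_assoc, Bund.pp_ua hs ha]
  exact h

theorem WW_sq (hs : Cuntz s) (ha : IsA G a) (j : ℤ) : WW G s a j * WW G s a j =
    Matrix.diagonal fun ε => pp G s a ((j + dg ε : ℤ) : ZMod M) := by
  refine cw_sq (fun l i' i => dd G s a l (i' : ZMod M) (i : ZMod M))
    (fun i => pp G s a (i : ZMod M)) (fun l l' _ i c d => ?_) (fun i c => ?_) j
  · simp only [Int.cast_add]
    exact dd_comm hs ha l l' _ _ _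
  · exact dd_sum hs ha (i : ZMod M) fun l => ((i + c l : ℤ) : ZMod M)

theorem amp_s {κ : Type} [Fintype κ] {s : κ → H →L[ℂ] H} (hs : Cuntz s) (T : H →L[ℂ] H) (x : κ) :
    amp s T * s x = s x * T := by
  rw [amp, Finset.sum_mul, Finset.sum_eq_single x]
  · rw [mul_assoc, hs.orth, if_pos rfl, mul_one]
  · intro w _ hw
    rw [mul_assoc, hs.orth, if_neg hw, mul_zero]
  · intro h
    exact absurd (Finset.mem_univ x) h

theorem amp_mul {κ : Type} [Fintype κ] {s : κ → H →L[ℂ] H} (hs : Cuntz s) (S T : H →L[ℂ] H) :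
    amp s S * amp s T = amp s (S * T) := by
  have h : amp s S * ∑ x, s x * T * star (s x) = ∑ x, s x * (S * T) * star (s x) := by
    rw [Finset.mul_sum]
    refine Finset.sum_congr rfl fun x _ => ?_
    rw [← mul_assoc, ← mul_assoc, amp_s hs, mul_assoc (s x)]
  exact h

theorem amp_star {κ : Type} [Fintype κ] (s : κ → H →L[ℂ] H) (T : H →L[ℂ] H) :
    star (amp s T) = amp s (star T) := by
  simp only [amp, star_sum, star_mul, star_star, mul_assoc]

theorem amp_one {κ : Type} [Fintype κ] {s : κ → H →L[ℂ] H} (hs : Cuntz s) : amp s 1 = 1 := by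
  simp only [amp, mul_one]
  exact hs.sum

theorem amp_add {κ : Type} [Fintype κ] (s : κ → H →L[ℂ] H) (S T : H →L[ℂ] H) :
    amp s (S + T) = amp s S + amp s T := by
  simp only [amp, mul_add, add_mul, Finset.sum_add_distrib]

theorem amp_norm {κ : Type} [Fintype κ] {s : κ → H →L[ℂ] H} (hs : Cuntz s) (T : H →L[ℂ] H) :
    ‖amp s T‖ ≤ ‖T‖ := by
  let φ : (H →L[ℂ] H) →⋆ₙₐ[ℂ] (H →L[ℂ] H) :=
    { toFun := amp s
      map_smul' := fun c T => by
        simp only [amp, mul_smul_comm, smul_mul_assoc, Finset.smul_sum, MonoidHom.id_apply]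
      map_zero' := by simp only [amp, mul_zero, zero_mul, Finset.sum_const_zero]
      map_add' := amp_add s
      map_mul' := fun S T => (amp_mul hs S T).symm
      map_star' := fun T => (amp_star s T).symm }
  exact NonUnitalStarAlgHom.norm_apply_le φ T

theorem PP_star (hs : Cuntz s) (ha : IsA G a) (i : ZMod M) :
    star (PP G s a F i) = PP G s a F i := by
  have h4 : star (4⁻¹ : ℂ) = 4⁻¹ := by simp
  rw [PP, star_smul, h4, star_mul, star_mul, Bund.pp_star ha, star_add, amp_star, star_add,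
    star_star, add_comm (star F) F, star_ofNat, mul_assoc]

theorem pp_PP (hs : Cuntz s) (ha : IsA G a) (i : ZMod M) :
    pp G s a i * PP G s a F i = PP G s a F i := by
  rw [PP, mul_smul_comm, ← mul_assoc, ← mul_assoc, (pp_proj hs ha i).isIdempotentElem.eq]

theorem PP_near (hs : Cuntz s) (ha : IsA G a) (F' : H →L[ℂ] H) (i : ZMod M) :
    ‖PP G s a F i - PP G s a F' i‖ ≤ ‖F - F'‖ := by
  have e1 : amp s (F + star F) = amp s (F' + star F') + amp s ((F - F') + star (F - F')) := by
    rw [← amp_add, star_sub]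
    congr 1
    abel
  have e : PP G s a F i - PP G s a F' i =
      (4⁻¹ : ℂ) • (pp G s a i * amp s ((F - F') + star (F - F')) * pp G s a i) := by
    rw [PP, PP, ← smul_sub, e1]
    congr 1
    noncomm_ring
  have hp := (pp_proj hs ha i).norm_le
  have h1 : ‖amp s ((F - F') + star (F - F'))‖ ≤ 2 * ‖F - F'‖ := by
    refine (amp_norm hs _).trans ((norm_add_le _ _).trans ?_)
    rw [norm_star]
    linarith
  have h2 : ‖pp G s a i * amp s ((F - F') + star (F - F')) * pp G s a i‖ ≤
      1 * (2 * ‖F - F'‖) * 1 :=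
    (norm_mul_le _ _).trans (mul_le_mul ((norm_mul_le _ _).trans
      (mul_le_mul hp h1 (norm_nonneg _) zero_le_one)) hp (norm_nonneg _) (by positivity))
  have h4 : ‖(4⁻¹ : ℂ)‖ = 4⁻¹ := by simp
  rw [e, norm_smul, h4]
  linarith [norm_nonneg (F - F')]

namespace Bund

section Quot

variable {Q : Type} [Ring Q] (φ : (H →L[ℂ] H) →+* Q) {g : H →L[ℂ] H}

theorem amp_uu (hs : Cuntz s) (hg : ∀ x, φ g * φ (a x) = φ (a x) * φ g) (i : ZMod M)
    (w : Fin v) : φ (amp s g) * φ (uu G s a i w) = φ (uu G s a i w) * φ g := by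
  rw [uu, map_sum, Finset.mul_sum, Finset.sum_mul]
  refine Finset.sum_congr rfl fun x _ => ?_
  have e : amp s g * ((ZMod.stdAddChar (i * G.c x w) : ℂ) • s x) =
      ((ZMod.stdAddChar (i * G.c x w) : ℂ) • s x) * g := by
    rw [mul_smul_comm, amp_s hs, smul_mul_assoc]
  rw [← smul_mul_assoc, map_mul, ← mul_assoc, ← map_mul, e, map_mul, mul_assoc, hg, mul_assoc]

theorem uu_amp (hs : Cuntz s) (ha : IsA G a) (hgs : star g = g)
    (hg : ∀ x, φ g * φ (a x) = φ (a x) * φ g) (i : ZMod M) (w : Fin v) :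
    φ (star (uu G s a i w)) * φ (amp s g) = φ g * φ (star (uu G s a i w)) := by
  rw [star_uu ha, map_sum, Finset.mul_sum, Finset.sum_mul]
  refine Finset.sum_congr rfl fun x _ => ?_
  have e0 : star (s x) * amp s g = g * star (s x) := by
    have := congrArg star (amp_s hs g x)
    rwa [star_mul, star_mul, amp_star, hgs] at this
  have e : ((ZMod.stdAddChar (-(i * G.c x w)) : ℂ) • star (s x)) * amp s g =
      g * ((ZMod.stdAddChar (-(i * G.c x w)) : ℂ) • star (s x)) := by
    rw [mul_smul_comm, smul_mul_assoc, e0]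
  rw [← mul_smul_comm, map_mul, mul_assoc, ← map_mul, e, map_mul, ← mul_assoc, ← hg, mul_assoc]

theorem amp_dd (hs : Cuntz s) (ha : IsA G a) (hgs : star g = g)
    (hg : ∀ x, φ g * φ (a x) = φ (a x) * φ g) (x : Fin v) (i' i : ZMod M) :
    φ (amp s g) * φ (dd G s a x i' i) = φ (dd G s a x i' i) * φ (amp s g) := by
  rw [dd, map_mul, map_mul, ← mul_assoc, ← mul_assoc, amp_uu φ hs hg, mul_assoc _ (φ g), hg,
    mul_assoc _ _ (φ (amp s g)), uu_amp φ hs ha hgs hg]
  simp only [mul_assoc]

theorem amp_pp (hs : Cuntz s) (ha : IsA G a) (hgs : star g = g)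
    (hg : ∀ x, φ g * φ (a x) = φ (a x) * φ g) (i : ZMod M) :
    φ (amp s g) * φ (pp G s a i) = φ (pp G s a i) * φ (amp s g) := by
  rw [← dd_sum hs ha i fun _ => i, map_sum, Finset.mul_sum, Finset.sum_mul]
  refine Finset.sum_congr rfl fun x _ => ?_
  rw [map_mul, ← mul_assoc, amp_dd φ hs ha hgs hg, mul_assoc, amp_dd φ hs ha hgs hg, mul_assoc]

theorem amp_amp_pp (hs : Cuntz s) (hg : ∀ x, φ g * φ (a x) = φ (a x) * φ g)
    (hg2 : ∀ x, φ g * (φ g * φ (a x)) = 4 * φ (a x)) (i : ZMod M) :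
    φ (amp s g) * (φ (amp s g) * φ (pp G s a i)) = 4 * φ (pp G s a i) := by
  rw [pp, map_sum, Finset.mul_sum, Finset.mul_sum, Finset.mul_sum]
  refine Finset.sum_congr rfl fun w _ => ?_
  have h1 := amp_uu (G := G) φ hs hg i w
  have h2 := hg2 w
  simp only [map_mul]
  generalize φ (amp s g) = A at h1 ⊢
  generalize φ (uu G s a i w) = u at h1 ⊢
  generalize φ (star (uu G s a i w)) = u' at h1 ⊢
  generalize φ (a w) = b at h2 ⊢
  generalize φ g = c at h1 h2
  calc A * (A * (u * (b * b) * u')) = A * (A * u) * (b * b) * u' := by simp only [mul_assoc]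
    _ = A * (u * c) * (b * b) * u' := by rw [h1]
    _ = (A * u) * c * (b * b) * u' := by simp only [mul_assoc]
    _ = u * c * c * (b * b) * u' := by rw [h1]
    _ = u * (c * (c * b)) * b * u' := by simp only [mul_assoc]
    _ = 4 * (u * (b * b) * u') := by rw [h2]; noncomm_ring

end Quot

theorem alg1 {Q : Type} [Ring Q] {A p : Q} (hp : p * p = p) (h : A * p = p * A) :
    p * (2 + A) * p = (2 + A) * p ∧ p * (2 + A) * p = p * (2 + A) := by
  have h2 : p * (2 + A) = (2 + A) * p := by rw [mul_add, add_mul, h, mul_two, two_mul]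
  constructor
  · rw [h2, mul_assoc, hp]
  · rw [mul_assoc, ← h2, ← mul_assoc, hp]

theorem alg2 {Q : Type} [Ring Q] {A p : Q} (hp : p * p = p) (h : A * p = p * A)
    (h4 : A * (A * p) = 4 * p) :
    p * (2 + A) * p * (p * (2 + A) * p) = 4 * (p * (2 + A) * p) := by
  have h2 : p * ((2 + A) * p) = (2 + A) * p := by rw [← mul_assoc, (alg1 hp h).1]
  rw [(alg1 hp h).1, mul_assoc, h2]
  calc (2 + A) * ((2 + A) * p) = 4 * p + 4 * (A * p) + A * (A * p) := by noncomm_ring
    _ = 4 * ((2 + A) * p) := by rw [h4]; noncomm_ring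

theorem alg3 {Q : Type} [Ring Q] {f f' b : Q} (h1 : f * b = b * f) (h2 : f * b = f' * b)
    (h2' : b * f = b * f') (h3 : f * f * b = b) :
    (f + f') * b = b * (f + f') ∧ (f + f') * ((f + f') * b) = 4 * b := by
  have e1 : (f + f') * b = 2 * (f * b) := by rw [add_mul, ← h2, two_mul]
  have e2 : b * (f + f') = 2 * (f * b) := by rw [mul_add, ← h2', ← h1, two_mul]
  refine ⟨e1.trans e2.symm, ?_⟩
  calc (f + f') * ((f + f') * b) = (f + f') * (2 * (b * f)) := by rw [e1, h1]
    _ = 2 * (((f + f') * b) * f) := by noncomm_ring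
    _ = 4 * (f * (b * f)) := by rw [e1]; noncomm_ring
    _ = 4 * b := by rw [← h1, ← mul_assoc, ← mul_assoc, mul_assoc 4, mul_assoc 4, h3]

theorem smul_mem (K : TwoSidedIdeal (H →L[ℂ] H)) (c : ℂ) {x : H →L[ℂ] H} (hx : x ∈ K) :
    c • x ∈ K := by
  have := K.mul_mem_left (c • 1) x hx
  rwa [smul_mul_assoc, one_mul] at this

end Bund

/-- The two relations hold modulo any ideal which contains the three defects. -/
theorem PP_rel (K : TwoSidedIdeal (H →L[ℂ] H)) (hs : Cuntz s) (ha : IsA G a)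
    (h1 : ∀ x, F * a x - a x * F ∈ K) (h2 : ∀ x, (F - star F) * a x ∈ K)
    (h2' : ∀ x, a x * (F - star F) ∈ K) (h3 : ∀ x, (F * F - 1) * a x ∈ K) :
    (∀ i, PP G s a F i * PP G s a F i - PP G s a F i ∈ K) ∧
      ∀ x i' i, PP G s a F i' * dd G s a x i' i - dd G s a x i' i * PP G s a F i ∈ K := by
  obtain ⟨φ, hφ⟩ : ∃ φ : (H →L[ℂ] H) →+* K.ringCon.Quotient, ∀ x y, φ x = φ y ↔ x - y ∈ K :=
    ⟨RingCon.mk' K.ringCon, fun x y => (RingCon.eq K.ringCon).trans (K.rel_iff x y)⟩
  have hgs : star (F + star F) = F + star F := by rw [star_add, star_star, add_comm]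
  have key : ∀ x, φ (F + star F) * φ (a x) = φ (a x) * φ (F + star F) ∧
      φ (F + star F) * (φ (F + star F) * φ (a x)) = 4 * φ (a x) := fun x => by
    rw [map_add]
    refine Bund.alg3 ?_ ?_ ?_ ?_
    · rw [← map_mul, ← map_mul, hφ]
      exact h1 x
    · rw [← map_mul, ← map_mul, hφ, ← sub_mul]
      exact h2 x
    · rw [← map_mul, ← map_mul, hφ, ← mul_sub]
      exact h2' x
    · rw [← map_mul, ← map_mul, hφ]
      have := h3 x
      rwa [sub_mul, one_mul] at this
  have hg := fun x => (key x).1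
  have hg2 := fun x => (key x).2
  have hpp : ∀ i, φ (pp G s a i) * φ (pp G s a i) = φ (pp G s a i) := fun i => by
    rw [← map_mul, (pp_proj hs ha i).isIdempotentElem.eq]
  have hAp := Bund.amp_pp φ hs ha hgs hg
  have hX : ∀ i, φ (pp G s a i * (2 + amp s (F + star F)) * pp G s a i) =
      φ (pp G s a i) * (2 + φ (amp s (F + star F))) * φ (pp G s a i) := fun i => by
    rw [map_mul, map_mul, map_add, map_ofNat]
  refine ⟨fun i => ?_, fun x i' i => ?_⟩
  · have h := Bund.alg2 (hpp i) (hAp i) (Bund.amp_amp_pp φ hs hg hg2 i)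
    rw [← hX, ← map_mul, ← map_ofNat φ 4, ← map_mul, hφ] at h
    have h' := Bund.smul_mem K (4⁻¹ * 4⁻¹) h
    rw [PP]
    generalize pp G s a i * (2 + amp s (F + star F)) * pp G s a i = X at h' ⊢
    have e4 : (4 : H →L[ℂ] H) * X = (4 : ℂ) • X := by
      rw [Algebra.smul_def, map_ofNat]
    have e : (4⁻¹ : ℂ) • X * (4⁻¹ : ℂ) • X - (4⁻¹ : ℂ) • X =
        (4⁻¹ * 4⁻¹ : ℂ) • (X * X - 4 * X) := by
      rw [e4, smul_sub, smul_smul, smul_mul_smul_comm]
      norm_num
    rwa [e]
  · have hd := Bund.amp_dd φ hs ha hgs hg x i' i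
    have h : φ (pp G s a i' * (2 + amp s (F + star F)) * pp G s a i' * dd G s a x i' i) =
        φ (dd G s a x i' i * (pp G s a i * (2 + amp s (F + star F)) * pp G s a i)) := by
      rw [map_mul, map_mul φ (dd G s a x i' i), hX, hX, (Bund.alg1 (hpp i') (hAp i')).1,
        (Bund.alg1 (hpp i) (hAp i)).2, mul_assoc, ← map_mul, pp_dd hs ha, ← mul_assoc,
        ← map_mul, dd_pp hs ha, add_mul, mul_add, hd, mul_two, two_mul]
    rw [hφ] at h
    have h' := Bund.smul_mem K 4⁻¹ h
    rw [PP, PP, smul_mul_assoc, mul_smul_comm, ← smul_sub]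
    exact h'

end Vale.Agent.P212
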