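import Vale.Agent.P212.Base

/- Lifting projections modulo compact operators. -/

noncomputable section

namespace Vale.Agent.P212

variable {H : Type} [NormedAddCommGroup H] [InnerProductSpace ℂ H] [CompleteSpace H]

namespace Lift

open Filter Topology

theorem sq_eq {A : H →L[ℂ] H} (hA : IsSelfAdjoint A) :
    A * A - A = cfc (fun t : ℝ => t * t - t) A := by
  rw [cfc_sub (fun t : ℝ => t * t) (fun t : ℝ => t) A, cfc_mul (fun t : ℝ => t) (fun t : ℝ => t) A,
    cfc_id' ℝ A]

/-- A compact self-adjoint operator has no injective sequence of spectral values bounded away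
from zero. -/
theorem no_seq {B : H →L[ℂ] H} (hB : IsSelfAdjoint B) (h : IsCompactOperator B) {β : ℕ → ℝ}
    {δ : ℝ} (hδ : 0 < δ) (hβ : ∀ n, β n ∈ spectrum ℝ B) (hi : Function.Injective β)
    (hb : ∀ n, δ ≤ |β n|) : False := by
  have hv : ∀ n, ∃ v : H, ‖v‖ = 1 ∧ B v = (β n : ℂ) • v := by
    intro n
    have h0 : (β n : ℂ) ≠ 0 := by
      have := hδ.trans_le (hb n)
      exact_mod_cast abs_pos.1 this
    have h1 : (β n : ℂ) ∈ spectrum ℂ B := spectrum.algebraMap_mem ℂ (hβ n)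
    obtain ⟨v, hv⟩ := ((h.hasEigenvalue_iff_mem_spectrum h0).2 h1).exists_hasEigenvector
    have h2 : B v = (β n : ℂ) • v := hv.apply_eq_smul
    have h3 : ‖v‖ ≠ 0 := norm_ne_zero_iff.2 hv.2
    refine ⟨((‖v‖⁻¹ : ℝ) : ℂ) • v, ?_, ?_⟩
    · rw [norm_smul, Complex.norm_real, norm_inv, norm_norm, inv_mul_cancel₀ h3]
    · rw [map_smul, h2, smul_comm]
  choose v hv1 hv2 using hv
  have hsym := hB.isSymmetric
  have horth : ∀ n m, n ≠ m → inner ℂ (v n) (v m) = 0 := by
    intro n m hnm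
    have e : inner ℂ (B (v n)) (v m) = inner ℂ (v n) (B (v m)) := hsym (v n) (v m)
    rw [hv2, hv2, inner_smul_left, inner_smul_right, Complex.conj_ofReal] at e
    have e2 : ((β n : ℂ) - β m) * inner ℂ (v n) (v m) = 0 := by rw [sub_mul, e, sub_self]
    refine (mul_eq_zero.1 e2).resolve_left fun e3 => hnm (hi ?_)
    exact_mod_cast sub_eq_zero.1 e3
  have hp : ∀ n m, n ≠ m → δ ≤ ‖B (v n) - B (v m)‖ := by
    intro n m hnm
    have e : inner ℂ (v n) (B (v n) - B (v m)) = β n := by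
      rw [hv2, hv2, inner_sub_right, inner_smul_right, inner_smul_right, horth n m hnm,
        inner_self_eq_norm_sq_to_K, hv1]
      simp
    have e2 := norm_inner_le_norm (𝕜 := ℂ) (v n) (B (v n) - B (v m))
    rw [e, hv1, one_mul, Complex.norm_real, Real.norm_eq_abs] at e2
    exact (hb n).trans e2
  obtain ⟨K, hK, hK'⟩ := IsCompactOperator.image_closedBall_subset_compact (f := B.toLinearMap) h 1
  obtain ⟨y, -, ψ, hψ, hψy⟩ := hK.tendsto_subseq (x := fun n => B (v n))
    fun n => hK' ⟨v n, by simp [hv1], rfl⟩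
  have hc := hψy.cauchySeq
  rw [Metric.cauchySeq_iff'] at hc
  obtain ⟨N, hN⟩ := hc δ hδ
  have h4 := hN (N + 1) (Nat.le_succ N)
  rw [dist_eq_norm] at h4
  exact h4.not_ge (hp _ _ (hψ (Nat.lt_succ_self N)).ne')

theorem cont_ite {α : ℝ} {f g : ℝ → ℝ} (hf : ∀ t, α < t → ContinuousAt f t)
    (hg : ∀ t, t < α → ContinuousAt g t) {s : Set ℝ} (hs : α ∉ s) :
    ContinuousOn (fun t => if α < t then f t else g t) s := by
  intro t ht
  refine ContinuousAt.continuousWithinAt ?_
  rcases lt_trichotomy α t with h | h | h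
  · refine (hf t h).congr ?_
    filter_upwards [Ioi_mem_nhds h] with u hu
    rw [if_pos (show α < u from hu)]
  · exact absurd (h ▸ ht) hs
  · refine (hg t h).congr ?_
    filter_upwards [Iio_mem_nhds h] with u hu
    rw [if_neg (not_lt.2 (le_of_lt hu))]

end Lift

theorem gap_spec {A : H →L[ℂ] H} (hA : IsSelfAdjoint A)
    (h : IsCompactOperator (A * A - A : H →L[ℂ] H)) :
    ∃ α : ℝ, 0 < α ∧ α < 1 ∧ α ∉ spectrum ℝ A := by
  by_contra hc
  push Not at hc
  have hB : IsSelfAdjoint (A * A - A) := by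
    rw [Lift.sq_eq hA]; exact cfc_predicate _ _
  have hx : ∀ n : ℕ, 0 < (1 : ℝ) / (4 * (n + 1)) ∧ (1 : ℝ) / (4 * (n + 1)) ≤ 1 / 4 := by
    intro n
    refine ⟨by positivity, one_div_le_one_div_of_le (by norm_num) ?_⟩
    have : (0 : ℝ) ≤ n := n.cast_nonneg
    linarith
  refine Lift.no_seq hB h (β := fun n : ℕ => (1 / (4 * (n + 1))) ^ 2 - 1 / 4) (δ := 3 / 16)
    (by norm_num) ?_ ?_ ?_
  · intro n
    obtain ⟨h1, h2⟩ := hx n
    rw [Lift.sq_eq hA, cfc_map_spectrum (fun t : ℝ => t * t - t) A]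
    exact ⟨1 / 2 + 1 / (4 * (n + 1)), hc _ (by linarith) (by linarith), by ring⟩
  · intro n m hnm
    have h1 : ((1 : ℝ) / (4 * (n + 1))) ^ 2 = (1 / (4 * (m + 1))) ^ 2 := by
      have := hnm
      beta_reduce at this
      linarith
    have h2 := (pow_left_inj₀ (hx n).1.le (hx m).1.le two_ne_zero).1 h1
    rw [one_div, one_div, inv_inj] at h2
    have h3 : (n : ℝ) = m := by linarith
    exact_mod_cast h3
  · intro n
    obtain ⟨h1, h2⟩ := hx n
    rw [le_abs]
    right
    nlinarith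

theorem lift_proj {A : H →L[ℂ] H} (hA : IsSelfAdjoint A)
    (h : IsCompactOperator (A * A - A : H →L[ℂ] H)) :
    ∃ q : H →L[ℂ] H, IsStarProjection q ∧ IsCompactOperator (q - A : H →L[ℂ] H) ∧
      ∀ T : H →L[ℂ] H, Commute T A → Commute T q := by
  obtain ⟨α, h0, h1, hα⟩ := gap_spec hA h
  have hf : ContinuousOn (fun t : ℝ => if α < t then (1 : ℝ) else 0) (spectrum ℝ A) :=
    Lift.cont_ite (fun _ _ => continuousAt_const) (fun _ _ => continuousAt_const) hα
  have hg : ContinuousOn (fun t : ℝ => if α < t then -t⁻¹ else (1 - t)⁻¹) (spectrum ℝ A) :=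
    Lift.cont_ite (f := fun t => -t⁻¹) (g := fun t => (1 - t)⁻¹)
      (fun t ht => (continuousAt_inv₀ (h0.trans ht).ne').neg)
      (fun t ht => (continuousAt_const.sub continuousAt_id).inv₀ (sub_pos.2 (ht.trans h1)).ne') hα
  refine ⟨cfc (fun t : ℝ => if α < t then (1 : ℝ) else 0) A, ⟨?_, cfc_predicate _ _⟩, ?_, ?_⟩
  · rw [IsIdempotentElem, ← cfc_mul _ _ A hf hf]
    refine cfc_congr fun t _ => ?_
    split_ifs <;> simp
  · have e : cfc (fun t : ℝ => if α < t then (1 : ℝ) else 0) A - A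
        = (A * A - A) * cfc (fun t : ℝ => if α < t then -t⁻¹ else (1 - t)⁻¹) A := by
      have e1 := cfc_sub (fun t : ℝ => if α < t then (1 : ℝ) else 0) (fun t : ℝ => t) A hf
      rw [cfc_id' ℝ A hA] at e1
      rw [Lift.sq_eq hA, ← cfc_mul _ _ A (by fun_prop) hg, ← e1]
      refine cfc_congr fun t _ => ?_
      split_ifs with ht
      · have := (h0.trans ht).ne'
        field_simp
        ring
      · have : 1 - t ≠ 0 := (sub_pos.2 ((not_lt.1 ht).trans_lt h1)).ne'
        field_simp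
        ring
    rw [e]
    exact h.comp_clm _
  · intro T hT
    exact (hT.symm.cfc_real _).symm

end Vale.Agent.P212
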