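import Vale.Agent.P212.OpsEx
import Vale.Agent.P212.Lift

/- On the top level the essential projection lifts. -/

set_option linter.unusedSectionVars false

noncomputable section

namespace Vale.Agent.P212

open scoped Classical

variable {Γ X Y H : Type} [Group Γ] [MetricSpace X] [MulAction Γ Y] [NormedAddCommGroup H]
  [InnerProductSpace ℂ H] [CompleteSpace H] {sp : Spc X} {sy : Sys Γ X Y sp} {C : Circ H}
  {Kf : ℕ → H →ₗᵢ[ℂ] H}

namespace CenAux

/-- The coordinate embedding. -/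
abbrev J (H : Type) [NormedAddCommGroup H] [InnerProductSpace ℂ H] {X : Type} (x : X) :
    H →L[ℂ] EX X H := (JX X H x).toContinuousLinearMap

/-- The coordinate evaluation. -/
def Js (H : Type) [NormedAddCommGroup H] [InnerProductSpace ℂ H] [CompleteSpace H] {X : Type}
    (x : X) : EX X H →L[ℂ] H := ContinuousLinearMap.adjoint (J H x)

/-- The coordinate projection. -/
def pj (H : Type) [NormedAddCommGroup H] [InnerProductSpace ℂ H] [CompleteSpace H] {X : Type}
    (x : X) : EX X H →L[ℂ] EX X H := (J H x).comp (Js H x)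

theorem Js_apply (x : X) (f : EX X H) : Js H x f = f x := by
  refine ext_inner_left ℂ fun ξ => ?_
  rw [Js, ContinuousLinearMap.adjoint_inner_right]
  exact inner_JX x ξ f

theorem pj_JX (x y : X) (ξ : H) :
    pj H x (JX X H y ξ) = if y = x then JX X H y ξ else 0 := by
  have : pj H x (JX X H y ξ) = JX X H x ((JX X H y ξ : EX X H) x) := by
    rw [pj, ContinuousLinearMap.comp_apply, Js_apply]; rfl
  rw [this, JX_apply]
  by_cases h : y = x
  · subst h; simp
  · rw [if_neg (Ne.symm h), if_neg h, map_zero]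

theorem pj_star (x : X) : star (pj H x) = pj H x := by
  rw [ContinuousLinearMap.star_eq_adjoint, pj, ContinuousLinearMap.adjoint_comp, Js,
    ContinuousLinearMap.adjoint_adjoint]

theorem pj_IX (x : X) (ω : Y × ℕ) (ξ : H) :
    pj H x (IX Kf sy.slot ω ξ) = if sy.pr ω.1 = x then IX Kf sy.slot ω ξ else 0 := by
  have : IX Kf sy.slot ω ξ = JX X H (sy.slot ω).1 (Kf (sy.slot ω).2 ξ) := rfl
  rw [this, pj_JX, sy.slot_fst]

theorem pj_comm (hK : IsHilbertSum ℂ (fun _ : ℕ => H) Kf) {σ : Y × ℕ → Y × ℕ}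
    {T : Y × ℕ → H →L[ℂ] H} {A : EX X H →L[ℂ] EX X H} (h : IsW (IX Kf sy.slot) σ T A)
    (hσ : ∀ ω, T ω ≠ 0 → sy.pr (σ ω).1 = sy.pr ω.1) (x : X) : Commute (pj H x) A := by
  refine hs_ext (hs_IX hK sy.slot) fun ω ξ => ?_
  rw [mul_apply_eq_comp, mul_apply_eq_comp, h ω ξ, pj_IX, pj_IX]
  by_cases hT : T ω = 0
  · split_ifs <;> simp [h ω ξ, hT]
  · rw [hσ ω hT]
    split_ifs
    · exact (h ω ξ).symm
    · simp

theorem E_sum (o : Ops sy C Kf) (hK : IsHilbertSum ℂ (fun _ : ℕ => H) Kf) (n : ℕ) :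
    (o.e {p | p.1 = n}).1 = ∑ x ∈ (sp.comp_fin n).toFinset, pj H x := by
  refine hs_ext (hs_IX hK sy.slot) fun ω ξ => ?_
  rw [o.he _ ω ξ, sum_apply]
  simp only [pj_IX, Finset.sum_ite_eq, Set.Finite.mem_toFinset, Set.mem_setOf_eq, Sys.pos, id]
  split_ifs <;> simp

theorem E_JX (o : Ops sy C Kf) (hK : IsHilbertSum ℂ (fun _ : ℕ => H) Kf) (n : ℕ) (x : X)
    (ξ : H) : (o.e {p | p.1 = n}).1 (JX X H x ξ) = if sp.comp x = n then JX X H x ξ else 0 := by
  rw [E_sum o hK, sum_apply]
  simp only [pj_JX, Finset.sum_ite_eq, Set.Finite.mem_toFinset, Set.mem_setOf_eq]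

theorem pj_top (o : Ops sy C Kf) (hK : IsHilbertSum ℂ (fun _ : ℕ => H) Kf) (x : X) :
    Commute (pj H x) (o.P * o.e {p | p.2 = sy.top p.1}).1 := by
  set e := o.e {p | p.2 = sy.top p.1} with he
  have h0 : Commute (pj H x) o.t0.1 := pj_comm hK o.ht0 (fun _ _ => rfl) x
  have h1 : Commute (pj H x) o.t1.1 := pj_comm hK o.ht1 (fun _ _ => rfl) x
  have h2 : Commute (pj H x) e.1 := pj_comm hK (o.he _) (fun _ _ => rfl) x
  have h3 : Commute (pj H x) (o.s.1 * e.1) := by
    refine pj_comm hK (o.hs.mul (o.he _)) (fun ω hω => ?_) x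
    by_cases h : sy.pos ω.1 ∈ {p : ℕ × ℕ | p.2 = sy.top p.1}
    · exact sy.top_S _ h
    · exact absurd (by simp only [if_neg h, mul_zero]) hω
  have h4 : Commute (pj H x) (o.s * e * o.t1).1 := h3.mul_right h1
  have h5 : Commute (pj H x) (star (o.s * e * o.t1)).1 := by
    have := h4.star_star
    rw [pj_star] at this
    exact this
  have e1 : o.s * o.t1 * e = o.s * e * o.t1 := by
    rw [mul_assoc, mul_assoc, (o.e_t1 hK _).eq]
  have e2 : star (o.s * o.t1) * e = star (o.s * e * o.t1) := by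
    rw [← (o.e_s hK _).eq, mul_assoc, star_mul e, he, o.e_star hK]
  have : o.P * e = o.t0 * e + o.s * e * o.t1 + star (o.s * e * o.t1) := by
    rw [Ops.P, add_mul, add_mul, e1, e2]
  rw [this]
  exact ((h0.mul_right h2).add_right h4).add_right h5

theorem cpt_E (o : Ops sy C Kf) (hK : IsHilbertSum ℂ (fun _ : ℕ => H) Kf)
    {R : EX X H →L[ℂ] EX X H} (hR : R ∈ Roe X H) (n : ℕ) :
    IsCompactOperator (R * (o.e {p | p.1 = n}).1 : EX X H →L[ℂ] EX X H) := by
  rw [E_sum o hK, Finset.mul_sum]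
  have : ∀ s : Finset X,
      IsCompactOperator (∑ x ∈ s, R * pj H x : EX X H →L[ℂ] EX X H) := by
    intro s
    induction s using Finset.induction_on with
    | empty => simpa using isCompactOperator_zero
    | insert a s ha ih =>
      rw [Finset.sum_insert ha]
      refine IsCompactOperator.add ?_ ih
      exact (Roe_col sp.bg hR a).comp_clm (Js H a)
  exact this _

end CenAux

open CenAux in
theorem Ops.cen (o : Ops sy C Kf) (hK : IsHilbertSum ℂ (fun _ : ℕ => H) Kf) :
    ∃ q : FP X H, IsStarProjection q ∧ (∀ g, Commute q (o.u g)) ∧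
      (q - o.P * o.e {p | p.2 = sy.top p.1}).1 ∈ Roe X H := by
  set e := o.e {p | p.2 = sy.top p.1} with he
  set E : ℕ → FP X H := fun n => o.e {p | p.1 = n} with hE
  have hee : ∀ A B : Set (ℕ × ℕ), Commute (o.e A) (o.e B) := fun A B => by
    rw [Commute, SemiconjBy, o.e_mul hK, o.e_mul hK, Set.inter_comm]
  have hid : ∀ A : Set (ℕ × ℕ), o.e A * o.e A = o.e A := fun A => by
    rw [o.e_mul hK, Set.inter_self]
  have hsa : ∀ n, IsSelfAdjoint (o.P * e * E n).1 := fun n => by
    have : star (o.P * e * E n) = o.P * e * E n := by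
      rw [star_mul, star_mul, he, hE, o.e_star hK, o.e_star hK, o.P_star hK,
        (o.e_P hK _).eq, ((o.e_P hK _).mul_right (hee _ _)).eq]
    exact congrArg Subtype.val this
  have hsq : ∀ n, IsCompactOperator ((o.P * e * E n).1 * (o.P * e * E n).1 - (o.P * e * E n).1 :
      EX X H →L[ℂ] EX X H) := fun n => by
    have h1 : o.P * e * E n * (o.P * e * E n) - o.P * e * E n =
        (o.P * o.P - o.P) * e * E n := by
      have c1 : Commute (e * E n) o.P := (o.e_P hK _).mul_left (o.e_P hK _)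
      have c2 : e * E n * (e * E n) = e * E n := by
        rw [he, hE, o.e_mul hK, hid]
      calc o.P * e * E n * (o.P * e * E n) - o.P * e * E n
          = o.P * ((e * E n) * o.P) * (e * E n) - o.P * (e * E n) := by
            simp only [mul_assoc]
        _ = o.P * o.P * (e * E n * (e * E n)) - o.P * (e * E n) := by
            rw [c1.eq]; simp only [mul_assoc]
        _ = (o.P * o.P - o.P) * e * E n := by
            rw [c2, sub_mul, sub_mul]; simp only [mul_assoc]
    have h2 := cpt_E o hK (Roe_mul_FP sp.bg e.2 (o.P_sq hK)) n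
    have h3 : ((o.P * e * E n).1 * (o.P * e * E n).1 - (o.P * e * E n).1 :
      EX X H →L[ℂ] EX X H) = (o.P * o.P - o.P).1 * e.1 * (E n).1 := congrArg Subtype.val h1
    rw [h3]
    exact h2
  choose q hq hqc hqm using fun n => lift_proj (hsa n) (hsq n)
  have hpA : ∀ x n, Commute (pj H x) (o.P * e * E n).1 := fun x n =>
    (pj_top o hK x).mul_right (pj_comm hK (o.he _) (fun _ _ => rfl) x)
  have hpq : ∀ x n, Commute (pj H x) (q n) := fun x n => hqm n _ (hpA x n)
  have huq : ∀ g n, Commute (o.u g).1 (q n) := fun g n => by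
    refine hqm n _ ?_
    have : Commute (o.u g) (o.P * e * E n) :=
      ((o.u_P hK g).mul_right (o.u_e hK g _)).mul_right (o.u_e hK g _)
    exact congrArg Subtype.val this
  have hdiag : ∀ (B : EX X H →L[ℂ] EX X H) (x : X), Commute (pj H x) B → ∀ ξ : H,
      JX X H x (((Js H x).comp (B.comp (J H x))) ξ) = B (JX X H x ξ) := fun B x hB ξ => by
    have h1 : (pj H x * B) (JX X H x ξ) = (B * pj H x) (JX X H x ξ) := by rw [hB.eq]
    rw [mul_apply_eq_comp, mul_apply_eq_comp, pj_JX, if_pos rfl] at h1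
    exact h1
  have hn : ∀ x : X, ‖(Js H x).comp ((q (sp.comp x)).comp (J H x))‖ ≤ 1 := fun x => by
    refine ContinuousLinearMap.opNorm_le_bound _ zero_le_one fun ξ => ?_
    rw [← (JX X H x).norm_map, hdiag _ x (hpq x _), one_mul]
    calc ‖q (sp.comp x) (JX X H x ξ)‖ ≤ ‖q (sp.comp x)‖ * ‖JX X H x ξ‖ :=
          ContinuousLinearMap.le_opNorm _ _
      _ ≤ 1 * ‖JX X H x ξ‖ := by gcongr; exact (hq _).norm_le
      _ = ‖ξ‖ := by rw [one_mul, LinearIsometry.norm_map]
  obtain ⟨Q, hQ⟩ := exists_W (hs_JX (X := X) (H := H)) id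
    (fun x => (Js H x).comp ((q (sp.comp x)).comp (J H x))) 1 hn (Set.injOn_id _)
  have hQx : ∀ x ξ, Q (JX X H x ξ) = q (sp.comp x) (JX X H x ξ) := fun x ξ => by
    rw [hQ x ξ]; exact hdiag _ x (hpq x _) ξ
  have hQE : ∀ n, Q * (E n).1 = q n * (E n).1 := fun n => by
    refine hs_ext (hs_JX (X := X) (H := H)) fun x ξ => ?_
    rw [mul_apply_eq_comp, mul_apply_eq_comp, hE, E_JX o hK]
    split_ifs with h
    · rw [hQx, h]
    · simp
  refine ⟨⟨Q, hQ.mem_FP_JX⟩, ⟨Subtype.ext ?_, Subtype.ext ?_⟩, fun g => Subtype.ext ?_, ?_⟩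
  · change Q * Q = Q
    refine hs_ext (hs_JX (X := X) (H := H)) fun x ξ => ?_
    rw [mul_apply_eq_comp, hQ x ξ, id, hQx, hdiag _ x (hpq x _),
      ← mul_apply_eq_comp, (hq _).isIdempotentElem.eq]
  · change star Q = Q
    refine IsW.ext (hs_JX (X := X) (H := H)) (hQ.adj_id hs_JX) hQ fun x => ⟨?_, fun _ => rfl⟩
    rw [ContinuousLinearMap.star_eq_adjoint, ContinuousLinearMap.adjoint_comp,
      ContinuousLinearMap.adjoint_comp, Js, ContinuousLinearMap.adjoint_adjoint,
      ← ContinuousLinearMap.star_eq_adjoint, (hq _).isSelfAdjoint.star_eq,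
      ContinuousLinearMap.comp_assoc]
  · change Q * (o.u g).1 = (o.u g).1 * Q
    refine hs_ext (hs_JX (X := X) (H := H)) fun x ξ => ?_
    have c : (o.u g).1 * (E (sp.comp x)).1 = (E (sp.comp x)).1 * (o.u g).1 :=
      congrArg Subtype.val (o.u_e hK g _).eq
    have h1 : (E (sp.comp x)).1 (JX X H x ξ) = JX X H x ξ := by
      rw [hE, E_JX o hK, if_pos rfl]
    have h2 : Q * (o.u g).1 * (E (sp.comp x)).1 =
        (o.u g).1 * q (sp.comp x) * (E (sp.comp x)).1 := by
      rw [mul_assoc, c, ← mul_assoc, hQE, mul_assoc, ← c, ← mul_assoc, (huq g _).eq]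
    calc (Q * (o.u g).1) (JX X H x ξ)
        = (Q * (o.u g).1 * (E (sp.comp x)).1) (JX X H x ξ) := by
          rw [mul_apply_eq_comp (Q * (o.u g).1), h1]
      _ = ((o.u g).1 * Q) (JX X H x ξ) := by
          rw [h2, mul_apply_eq_comp, h1, mul_apply_eq_comp,
            mul_apply_eq_comp, hQx]
  · refine IsW.mem_Roe_JX (T := fun x => (Js H x).comp
      ((q (sp.comp x) - (o.P * e * E (sp.comp x)).1).comp (J H x))) (fun x ξ => ?_) fun x => ?_
    · rw [id, hdiag _ x ((hpq x _).sub_right (hpA x _))]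
      have h1 : (E (sp.comp x)).1 (JX X H x ξ) = JX X H x ξ := by
        rw [hE, E_JX o hK, if_pos rfl]
      change Q (JX X H x ξ) - (o.P * e).1 (JX X H x ξ) =
        q (sp.comp x) (JX X H x ξ) - (o.P * e).1 ((E (sp.comp x)).1 (JX X H x ξ))
      rw [hQx, h1]
    · exact ((hqc _).comp_clm (J H x)).clm_comp (Js H x)

end Vale.Agent.P212
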