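import Vale.Agent.P212.HeisDefs

/- Joint functional calculus of two commuting unitaries. -/

noncomputable section

namespace Vale.Agent.P212

namespace RT1

open WeakDual
open scoped CStarAlgebra

theorem ee10 (p : TT) : ee 1 0 p = (AddCircle.toCircle p.1 : ℂ) := by
  simp [ee]

theorem ee01 (p : TT) : ee 0 1 p = (AddCircle.toCircle p.2 : ℂ) := by
  simp [ee]

theorem exists_arg {A : Type} [CommCStarAlgebra A] (u : A) (hu : star u * u = 1) :
    ∃ θ : C(characterSpace ℂ A, UnitAddCircle), ∀ χ, (AddCircle.toCircle (θ χ) : ℂ) = χ u := by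
  have h1 : ∀ χ : characterSpace ℂ A, χ u ∈ Submonoid.unitSphere ℂ := fun χ => by
    have h2 := congrArg χ hu
    rw [map_mul, map_star, map_one] at h2
    have h3 := congrArg norm h2
    rw [norm_mul, norm_star, norm_one] at h3
    have h4 : ‖χ u‖ = 1 := by nlinarith [norm_nonneg (χ u)]
    simpa [Submonoid.unitSphere] using h4
  have h5 : Continuous fun χ : characterSpace ℂ A => (⟨χ u, h1 χ⟩ : Circle) :=
    Continuous.subtype_mk (gelfandTransform ℂ A u).continuous _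
  refine ⟨⟨fun χ => (AddCircle.homeomorphCircle one_ne_zero).symm ⟨χ u, h1 χ⟩,
    (Homeomorph.continuous _).comp h5⟩, fun χ => ?_⟩
  rw [← AddCircle.homeomorphCircle_apply one_ne_zero]
  exact congrArg Subtype.val
    ((AddCircle.homeomorphCircle one_ne_zero).apply_symm_apply ⟨χ u, h1 χ⟩)

theorem exists_comm {A : Type} [CommCStarAlgebra A] (u v : A) (hu : star u * u = 1)
    (hv : star v * v = 1) :
    ∃ Φ : C(TT, ℂ) →⋆ₐ[ℂ] A, Φ (ee 1 0) = u ∧ Φ (ee 0 1) = v := by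
  obtain ⟨θ, hθ⟩ := exists_arg u hu
  obtain ⟨η, hη⟩ := exists_arg v hv
  refine ⟨((gelfandStarTransform A).symm : C(characterSpace ℂ A, ℂ) →⋆ₐ[ℂ] A).comp
    ((θ.prodMk η).compStarAlgHom' ℂ ℂ), ?_, ?_⟩
  · refine (gelfandStarTransform A).symm_apply_eq.2 ?_
    ext χ
    exact (ee10 _).trans (hθ χ)
  · refine (gelfandStarTransform A).symm_apply_eq.2 ?_
    ext χ
    exact (ee01 _).trans (hη χ)

theorem exists_gen {B : Type} [CStarAlgebra B] (U V : B) (hU : U ∈ unitary B)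
    (hV : V ∈ unitary B) (h : Commute U V) :
    ∃ Φ : C(TT, ℂ) →⋆ₐ[ℂ] B, Φ (ee 1 0) = U ∧ Φ (ee 0 1) = V := by
  have n1 : U * star U = star U * U := hU.2.trans hU.1.symm
  have n2 : V * star V = star V * V := hV.2.trans hV.1.symm
  have n3 : U * star V = star V * U := by
    calc U * star V = (star V * V) * U * star V := by rw [hV.1, one_mul]
      _ = star V * U * (V * star V) := by
        rw [mul_assoc (star V) V U, ← h.eq]
        simp only [mul_assoc]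
      _ = star V * U := by rw [hV.2, mul_one]
  have n4 : V * star U = star U * V := by
    have := congrArg star n3
    rwa [star_mul, star_mul, star_star] at this
  have hc : IsMulCommutative (StarAlgebra.adjoin ℂ ({U, V} : Set B)) := by
    refine StarAlgebra.isMulCommutative_adjoin ℂ ?_ ?_
    · rintro x (rfl | rfl) y (rfl | rfl)
      exacts [rfl, h.eq, h.eq.symm, rfl]
    · rintro x (rfl | rfl) y (rfl | rfl)
      exacts [n1, n3, n4, n2]
  let S : StarSubalgebra ℂ B := (StarAlgebra.adjoin ℂ ({U, V} : Set B)).topologicalClosure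
  have hS : IsClosed (S : Set B) :=
    (StarAlgebra.adjoin ℂ ({U, V} : Set B)).isClosed_topologicalClosure
  let _ : CommRing S :=
    (StarAlgebra.adjoin ℂ ({U, V} : Set B)).commRingTopologicalClosure hc.is_comm.comm
  let _ : CommCStarAlgebra S := { }
  have m1 : U ∈ S := StarSubalgebra.le_topologicalClosure _
    (StarAlgebra.subset_adjoin ℂ _ (by simp))
  have m2 : V ∈ S := StarSubalgebra.le_topologicalClosure _
    (StarAlgebra.subset_adjoin ℂ _ (by simp))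
  obtain ⟨Φ, h1, h2⟩ := exists_comm (A := S) ⟨U, m1⟩ ⟨V, m2⟩ (Subtype.ext hU.1)
    (Subtype.ext hV.1)
  exact ⟨S.subtype.comp Φ, congrArg Subtype.val h1, congrArg Subtype.val h2⟩

theorem dense_adjoin :
    (StarAlgebra.adjoin ℂ ({ee 1 0, ee 0 1} : Set C(TT, ℂ))).topologicalClosure = ⊤ := by
  refine ContinuousMap.starSubalgebra_topologicalClosure_eq_top_of_separatesPoints _ ?_
  intro p q hpq
  by_cases h : p.1 = q.1
  · refine ⟨ee 0 1, ⟨ee 0 1, StarAlgebra.subset_adjoin ℂ _ (by simp), rfl⟩, fun h' => hpq ?_⟩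
    rw [ee01, ee01] at h'
    exact Prod.ext h (AddCircle.injective_toCircle one_ne_zero (Subtype.ext h'))
  · refine ⟨ee 1 0, ⟨ee 1 0, StarAlgebra.subset_adjoin ℂ _ (by simp), rfl⟩, fun h' => h ?_⟩
    rw [ee10, ee10] at h'
    exact AddCircle.injective_toCircle one_ne_zero (Subtype.ext h')

theorem ext_gen {B : Type} [CStarAlgebra B] (Φ Ψ : C(TT, ℂ) →⋆ₐ[ℂ] B)
    (h1 : Φ (ee 1 0) = Ψ (ee 1 0)) (h2 : Φ (ee 0 1) = Ψ (ee 0 1)) : Φ = Ψ := by
  have h3 : StarAlgebra.adjoin ℂ ({ee 1 0, ee 0 1} : Set C(TT, ℂ)) ≤ StarAlgHom.equalizer Φ Ψ := by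
    refine StarAlgHom.adjoin_le_equalizer Φ Ψ ?_
    rintro x (rfl | rfl)
    exacts [h1, h2]
  have h4 : IsClosed (StarAlgHom.equalizer Φ Ψ : Set C(TT, ℂ)) :=
    isClosed_eq (map_continuous Φ) (map_continuous Ψ)
  have h5 := StarSubalgebra.topologicalClosure_minimal h3 h4
  rw [dense_adjoin] at h5
  ext f
  exact h5 (StarSubalgebra.mem_top (x := f))

theorem conj_gen {B : Type} [CStarAlgebra B] (Φ : C(TT, ℂ) →⋆ₐ[ℂ] B) (u : B)
    (hu : u ∈ unitary B) (α : C(TT, TT))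
    (h1 : u * Φ (ee 1 0) = Φ ((ee 1 0).comp α) * u)
    (h2 : u * Φ (ee 0 1) = Φ ((ee 0 1).comp α) * u) (f : C(TT, ℂ)) :
    u * Φ f = Φ (f.comp α) * u := by
  have key : ∀ x y : B, u * x = y * u → u * x * star u = y := fun x y h => by
    rw [h, mul_assoc, hu.2, mul_one]
  have h3 := ext_gen ((Unitary.conjStarAlgAut ℂ B ⟨u, hu⟩ : B →⋆ₐ[ℂ] B).comp Φ)
    (Φ.comp (α.compStarAlgHom' ℂ ℂ)) (key _ _ h1) (key _ _ h2)
  have h4 : u * Φ f * star u = Φ (f.comp α) := DFunLike.congr_fun h3 f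
  rw [← h4, mul_assoc, hu.1, mul_one]

end RT1

variable {K : Type} [NormedAddCommGroup K] [InnerProductSpace ℂ K] [CompleteSpace K]

theorem exists_calc (U V : K →L[ℂ] K) (hU : U ∈ unitary (K →L[ℂ] K))
    (hV : V ∈ unitary (K →L[ℂ] K)) (h : Commute U V) :
    ∃ Φ : C(TT, ℂ) →⋆ₐ[ℂ] (K →L[ℂ] K), Φ (ee 1 0) = U ∧ Φ (ee 0 1) = V :=
  RT1.exists_gen U V hU hV h

theorem calc_ext (Φ Ψ : C(TT, ℂ) →⋆ₐ[ℂ] (K →L[ℂ] K)) (h1 : Φ (ee 1 0) = Ψ (ee 1 0))
    (h2 : Φ (ee 0 1) = Ψ (ee 0 1)) : Φ = Ψ :=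
  RT1.ext_gen Φ Ψ h1 h2

/-- Intertwining of the calculus with a continuous self map of the torus. -/
theorem calc_conj (Φ : C(TT, ℂ) →⋆ₐ[ℂ] (K →L[ℂ] K)) (u : K →L[ℂ] K)
    (hu : u ∈ unitary (K →L[ℂ] K)) (α : C(TT, TT))
    (h1 : u * Φ (ee 1 0) = Φ ((ee 1 0).comp α) * u)
    (h2 : u * Φ (ee 0 1) = Φ ((ee 0 1).comp α) * u) (f : C(TT, ℂ)) :
    u * Φ f = Φ (f.comp α) * u :=
  RT1.conj_gen Φ u hu α h1 h2 f

end Vale.Agent.P212
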