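import Vale.Agent.P212.Wop
import Vale.Agent.P212.RT1

/- Existence of the circle data. -/

noncomputable section

namespace Vale.Agent.P212

variable {H : Type} [NormedAddCommGroup H] [InnerProductSpace ℂ H] [CompleteSpace H]

namespace CircEx

variable {e : ℤ → H} (he : Orthonormal ℂ e)

/-- The lines spanned by the basis vectors. -/
def II (k : ℤ) : ℂ →ₗᵢ[ℂ] H := LinearIsometry.toSpanSingleton ℂ H (he.1 k)

omit [CompleteSpace H] in
theorem II_apply (k : ℤ) (c : ℂ) : II he k c = c • e k := rfl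

variable {he} (hI : IsHilbertSum ℂ (fun _ : ℤ => ℂ) (II he))

omit [CompleteSpace H] in
theorem isW_iff {σ : ℤ → ℤ} {c : ℤ → ℂ} {A : H →L[ℂ] H} :
    IsW (II he) σ (fun k => c k • (1 : ℂ →L[ℂ] ℂ)) A ↔ ∀ k, A (e k) = c k • e (σ k) := by
  constructor
  · intro h k
    simpa [II_apply] using h k 1
  · intro h k ξ
    simp [II_apply, h k, smul_smul, mul_comm]

include hI

theorem ext' {A B : H →L[ℂ] H} (h : ∀ k, A (e k) = B (e k)) : A = B :=
  hs_ext hI fun k ξ => by simp [II_apply, h k]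

theorem exS (σ : ℤ → ℤ) (hσ : Function.Injective σ) (c : ℤ → ℂ) (hc : ∀ k, ‖c k‖ ≤ 1) :
    ∃ A : H →L[ℂ] H, ∀ k, A (e k) = c k • e (σ k) := by
  obtain ⟨A, hA⟩ := exists_W hI σ (fun k => c k • (1 : ℂ →L[ℂ] ℂ)) 1
    (fun k => by rw [norm_smul, norm_one, mul_one]; exact hc k) hσ.injOn
  exact ⟨A, isW_iff.1 hA⟩

theorem starS {σ τ : ℤ → ℤ} (h1 : ∀ k, τ (σ k) = k) (h2 : ∀ k, σ (τ k) = k) {c : ℤ → ℂ}
    {A : H →L[ℂ] H} (h : ∀ k, A (e k) = c k • e (σ k)) (k : ℤ) :
    (star A) (e k) = star (c (τ k)) • e (τ k) := by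
  have h3 := IsW.adj_perm hI σ τ h1 h2 (isW_iff.2 h)
  simp only [star_smul, star_one] at h3
  exact isW_iff.1 h3 k

theorem cptS {σ : ℤ → ℤ} {c : ℤ → ℂ} {A : H →L[ℂ] H} (h : ∀ k, A (e k) = c k • e (σ k))
    (j : ℤ) (hj : ∀ k, k ≠ j → c k = 0) : IsCompactOperator A := by
  refine IsW.cpt_fin hI (isW_iff.2 h) (fun k => isCompactOperator_of_locallyCompactSpace_dom _)
    ((Set.finite_singleton j).subset fun k hk => ?_)
  by_contra h1
  exact hk (by simp [hj k h1])

omit hI

theorem cpt_all (Φ : C(TT, ℂ) →⋆ₐ[ℂ] (H →L[ℂ] H)) (P W : H →L[ℂ] H) (h1 : Φ (ee 1 0) = W)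
    (h2 : Φ (ee 0 1) = 1) (h3 : IsCompactOperator (P * W - W * P : H →L[ℂ] H))
    (h4 : IsCompactOperator (P * star W - star W * P : H →L[ℂ] H)) (f : C(TT, ℂ)) :
    IsCompactOperator (P * Φ f - Φ f * P : H →L[ℂ] H) := by
  let Q : C(TT, ℂ) → Prop := fun g => IsCompactOperator (P * Φ g - Φ g * P : H →L[ℂ] H)
  have q0 : ∀ g, P * Φ g - Φ g * P = 0 → Q g := fun g hg => by
    show IsCompactOperator (P * Φ g - Φ g * P : H →L[ℂ] H)
    rw [hg]; exact isCompactOperator_zero
  have qa : ∀ g g', Q g → Q g' → Q (g + g') := fun g g' hg hg' => by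
    show IsCompactOperator (P * Φ (g + g') - Φ (g + g') * P : H →L[ℂ] H)
    have : P * Φ (g + g') - Φ (g + g') * P = (P * Φ g - Φ g * P) + (P * Φ g' - Φ g' * P) := by
      rw [map_add]; noncomm_ring
    rw [this]; exact hg.add hg'
  have qm : ∀ g g', Q g → Q g' → Q (g * g') := fun g g' hg hg' => by
    show IsCompactOperator (P * Φ (g * g') - Φ (g * g') * P : H →L[ℂ] H)
    have : P * Φ (g * g') - Φ (g * g') * P =
        (P * Φ g - Φ g * P) * Φ g' + Φ g * (P * Φ g' - Φ g' * P) := by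
      rw [map_mul]; noncomm_ring
    rw [this]; exact (hg.comp_clm (Φ g')).add (hg'.clm_comp (Φ g))
  have qc : ∀ r : ℂ, Q (algebraMap ℂ C(TT, ℂ) r) := fun r => q0 _ (by
    rw [AlgHomClass.commutes, Algebra.commutes, sub_self])
  have hcl : IsClosed {g | Q g} := by
    have hc : Continuous fun g : C(TT, ℂ) => (P * Φ g - Φ g * P : H →L[ℂ] H) := by
      have : Continuous Φ := AddMonoidHomClass.continuous_of_bound Φ 1 fun g => by
        rw [one_mul]; exact NonUnitalStarAlgHom.norm_apply_le Φ g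
      fun_prop
    exact isClosed_setOfPred_isCompactOperator.preimage hc
  have hgen : ∀ g ∈ StarAlgebra.adjoin ℂ ({ee 1 0, ee 0 1} : Set C(TT, ℂ)), Q g ∧ Q (star g) := by
    intro g hg
    induction hg using StarAlgebra.adjoin_induction with
    | mem x hx =>
      rcases hx with rfl | rfl
      · constructor
        · show IsCompactOperator (P * Φ (ee 1 0) - Φ (ee 1 0) * P : H →L[ℂ] H)
          rw [h1]; exact h3
        · show IsCompactOperator (P * Φ (star (ee 1 0)) - Φ (star (ee 1 0)) * P : H →L[ℂ] H)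
          rw [map_star, h1]; exact h4
      · exact ⟨q0 _ (by rw [h2]; simp), q0 _ (by rw [map_star, h2]; simp)⟩
    | algebraMap r => exact ⟨qc r, by rw [← algebraMap_star_comm]; exact qc _⟩
    | add x y _ _ hx hy => exact ⟨qa _ _ hx.1 hy.1, by rw [star_add]; exact qa _ _ hx.2 hy.2⟩
    | mul x y _ _ hx hy => exact ⟨qm _ _ hx.1 hy.1, by rw [star_mul]; exact qm _ _ hy.2 hx.2⟩
    | star x _ hx => exact ⟨hx.2, by rw [star_star]; exact hx.1⟩
  have hf : f ∈ (StarAlgebra.adjoin ℂ ({ee 1 0, ee 0 1} : Set C(TT, ℂ))).topologicalClosure := by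
    rw [RT1.dense_adjoin]; exact StarSubalgebra.mem_top
  exact closure_minimal (fun g hg => (hgen g hg).1) hcl hf

theorem fourier_add_arg (n : ℤ) (x y : UnitAddCircle) :
    fourier n (x + y) = fourier n x * fourier n y := by
  simp [fourier_apply, AddCircle.toCircle_add]

theorem fourier_neg_arg (n : ℤ) (x : UnitAddCircle) : fourier n (-x) = fourier (-n) x := by
  simp only [fourier_apply, smul_neg, neg_smul]

include hI

theorem main : Nonempty (Circ H) := by
  obtain ⟨W, hW⟩ := exS hI (fun k => k + 1) (add_left_injective 1) (fun _ => 1) (by simp)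
  obtain ⟨P, hP⟩ := exS hI id Function.injective_id (fun k => if 0 ≤ k then 1 else 0)
    (fun k => by split_ifs <;> simp)
  have hR0 := fun θ : UnitAddCircle => exS hI id Function.injective_id
    (fun k => fourier (-k) θ) (fun k => by rw [fourier_apply]; exact (Circle.norm_coe _).le)
  choose R hR using hR0
  have hWs := starS hI (σ := fun k => k + 1) (τ := fun k => k - 1) (by simp) (by simp) hW
  have hPs := starS hI (σ := id) (τ := id) (by simp) (by simp) hP
  have hRs := fun θ => starS hI (σ := id) (τ := id) (by simp) (by simp) (hR θ)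
  simp only [one_smul, star_one, id] at hW hP hR hWs hPs hRs
  have hWu : W ∈ unitary (H →L[ℂ] H) :=
    ⟨ext' hI fun k => by simp [hW, hWs], ext' hI fun k => by simp [hW, hWs]⟩
  have R0 : R 0 = 1 := ext' hI fun k => by simp [hR]
  have Radd : ∀ θ θ', R (θ + θ') = R θ * R θ' := fun θ θ' => ext' hI fun k => by
    rw [mul_apply_eq_comp, hR, hR, map_smul, hR, fourier_add_arg, smul_smul, mul_comm]
  have Rstar : ∀ θ, star (R θ) = R (-θ) := fun θ => ext' hI fun k => by
    rw [hRs, hR, fourier_neg_arg, fourier_neg (n := -k)]; rfl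
  have Ru : ∀ θ, R θ ∈ unitary (H →L[ℂ] H) := fun θ =>
    ⟨by rw [Rstar, ← Radd, neg_add_cancel, R0], by rw [Rstar, ← Radd, add_neg_cancel, R0]⟩
  obtain ⟨Φ, h1, h2⟩ := exists_calc W 1 hWu (one_mem _) (Commute.one_right W)
  let π0 : C(UnitAddCircle, ℂ) →⋆ₐ[ℂ] (H →L[ℂ] H) :=
    Φ.comp ((ContinuousMap.fst : C(TT, UnitAddCircle)).compStarAlgHom' ℂ ℂ)
  have hπ : ∀ f, π0 f = Φ (f.comp ContinuousMap.fst) := fun f => rfl
  have hπ1 : π0 (fourier 1) = W := by
    rw [hπ, ← h1]; congr 1; ext p; simp [ee]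
  refine ⟨⟨π0, P, ⟨?_, ?_⟩, R, R0, Radd, Rstar, fun θ => ?_, fun θ f f' hf => ?_, fun f => ?_, ?_,
    e 0, he.1 0, ?_⟩⟩
  · exact ext' hI fun k => by
      rw [mul_apply_eq_comp, hP, map_smul, hP]; split_ifs <;> simp
  · exact ext' hI fun k => by
      rw [hPs, hP]; split_ifs <;> simp
  · exact ext' hI fun k => by
      simp only [mul_apply_eq_comp, hP, hR, map_smul]
      exact smul_comm _ _ _
  · let α : C(TT, TT) := ⟨fun p => (p.1 - θ, p.2), by fun_prop⟩
    have a1 : (ee 1 0).comp α = fourier (-1) θ • ee 1 0 := by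
      ext p
      simp only [ee, ContinuousMap.comp_apply, ContinuousMap.mul_apply, ContinuousMap.smul_apply,
        ContinuousMap.fst_apply, ContinuousMap.snd_apply, fourier_zero, mul_one, smul_eq_mul, α,
        ContinuousMap.coe_mk]
      rw [sub_eq_add_neg, fourier_add_arg, fourier_neg_arg, mul_comm]
    have a2 : (ee 0 1).comp α = ee 0 1 := by
      ext p; simp [ee, α]
    have a3 := calc_conj Φ (R θ) (Ru θ) α (by
      rw [a1, map_smul, h1]
      refine ext' hI fun k => ?_
      simp only [mul_apply_eq_comp, smul_apply, hW, hR, map_smul,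
        smul_smul]
      rw [← fourier_add, show -(k + 1) = -k + -1 by ring]) (by rw [a2, h2]; simp) (f.comp ContinuousMap.fst)
    rw [hπ, hπ, a3]
    congr 2
    ext p
    simp [α, hf]
  · refine cpt_all Φ P W h1 h2 ?_ ?_ _
    · refine cptS hI (σ := fun k => k + 1)
        (c := fun k => (if 0 ≤ k + 1 then 1 else 0) - if 0 ≤ k then 1 else 0) (fun k => ?_) (-1)
        fun k hk => ?_
      · simp only [sub_apply, mul_apply_eq_comp, hW, hP, map_smul,
          sub_smul]
      · split_ifs <;> first | omega | simp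
    · refine cptS hI (σ := fun k => k - 1)
        (c := fun k => (if 0 ≤ k - 1 then 1 else 0) - if 0 ≤ k then 1 else 0) (fun k => ?_) 0
        fun k hk => ?_
      · simp only [sub_apply, mul_apply_eq_comp, hWs, hP, map_smul,
          sub_smul]
      · split_ifs <;> first | omega | simp
  · rw [hπ1]
    refine ext' hI fun k => ?_
    simp only [mul_apply_eq_comp, hW, hP, map_smul]
    split_ifs <;> first | omega | simp
  · rw [hπ1]
    refine ext' hI fun k => ?_
    simp only [sub_apply, mul_apply_eq_comp, hW, hWs, hP, map_smul,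
      InnerProductSpace.rankOne_apply, sub_add_cancel, orthonormal_iff_ite.1 he]
    split_ifs with a b c <;> first | omega | simp [*]

end CircEx

theorem exists_circ (b : HilbertBasis ℕ ℂ H) : Nonempty (Circ H) := by
  let ι : ℤ ≃ ℕ := Denumerable.eqv ℤ
  have he : Orthonormal ℂ (b ∘ ι) := b.orthonormal.comp ι ι.injective
  refine CircEx.main (he := he) (he.isHilbertSum ?_)
  rw [ι.surjective.range_comp, b.dense_span]

end Vale.Agent.P212
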