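import Vale.Agent.P212.RoeAlg

/- Finite propagation operators are sums of algebraically bounded ones. -/

noncomputable section

namespace Vale.Agent.P212

open scoped Classical

variable {X H : Type} [MetricSpace X] [NormedAddCommGroup H] [InnerProductSpace ℂ H]
  [CompleteSpace H]

namespace Colour

theorem exists_free {S : Set ℕ} {N : ℕ} (h : S.encard ≤ N) : ∃ n ≤ N, n ∉ S := by
  by_contra hc
  have h1 : ((Finset.range (N + 1) : Finset ℕ) : Set ℕ) ⊆ S := fun n hn => by
    by_contra h2
    exact hc ⟨n, Nat.lt_succ_iff.1 (Finset.mem_range.1 hn), h2⟩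
  have h2 := (Set.encard_le_encard h1).trans h
  rw [Set.encard_coe_eq_coe_finsetCard, Finset.card_range] at h2
  have h3 : N + 1 ≤ N := by exact_mod_cast h2
  omega

theorem exists_sqrt {E : Type} [NormedAddCommGroup E] [InnerProductSpace ℂ E] [CompleteSpace E]
    (a : E →L[ℂ] E) {C : ℝ} (h : ‖star a * a‖ ≤ C) : ∃ b : E →L[ℂ] E,
      star a * a + star b * b = (C : ℂ) • 1 ∧ ∀ q, Commute (star a * a) q → Commute b q := by
  have hle : 0 ≤ algebraMap ℝ (E →L[ℂ] E) C - star a * a :=
    sub_nonneg.2 ((CStarAlgebra.norm_le_iff_le_algebraMap _ ((norm_nonneg _).trans h)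
      (star_mul_self_nonneg a)).1 h)
  refine ⟨CFC.sqrt (algebraMap ℝ (E →L[ℂ] E) C - star a * a), ?_, fun q hq =>
    (Commute.sub_left (show Commute _ q from Algebra.commutes C q) hq).cfcₙ_nnreal _⟩
  have hs := IsSelfAdjoint.of_nonneg (CFC.sqrt_nonneg (algebraMap ℝ (E →L[ℂ] E) C - star a * a))
  rw [hs.star_eq, CFC.sqrt_mul_sqrt_self _ hle,
    add_sub_cancel, Algebra.algebraMap_eq_smul_one, Complex.coe_smul]

/-- coordinate projection -/
def cq (x : X) : EX X H →L[ℂ] EX X H :=
  (JX X H x).toContinuousLinearMap ∘L ContinuousLinearMap.adjoint (JX X H x).toContinuousLinearMap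

omit [MetricSpace X] in
theorem cq_apply (x : X) (v : EX X H) : cq x v = JX X H x (v x) := by
  refine congrArg (JX X H x) (ext_inner_left ℂ fun ξ => ?_)
  exact (ContinuousLinearMap.adjoint_inner_right (JX X H x).toContinuousLinearMap ξ v).trans
    (inner_JX x ξ v)

omit [MetricSpace X] in
theorem comm_of_diag {D : EX X H →L[ℂ] EX X H} (h : ∀ x y ξ, x ≠ y → D (JX X H y ξ) x = 0)
    (x : X) : Commute D (cq x) := by
  refine hs_ext hs_JX fun y ξ => ?_
  rw [mul_apply_eq_comp, mul_apply_eq_comp, cq_apply, cq_apply, JX_apply]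
  split_ifs with hxy
  · subst hxy
    refine lp.ext (funext fun z => ?_)
    rw [JX_apply]
    split_ifs with hz
    · rw [hz]
    · exact h z x ξ hz
  · rw [h x y ξ hxy, map_zero, map_zero]

theorem mem_of_comm (bg : BddGeom X) {B : EX X H →L[ℂ] EX X H} (h : ∀ x, Commute B (cq x)) :
    B ∈ FP X H := by
  refine (mem_FP bg B).2 ⟨0, fun x y hxy => funext fun ξ => ?_⟩
  have h1 : B (cq y (JX X H y ξ)) = cq y (B (JX X H y ξ)) :=
    congrArg (fun T : EX X H →L[ℂ] EX X H => T (JX X H y ξ)) (h y).eq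
  rw [cq_apply, cq_apply, JX_apply, if_pos rfl] at h1
  change B (JX X H y ξ) x = 0
  rw [h1, JX_apply, if_neg (dist_pos.1 hxy)]

end Colour

theorem exists_colour (bg : BddGeom X) (R : ℝ) :
    ∃ (N : ℕ) (col : X → Fin N), ∀ x y, col x = col y → x ≠ y → R < dist x y := by
  obtain ⟨N, hN⟩ := bg R
  have wf : WellFounded (WellOrderingRel (α := X)) := IsWellFounded.wf
  let c : X → ℕ := wf.fix fun x f =>
    sInf {n | ∀ y (h : WellOrderingRel y x), dist y x ≤ R → f y h ≠ n}
  have hc : ∀ x, c x = sInf {n | ∀ y, WellOrderingRel y x → dist y x ≤ R → c y ≠ n} :=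
    fun x => wf.fix_eq _ x
  have key : ∀ x, c x ≤ N ∧ ∀ y, WellOrderingRel y x → dist y x ≤ R → c y ≠ c x := fun x => by
    obtain ⟨n, hn, hn'⟩ := Colour.exists_free
      ((Set.encard_image_le c (Metric.closedBall x R)).trans (hN x))
    have hm : n ∈ {n | ∀ y, WellOrderingRel y x → dist y x ≤ R → c y ≠ n} :=
      fun y _ hy e => hn' ⟨y, hy, e⟩
    refine ⟨by rw [hc]; exact (Nat.sInf_le hm).trans hn, ?_⟩
    have := Nat.sInf_mem ⟨n, hm⟩
    rwa [← hc] at this
  refine ⟨N + 1, fun x => ⟨c x, Nat.lt_succ_of_le (key x).1⟩, fun x y h hxy => ?_⟩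
  have e : c x = c y := congrArg Fin.val h
  by_contra hd
  rw [not_lt] at hd
  rcases trichotomous_of WellOrderingRel x y with h1 | h1 | h1
  · exact (key y).2 x h1 hd e
  · exact hxy h1
  · exact (key x).2 y h1 (by rwa [dist_comm]) e.symm

theorem FP_bdd (bg : BddGeom X) (T : FP X H) : ∃ (N : ℕ) (A B : Fin N → FP X H) (C : ℝ),
    T = ∑ k, A k ∧ ∀ k, star (A k) * A k + star (B k) * B k = (C : ℂ) • 1 := by
  obtain ⟨R, hR⟩ := (mem_FP bg T.1).1 T.2
  obtain ⟨N, col, hcol⟩ := exists_colour bg (2 * R)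
  choose p hp using fun k : Fin N => exists_W (hs_JX (X := X) (H := H)) id
    (fun x => if col x = k then 1 else 0) 1
    (fun x => by
      split_ifs
      · exact ContinuousLinearMap.norm_id_le
      · simp) (Set.injOn_id _)
  let A : Fin N → EX X H →L[ℂ] EX X H := fun k => T.1 * p k
  have hA : ∀ k x ξ, A k (JX X H x ξ) = if col x = k then T.1 (JX X H x ξ) else 0 := by
    intro k x ξ
    change T.1 (p k (JX X H x ξ)) = _
    rw [hp k x ξ]
    by_cases h : col x = k <;> simp [h]
  have hd : ∀ k x y ξ, x ≠ y → (star (A k) * A k) (JX X H y ξ) x = 0 := by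
    intro k x y ξ hxy
    refine ext_inner_left ℂ fun η => ?_
    rw [← inner_JX, inner_zero_right, mul_apply_eq_comp,
      ContinuousLinearMap.star_eq_adjoint, ContinuousLinearMap.adjoint_inner_right, hA, hA]
    split_ifs with h1 h2
    · have h3 := hcol x y (h1.trans h2.symm) hxy
      rw [lp.inner_eq_tsum]
      refine (tsum_congr fun z => ?_).trans tsum_zero
      by_cases hz : R < dist z x
      · rw [show T.1 (JX X H x η) z = 0 from congrFun (hR z x hz) η, inner_zero_left]
      · have h4 : R < dist z y := by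
          have := dist_triangle_left x y z
          linarith [not_lt.1 hz]
        rw [show T.1 (JX X H y ξ) z = 0 from congrFun (hR z y h4) ξ, inner_zero_right]
    · exact inner_zero_right _
    · exact inner_zero_left _
    · exact inner_zero_left _
  choose B hB hB' using fun k => Colour.exists_sqrt (A k)
    (Finset.single_le_sum (f := fun k => ‖star (A k) * A k‖) (fun _ _ => norm_nonneg _)
      (Finset.mem_univ k))
  refine ⟨N, fun k => ⟨A k, mul_mem T.2 (hp k).mem_FP_JX⟩, fun k => ⟨B k,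
    Colour.mem_of_comm bg fun x => hB' k _ (Colour.comm_of_diag (hd k) x)⟩, _,
    Subtype.ext ?_, fun k => Subtype.ext (hB k)⟩
  rw [AddSubmonoidClass.coe_finsetSum]
  refine hs_ext hs_JX fun x ξ => ?_
  rw [sum_apply]
  simp only [hA]
  rw [Finset.sum_ite_eq, if_pos (Finset.mem_univ _)]

end Vale.Agent.P212
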