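import Vale.Agent.P212.Base
import Vale.Agent.P089.Cliff

/- The Clifford matrix. -/

noncomputable section

namespace Vale.Agent.P212

open scoped Classical

variable {v : ℕ} {R : Type} [Ring R]

namespace Cw

theorem fl_self (j : Fin v) (ε : Fin v → Bool) : fl j ε j = !ε j := P089.Cliff.fl_self j ε

theorem fl_ne {j l : Fin v} (h : l ≠ j) (ε : Fin v → Bool) : fl j ε l = ε l :=
  P089.Cliff.fl_ne h ε

theorem fl_fl (j : Fin v) (ε : Fin v → Bool) : fl j (fl j ε) = ε := P089.Cliff.fl_fl j ε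

theorem fl_comm {j l : Fin v} (h : j ≠ l) (ε : Fin v → Bool) :
    fl j (fl l ε) = fl l (fl j ε) := P089.Cliff.fl_comm h ε

theorem sg_sq (T : Finset (Fin v)) (ε : Fin v → Bool) : sg T ε * sg T ε = 1 :=
  P089.Cliff.sg_sq T ε

theorem sg_out {T : Finset (Fin v)} {j : Fin v} (h : j ∉ T) (ε : Fin v → Bool) :
    sg T (fl j ε) = sg T ε := P089.Cliff.sg_out h ε

theorem sg_in {T : Finset (Fin v)} {j : Fin v} (h : j ∈ T) (ε : Fin v → Bool) :
    sg T (fl j ε) = -sg T ε := P089.Cliff.sg_in h ε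

theorem par_neg {w : ℕ} {ε : Fin v → Bool} {δ : Fin w → Bool}
    (h : sg Finset.univ δ = -sg Finset.univ ε) : par δ = !par ε := by
  rcases mul_self_eq_one_iff.1 (sg_sq Finset.univ ε) with h1 | h1 <;> simp [par, h, h1]

theorem Alt_zero (g : ℤ → ℂ) (j : ℤ) : Alt 0 g j = g j := by
  simp [Alt, par, sg, dg]

theorem Alt_succ (g : ℤ → ℂ) (j : ℤ) : Alt (v + 1) g j = Alt v (fun i => g i - g (i + 1)) j := by
  rw [Alt, ← (Fin.consEquiv fun _ => Bool).sum_comp, Fintype.sum_prod_type, Fintype.sum_bool,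
    ← Finset.sum_add_distrib, Alt]
  refine Finset.sum_congr rfl fun ε _ => ?_
  have h1 : par ((Fin.consEquiv fun _ => Bool) (true, ε)) = !par ε :=
    par_neg (by simp [sg, Fin.prod_univ_succ])
  have h2 : par ((Fin.consEquiv fun _ => Bool) (false, ε)) = par ε := by
    have : sg Finset.univ ((Fin.consEquiv fun _ => Bool) (false, ε)) = sg Finset.univ ε := by
      simp [sg, Fin.prod_univ_succ]
    rw [par, par, this]
  have h3 : dg ((Fin.consEquiv fun _ => Bool) (true, ε)) = dg ε + 1 := by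
    rw [dg, Fin.sum_univ_succ, add_comm]
    rfl
  have h4 : dg ((Fin.consEquiv fun _ => Bool) (false, ε)) = dg ε := by
    rw [dg, Fin.sum_univ_succ]
    exact zero_add _
  rw [h1, h2, h3, h4, ← add_assoc]
  cases par ε <;> simp <;> ring

theorem Alt_step (g : ℤ → ℂ) (j : ℤ) :
    Alt v (fun i => g i - g (i + 1)) j = Alt v g j - Alt v g (j + 1) := by
  rw [Alt, Alt, Alt, ← Finset.sum_sub_distrib]
  refine Finset.sum_congr rfl fun ε _ => ?_
  rw [add_right_comm]
  split_ifs <;> ring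

theorem Alt_lin (a : ℂ) (f g : ℤ → ℂ) (j : ℤ) :
    Alt v (fun i => a * f i - g i) j = a * Alt v f j - Alt v g j := by
  rw [Alt, Alt, Alt, Finset.mul_sum, ← Finset.sum_sub_distrib]
  refine Finset.sum_congr rfl fun ε _ => ?_
  split_ifs <;> ring

theorem tele {g : ℤ → ℂ} {c : ℂ} (h : ∀ i, g i - g (i + 1) = c) (n : ℕ) : g 0 - g n = n * c := by
  induction n with
  | zero => simp
  | succ n ih =>
    push_cast
    linear_combination ih + h n

theorem const {M : ℕ} (hM : 0 < M) (w : ℕ) : ∀ (g : ℤ → ℂ) (c : ℂ), (∀ j, g (j + M) = g j) →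
    (∀ j, Alt w g j = c) → ∀ j, g j = g 0 := by
  induction w with
  | zero =>
    intro g c _ h j
    rw [← Alt_zero g j, ← Alt_zero g 0, h, h]
  | succ w ih =>
    intro g c hp h j
    simp only [Alt_succ] at h
    have h1 := ih _ c (fun j => by rw [add_right_comm, hp, hp]) h
    have h2 := tele h1 M
    rw [← zero_add (M : ℤ), hp, sub_self, eq_comm, mul_eq_zero] at h2
    have h3 := h2.resolve_left (Nat.cast_ne_zero.2 hM.ne')
    rw [h3] at h1
    induction j using Int.induction_on with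
    | zero => rfl
    | succ n ih2 => linear_combination ih2 - h1 n
    | pred n ih2 =>
      have h4 := h1 (-n - 1)
      rw [sub_add_cancel] at h4
      linear_combination ih2 + h4

end Cw

open Cw

theorem dg_fl (l : Fin v) (ε : Fin v → Bool) : dg (fl l ε) = dg ε + if ε l then -1 else 1 := by
  have h : ∑ m ∈ Finset.univ.erase l, (if fl l ε m then (1 : ℤ) else 0) =
      ∑ m ∈ Finset.univ.erase l, (if ε m then (1 : ℤ) else 0) :=
    Finset.sum_congr rfl fun m hm => by rw [fl_ne (Finset.ne_of_mem_erase hm)]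
  rw [dg, dg, ← Finset.add_sum_erase _ _ (Finset.mem_univ l),
    ← Finset.add_sum_erase _ (fun m => if ε m then (1 : ℤ) else 0) (Finset.mem_univ l), fl_self, h]
  cases ε l <;> simp [add_comm]

theorem par_fl (l : Fin v) (ε : Fin v → Bool) : par (fl l ε) = !par ε :=
  par_neg (sg_in (Finset.mem_univ l) ε)

theorem cw_odd (d : Fin v → ℤ → ℤ → R) (j : ℤ) (ε δ : Fin v → Bool) (h : par ε = par δ) :
    cw d j ε δ = 0 := by
  rw [cw, Matrix.of_apply]
  refine Finset.sum_eq_zero fun l _ => if_neg ?_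
  rintro rfl
  simp [par_fl] at h

theorem cw_sq (d : Fin v → ℤ → ℤ → R) (p : ℤ → R) (h1 : ∀ l l', l ≠ l' → ∀ i a b : ℤ,
      d l (i + a + b) (i + a) * d l' (i + a) i = d l' (i + a + b) (i + b) * d l (i + b) i)
    (h2 : ∀ (i : ℤ) (a : Fin v → ℤ), ∑ l, d l i (i + a l) * d l (i + a l) i = p i) (j : ℤ) :
    cw d j * cw d j = Matrix.diagonal fun ε => p (j + dg ε) := by
  let V : Fin v → Matrix (Fin v → Bool) (Fin v → Bool) R := fun l => Matrix.of fun ε δ =>
    if ε = fl l δ then sg (Finset.Iio l) δ • d l (j + dg ε) (j + dg δ) else 0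
  have hc : cw d j = ∑ l, V l := by
    ext ε δ
    rw [Matrix.sum_apply]
    rfl
  have hV (m l ε δ) : (V m * V l) ε δ = if ε = fl m (fl l δ) then
      (sg (Finset.Iio m) (fl l δ) * sg (Finset.Iio l) δ) •
        (d m (j + dg ε) (j + dg (fl l δ)) * d l (j + dg (fl l δ)) (j + dg δ)) else 0 := by
    rw [Matrix.mul_apply, Finset.sum_eq_single (fl l δ) (fun γ _ h => by simp [V, h]) (by simp)]
    simp only [V, Matrix.of_apply, if_true]
    split_ifs with h
    · rw [smul_mul_smul_comm]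
    · rw [zero_mul]
  rw [hc, P089.Cliff.sq_sum]
  · ext ε δ
    simp only [Matrix.sum_apply, hV, fl_fl, Matrix.diagonal_apply]
    split_ifs with h
    · subst h
      simp only [sg_out Finset.notMem_Iio_self, sg_sq, one_smul, dg_fl, ← add_assoc, h2]
    · exact Finset.sum_const_zero
  · intro m l hml
    wlog h : l < m generalizing m l
    · rw [add_comm]; exact this l m hml.symm (lt_of_le_of_ne (not_lt.1 h) hml)
    ext ε δ
    rw [Matrix.add_apply, hV, hV, fl_comm hml.symm, Matrix.zero_apply]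
    split_ifs with e
    · have e1 : dg ε = dg δ + (if δ l then -1 else 1) + if δ m then -1 else 1 := by
        rw [e, dg_fl, dg_fl, fl_ne hml]
      rw [e1, dg_fl, dg_fl, ← add_assoc, ← add_assoc, ← add_assoc, h1 m l hml,
        sg_in (Finset.mem_Iio.2 h), sg_out (by simpa using h.le),
        ← add_smul, neg_mul, mul_comm, neg_add_cancel, zero_smul]
    · exact add_zero _

/-- Entrywise intertwining modulo an additive subgroup. -/
theorem cw_mem (K : AddSubgroup R) (d d' : Fin v → ℤ → ℤ → R) (j j' : ℤ)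
    (x y x' y' : (Fin v → Bool) → R)
    (h : ∀ l ε δ, ε = fl l δ → x ε * d l (j + dg ε) (j + dg δ) * y δ -
      x' ε * d' l (j' + dg ε) (j' + dg δ) * y' δ ∈ K) (ε δ : Fin v → Bool) :
    x ε * cw d j ε δ * y δ - x' ε * cw d' j' ε δ * y' δ ∈ K := by
  simp only [cw, Matrix.of_apply, Finset.mul_sum, Finset.sum_mul, ← Finset.sum_sub_distrib]
  refine K.sum_mem fun l _ => ?_
  split_ifs with e
  · rw [mul_smul_comm, smul_mul_assoc, mul_smul_comm, smul_mul_assoc, ← smul_sub]
    exact K.zsmul_mem (h l ε δ e) _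
  · simp

theorem Alt_add (k k' : ℤ → ℂ) (j : ℤ) : Alt v (k + k') j = Alt v k j + Alt v k' j := by
  rw [Alt, Alt, Alt, ← Finset.sum_add_distrib]
  refine Finset.sum_congr rfl fun ε _ => ?_
  rw [Pi.add_apply]
  split_ifs <;> ring

theorem cw_NN {M : ℕ} {f : ℤ → ℂ} (h : f ∈ NN v M) : ∃ (k : ZMod M → ℤ) (c : ℂ),
    ∀ j, f j = Alt v (fun i => (k (i : ZMod M) : ℂ)) j + c := by
  induction h using AddSubgroup.closure_induction with
  | mem f hf => exact hf
  | zero => exact ⟨0, 0, fun j => by simp [Alt]⟩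
  | add f g _ _ hf hg =>
    obtain ⟨k, c, hk⟩ := hf
    obtain ⟨k', c', hk'⟩ := hg
    refine ⟨k + k', c + c', fun j => ?_⟩
    rw [Pi.add_apply, hk, hk', add_add_add_comm, ← Alt_add]
    congr 2
    ext i
    simp
  | neg f _ hf =>
    obtain ⟨k, c, hk⟩ := hf
    refine ⟨-k, -c, fun j => ?_⟩
    have h1 := Alt_lin (v := v) 0 0 (fun i => (k (i : ZMod M) : ℂ)) j
    simp only [zero_mul, zero_sub] at h1
    simp only [Pi.neg_apply, Int.cast_neg, hk, h1, neg_add]

theorem arith {M : ℕ} (hM : 0 < M) (nn : ℤ → ℤ) (e : ℤ) (hn : ∀ j, nn (j + M) = nn j + e)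
    (i0 : ℂ) (k : ℕ) (h : k • (fun j => Alt v (fun i => (nn i : ℂ)) j + i0) ∈ NN v M) :
    (M : ℤ) ∣ k * e := by
  obtain ⟨κ, c, hκ⟩ := cw_NN h
  obtain ⟨g, hg⟩ : ∃ g : ℤ → ℂ, g = fun i => (k : ℂ) * (nn i : ℂ) - (κ (i : ZMod M) : ℂ) :=
    ⟨_, rfl⟩
  have h1 : ∀ j, Alt v g j = c - k * i0 := fun j => by
    have h2 := hκ j
    rw [Pi.smul_apply, nsmul_eq_mul] at h2
    rw [hg, Alt_lin]
    linear_combination h2
  have h2 : ∀ j, g (j + M) = g j + k * e := fun j => by
    simp only [hg, hn]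
    push_cast
    rw [ZMod.natCast_self, add_zero]
    ring
  have h3 := const hM v (fun i => g i - g (i + 1)) 0
    (fun j => by rw [add_right_comm, h2, h2]; ring) fun j => by rw [Alt_step, h1, h1, sub_self]
  have h4 := tele h3 M
  rw [← zero_add (M : ℤ), h2] at h4
  refine ⟨k * nn (0 + 1) - κ ((0 + 1 : ℤ) : ZMod M) - (k * nn 0 - κ ((0 : ℤ) : ZMod M)), ?_⟩
  apply Int.cast_injective (α := ℂ)
  simp only [hg] at h4
  push_cast at h4 ⊢
  linear_combination -h4

end Vale.Agent.P212
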