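import Vale.Agent.P212.Base2

/- The exponential calculus. -/

noncomputable section

namespace Vale.Agent.P212

open scoped Classical

variable {B : Type} [CStarAlgebra B] {A : NonUnitalStarSubalgebra ℂ B}

theorem Mlt.of_mem {a : B} (h : a ∈ A) : Mlt A a := fun _ hb => ⟨mul_mem h hb, mul_mem hb h⟩

theorem Mlt.one : Mlt A 1 := fun _ hb => ⟨by rwa [one_mul], by rwa [mul_one]⟩

theorem Mlt.add {a b : B} (h : Mlt A a) (h' : Mlt A b) : Mlt A (a + b) := fun c hc =>
  ⟨by rw [add_mul]; exact add_mem (h c hc).1 (h' c hc).1,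
    by rw [mul_add]; exact add_mem (h c hc).2 (h' c hc).2⟩

theorem Mlt.mul {a b : B} (h : Mlt A a) (h' : Mlt A b) : Mlt A (a * b) := fun c hc =>
  ⟨by rw [mul_assoc]; exact (h _ (h' c hc).1).1,
    by rw [← mul_assoc]; exact (h' _ (h c hc).2).2⟩

theorem Mlt.smul {a : B} (h : Mlt A a) (c : ℂ) : Mlt A (c • a) := fun d hd =>
  ⟨by rw [smul_mul_assoc]; exact SMulMemClass.smul_mem c (h d hd).1,
    by rw [mul_smul_comm]; exact SMulMemClass.smul_mem c (h d hd).2⟩

theorem Mlt.star {a : B} (h : Mlt A a) : Mlt A (star a) := fun d hd =>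
  ⟨by
    have := star_mem (h _ (star_mem hd)).2
    rwa [star_mul, star_star] at this,
   by
    have := star_mem (h _ (star_mem hd)).1
    rwa [star_mul, star_star] at this⟩

theorem Mlt.sum {ι : Type} (s : Finset ι) {a : ι → B} (h : ∀ i ∈ s, Mlt A (a i)) :
    Mlt A (∑ i ∈ s, a i) := fun d hd =>
  ⟨by rw [Finset.sum_mul]; exact sum_mem fun i hi => (h i hi d hd).1,
    by rw [Finset.mul_sum]; exact sum_mem fun i hi => (h i hi d hd).2⟩

theorem Mlt.lim (hA : IsClosed (A : Set B)) {S : Set B} (h : ∀ a ∈ S, Mlt A a) {q : B}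
    (hq : q ∈ closure (Submodule.span ℂ S : Set B)) : Mlt A q := by
  intro d hd
  have hc : IsClosed {m : B | m * d ∈ A ∧ d * m ∈ A} :=
    (hA.preimage (continuous_mul_const d)).inter (hA.preimage (continuous_const_mul d))
  refine closure_minimal (t := {m : B | m * d ∈ A ∧ d * m ∈ A}) ?_ hc hq
  intro m hm
  have : Mlt A m := by
    induction hm using Submodule.span_induction with
    | mem x hx => exact h x hx
    | zero => exact Mlt.of_mem (zero_mem A)
    | add x y _ _ hx hy => exact hx.add hy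
    | smul c x _ hx => exact hx.smul c
  exact this d hd

namespace ExpJ

theorem sub_one_mem (V : Submodule ℂ B) (hV : IsClosed (V : Set B)) {a : B}
    (h : ∀ n : ℕ, a ^ (n + 1) - a ∈ V) : EE a - 1 ∈ V := by
  set l : ℂ := ((2 * Real.pi : ℝ) * Complex.I : ℂ) with hl
  have h1 : HasSum (fun n : ℕ => ((n.factorial : ℂ)⁻¹) • (l • a) ^ n) (EE a) :=
    NormedSpace.exp_series_hasSum_exp' (𝕂 := ℂ) (l • a)
  have h2 : HasSum (fun n : ℕ => ((n.factorial : ℂ)⁻¹) • l ^ n) (NormedSpace.exp l) :=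
    NormedSpace.exp_series_hasSum_exp' (𝕂 := ℂ) l
  have h3 : NormedSpace.exp l = 1 := by
    rw [← Complex.exp_eq_exp_ℂ, hl]
    push_cast
    exact Complex.exp_two_pi_mul_I
  rw [h3] at h2
  have h4 := h1.sub (h2.smul_const a)
  rw [← hasSum_nat_add_iff' 1] at h4
  have h5 : EE a - 1 = EE a - (1 : ℂ) • a - ∑ i ∈ Finset.range 1,
      (((i.factorial : ℂ)⁻¹) • (l • a) ^ i - (((i.factorial : ℂ)⁻¹) • l ^ i) • a) := by
    simp
  rw [h5, ← h4.tsum_eq]
  refine tsum_mem hV fun n => ?_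
  rw [smul_pow, smul_smul, smul_eq_mul, ← smul_sub]
  exact V.smul_mem _ (h n)

theorem EE_cont : Continuous (EE : B → B) := by
  let +nondep : NormedAlgebra ℚ B := .restrictScalars ℚ ℂ B
  unfold EE
  fun_prop

theorem mul_UA {x y : B} (hx : x ∈ UA A) (hy : y ∈ UA A) : x * y ∈ UA A := by
  refine ⟨mul_mem hx.1 hy.1, ?_⟩
  have : x * y - 1 = (x - 1) * (y - 1) + (x - 1) + (y - 1) := by noncomm_ring
  rw [this]
  exact add_mem (add_mem (mul_mem hx.2 hy.2) hx.2) hy.2

theorem star_UA {x : B} (hx : x ∈ UA A) : star x ∈ UA A := by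
  refine ⟨Unitary.star_mem hx.1, ?_⟩
  have := star_mem hx.2
  rwa [star_sub, star_one] at this

theorem conj_UA {u x : B} (hu : u ∈ unitary B) (hm : Mlt A u) (hx : x ∈ UA A) :
    u * x * star u ∈ UA A := by
  refine ⟨mul_mem (mul_mem hu hx.1) (Unitary.star_mem hu), ?_⟩
  have : u * x * star u - 1 = u * (x - 1) * star u := by
    rw [mul_sub, sub_mul, mul_one, Unitary.mul_star_self_of_mem hu]
  rw [this]
  exact (hm.star _ (hm _ hx.2).1).2

theorem ess_line {a b : B} (h : Ess A a) (hb : IsSelfAdjoint b) (hab : b - a ∈ A) (t : ℝ) :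
    Ess A (a + (t : ℂ) • (b - a)) := by
  have hk : (t : ℂ) • (b - a) ∈ A := SMulMemClass.smul_mem _ hab
  refine ⟨h.sa.add (IsSelfAdjoint.smul ?_ (hb.sub h.sa)), h.mul.add (Mlt.of_mem hk), ?_⟩
  · exact Complex.conj_ofReal t
  · generalize (t : ℂ) • (b - a) = k at hk
    have : (a + k) * (a + k) - (a + k) = (a * a - a) + a * k + k * a + k * k - k := by
      noncomm_ring
    rw [this]
    exact sub_mem (add_mem (add_mem (add_mem h.sq (h.mul k hk).1) (h.mul k hk).2)
      (mul_mem hk hk)) hk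

/-- the rotation -/
def rot (v : B) (c s : ℝ) : B :=
  1 + ((c - 1 : ℝ) : ℂ) • (star v * v + v * star v) + (s : ℂ) • (v - star v)

theorem star_rot (v : B) (c s : ℝ) : star (rot v c s) = rot v c (-s) := by
  unfold rot
  simp only [star_add, star_one, star_smul, star_sub, star_mul, star_star, Complex.star_def,
    Complex.conj_ofReal, Complex.ofReal_neg, neg_smul, smul_sub]
  abel

theorem rot_mul {v : B} (h0 : v * v = 0) (h2 : v * star v * v = v) {c s : ℝ}
    (h : c ^ 2 + s ^ 2 = 1) : rot v c s * rot v c (-s) = 1 := by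
  have h0' : star v * star v = 0 := by rw [← star_mul, h0, star_zero]
  have h2' : star v * v * star v = star v := by
    have := congrArg star h2
    rwa [star_mul, star_mul, star_star, ← mul_assoc] at this
  unfold rot
  generalize star v = w at h0' h2 h2' ⊢
  have JJ : (v - w) * (v - w) = -(w * v + v * w) := by
    have : (v - w) * (v - w) = v * v + w * w - (w * v + v * w) := by noncomm_ring
    rw [this, h0, h0']; simp
  have EJ : (w * v + v * w) * (v - w) = v - w := by
    have : (w * v + v * w) * (v - w) = w * (v * v) - w * v * w + v * w * v - v * (w * w) := by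
      noncomm_ring
    rw [this, h0, h0', h2, h2']; simp; abel
  have JE : (v - w) * (w * v + v * w) = v - w := by
    have : (v - w) * (w * v + v * w) = v * w * v + (v * v) * w - (w * w) * v - w * v * w := by
      noncomm_ring
    rw [this, h0, h0', h2, h2']; simp
  have E2 : (w * v + v * w) * (w * v + v * w) = w * v + v * w := by
    calc (w * v + v * w) * (w * v + v * w) = -((w * v + v * w) * ((v - w) * (v - w))) := by
          rw [JJ, mul_neg, neg_neg]
      _ = w * v + v * w := by rw [← mul_assoc, EJ, JJ, neg_neg]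
  generalize w * v + v * w = E at JJ EJ JE E2
  generalize v - w = J at JJ EJ JE
  have hc : ((c : ℂ)) ^ 2 + (s : ℂ) ^ 2 = 1 := by exact_mod_cast h
  simp only [add_mul, mul_add, one_mul, mul_one, smul_mul_assoc, mul_smul_comm, JJ, EJ, JE, E2,
    smul_add, smul_smul, smul_neg]
  push_cast
  have : ((c : ℂ) - 1) * ((c : ℂ) - 1) = -2 * ((c : ℂ) - 1) - s * s := by
    linear_combination hc
  rw [this]
  module

theorem rot_unitary {v : B} (h0 : v * v = 0) (h2 : v * star v * v = v) {c s : ℝ}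
    (h : c ^ 2 + s ^ 2 = 1) : rot v c s ∈ unitary B := by
  rw [Unitary.mem_iff, star_rot]
  refine ⟨?_, rot_mul h0 h2 h⟩
  have := rot_mul h0 h2 (c := c) (s := -s) (by rw [neg_sq]; exact h)
  rwa [neg_neg] at this

theorem rot_mlt {v : B} (hv : Mlt A v) (c s : ℝ) : Mlt A (rot v c s) := by
  unfold rot
  refine (Mlt.one.add (((hv.star.mul hv).add (hv.mul hv.star)).smul _)).add (Mlt.smul ?_ _)
  have := hv.add (hv.star.smul (-1))
  rwa [neg_one_smul, ← sub_eq_add_neg] at this

theorem nxt_union (S S' : Set (ℕ × ℕ)) : nxt (S ∪ S') = nxt S ∪ nxt S' := by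
  ext p
  simp only [nxt, Set.mem_ofPred_eq, Set.mem_union]
  constructor
  · rintro ⟨l, h1, h2 | h2⟩
    exacts [Or.inl ⟨l, h1, h2⟩, Or.inr ⟨l, h1, h2⟩]
  · rintro (⟨l, h1, h2⟩ | ⟨l, h1, h2⟩)
    exacts [⟨l, h1, Or.inl h2⟩, ⟨l, h1, Or.inr h2⟩]

theorem nxt_disj {S S' : Set (ℕ × ℕ)} (h : Disjoint S S') : Disjoint (nxt S) (nxt S') := by
  rw [Set.disjoint_left] at h ⊢
  rintro p ⟨l, h1, h2⟩ ⟨l', h1', h2'⟩
  have : l = l' := by omega
  subst this
  exact h h2 h2'

end ExpJ

open ExpJ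

theorem Ess.mem (hA : IsClosed (A : Set B)) {a : B} (h : Ess A a) : EE a ∈ UA A := by
  refine ⟨?_, ?_⟩
  · let +nondep : NormedAlgebra ℚ B := .restrictScalars ℚ ℂ B
    refine NormedSpace.exp_mem_unitary_of_mem_skewAdjoint (h.sa.smul_mem_skewAdjoint ?_)
    rw [skewAdjoint.mem_iff, star_mul', Complex.star_def, Complex.conj_ofReal, Complex.conj_I,
      mul_neg]
  · refine sub_one_mem A.toNonUnitalSubalgebra.toSubmodule hA fun n => ?_
    change a ^ (n + 1) - a ∈ A
    induction n with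
    | zero => simp
    | succ n ih =>
      have : a ^ (n + 1 + 1) - a = a * (a ^ (n + 1) - a) + (a * a - a) := by
        rw [pow_succ' a (n + 1)]; noncomm_ring
      rw [this]
      exact add_mem (h.mul _ ih).1 h.sq

theorem join_pert (hA : IsClosed (A : Set B)) {a b : B} (h : Ess A a) (hb : IsSelfAdjoint b)
    (hab : b - a ∈ A) : JoinedIn (UA A) (EE a) (EE b) := by
  refine JoinedIn.ofLine (f := fun t : ℝ => EE (a + (t : ℂ) • (b - a))) ?_ (by simp) (by simp) ?_
  · exact (EE_cont.comp (by fun_prop)).continuousOn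
  · rintro _ ⟨t, -, rfl⟩
    exact (ess_line h hb hab t).mem hA

theorem EE_proj {p : B} (h : p * p = p) : EE p = 1 := by
  have := sub_one_mem (⊥ : Submodule ℂ B) (by simp) (a := p) fun n => by
    rw [Submodule.mem_bot, sub_eq_zero]
    exact IsIdempotentElem.pow_succ_eq n h
  rwa [Submodule.mem_bot, sub_eq_zero] at this

theorem EE_add {a b : B} (h : Commute a b) : EE (a + b) = EE a * EE b := by
  let +nondep : NormedAlgebra ℚ B := .restrictScalars ℚ ℂ B
  unfold EE
  rw [smul_add]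
  exact NormedSpace.exp_add_of_commute ((h.smul_left _).smul_right _)

theorem EE_conj {u : B} (hu : u ∈ unitary B) (a : B) : EE (u * a * star u) = u * EE a * star u := by
  let +nondep : NormedAlgebra ℚ B := .restrictScalars ℚ ℂ B
  unfold EE
  rw [← smul_mul_assoc, ← mul_smul_comm]
  exact NormedSpace.exp_units_conj (Unitary.toUnits ⟨u, hu⟩) _

theorem join_conj {u x y : B} (hu : u ∈ unitary B) (hm : Mlt A u) (h : JoinedIn (UA A) x y) :
    JoinedIn (UA A) (u * x * star u) (u * y * star u) := by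
  refine (h.map (f := fun w => u * w * star u) (by fun_prop)).mono ?_
  rintro _ ⟨w, hw, rfl⟩
  exact conj_UA hu hm hw

theorem join_mul {x y x' y' : B} (h : JoinedIn (UA A) x y) (h' : JoinedIn (UA A) x' y') :
    JoinedIn (UA A) (x * x') (y * y') := by
  refine (h.mul h').mono ?_
  rintro _ ⟨w, hw, w', hw', rfl⟩
  exact mul_UA hw hw'

theorem join_cancel {x y w : B} (hw : w ∈ UA A) (h : JoinedIn (UA A) (x * w) (y * w)) :
    JoinedIn (UA A) x y := by
  have := join_mul h (JoinedIn.refl (star_UA hw))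
  rwa [mul_assoc, mul_assoc, Unitary.mul_star_self_of_mem hw.1, mul_one, mul_one] at this

theorem join_rot (hA : IsClosed (A : Set B)) {a v : B} (h : Ess A a) (hv : Mlt A v)
    (h0 : v * v = 0) (h1 : star v * v * a = a) (h2 : v * star v * v = v) :
    JoinedIn (UA A) (EE a) (EE (v * a * star v)) := by
  have h0' : star v * star v = 0 := by rw [← star_mul, h0, star_zero]
  have h3 : star v * a = 0 := by
    rw [← h1, ← mul_assoc, ← mul_assoc, h0', zero_mul, zero_mul]
  have h4 : rot v 0 1 * a = v * a := by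
    unfold rot
    simp only [add_mul, one_mul, smul_mul_assoc, sub_mul, h1, mul_assoc v, h3]
    simp
  have h5 : a * star (rot v 0 1) = a * star v := by
    have := congrArg star h4
    rwa [star_mul, star_mul, h.sa.star_eq] at this
  have h6 : v * a * star v = rot v 0 1 * a * star (rot v 0 1) := by
    rw [h4, mul_assoc, mul_assoc, h5]
  rw [h6, EE_conj (rot_unitary h0 h2 (by norm_num))]
  refine JoinedIn.ofLine (f := fun t : ℝ =>
    rot v (Real.cos (Real.pi / 2 * t)) (Real.sin (Real.pi / 2 * t)) * EE a *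
      star (rot v (Real.cos (Real.pi / 2 * t)) (Real.sin (Real.pi / 2 * t)))) ?_ ?_ (by simp) ?_
  · have : Continuous fun t : ℝ =>
        rot v (Real.cos (Real.pi / 2 * t)) (Real.sin (Real.pi / 2 * t)) := by
      unfold rot
      fun_prop
    exact ((this.mul continuous_const).mul this.star).continuousOn
  · simp [rot]
  · rintro _ ⟨t, -, rfl⟩
    exact conj_UA (rot_unitary h0 h2 (Real.cos_sq_add_sin_sq _)) (rot_mlt hv _ _) (h.mem hA)

theorem swindle (top : ℕ → ℕ) (htop : ∀ n, 0 < top n) (typ : ℕ → ℕ → Fin 3)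
    (g : Set (ℕ × ℕ) → B) (hm : ∀ S, g S ∈ UA A)
    (hg : ∀ S S', Disjoint S S' → g (S ∪ S') = g S * g S')
    (hs : ∀ θ b, JoinedIn (UA A) (g (Cl top typ θ b)) (g (nxt (Cl top typ θ b)))) :
    JoinedIn (UA A) (g {p | p.2 = 0}) (g {p | p.2 = top p.1}) := by
  have un : ∀ S S', JoinedIn (UA A) (g S) (g (nxt S)) → JoinedIn (UA A) (g S') (g (nxt S')) →
      Disjoint S S' → JoinedIn (UA A) (g (S ∪ S')) (g (nxt (S ∪ S'))) := by
    intro S S' h h' hd
    rw [nxt_union, hg _ _ hd, hg _ _ (nxt_disj hd)]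
    exact join_mul h h'
  have hD : ∀ θ, JoinedIn (UA A) (g {p | p.2 < top p.1 ∧ typ p.1 p.2 = θ})
      (g (nxt {p | p.2 < top p.1 ∧ typ p.1 p.2 = θ})) := by
    intro θ
    have e : {p : ℕ × ℕ | p.2 < top p.1 ∧ typ p.1 p.2 = θ} = Cl top typ θ 0 ∪ Cl top typ θ 1 := by
      ext p
      simp only [Cl, Set.mem_ofPred_eq, Set.mem_union]
      rcases Nat.mod_two_eq_zero_or_one p.2 with h | h <;> simp [h]
    rw [e]
    refine un _ _ (hs θ 0) (hs θ 1) (Set.disjoint_left.2 ?_)
    rintro p ⟨-, -, h⟩ ⟨-, -, h'⟩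
    omega
  have h01 := un _ _ (hD 0) (hD 1) (Set.disjoint_left.2 (by
    rintro p ⟨-, h⟩ ⟨-, h'⟩
    rw [h] at h'
    exact absurd h' (by decide)))
  have h012 := un _ _ h01 (hD 2) (Set.disjoint_left.2 (by
    rintro p (⟨-, h⟩ | ⟨-, h⟩) ⟨-, h'⟩
    · rw [h] at h'
      exact absurd h' (by decide)
    · rw [h] at h'
      exact absurd h' (by decide)))
  have e : ({p : ℕ × ℕ | p.2 < top p.1 ∧ typ p.1 p.2 = 0} ∪ {p | p.2 < top p.1 ∧ typ p.1 p.2 = 1})
      ∪ {p | p.2 < top p.1 ∧ typ p.1 p.2 = 2} = {p | p.2 < top p.1} := by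
    ext p
    simp only [Set.mem_ofPred_eq, Set.mem_union]
    have : ∀ θ : Fin 3, (θ = 0 ∨ θ = 1) ∨ θ = 2 := by decide
    have := this (typ p.1 p.2)
    tauto
  rw [e] at h012
  have e2 : nxt {p : ℕ × ℕ | p.2 < top p.1} =
      {p | p.2 = top p.1} ∪ {p | 0 < p.2 ∧ p.2 < top p.1} := by
    ext p
    simp only [nxt, Set.mem_ofPred_eq, Set.mem_union]
    have := htop p.1
    constructor
    · rintro ⟨l, h1, h2⟩
      omega
    · intro h
      exact ⟨p.2 - 1, by omega, by omega⟩
  have e1 : {p : ℕ × ℕ | p.2 < top p.1} = {p | p.2 = 0} ∪ {p | 0 < p.2 ∧ p.2 < top p.1} := by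
    ext p
    simp only [Set.mem_ofPred_eq, Set.mem_union]
    have := htop p.1
    omega
  have d1 : Disjoint {p : ℕ × ℕ | p.2 = 0} {p | 0 < p.2 ∧ p.2 < top p.1} := by
    rw [Set.disjoint_left]
    rintro p h ⟨h', -⟩
    exact absurd h (Nat.pos_iff_ne_zero.1 h')
  have d2 : Disjoint {p : ℕ × ℕ | p.2 = top p.1} {p | 0 < p.2 ∧ p.2 < top p.1} := by
    rw [Set.disjoint_left]
    rintro p h ⟨-, h'⟩
    exact absurd h (ne_of_lt h')
  rw [e2, hg _ _ d2, e1, hg _ _ d1] at h012
  exact join_cancel (hm _) h012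

end Vale.Agent.P212
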