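import Vale.Agent.P212.Colour

/- Extension of a representation to multipliers. -/

noncomputable section

namespace Vale.Agent.P212

open scoped Classical

namespace ExtAux

variable {B K : Type} [Ring B] [StarRing B] [Algebra ℂ B] [StarModule ℂ B]
  [NormedAddCommGroup K] [InnerProductSpace ℂ K] [CompleteSpace K]
  {J : NonUnitalStarSubalgebra ℂ B} {ρ : J →⋆ₙₐ[ℂ] (K →L[ℂ] K)}

theorem left_ext (hρ : ∀ ξ : K, (∀ T, ρ T ξ = 0) → ξ = 0) {S S' : K →L[ℂ] K}
    (h : ∀ b, ρ b * S = ρ b * S') : S = S' := by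
  ext ξ
  refine sub_eq_zero.1 (hρ _ fun b => ?_)
  rw [map_sub, sub_eq_zero]
  exact congrArg (fun T : K →L[ℂ] K => T ξ) (h b)

theorem right_ext (hρ : ∀ ξ : K, (∀ T, ρ T ξ = 0) → ξ = 0) {S S' : K →L[ℂ] K}
    (h : ∀ a, S * ρ a = S' * ρ a) : S = S' := by
  refine star_injective (left_ext hρ fun b => ?_)
  have := congrArg star (h (star b))
  rwa [star_mul, star_mul, map_star, star_star] at this

/-- evaluation of a formal combination -/
def ev (ρ : J →⋆ₙₐ[ℂ] (K →L[ℂ] K)) (m : J → J) : (J × K →₀ ℂ) →ₗ[ℂ] K :=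
  Finsupp.linearCombination ℂ fun p => ρ (m p.1) p.2

theorem ev_single (m : J → J) (a : J) (ξ : K) : ev ρ m (Finsupp.single (a, ξ) 1) = ρ (m a) ξ := by
  simp [ev]

theorem ev_inner {m₁ m₂ m₃ m₄ : J → J} (h : ∀ a b, star (m₁ a) * m₂ b = star (m₃ a) * m₄ b)
    (x y : J × K →₀ ℂ) : inner ℂ (ev ρ m₁ x) (ev ρ m₂ y) = inner ℂ (ev ρ m₃ x) (ev ρ m₄ y) := by
  have key : ∀ (a b : J) (ξ η : K), inner ℂ (ρ a ξ) (ρ b η) = inner ℂ ξ (ρ (star a * b) η) := by
    intro a b ξ η
    rw [map_mul, map_star, mul_apply_eq_comp, ContinuousLinearMap.star_eq_adjoint,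
      ContinuousLinearMap.adjoint_inner_right]
  simp only [ev, Finsupp.linearCombination_apply, Finsupp.sum, sum_inner, inner_sum,
    inner_smul_left, inner_smul_right, key, h]

theorem dense_ev (hρ : ∀ ξ : K, (∀ T, ρ T ξ = 0) → ξ = 0) : DenseRange (ev ρ id) := by
  have h : (LinearMap.range (ev ρ id)).topologicalClosure = ⊤ := by
    rw [Submodule.topologicalClosure_eq_top_iff, eq_bot_iff]
    intro ξ hξ
    refine hρ ξ fun b => ext_inner_left ℂ fun η => ?_
    have := hξ _ ⟨Finsupp.single (star b, η) 1, rfl⟩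
    rw [ev_single, id, map_star, ContinuousLinearMap.star_eq_adjoint,
      ContinuousLinearMap.adjoint_inner_left] at this
    rw [this, inner_zero_right]
  exact Submodule.dense_iff_topologicalClosure_eq_top.2 h

end ExtAux

open ExtAux in
theorem ext_abs {B K : Type} [Ring B] [StarRing B] [Algebra ℂ B] [StarModule ℂ B]
    [NormedAddCommGroup K] [InnerProductSpace ℂ K] [CompleteSpace K] (D : StarSubalgebra ℂ B)
    (J : NonUnitalStarSubalgebra ℂ B) (hJ : ∀ T ∈ D, ∀ a ∈ J, T * a ∈ J)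
    (hD : ∀ T : D, ∃ (N : ℕ) (A B : Fin N → D) (C : ℝ),
      T = ∑ k, A k ∧ ∀ k, star (A k) * A k + star (B k) * B k = (C : ℂ) • 1)
    (ρ : J →⋆ₙₐ[ℂ] (K →L[ℂ] K)) (hρ : ∀ ξ : K, (∀ T, ρ T ξ = 0) → ξ = 0) :
    ∃ ρ' : D →⋆ₐ[ℂ] (K →L[ℂ] K), (∀ (T : D) (a : J), ρ ⟨T.1 * a.1, hJ _ T.2 _ a.2⟩ = ρ' T * ρ a) ∧
      ∀ (T : D) (h : T.1 ∈ J), ρ' T = ρ ⟨T.1, h⟩ := by
  let m : D → J → J := fun T a => ⟨T.1 * a.1, hJ _ T.2 _ a.2⟩
  have hadd : ∀ S T a, m (S + T) a = m S a + m T a := fun S T a => Subtype.ext (add_mul _ _ _)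
  have hsmul : ∀ (c : ℂ) a, m (c • 1) a = c • a := fun c a => Subtype.ext (by simp [m])
  have hmul : ∀ S T a, m (S * T) a = m S (m T a) := fun S T a => Subtype.ext (mul_assoc _ _ _)
  have hstar : ∀ S a b, star (m S a) * b = star a * m (star S) b := fun S a b =>
    Subtype.ext (by simp [m, mul_assoc])
  have h1 : ∀ (A B : D) (C : ℝ), star A * A + star B * B = (C : ℂ) • 1 →
      ∃ S : K →L[ℂ] K, ∀ a, ρ (m A a) = S * ρ a := by
    intro A B C h
    have hn : ∀ x, ‖ev ρ (m A) x‖ ≤ √C * ‖ev ρ id x‖ := fun x => by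
      have e : ∀ T : D, inner ℂ (ev ρ (m T) x) (ev ρ (m T) x) =
          inner ℂ (ev ρ id x) (ev ρ (m (star T * T)) x) := fun T =>
        ev_inner (fun a b => by rw [hstar, hmul]; rfl) x x
      have e2 : ev ρ (m (star A * A)) x + ev ρ (m (star B * B)) x = (C : ℂ) • ev ρ id x := by
        simp only [ev, Finsupp.linearCombination_apply, Finsupp.sum, ← Finset.sum_add_distrib,
          Finset.smul_sum, ← smul_add]
        refine Finset.sum_congr rfl fun p _ => ?_
        rw [← add_apply, ← map_add, ← hadd, h, hsmul, map_smul, smul_comm]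
        rfl
      have e3 := congrArg (fun v => (inner ℂ (ev ρ id x) v).re) e2
      simp only [inner_add_right, ← e, inner_smul_right, inner_self_eq_norm_sq_to_K] at e3
      have e4 : ‖ev ρ (m A) x‖ ^ 2 + ‖ev ρ (m B) x‖ ^ 2 = C * ‖ev ρ id x‖ ^ 2 := by
        have e5 : ∀ v : K, ((‖v‖ : ℂ)) ^ 2 = ((‖v‖ ^ 2 : ℝ) : ℂ) := fun v => by push_cast; rfl
        erw [e5, e5, e5, ← Complex.ofReal_add, ← Complex.ofReal_mul, Complex.ofReal_re,
          Complex.ofReal_re] at e3
        exact e3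
      refine (pow_le_pow_iff_left₀ (norm_nonneg _) (by positivity) two_ne_zero).1 ?_
      rw [mul_pow, Real.sq_sqrt']
      nlinarith [sq_nonneg ‖ev ρ (m B) x‖, le_max_left C 0, sq_nonneg ‖ev ρ id x‖]
    refine ⟨(ev ρ (m A)).extendOfNorm (ev ρ id), fun a => ContinuousLinearMap.ext fun ξ => ?_⟩
    have := LinearMap.extendOfNorm_eq (dense_ev hρ) ⟨_, hn⟩ (Finsupp.single (a, ξ) 1)
    rw [ev_single, ev_single] at this
    exact this.symm
  have h2 : ∀ T : D, ∃ S : K →L[ℂ] K, ∀ a, ρ (m T a) = S * ρ a := fun T => by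
    obtain ⟨N, A, B, C, rfl, h⟩ := hD T
    choose S hS using fun k => h1 _ _ C (h k)
    refine ⟨∑ k, S k, fun a => ?_⟩
    rw [Finset.sum_mul, ← Finset.sum_congr rfl fun k _ => hS k a, ← map_sum]
    refine congrArg ρ (Subtype.ext ?_)
    simp only [m, AddSubmonoidClass.coe_finsetSum, Finset.sum_mul]
  choose f hf using h2
  have hc : ∀ c : ℂ, f (c • 1) = c • 1 := fun c => right_ext hρ fun a => by
    rw [← hf, hsmul, map_smul, smul_mul_assoc, one_mul]
  refine ⟨{ toFun := f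
            map_one' := by simpa using hc 1
            map_mul' := fun S T => right_ext hρ fun a => by
              rw [← hf, hmul, hf, hf, mul_assoc]
            map_zero' := by simpa using hc 0
            map_add' := fun S T => right_ext hρ fun a => by
              rw [← hf, hadd, map_add, hf, hf, add_mul]
            commutes' := fun c => by
              rw [Algebra.algebraMap_eq_smul_one, Algebra.algebraMap_eq_smul_one, hc]
            map_star' := fun S => right_ext hρ fun a => left_ext hρ fun b => by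
              have := congrArg ρ (hstar S (star b) a)
              rw [map_mul, map_mul, map_star, hf, hf, star_star, star_mul, map_star, star_star,
                mul_assoc] at this
              exact this.symm }, hf, fun T h => right_ext hρ fun a => ?_⟩
  change f T * ρ a = _
  rw [← hf, ← map_mul]
  rfl

variable {X H K : Type} [MetricSpace X] [NormedAddCommGroup H] [InnerProductSpace ℂ H]
  [CompleteSpace H] [NormedAddCommGroup K] [InnerProductSpace ℂ K] [CompleteSpace K]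

theorem ext_Roe (bg : BddGeom X) (ρ : Roe X H →⋆ₙₐ[ℂ] (K →L[ℂ] K))
    (hρ : ∀ ξ : K, (∀ T, ρ T ξ = 0) → ξ = 0) :
    ∃ (A : NonUnitalStarSubalgebra ℂ (K →L[ℂ] K)) (ρ' : FP X H →⋆ₐ[ℂ] (K →L[ℂ] K)),
      (A : Set (K →L[ℂ] K)) = closure (Set.range ρ) ∧ (∀ T, Mlt A (ρ' T)) ∧
      (∀ T : FP X H, T.1 ∈ Roe X H → ρ' T ∈ A) ∧
      ∀ (T : FP X H) (a : Roe X H), ∃ S : Roe X H, S.1 = T.1 * a.1 ∧ ρ S = ρ' T * ρ a := by
  obtain ⟨ρ', h1, h2⟩ := ext_abs (FP X H) (Roe X H) (fun _ hT _ ha => FP_mul_Roe bg hT ha)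
    (FP_bdd bg) ρ hρ
  let A := (NonUnitalStarAlgHom.range ρ).topologicalClosure
  have hl : ∀ T, ∀ a ∈ A, ρ' T * a ∈ A := fun T a ha =>
    map_mem_closure (f := fun a => ρ' T * a) (continuous_const.mul continuous_id) ha (by
      rintro _ ⟨b, rfl⟩
      exact ⟨_, h1 T b⟩)
  refine ⟨A, ρ', rfl, fun T a ha => ⟨hl T a ha, ?_⟩,
    fun T h => subset_closure ⟨_, (h2 T h).symm⟩, fun T a => ⟨_, rfl, h1 T a⟩⟩
  have := star_mem (hl (star T) _ (star_mem ha))
  rwa [star_mul, star_star, map_star, star_star] at this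

end Vale.Agent.P212
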