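import Vale.Agent.P212.GeoDefs

/- The metric. -/

noncomputable section

namespace Vale.Agent.P212.GD

open scoped Classical
open Multiplicative

variable {Γ : Type} [Group Γ] (g : GD Γ)

theorem GeoA.step_comp {p q : Lev × GG Γ} (h : g.Step p q) : q.1.1.1 = p.1.1.1 := by
  rcases h with ⟨s, -, rfl⟩ | rfl | rfl
  · rfl
  · rfl
  · unfold upP; split_ifs <;> rfl

theorem comp_adj {x y : g.XX} (h : g.Gr.Adj x y) : g.comp x = g.comp y := by
  unfold Gr at h
  rw [SimpleGraph.fromRel_adj] at h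
  rcases h.2 with ⟨p, q, rfl, rfl, hs⟩ | ⟨p, q, rfl, rfl, hs⟩
  · exact (GeoA.step_comp g hs).symm
  · exact GeoA.step_comp g hs

theorem GeoA.comp_walk {x y : g.XX} (w : g.Gr.Walk x y) : g.comp x = g.comp y := by
  induction w with
  | nil => rfl
  | cons h _ ih => exact (g.comp_adj h).trans ih

theorem GeoA.comp_edist {x y : g.XX} (h : g.Gr.edist x y ≠ ⊤) : g.comp x = g.comp y := by
  obtain ⟨w, -⟩ := SimpleGraph.exists_walk_of_edist_ne_top h
  exact GeoA.comp_walk g w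

theorem GeoA.coe_dn (x y : g.XX) :
    (g.dn x y : ℕ∞) = min (g.Gr.edist x y) ((g.comp x + g.comp y + 1 : ℕ) : ℕ∞) := by
  unfold dn
  exact ENat.natCast_toNat (ne_top_of_le_ne_top (ENat.natCast_ne_top _) (min_le_right _ _))

theorem dn_self (x : g.XX) : g.dn x x = 0 := by
  unfold dn; simp

theorem dn_comm (x y : g.XX) : g.dn x y = g.dn y x := by
  unfold dn; rw [SimpleGraph.edist_comm, add_comm (g.comp x)]

theorem dn_tri (x y z : g.XX) : g.dn x z ≤ g.dn x y + g.dn y z := by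
  have : (g.dn x z : ℕ∞) ≤ (g.dn x y : ℕ∞) + g.dn y z := by
    rw [GeoA.coe_dn, GeoA.coe_dn, GeoA.coe_dn]
    rcases min_choice (g.Gr.edist x y) ((g.comp x + g.comp y + 1 : ℕ) : ℕ∞) with h1 | h1 <;>
      rcases min_choice (g.Gr.edist y z) ((g.comp y + g.comp z + 1 : ℕ) : ℕ∞) with h2 | h2 <;>
      rw [h1, h2]
    · exact (min_le_left _ _).trans SimpleGraph.edist_triangle
    · by_cases h : g.Gr.edist x y = ⊤
      · rw [h]; simp
      · rw [GeoA.comp_edist g h]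
        exact (min_le_right _ _).trans le_add_self
    · by_cases h : g.Gr.edist y z = ⊤
      · rw [h]; simp
      · rw [GeoA.comp_edist g h]
        exact (min_le_right _ _).trans le_self_add
    · refine (min_le_right _ _).trans ?_
      exact_mod_cast (by omega)
  exact_mod_cast this

theorem eq_of_dn {x y : g.XX} (h : g.dn x y = 0) : x = y := by
  have h1 := GeoA.coe_dn g x y
  rw [h] at h1
  rcases min_choice (g.Gr.edist x y) ((g.comp x + g.comp y + 1 : ℕ) : ℕ∞) with h2 | h2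
  · rw [h2] at h1
    exact SimpleGraph.edist_eq_zero_iff.1 h1.symm
  · rw [h2] at h1
    exact absurd (by exact_mod_cast h1) (by omega : ¬ (0 = g.comp x + g.comp y + 1))

instance met : MetricSpace g.XX where
  dist x y := (g.dn x y : ℝ)
  dist_self x := by rw [g.dn_self]; simp
  dist_comm x y := by rw [g.dn_comm]
  dist_triangle x y z := by exact_mod_cast g.dn_tri x y z
  eq_of_dist_eq_zero h := g.eq_of_dn (by exact_mod_cast h)

theorem dist_def (x y : g.XX) : dist x y = (g.dn x y : ℝ) := rfl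

theorem ud : UnifDiscrete g.XX := by
  refine ⟨1, one_pos, fun x y h => ?_⟩
  rw [dist_def]
  have : g.dn x y ≠ 0 := fun h0 => h (g.eq_of_dn h0)
  exact_mod_cast Nat.one_le_iff_ne_zero.2 this

theorem dist_step {p q : Lev × GG Γ} (h : g.Step p q) : dist (g.mkX p) (g.mkX q) ≤ 1 := by
  by_cases he : g.mkX p = g.mkX q
  · rw [he, dist_self]; exact zero_le_one
  have ha : g.Gr.Adj (g.mkX p) (g.mkX q) := by
    unfold Gr
    rw [SimpleGraph.fromRel_adj]
    exact ⟨he, Or.inl ⟨p, q, rfl, rfl, h⟩⟩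
  have h1 : (g.dn (g.mkX p) (g.mkX q) : ℕ∞) ≤ 1 := by
    rw [GeoA.coe_dn]
    exact (min_le_left _ _).trans (SimpleGraph.edist_eq_one_iff_adj.2 ha).le
  rw [dist_def]
  exact_mod_cast h1

theorem GeoA.dn_or (x y : g.XX) :
    (∃ w : g.Gr.Walk x y, w.length = g.dn x y) ∨ g.dn x y = g.comp x + g.comp y + 1 := by
  have h1 := GeoA.coe_dn g x y
  rcases min_choice (g.Gr.edist x y) ((g.comp x + g.comp y + 1 : ℕ) : ℕ∞) with h2 | h2
  · rw [h2] at h1
    exact Or.inl (SimpleGraph.exists_walk_of_edist_eq_coe h1.symm)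
  · rw [h2] at h1
    exact Or.inr (by exact_mod_cast h1)

theorem comp_far (x y : g.XX) (h : g.comp x ≠ g.comp y) : (g.comp x : ℝ) < dist x y := by
  rcases GeoA.dn_or g x y with ⟨w, -⟩ | h1
  · exact absurd (GeoA.comp_walk g w) h
  · rw [dist_def, h1]
    exact_mod_cast (by omega)

theorem walk_of_dist {x y : g.XX} {r : ℝ} (h : dist x y ≤ r) (hr : r ≤ g.comp x) :
    ∃ w : g.Gr.Walk x y, (w.length : ℝ) ≤ r := by
  rw [dist_def] at h
  rcases GeoA.dn_or g x y with ⟨w, hw⟩ | h1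
  · exact ⟨w, by rw [hw]; exact h⟩
  · rw [h1] at h
    have h2 : ((g.comp x + g.comp y + 1 : ℕ) : ℝ) ≤ (g.comp x : ℝ) := h.trans hr
    have h3 : g.comp x + g.comp y + 1 ≤ g.comp x := by exact_mod_cast h2
    omega

/-- The points at bounded distance are reached by short walks or lie in small pieces. -/
theorem walk_or {x y : g.XX} {r : ℝ} (h : dist x y ≤ r) :
    (∃ w : g.Gr.Walk x y, (w.length : ℝ) ≤ r) ∨ (g.comp y : ℝ) ≤ r := by
  rw [dist_def] at h
  rcases GeoA.dn_or g x y with ⟨w, hw⟩ | h1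
  · exact Or.inl ⟨w, by rw [hw]; exact h⟩
  · rw [h1] at h
    refine Or.inr (le_trans ?_ h)
    exact_mod_cast (by omega)

theorem GeoA.one_comm (a : GG Γ) (k : Multiplicative ℤ) : a * (1, k) = (1, k) * a :=
  Prod.ext (by simp) (mul_comm _ _)

theorem mem_Θ' {n l : ℕ} {a : GG Γ} :
    a ∈ g.Θ' n l ↔ ∃ θ ∈ g.Θ n l, ∃ i : ℤ, a = θ * (1, ofAdd (wd n l * i)) := by
  have hp : ∀ i : ℤ, ((1 : Γ), ofAdd (wd n l)) ^ i = (1, ofAdd (wd n l * i)) := fun i =>
    Prod.ext (by simp) (by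
      show ofAdd (wd n l) ^ i = ofAdd (wd n l * i)
      rw [← ofAdd_zsmul, smul_eq_mul, mul_comm])
  constructor
  · intro h
    have : (Subgroup.zpowers (((1 : Γ), ofAdd (wd n l)) : GG Γ)).Normal := by
      refine ⟨fun x hx y => ?_⟩
      obtain ⟨i, rfl⟩ := Subgroup.mem_zpowers_iff.1 hx
      rw [hp, GeoA.one_comm, mul_inv_cancel_right, ← hp]
      exact Subgroup.zpow_mem_zpowers _ _
    obtain ⟨θ, hθ, b, hb, rfl⟩ := Subgroup.mem_sup_of_normal_right.1 h
    obtain ⟨i, rfl⟩ := Subgroup.mem_zpowers_iff.1 hb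
    exact ⟨θ, hθ, i, by rw [hp]⟩
  · rintro ⟨θ, hθ, i, rfl⟩
    refine Subgroup.mul_mem_sup hθ ?_
    rw [← hp]
    exact Subgroup.zpow_mem_zpowers _ _

theorem Ψ_snd (θ : Fin 3) (a : GG Γ) : (g.Ψ θ a).2 = a.2 := by
  fin_cases θ <;> rfl

theorem Ψ_inj (θ : Fin 3) : Function.Injective (g.Ψ θ) := by
  intro a b h
  have h2 : a.2 = b.2 := by rw [← g.Ψ_snd θ a, h, g.Ψ_snd]
  have h3 := congrArg Prod.fst h
  fin_cases θ
  · have h1 : g.φ a.1 = g.φ b.1 := h3
    exact Prod.ext (g.inj h1) h2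
  · have h1 : a.1 * g.z ^ toAdd a.2 = b.1 * g.z ^ toAdd b.2 := h3
    rw [h2] at h1
    exact Prod.ext (mul_right_cancel h1) h2
  · exact h

theorem dvd_of_mem_Θ {n l : ℕ} {a : GG Γ} (h : a ∈ g.Θ n l) : (LL n : ℤ) ∣ toAdd a.2 := by
  induction l generalizing a with
  | zero =>
    obtain ⟨i, hi⟩ := Subgroup.mem_zpowers_iff.1 (Subgroup.mem_prod.1 h).2
    rw [← hi]
    exact ⟨i, by simp [mul_comm]⟩
  | succ l ih =>
    obtain ⟨b, hb, rfl⟩ := h
    rw [Ψ_snd]
    exact ih hb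

end Vale.Agent.P212.GD
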