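import Vale.Agent.P212.GeoA

/- Bounded degree. -/

noncomputable section

namespace Vale.Agent.P212.GD

open scoped Classical
open Multiplicative

variable {Γ : Type} [Group Γ] (g : GD Γ)

theorem GeoB.low_mem (n l : ℕ) (hl : l ≤ n + 3) (k i : ℤ) :
    (g.z ^ (4 ^ l * k), ofAdd ((LL n : ℤ) * i)) ∈ g.Θ n l := by
  induction l with
  | zero =>
    refine Subgroup.mem_prod.2 ⟨trivial, Subgroup.mem_zpowers_iff.2 ⟨i, ?_⟩⟩
    show ofAdd (LL n : ℤ) ^ i = ofAdd ((LL n : ℤ) * i)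
    rw [← ofAdd_zsmul, smul_eq_mul, mul_comm]
  | succ l ih =>
    refine ⟨_, ih (by omega), ?_⟩
    have ht : typL n l = 0 := by
      unfold typL; rw [if_neg (by omega), if_pos (by omega)]
    rw [ht]
    refine Prod.ext ?_ rfl
    show g.φ (g.z ^ (4 ^ l * k)) = g.z ^ (4 ^ (l + 1) * k)
    rw [map_zpow, g.φz, ← zpow_natCast, ← zpow_mul]
    congr 1
    push_cast; ring

theorem GeoB.MM_eq (n : ℕ) : (MM n : ℤ) = (LL n : ℤ) * LL n := by
  unfold MM LL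
  push_cast
  rw [← mul_pow]; norm_num

theorem M_mem_Θ (n l : ℕ) : ((1 : Γ), ofAdd (MM n : ℤ)) ∈ g.Θ n l := by
  induction l with
  | zero =>
    have := GeoB.low_mem g n 0 (by omega) 0 (LL n)
    rwa [mul_zero, zpow_zero, ← GeoB.MM_eq] at this
  | succ l ih =>
    by_cases h : l = n + 3
    · have h1 := GeoB.low_mem g n l h.le (-1) (LL n)
      refine ⟨_, h1, ?_⟩
      have ht : typL n l = 1 := by unfold typL; rw [if_pos h]
      rw [ht, ← GeoB.MM_eq]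
      refine Prod.ext ?_ rfl
      show g.z ^ (4 ^ l * (-1 : ℤ)) * g.z ^ (MM n : ℤ) = 1
      rw [← zpow_add, h]
      have : (4 : ℤ) ^ (n + 3) * (-1) + (MM n : ℤ) = 0 := by unfold MM; push_cast; ring
      rw [this, zpow_zero]
    · refine ⟨_, ih, ?_⟩
      unfold typL
      rw [if_neg h]
      split_ifs
      · exact Prod.ext (map_one g.φ) rfl
      · rfl

theorem GeoB.typ_two {n l : ℕ} (h : 4 * (n + 3) + 1 ≤ l) : typL n l = 2 := by
  unfold typL; rw [if_neg (by omega), if_neg (by omega)]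

theorem GeoB.wd_zero {n l : ℕ} (h : l ≤ 4 * (n + 3) + 1) : wd n l = 0 := if_pos h

theorem GeoB.wd_succ {n l : ℕ} (h : 4 * (n + 3) + 1 < l) (hl : l < topL n) :
    wd n l = wd n (l + 1) * 2 := by
  unfold wd
  rw [if_neg (by omega), if_neg (by omega), ← pow_succ]
  congr 1; omega

theorem map_Θ' {n l : ℕ} (h : l < topL n) {a : GG Γ} (ha : a ∈ g.Θ' n l) :
    g.Ψ (typL n l) a ∈ g.Θ' n (l + 1) := by
  obtain ⟨θ, hθ, i, rfl⟩ := g.mem_Θ'.1 ha
  refine g.mem_Θ'.2 ⟨g.Ψ (typL n l) θ, ⟨θ, hθ, rfl⟩, ?_⟩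
  by_cases hl : l ≤ 4 * (n + 3) + 1
  · refine ⟨0, ?_⟩
    rw [GeoB.wd_zero hl, zero_mul, mul_zero]
    show g.Ψ _ (θ * 1) = _ * 1
    rw [mul_one, mul_one]
  · refine ⟨2 * i, ?_⟩
    rw [GeoB.typ_two (by omega), GeoB.wd_succ (by omega) h, mul_assoc]
    rfl

theorem GeoB.two_mem {n l : ℕ} (h : 4 * (n + 3) + 1 ≤ l) (hl : l < topL n) (j : ℤ) :
    (((1 : Γ), ofAdd (wd n (l + 1) * (2 * j))) : GG Γ) ∈ g.Θ' n l := by
  rcases h.eq_or_lt with h1 | h1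
  · have h2 : wd n (l + 1) * 2 = MM n := by
      unfold wd MM topL
      rw [if_neg (by omega), ← pow_succ, ← h1]
      push_cast
      rw [show (4 : ℤ) = 2 ^ 2 by norm_num, ← pow_mul]
      congr 1; omega
    have h3 := (g.Θ n l).zpow_mem (g.M_mem_Θ n l) j
    refine (le_sup_left : g.Θ n l ≤ _) ?_
    convert h3 using 1
    refine Prod.ext (by simp) ?_
    show ofAdd (wd n (l + 1) * (2 * j)) = ofAdd (MM n : ℤ) ^ j
    rw [← ofAdd_zsmul, smul_eq_mul, ← h2]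
    congr 1; ring
  · refine g.mem_Θ'.2 ⟨1, one_mem _, j, ?_⟩
    rw [one_mul, GeoB.wd_succ h1 hl, mul_assoc]

theorem GeoB.pre {n l : ℕ} (hl : l < topL n) {b : GG Γ}
    (hb : g.Ψ (typL n l) b ∈ g.Θ' n (l + 1)) :
    b ∈ g.Θ' n l ∨ b * (1, ofAdd (wd n (l + 1))) ∈ g.Θ' n l := by
  obtain ⟨θ', ⟨θ, hθ, rfl⟩, i, hi⟩ := g.mem_Θ'.1 hb
  have hθ' : θ ∈ g.Θ' n l := (le_sup_left : g.Θ n l ≤ _) hθ
  by_cases h : l + 1 ≤ 4 * (n + 3) + 1
  · left
    rw [GeoB.wd_zero h, zero_mul] at hi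
    have h1 : g.Ψ (typL n l) b = g.Ψ (typL n l) θ := by
      rw [hi]; exact mul_one _
    rw [g.Ψ_inj _ h1]
    exact hθ'
  · rw [GeoB.typ_two (by omega)] at hi
    have h1 : b = θ * (1, ofAdd (wd n (l + 1) * i)) := hi
    rcases Int.even_or_odd' i with ⟨j, hj | hj⟩
    · left
      rw [h1, hj]
      exact mul_mem hθ' (GeoB.two_mem g (by omega) hl j)
    · right
      have h2 : b * (1, ofAdd (wd n (l + 1))) = θ * (1, ofAdd (wd n (l + 1) * (2 * (j + 1)))) := by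
        rw [h1, mul_assoc, hj]
        congr 1
        refine Prod.ext (mul_one _) ?_
        show ofAdd _ * ofAdd _ = ofAdd _
        rw [← ofAdd_add]
        congr 1; ring
      rw [h2]
      exact mul_mem hθ' (GeoB.two_mem g (by omega) hl _)

/-- The left action on the space. -/
def GeoB.act (s : GG Γ) (x : g.XX) : g.XX := s • (show Cos g.Θ' from x)

theorem GeoB.act_mk (s : GG Γ) (p : Lev × GG Γ) :
    GeoB.act g s (g.mkX p) = g.mkX (p.1, s * p.2) := rfl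

theorem GeoB.act_inv (s : GG Γ) (x : g.XX) : GeoB.act g s⁻¹ (GeoB.act g s x) = x :=
  inv_smul_smul s (show Cos g.Θ' from x)

theorem GeoB.up_eq {p q : Lev × GG Γ} (h : g.mkX p = g.mkX q) :
    g.mkX (g.upP p) = g.mkX (g.upP q) := by
  obtain ⟨l, a⟩ := p
  obtain ⟨l', b⟩ := q
  obtain ⟨h1, h2⟩ := Cos.mk_eq.1 h
  obtain rfl : l = l' := h1
  unfold upP
  split_ifs with hl
  · refine Cos.mk_eq.2 ⟨rfl, ?_⟩
    have := g.map_Θ' hl h2
    rwa [map_mul, map_inv] at this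
  · exact h

theorem GeoB.down (x : g.XX) :
    {y | ∃ p : Lev × GG Γ, p.1.1.2 < topL p.1.1.1 ∧ g.mkX p = y ∧ g.mkX (g.upP p) = x}.encard
      ≤ 2 := by
  rcases Set.eq_empty_or_nonempty
    {y | ∃ p : Lev × GG Γ, p.1.1.2 < topL p.1.1.1 ∧ g.mkX p = y ∧ g.mkX (g.upP p) = x} with
    h | ⟨y0, ⟨⟨⟨n, l⟩, hl0⟩, a⟩, hl, rfl, hx⟩
  · rw [h]; simp
  refine le_trans (Set.encard_le_encard (t := {g.mkX (⟨(n, l), hl0⟩, a),
    GeoB.act g (1, ofAdd (wd n (l + 1)))⁻¹ (g.mkX (⟨(n, l), hl0⟩, a))}) ?_) ?_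
  · rintro y ⟨⟨⟨⟨n', l'⟩, hl0'⟩, b⟩, hl', rfl, hx'⟩
    have h1 := hx.trans hx'.symm
    unfold upP at h1
    rw [dif_pos hl, dif_pos hl'] at h1
    obtain ⟨h2, h3⟩ := Cos.mk_eq.1 h1
    have h4 : (n, l + 1) = (n', l' + 1) := congrArg Subtype.val h2
    obtain ⟨rfl, h5⟩ := Prod.ext_iff.1 h4
    obtain rfl : l = l' := Nat.succ_injective h5
    have h6 : g.Ψ (typL n l) (a⁻¹ * b) ∈ g.Θ' n (l + 1) := by
      rw [map_mul, map_inv]; exact h3
    rcases GeoB.pre g hl h6 with h7 | h7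
    · left
      have h8 : g.mkX (⟨(n, l), hl0⟩, a) = g.mkX (⟨(n, l), hl0⟩, b) := Cos.mk_eq.2 ⟨rfl, h7⟩
      exact h8.symm
    · right
      have h8 : g.mkX (⟨(n, l), hl0⟩, a) =
          GeoB.act g (1, ofAdd (wd n (l + 1))) (g.mkX (⟨(n, l), hl0⟩, b)) := by
        rw [GeoB.act_mk]
        refine Cos.mk_eq.2 ⟨rfl, ?_⟩
        show a⁻¹ * ((1, ofAdd (wd n (l + 1))) * b) ∈ g.Θ' n l
        rw [← GeoA.one_comm, ← mul_assoc]
        exact h7
      show _ = _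
      rw [h8, GeoB.act_inv]
  · exact (Set.encard_insert_le _ _).trans (by rw [Set.encard_singleton]; rfl)

theorem degree : ∃ N : ℕ, ∀ x : g.XX, {y | g.Gr.Adj x y}.encard ≤ N := by
  set T0 : Finset (GG Γ) := insert (1, ofAdd 1) (g.S.image fun s => (s, 1)) with hT0
  set T : Finset (GG Γ) := T0 ∪ T0.image fun s => s⁻¹ with hT
  refine ⟨T.card + 1 + 2, fun x => ?_⟩
  obtain ⟨p0, rfl⟩ : ∃ p, g.mkX p = x := Cos.surj x
  have hstep : ∀ p q, g.Step p q → (∃ s ∈ T0, g.mkX q = GeoB.act g s (g.mkX p)) ∨ q = g.upP p := by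
    rintro p q (⟨s, hs, rfl⟩ | rfl | rfl)
    · exact Or.inl ⟨(s, 1), Finset.mem_insert_of_mem (Finset.mem_image_of_mem _ hs), rfl⟩
    · exact Or.inl ⟨(1, ofAdd 1), Finset.mem_insert_self _ _, rfl⟩
    · exact Or.inr rfl
  refine le_trans (Set.encard_le_encard
    (t := ((fun s => GeoB.act g s (g.mkX p0)) '' (T : Set (GG Γ)) ∪ {g.mkX (g.upP p0)}) ∪
      {y | ∃ p : Lev × GG Γ, p.1.1.2 < topL p.1.1.1 ∧ g.mkX p = y ∧
        g.mkX (g.upP p) = g.mkX p0}) ?_) ?_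
  · intro y hy
    have hy' : g.Gr.Adj (g.mkX p0) y := hy
    unfold Gr at hy'
    rw [SimpleGraph.fromRel_adj] at hy'
    obtain ⟨hne, ⟨p, q, hp, rfl, hs⟩ | ⟨p, q, rfl, hq, hs⟩⟩ := hy'
    · rcases hstep p q hs with ⟨s, hs, h⟩ | rfl
      · exact Or.inl (Or.inl ⟨s, Finset.mem_union_left _ hs, by rw [h, hp]⟩)
      · exact Or.inl (Or.inr (GeoB.up_eq g hp))
    · rcases hstep p q hs with ⟨s, hs, h⟩ | rfl
      · refine Or.inl (Or.inl ⟨s⁻¹, Finset.mem_union_right _ (Finset.mem_image_of_mem _ hs), ?_⟩)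
        show GeoB.act g s⁻¹ (g.mkX p0) = _
        rw [← hq, h, GeoB.act_inv]
      · refine Or.inr ⟨p, ?_, rfl, hq⟩
        by_contra hc
        apply hne
        rw [← hq]
        unfold upP
        rw [dif_neg hc]
  · refine (Set.encard_union_le _ _).trans ?_
    push_cast
    refine add_le_add ((Set.encard_union_le _ _).trans (add_le_add ?_ ?_)) (GeoB.down g _)
    · exact (Set.encard_image_le _ _).trans (Set.encard_coe_eq_coe_finsetCard T).le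
    · rw [Set.encard_singleton]

end Vale.Agent.P212.GD
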