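import Vale.Agent.P212.GeoA

/- Short closed walks have holonomy of bounded order. -/

noncomputable section

namespace Vale.Agent.P212.GD

open scoped Classical
open Multiplicative

variable {Γ : Type} [Group Γ] (g : GD Γ)

namespace GeoC

open scoped Pointwise

theorem step_lev {p q : Lev × GG Γ} (h : g.Step p q) :
    p.1.1.2 ≤ q.1.1.2 ∧ q.1.1.2 ≤ p.1.1.2 + 1 := by
  rcases h with ⟨s, -, rfl⟩ | rfl | rfl
  · exact ⟨le_rfl, Nat.le_succ _⟩
  · exact ⟨le_rfl, Nat.le_succ _⟩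
  · unfold upP; split_ifs
    · exact ⟨Nat.le_succ _, le_rfl⟩
    · exact ⟨le_rfl, Nat.le_succ _⟩

theorem step_snd {p q : Lev × GG Γ} (h : g.Step p q) :
    toAdd q.2.2 = toAdd p.2.2 ∨ toAdd q.2.2 = toAdd p.2.2 + 1 := by
  rcases h with ⟨s, -, rfl⟩ | rfl | rfl
  · left; simp
  · right; simp [add_comm]
  · left; unfold upP; split_ifs
    · exact congrArg toAdd (g.Ψ_snd _ _)
    · rfl

theorem wk_lev {k : ℕ} {p q : Lev × GG Γ} {β : ℤ} (h : g.Wk k p q β) :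
    q.1.1.1 = p.1.1.1 ∧ q.1.1.2 ≤ p.1.1.2 + k ∧ p.1.1.2 ≤ q.1.1.2 + k := by
  induction h with
  | base l a θ i hθ => exact ⟨rfl, le_rfl, le_rfl⟩
  | fwd p q h => have := step_lev g h; exact ⟨GeoA.step_comp g h, by omega, by omega⟩
  | bwd p q h => have := step_lev g h; exact ⟨(GeoA.step_comp g h).symm, by omega, by omega⟩
  | trans _ _ ih ih' => exact ⟨ih'.1.trans ih.1, by omega, by omega⟩

theorem wk_dvd {k : ℕ} {p q : Lev × GG Γ} {β : ℤ} (h : g.Wk k p q β) :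
    (LL p.1.1.1 : ℤ) ∣ β := by
  induction h with
  | base l a θ i hθ => exact g.dvd_of_mem_Θ hθ
  | fwd p q h => exact dvd_zero _
  | bwd p q h => exact dvd_zero _
  | trans h _ ih ih' => rw [(wk_lev g h).1] at ih'; exact dvd_add ih ih'

theorem wk_low {k : ℕ} {p q : Lev × GG Γ} {β : ℤ} (h : g.Wk k p q β) (B : ℕ)
    (hB : p.1.1.2 + k ≤ B) :
    ∃ ε : ℤ, |ε| ≤ k ∧ (2 : ℤ) ^ (topL p.1.1.1 - B) ∣ toAdd q.2.2 - toAdd p.2.2 - β - ε := by
  induction h with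
  | base l a θ i hθ =>
    refine ⟨0, by simp, ?_⟩
    have e : toAdd (a * θ * (1, ofAdd (wd l.1.1 l.1.2 * i))).2 - toAdd a.2 - toAdd θ.2 - 0 =
        wd l.1.1 l.1.2 * i := by simp; ring
    show _ ∣ toAdd (a * θ * (1, ofAdd (wd l.1.1 l.1.2 * i))).2 - toAdd a.2 - toAdd θ.2 - 0
    rw [e]
    refine Dvd.dvd.mul_right ?_ _
    unfold wd
    split_ifs
    · exact dvd_zero _
    · have hB' : l.1.2 + 0 ≤ B := hB
      exact pow_dvd_pow _ (show topL l.1.1 - B ≤ topL l.1.1 - l.1.2 by omega)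
  | fwd p q h =>
    rcases step_snd g h with h1 | h1
    · exact ⟨0, by simp, by rw [h1]; simp⟩
    · exact ⟨1, by simp, by rw [h1]; simp⟩
  | bwd p q h =>
    rcases step_snd g h with h1 | h1
    · exact ⟨0, by simp, by rw [h1]; simp⟩
    · exact ⟨-1, by simp, by rw [h1]; simp⟩
  | trans h h' ih ih' =>
    obtain ⟨h1, h2, -⟩ := wk_lev g h
    obtain ⟨ε, he, hd⟩ := ih (by omega)
    obtain ⟨ε', he', hd'⟩ := ih' (by omega)
    rw [h1] at hd'
    refine ⟨ε + ε', ?_, ?_⟩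
    · push_cast
      exact (abs_add_le _ _).trans (add_le_add he he')
    · have := dvd_add hd hd'
      rwa [show ∀ a b c β β' ε ε' : ℤ, b - a - β - ε + (c - b - β' - ε') =
        c - a - (β + β') - (ε + ε') from fun _ _ _ _ _ _ _ => by ring] at this

theorem form_low (n l : ℕ) (hl : l ≤ n + 3) {θ : GG Γ} (h : θ ∈ g.Θ n l) :
    ∃ γ, θ.1 = g.φ^[l] γ := by
  induction l generalizing θ with
  | zero => exact ⟨θ.1, rfl⟩
  | succ l ih =>
    obtain ⟨b, hb, rfl⟩ := h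
    obtain ⟨γ, hγ⟩ := ih (by omega) hb
    have ht : typL n l = 0 := by
      unfold typL; rw [if_neg (by omega), if_pos (by omega)]
    refine ⟨γ, ?_⟩
    rw [ht, Function.iterate_succ_apply', ← hγ]
    rfl

theorem form_mid (n m : ℕ) (hm : m ≤ 3 * (n + 3)) {θ : GG Γ} (h : θ ∈ g.Θ n (n + 3 + m + 1)) :
    ∃ γ, θ.1 = g.φ^[n + 3 + m] γ * g.z ^ (4 ^ m * toAdd θ.2) := by
  induction m generalizing θ with
  | zero =>
    obtain ⟨b, hb, rfl⟩ := h
    obtain ⟨γ, hγ⟩ := form_low g n _ le_rfl hb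
    have ht : typL n (n + 3 + 0) = 1 := by unfold typL; rw [if_pos (by omega)]
    refine ⟨γ, ?_⟩
    rw [Ψ_snd, ht, pow_zero, one_mul]
    exact congrArg (· * g.z ^ toAdd b.2) hγ
  | succ m ih =>
    obtain ⟨b, hb, rfl⟩ := h
    obtain ⟨γ, hγ⟩ := ih (by omega) hb
    have ht : typL n (n + 3 + (m + 1)) = 0 := by
      unfold typL; rw [if_neg (by omega), if_pos (by omega)]
    refine ⟨γ, ?_⟩
    rw [Ψ_snd, ht, ← add_assoc, Function.iterate_succ_apply']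
    show g.φ b.1 = _
    rw [hγ, map_mul, map_zpow, g.φz, ← zpow_natCast, ← zpow_mul]
    congr 2
    push_cast; ring

theorem typ_two {n l : ℕ} (h : 4 * (n + 3) + 1 ≤ l) : typL n l = 2 := by
  unfold typL; rw [if_neg (by omega), if_neg (by omega)]

theorem form_high (n l : ℕ) (hl : 4 * (n + 3) + 1 ≤ l) {θ : GG Γ} (h : θ ∈ g.Θ n l) :
    ∃ γ, θ.1 = g.φ^[4 * (n + 3)] γ * g.z ^ (4 ^ (3 * (n + 3)) * toAdd θ.2) := by
  induction l, hl using Nat.le_induction generalizing θ with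
  | base =>
    have e : 4 * (n + 3) = n + 3 + 3 * (n + 3) := by ring
    rw [e] at h ⊢
    exact form_mid g n _ le_rfl h
  | succ l hl ih =>
    obtain ⟨b, hb, rfl⟩ := h
    rw [typ_two hl]
    exact ih hb

/-- The letters. -/
def AA : Finset Γ := insert 1 (g.S ∪ g.S⁻¹)

theorem step_high {p q : Lev × GG Γ} (h : g.Step p q) (hp : 4 * (p.1.1.1 + 3) + 1 ≤ p.1.1.2) :
    ∃ w, w ∈ AA g ∧ w⁻¹ ∈ AA g ∧ q.2.1 = w * p.2.1 := by
  have h1 : (1 : Γ) ∈ AA g := Finset.mem_insert_self _ _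
  rcases h with ⟨s, hs, rfl⟩ | rfl | rfl
  · exact ⟨s, Finset.mem_insert_of_mem (Finset.mem_union_left _ hs),
      Finset.mem_insert_of_mem (Finset.mem_union_right _ (Finset.inv_mem_inv hs)), rfl⟩
  · exact ⟨1, h1, by rwa [inv_one], rfl⟩
  · refine ⟨1, h1, by rwa [inv_one], ?_⟩
    unfold upP
    split_ifs
    · rw [typ_two hp, one_mul]; rfl
    · rw [one_mul]

theorem wk_high {k : ℕ} {p q : Lev × GG Γ} {β : ℤ} (h : g.Wk k p q β)
    (hp : 4 * (p.1.1.1 + 3) + 1 + k ≤ p.1.1.2) :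
    ∃ w ∈ AA g ^ k, ∃ γ, q.2.1 = w * p.2.1 * g.φ^[4 * (p.1.1.1 + 3)] γ *
      g.z ^ (4 ^ (3 * (p.1.1.1 + 3)) * β) := by
  induction h with
  | base l a θ i hθ =>
    obtain ⟨γ, hγ⟩ := form_high g _ _ hp hθ
    refine ⟨1, by simp, γ, ?_⟩
    show a.1 * θ.1 * 1 = _
    rw [mul_one, one_mul, mul_assoc, hγ]
  | fwd p q h =>
    obtain ⟨w, hw, -, e⟩ := step_high g h (by omega)
    exact ⟨w, by rwa [pow_one], 1, by rw [e, iterate_map_one]; simp⟩
  | bwd p q h =>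
    have h1 := step_lev g h
    have h2 := GeoA.step_comp g h
    obtain ⟨w, -, hw, e⟩ := step_high g h (by omega)
    exact ⟨w⁻¹, by rwa [pow_one], 1, by rw [e, iterate_map_one]; simp⟩
  | @trans k k' p q r β β' h h' ih ih' =>
    obtain ⟨h1, -, h2⟩ := wk_lev g h
    obtain ⟨w, hw, γ, e⟩ := ih (by omega)
    obtain ⟨w', hw', γ', e'⟩ := ih' (by omega)
    rw [h1] at e'
    refine ⟨w' * w, ?_, γ * γ', ?_⟩
    · rw [add_comm, pow_add]; exact Finset.mul_mem_mul hw' hw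
    · have hc : ∀ (x : Γ) (j : ℤ), g.z ^ j * x = x * g.z ^ j := fun x j =>
        ((show Commute x g.z from g.cen x).zpow_right j).eq.symm
      rw [e', e, iterate_map_mul, mul_add _ β, zpow_add]
      simp only [mul_assoc]
      rw [← mul_assoc (g.z ^ _), hc, mul_assoc]

end GeoC

open scoped Pointwise in
theorem wk_closed (R : ℕ) : ∃ D : ℕ, 0 < D ∧ ∃ n0 : ℕ, ∀ n, n0 ≤ n → ∀ (k : ℕ) (p : Lev × GG Γ)
    (β : ℤ), k ≤ R → p.1.1.1 = n → g.Wk k p p β → (MM n : ℤ) ∣ D * β := by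
  choose D hD n0 hn0 using g.free
  refine ⟨2 ^ (2 * R) * ∏ w ∈ GeoC.AA g ^ R, D w⁻¹,
    mul_pos (by positivity) (Finset.prod_pos fun w _ => hD _),
    2 * R + (GeoC.AA g ^ R).sup fun w => n0 w⁻¹, fun n hn k p β hk hp h => ?_⟩
  subst hp
  push_cast
  by_cases hl : 4 * (p.1.1.1 + 3) + 1 + k ≤ p.1.1.2
  · obtain ⟨w, hw, γ, e⟩ := GeoC.wk_high g h hl
    have hw' : w ∈ GeoC.AA g ^ R :=
      Finset.pow_subset_pow_right (Finset.mem_insert_self _ _) hk hw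
    have h1 : n0 w⁻¹ ≤ p.1.1.1 + 3 := by
      have : n0 w⁻¹ ≤ (GeoC.AA g ^ R).sup fun w => n0 w⁻¹ :=
        Finset.le_sup (f := fun w => n0 w⁻¹) hw'
      omega
    have h2 := hn0 w⁻¹ _ h1 p.2.1 (-β) ⟨γ, by
      rw [mul_neg, zpow_neg, eq_mul_inv_iff_mul_eq, mul_assoc, eq_inv_mul_iff_mul_eq,
        eq_inv_mul_iff_mul_eq]
      simp only [← mul_assoc]
      exact e.symm⟩
    rw [mul_neg, dvd_neg] at h2
    have h3 : (D w⁻¹ : ℤ) ∣ ∏ w ∈ GeoC.AA g ^ R, (D w⁻¹ : ℤ) :=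
      Finset.dvd_prod_of_mem (fun w => (D w⁻¹ : ℤ)) hw'
    have h4 : (MM p.1.1.1 : ℤ) = 4 ^ (p.1.1.1 + 3) := by unfold MM; push_cast; rfl
    rw [h4]
    exact h2.trans (mul_dvd_mul_right (h3.mul_left _) β)
  · obtain ⟨ε, he, hd⟩ := GeoC.wk_low g h (4 * (p.1.1.1 + 3) + 1 + 2 * R) (by omega)
    have h1 := GeoC.wk_dvd g h
    have hL : (LL p.1.1.1 : ℤ) = 2 ^ (p.1.1.1 + 3) := by unfold LL; push_cast; rfl
    have e1 : topL p.1.1.1 - (4 * (p.1.1.1 + 3) + 1 + 2 * R) = 2 * (p.1.1.1 + 3) - 2 * R := by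
      unfold topL; omega
    rw [e1, sub_self, zero_sub] at hd
    rw [hL] at h1
    have h2 : (2 : ℤ) ^ (p.1.1.1 + 3) ∣ -β - ε := (pow_dvd_pow _ (by omega)).trans hd
    have h3 : (2 : ℤ) ^ (p.1.1.1 + 3) ∣ ε := by
      have := dvd_sub (dvd_neg.2 h1) h2
      rwa [sub_sub_cancel] at this
    have h4 : ε = 0 := by
      refine Int.eq_zero_of_abs_lt_dvd h3 (he.trans_lt ?_)
      have : k < 2 ^ (p.1.1.1 + 3) := lt_of_le_of_lt (by omega) Nat.lt_two_pow_self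
      exact_mod_cast this
    rw [h4, sub_zero, dvd_neg] at hd
    have h5 : (MM p.1.1.1 : ℤ) = 2 ^ (2 * R) * 2 ^ (2 * (p.1.1.1 + 3) - 2 * R) := by
      unfold MM
      push_cast
      rw [← pow_add, show (4 : ℤ) = 2 ^ 2 by norm_num, ← pow_mul]
      congr 1; omega
    rw [h5, mul_assoc]
    exact mul_dvd_mul_left _ (hd.mul_left _)

end Vale.Agent.P212.GD
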