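import Vale.Agent.P212.Base

/-
The tower of coset spaces and the graph.
-/

noncomputable section

namespace Vale.Agent.P212

open scoped Classical
open Multiplicative

/-- The top level. -/
def topL (n : ℕ) : ℕ := 6 * (n + 3) + 1

/-- The type of the step from level `l` to level `l + 1`. -/
def typL (n l : ℕ) : Fin 3 := if l = n + 3 then 1 else if l < 4 * (n + 3) + 1 then 0 else 2

/-- The width of the extra identification. -/
def wd (n l : ℕ) : ℤ := if l ≤ 4 * (n + 3) + 1 then 0 else 2 ^ (topL n - l)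

/-- Pieces and levels. -/
abbrev Lev : Type := {p : ℕ × ℕ // p.2 ≤ topL p.1}

/-- The group acting on all levels. -/
abbrev GG (Γ : Type) : Type := Γ × Multiplicative ℤ

/-- Levelwise cosets. -/
def lset {G : Type} [Group G] (Θ : ℕ → ℕ → Subgroup G) : Setoid (Lev × G) where
  r a b := a.1 = b.1 ∧ a.2⁻¹ * b.2 ∈ Θ a.1.1.1 a.1.1.2
  iseqv :=
    { refl := fun a => ⟨rfl, by simp⟩
      symm := fun {a b} h => ⟨h.1.symm, by
        have := (Θ _ _).inv_mem h.2
        rw [← h.1]; simpa using this⟩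
      trans := fun {a b c} h h' => ⟨h.1.trans h'.1, by
        have := (Θ _ _).mul_mem h.2 (h.1 ▸ h'.2)
        simpa [mul_assoc] using this⟩ }

/-- The disjoint union of the coset spaces. -/
def Cos {G : Type} [Group G] (Θ : ℕ → ℕ → Subgroup G) : Type := Quotient (lset Θ)

/-- The class of a point. -/
def Cos.mk {G : Type} [Group G] (Θ : ℕ → ℕ → Subgroup G) (p : Lev × G) : Cos Θ :=
  Quotient.mk (lset Θ) p

theorem Cos.mk_eq {G : Type} [Group G] {Θ : ℕ → ℕ → Subgroup G} {p q : Lev × G} :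
    Cos.mk Θ p = Cos.mk Θ q ↔ p.1 = q.1 ∧ p.2⁻¹ * q.2 ∈ Θ p.1.1.1 p.1.1.2 :=
  Quotient.eq (r := lset Θ)

theorem Cos.surj {G : Type} [Group G] {Θ : ℕ → ℕ → Subgroup G} (x : Cos Θ) :
    ∃ p, Cos.mk Θ p = x := Quotient.exists_rep x

/-- The piece and level of a class. -/
def Cos.lv {G : Type} [Group G] {Θ : ℕ → ℕ → Subgroup G} : Cos Θ → Lev :=
  Quotient.lift (s := lset Θ) (fun p => p.1) fun _ _ h => h.1

@[simp] theorem Cos.lv_mk {G : Type} [Group G] {Θ : ℕ → ℕ → Subgroup G} (p : Lev × G) :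
    (Cos.mk Θ p).lv = p.1 := rfl

instance {G : Type} [Group G] (Θ : ℕ → ℕ → Subgroup G) : MulAction G (Cos Θ) where
  smul g := Quotient.map (sa := lset Θ) (sb := lset Θ) (fun p => (p.1, g * p.2)) fun _ _ h =>
    ⟨h.1, by simpa [mul_assoc] using h.2⟩
  one_smul x := by
    obtain ⟨p, rfl⟩ := Cos.surj x
    exact congrArg (Cos.mk Θ) (Prod.ext rfl (one_mul _))
  mul_smul g h x := by
    obtain ⟨p, rfl⟩ := Cos.surj x
    exact congrArg (Cos.mk Θ) (Prod.ext rfl (mul_assoc _ _ _))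

@[simp] theorem Cos.smul_mk {G : Type} [Group G] {Θ : ℕ → ℕ → Subgroup G} (g : G) (p : Lev × G) :
    g • Cos.mk Θ p = Cos.mk Θ (p.1, g * p.2) := rfl

namespace GD

variable {Γ : Type} [Group Γ] (g : GD Γ)

/-- The shear. -/
def shear : GG Γ →* GG Γ where
  toFun p := (p.1 * g.z ^ toAdd p.2, p.2)
  map_one' := by simp
  map_mul' p q := by
    have h : Commute q.1 (g.z ^ toAdd p.2) := (show Commute q.1 g.z from g.cen _).zpow_right _
    refine Prod.ext ?_ rfl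
    simp only [Prod.fst_mul, Prod.snd_mul, toAdd_mul, zpow_add, mul_assoc]
    rw [← mul_assoc q.1, h.eq, mul_assoc]

/-- The three endomorphisms. -/
def Ψ : Fin 3 → (GG Γ →* GG Γ) :=
  ![g.φ.prodMap (MonoidHom.id _), g.shear, MonoidHom.id _]

/-- The stabilisers in the tower. -/
def Θ (n : ℕ) : ℕ → Subgroup (GG Γ)
  | 0 => (⊤ : Subgroup Γ).prod (Subgroup.zpowers (ofAdd (LL n : ℤ)))
  | l + 1 => (Θ n l).map (g.Ψ (typL n l))

/-- The stabilisers in the space. -/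
def Θ' (n l : ℕ) : Subgroup (GG Γ) := g.Θ n l ⊔ Subgroup.zpowers (1, ofAdd (wd n l))

/-- The tower. -/
abbrev YY : Type := Cos g.Θ

/-- The space. -/
def XX : Type := Cos g.Θ'

/-- Points of the space. -/
def mkX (p : Lev × GG Γ) : g.XX := Cos.mk g.Θ' p

/-- The piece of a point. -/
def comp (x : g.XX) : ℕ := (Cos.lv x).1.1

instance : MulAction Γ g.YY := MulAction.compHom _ (MonoidHom.inl Γ (Multiplicative ℤ))

/-- The projection. -/
def pr : g.YY → g.XX :=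
  Quotient.map (sa := lset g.Θ) (sb := lset g.Θ') id fun _ _ h =>
    ⟨h.1, (le_sup_left : g.Θ _ _ ≤ _) h.2⟩

/-- The move to the next level. -/
def upP (p : Lev × GG Γ) : Lev × GG Γ :=
  if h : p.1.1.2 < topL p.1.1.1 then (⟨(p.1.1.1, p.1.1.2 + 1), h⟩, g.Ψ (typL p.1.1.1 p.1.1.2) p.2)
  else p

/-- The vertical map. -/
def up : g.YY → g.YY :=
  Quotient.map (sa := lset g.Θ) (sb := lset g.Θ) g.upP fun p q h => by
    obtain ⟨l, a⟩ := p
    obtain ⟨l', b⟩ := q
    obtain ⟨h1, h2⟩ := h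
    obtain rfl : l = l' := h1
    unfold upP
    split_ifs with h
    · refine ⟨rfl, ?_⟩
      exact ⟨a⁻¹ * b, h2, by simp⟩
    · exact ⟨rfl, h2⟩

/-- The elementary moves. -/
def Step (p q : Lev × GG Γ) : Prop :=
  (∃ s ∈ g.S, q = (p.1, (s, 1) * p.2)) ∨ q = (p.1, (1, ofAdd 1) * p.2) ∨ q = g.upP p

/-- The graph. -/
def Gr : SimpleGraph g.XX :=
  SimpleGraph.fromRel fun x y => ∃ p q, g.mkX p = x ∧ g.mkX q = y ∧ g.Step p q

/-- The truncated graph distance. -/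
def dn (x y : g.XX) : ℕ := (min (g.Gr.edist x y) ((g.comp x + g.comp y + 1 : ℕ) : ℕ∞)).toNat

/-- The loops in the tower. -/
def lft (n : ℕ) (c : ZMod (LL n)) : g.YY :=
  Cos.mk g.Θ (⟨(n, 0), Nat.zero_le _⟩, (1, ofAdd (c.val : ℤ)))

/-- Labelled walks: cost, endpoints, and total shift. -/
inductive Wk : ℕ → Lev × GG Γ → Lev × GG Γ → ℤ → Prop
  | base (l : Lev) (a θ : GG Γ) (i : ℤ) : θ ∈ g.Θ l.1.1 l.1.2 →
      Wk 0 (l, a) (l, a * θ * (1, ofAdd (wd l.1.1 l.1.2 * i))) (toAdd θ.2)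
  | fwd (p q : Lev × GG Γ) : g.Step p q → Wk 1 p q 0
  | bwd (p q : Lev × GG Γ) : g.Step p q → Wk 1 q p 0
  | trans {k k' : ℕ} {p q r : Lev × GG Γ} {β β' : ℤ} : Wk k p q β → Wk k' q r β' →
      Wk (k + k') p r (β + β')

end GD

end Vale.Agent.P212
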