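import Vale.Agent.P212.GeoB

/- Finiteness and bounded geometry. -/

noncomputable section

namespace Vale.Agent.P212.GD

open scoped Classical
open Multiplicative

variable {Γ : Type} [Group Γ] (g : GD Γ)

theorem GeoF.prod_fin {A B : Type} [Group A] [Group B] {H : Subgroup A} {K : Subgroup B}
    (hH : H.FiniteIndex) (hK : K.FiniteIndex) : (H.prod K).FiniteIndex :=
  ⟨by rw [Subgroup.index_prod]; exact mul_ne_zero hH.1 hK.1⟩

theorem GeoF.range_fin (θ : Fin 3) : (g.Ψ θ).range.FiniteIndex := by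
  have h0 : (g.φ.range.prod (⊤ : Subgroup (Multiplicative ℤ))).FiniteIndex :=
    GeoF.prod_fin g.fin inferInstance
  refine Subgroup.finiteIndex_of_le (H := g.φ.range.prod ⊤) ?_
  rintro ⟨a, k⟩ h
  fin_cases θ
  · obtain ⟨b, hb⟩ := (Subgroup.mem_prod.1 h).1
    exact ⟨(b, k), Prod.ext hb rfl⟩
  · exact ⟨(a * (g.z ^ toAdd k)⁻¹, k), Prod.ext (inv_mul_cancel_right _ _) rfl⟩
  · exact ⟨(a, k), rfl⟩

theorem Θ_fin (n l : ℕ) : (g.Θ n l).FiniteIndex := by
  induction l with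
  | zero =>
    have : (Subgroup.zpowers (ofAdd (LL n : ℤ))).FiniteIndex := by
      refine ⟨?_⟩
      have h1 : (Subgroup.zpowers (ofAdd (LL n : ℤ))).index =
          (AddSubgroup.zmultiples (LL n : ℤ)).index := rfl
      rw [h1, Int.index_zmultiples, Int.natAbs_natCast]
      exact NeZero.ne _
    exact GeoF.prod_fin inferInstance this
  | succ l ih =>
    refine ⟨?_⟩
    show ((g.Θ n l).map (g.Ψ (typL n l))).index ≠ 0
    rw [Subgroup.index_map_of_injective _ (g.Ψ_inj _)]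
    exact mul_ne_zero ih.1 (GeoF.range_fin g _).1

theorem compY_fin (n : ℕ) : {y : g.YY | g.comp (g.pr y) = n}.Finite := by
  have hf : ∀ l : Fin (topL n + 1), (Set.range fun q : GG Γ ⧸ g.Θ n l =>
      (Cos.mk g.Θ (⟨(n, l), Nat.le_of_lt_succ l.2⟩, q.out) : g.YY)).Finite := fun l => by
    have := g.Θ_fin n l
    exact Set.finite_range _
  refine (Set.finite_iUnion hf).subset fun y hy => ?_
  obtain ⟨⟨⟨⟨m, l⟩, hl⟩, a⟩, rfl⟩ := Cos.surj y
  obtain rfl : m = n := hy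
  refine Set.mem_iUnion.2 ⟨⟨l, Nat.lt_succ_of_le hl⟩, (a : GG Γ ⧸ g.Θ m l), ?_⟩
  refine Cos.mk_eq.2 ⟨rfl, ?_⟩
  exact QuotientGroup.eq.1 (QuotientGroup.out_eq' (a : GG Γ ⧸ g.Θ m l))

theorem pr_surj : Function.Surjective g.pr := fun x => by
  obtain ⟨p, rfl⟩ : ∃ p, g.mkX p = x := Cos.surj x
  exact ⟨Cos.mk g.Θ p, rfl⟩

theorem comp_fin (n : ℕ) : {x : g.XX | g.comp x = n}.Finite := by
  refine ((g.compY_fin n).image g.pr).subset fun x hx => ?_
  obtain ⟨y, rfl⟩ := g.pr_surj x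
  exact ⟨y, hx, rfl⟩

theorem fib_fin (x : g.XX) : {y | g.pr y = x}.Finite :=
  (g.compY_fin (g.comp x)).subset fun _ hy => congrArg g.comp hy

theorem GeoF.reach {N : ℕ} (hN : ∀ x : g.XX, {y | g.Gr.Adj x y}.encard ≤ N) (k : ℕ) (x : g.XX) :
    ∃ s : Finset g.XX, s.card ≤ (N + 1) ^ k ∧ ∀ y (w : g.Gr.Walk x y), w.length ≤ k → y ∈ s := by
  induction k generalizing x with
  | zero =>
    refine ⟨{x}, by simp, fun y w hw => ?_⟩
    cases w with
    | nil => simp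
    | cons h w => simp at hw
  | succ k ih =>
    choose s hs1 hs2 using ih
    have hfin : {y | g.Gr.Adj x y}.Finite := Set.finite_of_encard_le_coe (hN x)
    have hc : hfin.toFinset.card ≤ N := by
      have := hN x
      rw [hfin.encard_eq_coe_toFinset_card] at this
      exact_mod_cast this
    refine ⟨insert x (hfin.toFinset.biUnion s), ?_, fun y w hw => ?_⟩
    · refine (Finset.card_insert_le _ _).trans ?_
      have h1 : (hfin.toFinset.biUnion s).card ≤ hfin.toFinset.card * (N + 1) ^ k :=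
        Finset.card_biUnion_le_card_mul _ _ _ fun y _ => hs1 y
      have h2 : hfin.toFinset.card * (N + 1) ^ k ≤ N * (N + 1) ^ k := Nat.mul_le_mul_right _ hc
      have h3 : 1 ≤ (N + 1) ^ k := Nat.one_le_pow _ _ (Nat.succ_pos N)
      rw [pow_succ, mul_add, mul_one, mul_comm ((N + 1) ^ k) N]
      omega
    · cases w with
      | nil => simp
      | cons h w =>
        refine Finset.mem_insert_of_mem (Finset.mem_biUnion.2 ⟨_, hfin.mem_toFinset.2 h, ?_⟩)
        exact hs2 _ _ w (by simpa using hw)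

theorem bg : BddGeom g.XX := by
  intro R
  obtain ⟨N, hN⟩ := g.degree
  have hf : {y : g.XX | g.comp y ≤ ⌊R⌋₊}.Finite := by
    refine (Set.Finite.biUnion (Set.finite_le_nat ⌊R⌋₊) fun n _ => g.comp_fin n).subset
      fun y hy => ?_
    exact Set.mem_biUnion (x := g.comp y) hy rfl
  refine ⟨(N + 1) ^ ⌊R⌋₊ + hf.toFinset.card, fun x => ?_⟩
  obtain ⟨s, hs1, hs2⟩ := GeoF.reach g hN ⌊R⌋₊ x
  refine le_trans (Set.encard_le_encard (t := ((s ∪ hf.toFinset : Finset g.XX) : Set g.XX)) ?_) ?_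
  · intro y hy
    have h1 : dist x y ≤ R := by rw [dist_comm]; exact hy
    rcases g.walk_or h1 with ⟨w, hw⟩ | h
    · exact Finset.mem_union_left _ (hs2 y w (Nat.le_floor hw))
    · exact Finset.mem_union_right _ (hf.mem_toFinset.2 (Nat.le_floor h))
  · rw [Set.encard_coe_eq_coe_finsetCard]
    exact_mod_cast (Finset.card_union_le _ _).trans (Nat.add_le_add_right hs1 _)

theorem GeoF.fib_equiv (x : g.XX) : ∃ e : {y // g.pr y = x} × ℕ ≃ ℕ,
    Subsingleton {y // g.pr y = x} → ∀ y j, e (y, j) = j := by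
  obtain ⟨y0, hy0⟩ := g.pr_surj x
  have h1 : Nonempty {y // g.pr y = x} := ⟨⟨y0, hy0⟩⟩
  by_cases h : Subsingleton {y // g.pr y = x}
  · let u : Unique {y // g.pr y = x} := ⟨⟨⟨y0, hy0⟩⟩, fun _ => Subsingleton.elim _ _⟩
    exact ⟨Equiv.uniqueProd ℕ _, fun _ _ _ => rfl⟩
  · have h2 : Finite {y // g.pr y = x} := (g.fib_fin x).to_subtype
    obtain ⟨e⟩ : Nonempty ({y // g.pr y = x} × ℕ ≃ ℕ) := nonempty_equiv_of_countable
    exact ⟨e, fun h' => absurd h' h⟩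

theorem GeoF.fib_zero (y : g.YY) (h : (Cos.lv y).1.2 = 0) :
    Subsingleton {y' // g.pr y' = g.pr y} := by
  have key : ∀ y' : g.YY, g.pr y = g.pr y' → y = y' := by
    intro y' hy
    obtain ⟨p, rfl⟩ := Cos.surj y
    obtain ⟨q, rfl⟩ := Cos.surj y'
    have h1 : Cos.mk g.Θ' p = Cos.mk g.Θ' q := hy
    obtain ⟨h2, h3⟩ := Cos.mk_eq.1 h1
    refine Cos.mk_eq.2 ⟨h2, ?_⟩
    obtain ⟨θ, hθ, i, hi⟩ := g.mem_Θ'.1 h3
    have h4 : p.1.1.2 = 0 := h
    rw [GeoB.wd_zero (by omega), zero_mul] at hi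
    rw [hi]
    exact mul_mem hθ (one_mem _)
  exact ⟨fun a b => Subtype.ext ((key _ a.2.symm).symm.trans (key _ b.2.symm))⟩

theorem exists_slot : ∃ slot : g.YY × ℕ ≃ g.XX × ℕ, (∀ ω, (slot ω).1 = g.pr ω.1) ∧
    ∀ y j, (Cos.lv y).1.2 = 0 → slot (y, j) = (g.pr y, j) := by
  choose e he using GeoF.fib_equiv g
  refine ⟨⟨fun ω => (g.pr ω.1, e (g.pr ω.1) (⟨ω.1, rfl⟩, ω.2)),
    fun ξ => (((e ξ.1).symm ξ.2).1.1, ((e ξ.1).symm ξ.2).2), fun ω => ?_, fun ξ => ?_⟩,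
    fun _ => rfl, fun y j h => ?_⟩
  · simp
  · obtain ⟨x, m⟩ := ξ
    have key : ∀ q : {y // g.pr y = x} × ℕ, e x q = m →
        (g.pr q.1.1, e (g.pr q.1.1) (⟨q.1.1, rfl⟩, q.2)) = (x, m) := by
      rintro ⟨⟨y, hy⟩, j⟩ hq
      subst hy
      exact Prod.ext rfl hq
    exact key _ ((e x).apply_symm_apply m)
  · exact Prod.ext rfl (he _ (GeoF.fib_zero g y h) _ _)

end Vale.Agent.P212.GD
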