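import Vale.Agent.P212.GeoF
import Vale.Agent.P212.GeoC

/- The loops and the cocycle. -/

noncomputable section

namespace Vale.Agent.P212.GD

open scoped Classical
open Multiplicative

variable {Γ : Type} [Group Γ] (g : GD Γ)

theorem wk_symm {k : ℕ} {p q : Lev × GG Γ} {β : ℤ} (h : g.Wk k p q β) : g.Wk k q p (-β) := by
  induction h with
  | base l a θ i hθ =>
    have h := Wk.base (g := g) l (a * θ * (1, ofAdd (wd l.1.1 l.1.2 * i))) θ⁻¹ (-i) (inv_mem hθ)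
    have e : a * θ * (1, ofAdd (wd l.1.1 l.1.2 * i)) * θ⁻¹ * (1, ofAdd (wd l.1.1 l.1.2 * -i))
        = a := by
      refine Prod.ext (by simp) (toAdd.injective ?_)
      simp only [Prod.snd_mul, Prod.snd_inv, toAdd_mul, toAdd_inv, toAdd_ofAdd]
      ring
    rw [e] at h
    exact h
  | fwd p q h => exact Wk.bwd p q h
  | bwd p q h => exact Wk.fwd p q h
  | trans _ _ ih ih' =>
    rw [add_comm, neg_add_rev]
    exact Wk.trans ih' ih

private theorem wk_of_eq {p q : Lev × GG Γ} (h : g.mkX p = g.mkX q) :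
    ∃ β, g.Wk 0 p q β ∧ (p.1.1.2 = 0 → β = toAdd q.2.2 - toAdd p.2.2) := by
  obtain ⟨l, a⟩ := p
  obtain ⟨l', b⟩ := q
  obtain ⟨h1, h2⟩ := Cos.mk_eq.1 h
  obtain rfl : l = l' := h1
  obtain ⟨θ, hθ, i, e⟩ := g.mem_Θ'.1 h2
  obtain rfl : b = a * θ * (1, ofAdd (wd l.1.1 l.1.2 * i)) := by
    rw [mul_assoc]
    exact inv_mul_eq_iff_eq_mul.1 e
  refine ⟨_, Wk.base l a θ i hθ, fun h0 => ?_⟩
  have h0' : l.1.2 = 0 := h0
  simp [wd, h0']

theorem wk_of_walk {x y : g.XX} (w : g.Gr.Walk x y) (p q : Lev × GG Γ) (hp : g.mkX p = x)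
    (hq : g.mkX q = y) : ∃ β, g.Wk w.length p q β := by
  induction w generalizing p with
  | nil =>
    obtain ⟨β, h, -⟩ := g.wk_of_eq (hp.trans hq.symm)
    exact ⟨β, h⟩
  | cons h w ih =>
    rw [SimpleGraph.Walk.length_cons, add_comm, ← zero_add 1]
    rcases ((SimpleGraph.fromRel_adj _ _ _).1 h).2 with ⟨a, b, ha, hb, hs⟩ | ⟨a, b, ha, hb, hs⟩
    · obtain ⟨β, h1, -⟩ := g.wk_of_eq (hp.trans ha.symm)
      obtain ⟨β', h2⟩ := ih b hb hq
      exact ⟨_, (h1.trans (Wk.fwd a b hs)).trans h2⟩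
    · obtain ⟨β, h1, -⟩ := g.wk_of_eq (hp.trans hb.symm)
      obtain ⟨β', h2⟩ := ih a ha hq
      exact ⟨_, (h1.trans (Wk.bwd a b hs)).trans h2⟩

theorem loop_inj (n : ℕ) : Function.Injective fun c => g.pr (g.lft n c) := by
  intro c c' h
  obtain ⟨θ, hθ, i, e⟩ := g.mem_Θ'.1 (Cos.mk_eq (Θ := g.Θ').1 h).2
  have h1 := g.dvd_of_mem_Θ hθ
  have h2 := congrArg (fun a : GG Γ => toAdd a.2) e
  simp only [id, Prod.snd_mul, Prod.snd_inv, toAdd_mul, toAdd_inv, toAdd_ofAdd, wd, Nat.zero_le,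
    if_true, zero_mul, add_zero] at h1 h2
  rw [← h2, ← ZMod.intCast_zmod_eq_zero_iff_dvd] at h1
  push_cast at h1
  rw [ZMod.natCast_zmod_val, ZMod.natCast_zmod_val] at h1
  exact neg_add_eq_zero.1 h1

theorem S_lft (n : ℕ) (c : ZMod (LL n)) :
    (((1 : Γ), ofAdd (1 : ℤ)) : GG Γ) • g.lft n c = g.lft n (c + 1) := by
  rw [lft, lft, Cos.smul_mk, Cos.mk_eq]
  refine ⟨rfl, Subgroup.mem_prod.2 ⟨Subgroup.mem_top _, ?_⟩⟩
  have h : (LL n : ℤ) ∣ -(1 + (c.val : ℤ)) + ((c + 1).val : ℤ) := by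
    rw [← ZMod.intCast_zmod_eq_zero_iff_dvd]
    push_cast
    rw [ZMod.natCast_zmod_val, ZMod.natCast_zmod_val]
    ring
  obtain ⟨m, hm⟩ := h
  refine ⟨m, toAdd.injective ?_⟩
  simp only [Prod.snd_mul, Prod.snd_inv, toAdd_mul, toAdd_inv, toAdd_ofAdd, toAdd_zpow, hm,
    zsmul_eq_mul, Int.cast_id]
  exact mul_comm _ _

theorem loop_dist (n : ℕ) (c : ZMod (LL n)) :
    dist (g.pr (g.lft n c)) (g.pr (g.lft n (c + 1))) ≤ 1 := by
  rw [← g.S_lft]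
  exact g.dist_step (p := (⟨(n, 0), Nat.zero_le _⟩, (1, ofAdd (c.val : ℤ)))) (Or.inr (Or.inl rfl))

/-- The space. -/
def spc : Spc g.XX where
  ud := g.ud
  bg := g.bg
  comp := g.comp
  comp_fin := g.comp_fin
  comp_far := g.comp_far
  loop n c := g.pr (g.lft n c)
  loop_inj := g.loop_inj
  loop_comp _ _ := rfl
  loop_dist := g.loop_dist

theorem coc : g.spc.Coc := by
  intro r hr
  obtain ⟨D, hD, n0, h⟩ := g.wk_closed ⌈3 * r⌉₊
  refine ⟨D, hD, max n0 ⌈r⌉₊, fun n hn => ?_⟩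
  have hrn : r ≤ n := Nat.ceil_le.1 ((le_max_right _ _).trans hn)
  replace h := h n ((le_max_left _ _).trans hn)
  have hs : ∀ x : g.XX, ∃ p, g.mkX p = x := fun x => Cos.surj x
  choose out hout using hs
  have hc : ∀ x, (out x).1.1.1 = g.comp x := fun x => by
    conv_rhs => rw [← hout x]
    rfl
  have key : ∀ x y : g.XX, ∃ β : ℤ, (∃ (k : ℕ) (β' : ℤ), (k : ℝ) ≤ r ∧ g.Wk k (out x) (out y) β') →
      ∃ k : ℕ, (k : ℝ) ≤ r ∧ g.Wk k (out x) (out y) β := fun x y => by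
    by_cases hx : ∃ (k : ℕ) (β' : ℤ), (k : ℝ) ≤ r ∧ g.Wk k (out x) (out y) β'
    · obtain ⟨k, β, hk⟩ := hx
      exact ⟨β, fun _ => ⟨k, hk⟩⟩
    · exact ⟨0, fun h => absurd h hx⟩
  choose β hβ using key
  have hw : ∀ x y : g.XX, g.comp x = n → dist x y ≤ r →
      ∃ k : ℕ, (k : ℝ) ≤ r ∧ g.Wk k (out x) (out y) (β x y) := fun x y hx hd => by
    obtain ⟨w, hw⟩ := g.walk_of_dist hd (hx ▸ hrn)
    obtain ⟨b, hb⟩ := g.wk_of_walk w _ _ (hout x) (hout y)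
    exact hβ x y ⟨_, b, hw, hb⟩
  have hR : ∀ k : ℕ, (k : ℝ) ≤ 3 * r → k ≤ ⌈3 * r⌉₊ := fun k hk => by
    exact_mod_cast hk.trans (Nat.le_ceil _)
  refine ⟨fun x y => ((D * (toAdd (out y).2.2 - toAdd (out x).2.2 - β x y) : ℤ) : ZMod (MM n)),
    fun x y z hx hy _ d1 d2 d3 => ?_, fun i => ?_⟩
  · obtain ⟨k1, a1, b1⟩ := hw x y hx d1
    obtain ⟨k2, a2, b2⟩ := hw y z hy d2
    obtain ⟨k3, a3, b3⟩ := hw x z hx d3
    have := (ZMod.intCast_zmod_eq_zero_iff_dvd _ _).2 (h _ _ _ (hR _ (by push_cast; linarith))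
      ((hc x).trans hx) ((b1.trans b2).trans (g.wk_symm b3)))
    push_cast at this ⊢
    linear_combination -this
  · obtain ⟨k, a1, b1⟩ := hw (g.spc.loop n i) (g.spc.loop n (i + 1)) rfl
      ((g.loop_dist n i).trans hr)
    obtain ⟨p, hp⟩ : ∃ p : Lev × GG Γ, p = (⟨(n, 0), Nat.zero_le _⟩, (1, ofAdd (i.val : ℤ))) :=
      ⟨_, rfl⟩
    have e1 : g.mkX p = g.mkX (out (g.spc.loop n i)) := by
      rw [hout, hp]
      rfl
    have e2 : g.mkX (p.1, (1, ofAdd 1) * p.2) = g.mkX (out (g.spc.loop n (i + 1))) := by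
      rw [hout, hp]
      exact congrArg g.pr (g.S_lft n i)
    obtain ⟨β1, w1, c1⟩ := g.wk_of_eq e1
    obtain ⟨β2, w2, c2⟩ := g.wk_of_eq e2
    have c1 := c1 (by rw [hp])
    have c2 := c2 (by rw [hp])
    have w3 := ((g.wk_symm w1).trans (Wk.fwd p _ (Or.inr (Or.inl rfl)))).trans w2
    have := (ZMod.intCast_zmod_eq_zero_iff_dvd _ _).2 (h _ _ _ (hR _ (by push_cast; linarith))
      (hc _) (b1.trans (g.wk_symm w3)))
    simp only [Prod.snd_mul, toAdd_mul, toAdd_ofAdd] at c2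
    rw [c1, c2] at this
    push_cast at this ⊢
    linear_combination -this

end Vale.Agent.P212.GD
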