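import Vale.Agent.P212.GeoA

/- The vertical maps. -/

noncomputable section

namespace Vale.Agent.P212.GD

open scoped Classical
open Multiplicative

variable {Γ : Type} [Group Γ] (g : GD Γ)

/-- The endomorphisms of the first factor. -/
def ψ : Fin 3 → (Γ →* Γ) := ![g.φ, MonoidHom.id _, MonoidHom.id _]

/-- The central corrections. -/
def gc : Fin 3 → Γ := ![1, g.z⁻¹, 1]

theorem GeoU_tr (f : Γ →* Γ) (hf : f.range.FiniteIndex) : ∃ T : Finset Γ, IsTr f T := by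
  have := Fintype.ofFinite (Γ ⧸ f.range)
  refine ⟨Finset.univ.image fun q : Γ ⧸ f.range => q.out, fun a => ?_, ?_⟩
  · obtain ⟨⟨_, l, rfl⟩, hl⟩ := QuotientGroup.mk_out_eq_mul f.range a
    exact ⟨_, Finset.mem_image_of_mem _ (Finset.mem_univ (a : Γ ⧸ f.range)), l⁻¹, by
      rw [hl]; simp⟩
  · intro t ht t' ht' l l' e
    obtain ⟨q, -, rfl⟩ := Finset.mem_image.1 ht
    obtain ⟨q', -, rfl⟩ := Finset.mem_image.1 ht'
    have h1 := congrArg (fun a : Γ => (a : Γ ⧸ f.range)) e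
    simp only [QuotientGroup.mk_mul_of_mem _ (show f l ∈ f.range from ⟨l, rfl⟩),
      QuotientGroup.mk_mul_of_mem _ (show f l' ∈ f.range from ⟨l', rfl⟩),
      QuotientGroup.out_eq'] at h1
    rw [h1]

theorem GeoU_smul (a : Γ) (p : Lev × GG Γ) :
    a • (Cos.mk g.Θ p : g.YY) = Cos.mk g.Θ (p.1, (a, 1) * p.2) := rfl

theorem GeoU_up (l : Lev) (a : GG Γ) (h : l.1.2 < topL l.1.1) :
    g.up (Cos.mk g.Θ (l, a)) =
      Cos.mk g.Θ (⟨(l.1.1, l.1.2 + 1), h⟩, g.Ψ (typL l.1.1 l.1.2) a) :=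
  congrArg (Cos.mk g.Θ) (dif_pos h)

theorem GeoU_Ψ (θ : Fin 3) (p : GG Γ) :
    g.Ψ θ p = (g.ψ θ p.1 * (g.gc θ)⁻¹ ^ toAdd p.2, p.2) := by
  fin_cases θ
  · simp [Ψ, ψ, gc, Prod.map]
  · simp [Ψ, ψ, gc, shear]
  · simp [Ψ, ψ, gc]

theorem GeoU_pr (p : Lev × GG Γ) : g.pr (Cos.mk g.Θ p) = g.mkX p := rfl

theorem exists_tr (θ : Fin 3) : ∃ T : Finset Γ, IsTr (g.ψ θ) T := by
  have h : (MonoidHom.id Γ).range.FiniteIndex := by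
    rw [MonoidHom.range_eq_top.2 Function.surjective_id]
    infer_instance
  fin_cases θ
  · exact GeoU_tr _ g.fin
  · exact GeoU_tr _ h
  · exact GeoU_tr _ h

theorem up_smul (a : Γ) (y : g.YY) (h : (Cos.lv y).1.2 < topL (Cos.lv y).1.1) :
    g.up (a • y) = g.ψ (typL (Cos.lv y).1.1 (Cos.lv y).1.2) a • g.up y := by
  obtain ⟨⟨l, b⟩, rfl⟩ := Cos.surj y
  rw [Cos.lv_mk] at h ⊢
  rw [GeoU_smul, GeoU_up g _ _ h, GeoU_up g _ _ h, GeoU_smul, map_mul, GeoU_Ψ g _ (a, 1)]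
  simp

theorem S_up (y : g.YY) (h : (Cos.lv y).1.2 < topL (Cos.lv y).1.1) :
    (((1 : Γ), ofAdd (1 : ℤ)) : GG Γ) • g.up y =
      g.gc (typL (Cos.lv y).1.1 (Cos.lv y).1.2) •
        g.up ((((1 : Γ), ofAdd (1 : ℤ)) : GG Γ) • y) := by
  obtain ⟨⟨l, b⟩, rfl⟩ := Cos.surj y
  rw [Cos.lv_mk] at h ⊢
  rw [Cos.smul_mk, GeoU_up g _ _ h, GeoU_up g _ _ h, GeoU_smul, Cos.smul_mk, map_mul,
    GeoU_Ψ g _ (1, ofAdd 1), ← mul_assoc]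
  simp

theorem up_inj (T : Fin 3 → Finset Γ) (hT : ∀ θ, IsTr (g.ψ θ) (T θ)) (y y' : g.YY)
    (h : (Cos.lv y).1.2 < topL (Cos.lv y).1.1) (h' : (Cos.lv y').1.2 < topL (Cos.lv y').1.1)
    (t : Γ) (ht : t ∈ T (typL (Cos.lv y).1.1 (Cos.lv y).1.2)) (t' : Γ)
    (ht' : t' ∈ T (typL (Cos.lv y').1.1 (Cos.lv y').1.2)) (e : t • g.up y = t' • g.up y') :
    t = t' ∧ y = y' := by
  obtain ⟨⟨⟨⟨n, l⟩, hl⟩, a⟩, rfl⟩ := Cos.surj y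
  obtain ⟨⟨⟨⟨n', l'⟩, hl'⟩, b⟩, rfl⟩ := Cos.surj y'
  rw [Cos.lv_mk] at h h' ht ht'
  rw [GeoU_up g _ _ h, GeoU_up g _ _ h', GeoU_smul, GeoU_smul, Cos.mk_eq] at e
  obtain ⟨e1, e2⟩ := e
  have e3 := congrArg Subtype.val e1
  simp only [Prod.mk.injEq, Nat.add_right_cancel_iff] at e3
  obtain ⟨rfl, rfl⟩ := e3
  obtain ⟨θ, hθ, e4⟩ := e2
  dsimp only at e4 ht ht'
  have e5 : ((t, 1) : GG Γ) * g.Ψ (typL n l) (a * θ * b⁻¹) = (t', 1) := by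
    rw [map_mul, map_mul, map_inv, e4]
    group
  have e6 := e5
  rw [GeoU_Ψ, Prod.mk_mul_mk, Prod.mk.injEq, one_mul] at e6
  obtain ⟨e7, e8⟩ := e6
  rw [e8, toAdd_one, zpow_zero, mul_one] at e7
  obtain rfl : t = t' := (hT _).uniq t ht t' ht' (a * θ * b⁻¹).1 1
    (by rw [map_one, mul_one]; exact e7)
  have e9 : a * θ * b⁻¹ = 1 := g.Ψ_inj _ (by rw [map_one]; exact mul_eq_left.1 e5)
  refine ⟨rfl, Cos.mk_eq.2 ⟨rfl, ?_⟩⟩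
  rw [← mul_inv_eq_one.1 e9]
  simpa using hθ

theorem up_surj (T : Fin 3 → Finset Γ) (hT : ∀ θ, IsTr (g.ψ θ) (T θ)) (y' : g.YY)
    (h : 0 < (Cos.lv y').1.2) : ∃ y : g.YY, (Cos.lv y).1.2 + 1 = (Cos.lv y').1.2 ∧
      (Cos.lv y).1.1 = (Cos.lv y').1.1 ∧
      ∃ t ∈ T (typL (Cos.lv y).1.1 (Cos.lv y).1.2), y' = t • g.up y := by
  obtain ⟨⟨⟨⟨n, l⟩, hl⟩, c, j⟩, rfl⟩ := Cos.surj y'
  rw [Cos.lv_mk] at h ⊢
  obtain ⟨l, rfl⟩ : ∃ m, l = m + 1 := ⟨l - 1, (Nat.sub_add_cancel h).symm⟩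
  obtain ⟨t, ht, a, e⟩ := (hT (typL n l)).ex (c * ((g.gc (typL n l))⁻¹ ^ toAdd j)⁻¹)
  have hl' : l < topL n := hl
  refine ⟨Cos.mk g.Θ (⟨(n, l), hl'.le⟩, (a, j)), rfl, rfl, t, ht, ?_⟩
  rw [GeoU_up g ⟨(n, l), hl'.le⟩ _ hl', GeoU_smul, GeoU_Ψ, Prod.mk_mul_mk, ← mul_assoc, ← e,
    inv_mul_cancel_right, one_mul]

theorem disp_smul (a : Γ) : ∃ R : ℝ, ∀ y : g.YY, dist (g.pr (a • y)) (g.pr y) ≤ R := by
  have ha : a ∈ Subgroup.closure (g.S : Set Γ) := g.gen ▸ Subgroup.mem_top a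
  induction ha using Subgroup.closure_induction with
  | mem s hs =>
    refine ⟨1, fun y => ?_⟩
    obtain ⟨p, rfl⟩ := Cos.surj y
    rw [GeoU_smul, GeoU_pr, GeoU_pr, dist_comm]
    exact g.dist_step (Or.inl ⟨s, hs, rfl⟩)
  | one => exact ⟨0, fun y => by rw [one_smul, dist_self]⟩
  | mul a b _ _ iha ihb =>
    obtain ⟨R, hR⟩ := iha
    obtain ⟨R', hR'⟩ := ihb
    refine ⟨R + R', fun y => ?_⟩
    rw [mul_smul]
    exact (dist_triangle _ _ _).trans (add_le_add (hR _) (hR' y))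
  | inv a _ ih =>
    obtain ⟨R, hR⟩ := ih
    refine ⟨R, fun y => ?_⟩
    have := hR (a⁻¹ • y)
    rwa [smul_inv_smul, dist_comm] at this

end Vale.Agent.P212.GD
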