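import Vale.Agent.P212.GeoL
import Vale.Agent.P212.GeoU

/- The tower satisfies the interface. -/

noncomputable section

namespace Vale.Agent.P212

open scoped Classical
open Multiplicative

theorem exists_sys {Γ : Type} [Group Γ] (g : GD Γ) :
    ∃ (X Y : Type) (_ : MetricSpace X) (_ : MulAction Γ Y) (sp : Spc X),
      sp.Coc ∧ Nonempty (Sys Γ X Y sp) := by
  obtain ⟨slot, hs1, hs2⟩ := g.exists_slot
  choose T hT using g.exists_tr
  have hc : ∀ y : g.YY, g.spc.comp (g.pr y) = (Cos.lv y).1.1 := fun y => by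
    obtain ⟨p, rfl⟩ := Cos.surj y
    rfl
  have hl : ∀ y : g.YY, Cos.lv (g.pr y) = Cos.lv y := fun y => by
    obtain ⟨p, rfl⟩ := Cos.surj y
    rfl
  have hG : ∀ (a : GG Γ) (y : g.YY), Cos.lv (a • y) = Cos.lv y := fun a y => by
    obtain ⟨p, rfl⟩ := Cos.surj y
    rfl
  have hΓ : ∀ (a : Γ) (y : g.YY), Cos.lv (a • y) = Cos.lv y := fun a y => hG (a, 1) y
  refine ⟨g.XX, g.YY, g.met, inferInstance, g.spc, g.coc, ⟨
    { pr := g.pr
      lev := fun y => (Cos.lv y).1.2
      top := topL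
      top_pos := fun n => Nat.succ_pos _
      lev_le := fun y => by rw [hc]; exact (Cos.lv y).2
      fib_fin := g.fib_fin
      slot := slot
      slot_fst := hs1
      slot_zero := hs2
      S := MulAction.toPerm (((1 : Γ), ofAdd (1 : ℤ)) : GG Γ)
      S_smul := fun a y => ?_
      lev_smul := fun a y => by rw [hΓ]
      comp_smul := fun a y => by rw [hc, hc, hΓ]
      lev_S := fun y => by rw [MulAction.toPerm_apply, hG]
      comp_S := fun y => by rw [MulAction.toPerm_apply, hc, hc, hG]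
      disp_smul := g.disp_smul
      disp_S := fun y => ?_
      top_S := fun y hy => ?_
      top_lev := fun y y' e => by rw [← hl y, ← hl y', e]
      lft := g.lft
      pr_lft := fun _ _ => rfl
      lev_lft := fun _ _ => rfl
      S_lft := g.S_lft
      smul_lft := fun a n c => ?_
      lft_surj := fun y hy => ?_
      typ := typL
      ψ := g.ψ
      Tr := T
      tr := hT
      gc := g.gc
      gc_cen := fun θ a => ?_
      up := g.up
      lev_up := fun y hy => ?_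
      comp_up := fun y => ?_
      disp_up := fun y => ?_
      up_smul := fun a y hy => by rw [hc] at hy ⊢; exact g.up_smul a y hy
      S_up := fun y hy => by rw [hc] at hy ⊢; exact g.S_up y hy
      up_inj := fun y y' hy hy' => by
        rw [hc] at hy hy'
        rw [hc, hc]
        exact fun t ht t' ht' e => g.up_inj T hT y y' hy hy' t ht t' ht' e
      up_surj := fun y' hy' => by
        obtain ⟨y, a1, a2, a3⟩ := g.up_surj T hT y' hy'
        exact ⟨y, a1, by rw [hc, hc, a2], by rw [hc]; exact a3⟩ }⟩⟩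
  · obtain ⟨p, rfl⟩ := Cos.surj y
    rw [MulAction.toPerm_apply, MulAction.toPerm_apply, GD.GeoU_smul, Cos.smul_mk, Cos.smul_mk,
      GD.GeoU_smul, ← mul_assoc, ← mul_assoc]
    simp
  · obtain ⟨p, rfl⟩ := Cos.surj y
    rw [MulAction.toPerm_apply, Cos.smul_mk, GD.GeoU_pr, GD.GeoU_pr, dist_comm]
    exact g.dist_step (Or.inr (Or.inl rfl))
  · rw [hc] at hy
    obtain ⟨⟨l, a, j⟩, rfl⟩ := Cos.surj y
    rw [Cos.lv_mk] at hy
    rw [MulAction.toPerm_apply, Cos.smul_mk, GD.GeoU_pr, GD.GeoU_pr]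
    refine Cos.mk_eq.2 ⟨rfl, ?_⟩
    have hw : wd l.1.1 l.1.2 = 1 := by
      dsimp only at hy
      rw [wd, hy, if_neg (by unfold topL; omega), Nat.sub_self, pow_zero]
    refine (le_sup_right : _ ≤ g.Θ' _ _) ?_
    dsimp only
    rw [hw]
    refine Subgroup.mem_zpowers_iff.2 ⟨-1, ?_⟩
    ext <;> simp
  · refine Cos.mk_eq.2 ⟨rfl, ?_⟩
    refine Subgroup.mem_prod.2 ⟨Subgroup.mem_top _, ?_⟩
    simp
  · obtain ⟨⟨⟨⟨n, l⟩, hl'⟩, a, j⟩, rfl⟩ := Cos.surj y
    obtain rfl : l = 0 := hy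
    refine ⟨n, ((toAdd j : ℤ) : ZMod (LL n)), Cos.mk_eq.2 ⟨rfl, ?_⟩⟩
    refine Subgroup.mem_prod.2 ⟨Subgroup.mem_top _, ?_⟩
    have hd : (LL n : ℤ) ∣ (((toAdd j : ℤ) : ZMod (LL n)).val : ℤ) - toAdd j := by
      rw [← ZMod.intCast_zmod_eq_zero_iff_dvd]
      simp
    obtain ⟨i, hi⟩ := hd
    refine Subgroup.mem_zpowers_iff.2 ⟨i, ?_⟩
    apply toAdd.injective
    simp only [toAdd_zpow, toAdd_ofAdd, Prod.snd_mul, Prod.snd_inv, toAdd_mul, toAdd_inv,
      smul_eq_mul]
    linarith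
  · fin_cases θ
    · simp [GD.gc]
    · exact (show Commute a g.z from g.cen a).inv_right.eq
    · simp [GD.gc]
  · rw [hc] at hy
    obtain ⟨⟨l, a⟩, rfl⟩ := Cos.surj y
    rw [GD.GeoU_up g l a hy]
    rfl
  · obtain ⟨⟨l, a⟩, rfl⟩ := Cos.surj y
    by_cases h : l.1.2 < topL l.1.1
    · rw [GD.GeoU_up g l a h]
      rfl
    · have : g.up (Cos.mk g.Θ (l, a)) = Cos.mk g.Θ (l, a) := congrArg (Cos.mk g.Θ) (dif_neg h)
      rw [this]
  · obtain ⟨p, rfl⟩ := Cos.surj y
    rw [dist_comm]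
    exact g.dist_step (p := p) (q := g.upP p) (Or.inr (Or.inr rfl))

end Vale.Agent.P212
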