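import Vale.Agent.P212.HeisDefs

/- Basic relations, generation and the dilation. -/

noncomputable section

namespace Vale.Agent.P212

open scoped Classical
open Matrix

namespace HeisA

theorem zpow_of_add {G : Type} [Group G] (f : ℤ → G) (h : ∀ a b, f (a + b) = f a * f b) (k : ℤ) :
    f 1 ^ k = f k := by
  have h0 : f 0 = 1 := by simpa using h 0 0
  induction k using Int.induction_on with
  | zero => simp [h0]
  | succ k ih => rw [_root_.zpow_add_one, ih, h]
  | pred k ih => rw [_root_.zpow_sub_one, ih, mul_inv_eq_iff_eq_mul, ← h, sub_add_cancel]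

/-- The middle group. -/
def mid : EL →* HG where
  toFun m := ⟨0, 0, m, 0⟩
  map_one' := rfl
  map_mul' a b := by ext1 <;> simp

theorem gE_eq (i j : II) (k : ℤ) : gE i j k = mid (gE i j k).h := rfl

theorem gV_add (a b : II → ℤ) : gV (a + b) = gV a * gV b := by
  ext1 <;> simp [gV, add_comm]

theorem gX_add (a b : II → ℤ) : gX (a + b) = gX a * gX b := by
  ext1 <;> simp [gX, add_comm]

theorem gV_list (f : II → II → ℤ) (l : List II) :
    (l.map fun i => gV (f i)).prod = gV (l.map f).sum := by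
  induction l with
  | nil => rfl
  | cons a l ih => rw [List.map_cons, List.prod_cons, ih, List.map_cons, List.sum_cons, gV_add]

theorem gX_list (f : II → II → ℤ) (l : List II) :
    (l.map fun i => gX (f i)).prod = gX (l.map f).sum := by
  induction l with
  | nil => rfl
  | cons a l ih => rw [List.map_cons, List.prod_cons, ih, List.map_cons, List.sum_cons, gX_add]

end HeisA

open HeisA

theorem mat_gE {i j : II} (h : i ≠ j) (k : ℤ) : mat (gE i j k).h = 1 + Matrix.single i j k := by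
  simp only [mat, gE, el, dif_neg h]

theorem gE_self (i : II) (k : ℤ) : gE i i k = 1 := by
  ext1
  · rfl
  · rfl
  · exact Subtype.ext (by simp [gE, el])
  · rfl

theorem mat_inj {h h' : EL} (e : mat h = mat h') : h = h' := Subtype.ext (Units.ext e)

theorem gE_zpow (i j : II) (k : ℤ) : gE i j 1 ^ k = gE i j k := by
  refine zpow_of_add (gE i j) (fun a b => ?_) k
  by_cases h : i = j
  · simp [h, gE_self]
  rw [gE_eq i j a, gE_eq i j b, gE_eq, ← map_mul]
  refine congrArg mid (mat_inj ?_)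
  rw [mat_mul, mat_gE h, mat_gE h, mat_gE h, add_mul, one_mul, mul_add, mul_one, single_sq h,
    Matrix.single_add]
  abel

theorem gV_zpow (i : II) (k : ℤ) : gV (Pi.single i 1) ^ k = gV (Pi.single i k) :=
  zpow_of_add (fun k => gV (Pi.single i k)) (fun a b => by rw [Pi.single_add, gV_add]) k

theorem gX_zpow (i : II) (k : ℤ) : gX (Pi.single i 1) ^ k = gX (Pi.single i k) :=
  zpow_of_add (fun k => gX (Pi.single i k)) (fun a b => by rw [Pi.single_add, gX_add]) k

theorem gZ_zpow (k : ℤ) : gZ 1 ^ k = gZ k :=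
  zpow_of_add gZ (fun a b => by ext1 <;> simp [gZ, add_comm]) k

theorem gE_st {i j l : II} (h1 : i ≠ j) (h2 : j ≠ l) (h3 : i ≠ l) (a b : ℤ) :
    gE i j a * gE j l b = gE i l (a * b) * gE j l b * gE i j a := by
  rw [gE_eq i j a, gE_eq j l b, gE_eq i l, ← map_mul, ← map_mul, ← map_mul]
  refine congrArg mid (mat_inj ?_)
  simp only [mat_mul, mat_gE h1, mat_gE h2, mat_gE h3, add_mul, mul_add, one_mul, mul_one,
    Matrix.single_mul_single_same, Matrix.single_mul_single_of_ne _ _ _ _ h2.symm,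
    Matrix.single_mul_single_of_ne _ _ _ _ h3.symm, add_zero]
  abel

theorem gE_comm {i j l m : II} (h1 : j ≠ l) (h2 : i ≠ m) (a b : ℤ) :
    gE i j a * gE l m b = gE l m b * gE i j a := by
  by_cases h3 : i = j
  · rw [h3, gE_self, one_mul, mul_one]
  by_cases h4 : l = m
  · rw [h4, gE_self, one_mul, mul_one]
  rw [gE_eq i j a, gE_eq l m b, ← map_mul, ← map_mul]
  refine congrArg mid (mat_inj ?_)
  simp only [mat_mul, mat_gE h3, mat_gE h4, add_mul, mul_add, one_mul, mul_one,
    Matrix.single_mul_single_of_ne _ _ _ _ h1, Matrix.single_mul_single_of_ne _ _ _ _ h2.symm,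
    add_zero]
  abel

theorem gen_mem (x) : gen x ∈ SH := Finset.mem_image_of_mem _ (Finset.mem_univ x)

/-- Every element is an element with trivial middle block times one of the middle group. -/
theorem split_HG (g : HG) : ∃ n : HG, n.h = 1 ∧ g = n * ⟨0, 0, g.h, 0⟩ :=
  ⟨g * (⟨0, 0, g.h, 0⟩ : HG)⁻¹, by simp, by rw [inv_mul_cancel_right]⟩

/-- A subgroup which contains the elementary matrices contains the middle group. -/
theorem mid_mem (A : Subgroup HG) (h : ∀ i j k, gE i j k ∈ A) (m : EL) :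
    (⟨0, 0, m, 0⟩ : HG) ∈ A := by
  obtain ⟨m, hm⟩ := m
  change mid ⟨m, hm⟩ ∈ A
  induction hm using Subgroup.closure_induction with
  | mem x hx =>
    obtain ⟨i, j, k, rfl⟩ := hx
    exact h i j k
  | one => exact (map_one mid).symm ▸ A.one_mem
  | mul x y hx hy ix iy => exact (map_mul mid ⟨x, hx⟩ ⟨y, hy⟩).symm ▸ A.mul_mem ix iy
  | inv x hx ix => exact (map_inv mid ⟨x, hx⟩).symm ▸ A.inv_mem ix

theorem N_len (g : HG) (h : g.h = 1) : ∃ l : List HG, l.length ≤ 22 ∧ l.prod = g ∧
    ∀ x ∈ l, ∃ i k, x = gV (Pi.single i k) ∨ x = gX (Pi.single i k) := by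
  refine ⟨(Finset.univ.toList.map fun i => gV (Pi.single i (g.v i))) ++
    (Finset.univ.toList.map fun i => gX (Pi.single i (g.ξ i))) ++
    [gX (Pi.single 0 g.t), gV (Pi.single 0 1), gX (Pi.single 0 (-g.t)), gV (Pi.single 0 (-1))],
    by simp, ?_, fun x hx => ?_⟩
  · rw [List.prod_append, List.prod_append, gV_list, gX_list, Finset.sum_map_toList,
      Finset.sum_map_toList, Finset.univ_sum_single, Finset.univ_sum_single]
    ext1 <;> simp [gV, gX, h, Pi.single_neg]
  · simp only [List.mem_append, List.mem_map, List.mem_cons, List.not_mem_nil, or_false] at hx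
    rcases hx with (⟨i, -, rfl⟩ | ⟨i, -, rfl⟩) | rfl | rfl | rfl | rfl
    exacts [⟨_, _, .inl rfl⟩, ⟨_, _, .inr rfl⟩, ⟨_, _, .inr rfl⟩, ⟨_, _, .inl rfl⟩,
      ⟨_, _, .inr rfl⟩, ⟨_, _, .inl rfl⟩]

theorem SH_gen : Subgroup.closure (SH : Set HG) = ⊤ := by
  have hg : ∀ x (k : ℤ), gen x ^ k ∈ Subgroup.closure (SH : Set HG) := fun x k =>
    zpow_mem (Subgroup.subset_closure (Finset.mem_coe.2 (gen_mem x))) k
  refine top_unique fun g _ => ?_
  obtain ⟨n, h1, h2⟩ := split_HG g
  obtain ⟨l, -, rfl, h3⟩ := N_len n h1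
  rw [h2]
  refine mul_mem (list_prod_mem fun x hx => ?_)
    (mid_mem _ (fun i j k => gE_zpow i j k ▸ hg (.inl (i, j)) k) _)
  obtain ⟨i, k, rfl | rfl⟩ := h3 x hx
  · exact gV_zpow i k ▸ hg (.inr (.inl i)) k
  · exact gX_zpow i k ▸ hg (.inr (.inr (.inl i))) k

theorem dil_inj : Function.Injective dil := by
  intro a b e
  have h1 : (2 : ℤ) • a.ξ = (2 : ℤ) • b.ξ := congrArg HG.ξ e
  have h2 : 4 * a.t = 4 * b.t := congrArg HG.t e
  have h3 : (2 : ℤ) • a.v = (2 : ℤ) • b.v := congrArg HG.v e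
  exact HG.ext (smul_right_injective _ two_ne_zero h1) (by omega) (congrArg HG.h e :)
    (smul_right_injective _ two_ne_zero h3)

theorem dil_fin : dil.range.FiniteIndex := by
  let F : (II → Set.Icc (0 : ℤ) 3) × Set.Icc (0 : ℤ) 3 × (II → Set.Icc (0 : ℤ) 3) →
      HG ⧸ dil.range := fun p => ((⟨fun i => p.1 i, p.2.1, 1, fun i => p.2.2 i⟩ : HG) :
        HG ⧸ dil.range)
  have hF : Function.Surjective F := by
    intro q
    obtain ⟨g, rfl⟩ := QuotientGroup.mk_surjective q
    obtain ⟨η, hη⟩ : ∃ η, η ᵥ* mat g.h = g.ξ := ⟨g.ξ ᵥ* mat g.h⁻¹, by simp [vecMul_vecMul]⟩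
    obtain ⟨s, hs⟩ : ∃ s, s = g.t - (fun i => η i % 2) ⬝ᵥ ((2 : ℤ) • fun i => g.v i / 2) :=
      ⟨_, rfl⟩
    refine ⟨(fun i => ⟨η i % 2, by constructor <;> omega⟩, ⟨s % 4, by constructor <;> omega⟩,
      fun i => ⟨g.v i % 2, by constructor <;> omega⟩), ?_⟩
    have e : g = (⟨fun i => η i % 2, s % 4, 1, fun i => g.v i % 2⟩ : HG) *
        dil ⟨(fun i => η i / 2) ᵥ* mat g.h, s / 4, g.h, fun i => g.v i / 2⟩ := by
      ext1
      · change _ = (2 : ℤ) • ((fun i => η i / 2) ᵥ* mat g.h) + (fun i => η i % 2) ᵥ* mat g.h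
        rw [← smul_vecMul, ← add_vecMul, ← hη]
        congr 1
        funext i
        simp only [Pi.add_apply, Pi.smul_apply, smul_eq_mul]
        omega
      · change _ = 4 * (s / 4) + (fun i => η i % 2) ⬝ᵥ ((2 : ℤ) • fun i => g.v i / 2) + s % 4
        omega
      · exact (one_mul _).symm
      · change _ = mat 1 *ᵥ ((2 : ℤ) • fun i => g.v i / 2) + fun i => g.v i % 2
        rw [mat_one, one_mulVec]
        funext i
        simp only [Pi.add_apply, Pi.smul_apply, smul_eq_mul]
        omega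
    exact ((congrArg _ e).trans (QuotientGroup.mk_mul_of_mem (s := dil.range) _ ⟨_, rfl⟩)).symm
  have := Finite.of_surjective F hF
  exact Subgroup.finiteIndex_of_finite_quotient

theorem gZ_cen (g : HG) : g * gZ 1 = gZ 1 * g := by
  ext1 <;> simp [gZ, add_comm]

theorem dil_gZ : dil (gZ 1) = gZ 1 ^ 4 := by
  have h := gZ_zpow 4
  rw [show (4 : ℤ) = (4 : ℕ) from rfl, zpow_natCast] at h
  rw [h]
  ext1 <;> simp [dil, gZ]

end Vale.Agent.P212
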