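import Vale.Agent.P212.HeisA

/- The block subgroups. -/

noncomputable section

namespace Vale.Agent.P212

open scoped Classical
open Matrix

namespace HeisBAux

abbrev M3 : Type := Matrix (Fin 3) (Fin 3) ℤ

theorem blk_mul (p q r : Fin 3) (m m' : M3) : blk p q m * blk q r m' = blk p r (m * m') := by
  ext a b
  simp only [blk, Matrix.mul_apply, of_apply, Fintype.sum_prod_type]
  rw [Finset.sum_eq_single q (fun c _ hc => by simp [hc]) (by simp)]
  by_cases h1 : a.1 = p <;> by_cases h2 : b.1 = r <;> simp [h1, h2]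

theorem blk_mul_ne {q p' : Fin 3} (h : q ≠ p') (p r : Fin 3) (m m' : M3) :
    blk p q m * blk p' r m' = 0 := by
  ext a b
  simp only [blk, Matrix.mul_apply, of_apply, Matrix.zero_apply]
  refine Finset.sum_eq_zero fun c _ => ?_
  by_cases h1 : c.1 = q
  · have : c.1 ≠ p' := h1 ▸ h
    simp [this]
  · simp [h1]

theorem blk_add (p q : Fin 3) (m m' : M3) : blk p q (m + m') = blk p q m + blk p q m' := by
  ext a b
  simp only [blk, of_apply, Matrix.add_apply]
  split_ifs <;> simp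

theorem blk_zero (p q : Fin 3) : blk p q 0 = 0 := by
  ext a b
  simp [blk]

theorem blk_single (p q i j : Fin 3) (k : ℤ) :
    blk p q (Matrix.single i j k) = Matrix.single (p, i) (q, j) k := by
  ext ⟨a, a'⟩ ⟨b, b'⟩
  simp only [blk, of_apply, Matrix.single_apply, Prod.mk.injEq]
  by_cases h1 : p = a <;> by_cases h2 : q = b <;> simp [h1, h2, @eq_comm _ a p, @eq_comm _ b q]

/-- elements of the middle group with a given matrix -/
def Mid (g : HG) (x : Matrix II II ℤ) : Prop := g.ξ = 0 ∧ g.t = 0 ∧ g.v = 0 ∧ mat g.h = x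

theorem Mid.mul {g g' : HG} {x x' : Matrix II II ℤ} (h : Mid g x) (h' : Mid g' x') :
    Mid (g * g') (x * x') := by
  obtain ⟨a1, a2, a3, a4⟩ := h
  obtain ⟨b1, b2, b3, b4⟩ := h'
  refine ⟨?_, ?_, ?_, ?_⟩ <;> simp [*]

theorem Mid.eq {g g' : HG} {x x' : Matrix II II ℤ} (h : Mid g x) (h' : Mid g' x') (e : x = x') :
    g = g' := by
  obtain ⟨a1, a2, a3, a4⟩ := h
  obtain ⟨b1, b2, b3, b4⟩ := h'
  exact HG.ext (a1.trans b1.symm) (a2.trans b2.symm) (mat_inj (by rw [a4, b4, e]))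
    (a3.trans b3.symm)

theorem one_add_mul {p q : Fin 3} (h : p ≠ q) (m m' : M3) :
    (1 + blk p q m) * (1 + blk p q m') = 1 + blk p q (m + m') := by
  rw [add_mul, one_mul, mul_add, mul_one, blk_mul_ne h.symm, blk_add]
  abel

theorem Mid.add {p q : Fin 3} (h : p ≠ q) {g g' : HG} {m m' : M3} (a : Mid g (1 + blk p q m))
    (b : Mid g' (1 + blk p q m')) : Mid (g * g') (1 + blk p q (m + m')) :=
  one_add_mul h m m' ▸ a.mul b

theorem mid_one (p q : Fin 3) : Mid 1 (1 + blk p q 0) := ⟨rfl, rfl, rfl, by simp [blk_zero]⟩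

theorem Mid.neg {p q : Fin 3} (h : p ≠ q) {g : HG} {m : M3} (a : Mid g (1 + blk p q m)) :
    Mid g⁻¹ (1 + blk p q (-m)) := by
  obtain ⟨a1, a2, a3, a4⟩ := a
  refine ⟨by simp [a1], by simp [a1, a2], by simp [a3], ?_⟩
  have e : mat g.h * (1 + blk p q (-m)) = 1 := by
    rw [a4, one_add_mul h, add_neg_cancel, blk_zero, add_zero]
  rw [HG.inv_h, ← mul_one (mat g.h⁻¹), ← e, ← mul_assoc, mat_inv_mul, one_mul, e]

theorem ne_of {p q : Fin 3} (h : p ≠ q) (i j : Fin 3) : ((p, i) : II) ≠ (q, j) :=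
  fun e => h (congrArg Prod.fst e)

theorem mid_gE {p q : Fin 3} (h : p ≠ q) (i j : Fin 3) (k : ℤ) :
    Mid (gE (p, i) (q, j) k) (1 + blk p q (Matrix.single i j k)) :=
  ⟨rfl, rfl, rfl, by rw [mat_gE (ne_of h i j), blk_single]⟩

/-- the list of factors -/
def fac (p q : Fin 3) (m : M3) : List HG :=
  (Finset.univ : Finset II).toList.map fun c => gE (p, c.1) (q, c.2) (m c.1 c.2)

theorem mid_list {p q : Fin 3} (h : p ≠ q) (m : M3) (L : List II) :
    Mid (L.map fun c => gE (p, c.1) (q, c.2) (m c.1 c.2)).prod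
      (1 + blk p q (L.map fun c => Matrix.single c.1 c.2 (m c.1 c.2)).sum) := by
  induction L with
  | nil => exact mid_one p q
  | cons c L ih =>
    rw [List.map_cons, List.map_cons, List.prod_cons, List.sum_cons]
    exact (mid_gE h _ _ _).add h ih

theorem mid_fac {p q : Fin 3} (h : p ≠ q) (m : M3) : Mid (fac p q m).prod (1 + blk p q m) := by
  have := mid_list h m Finset.univ.toList
  have e : ∑ c : II, Matrix.single c.1 c.2 (m c.1 c.2) = m := by
    rw [Fintype.sum_prod_type]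
    exact (Matrix.matrix_eq_sum_single m).symm
  rwa [Finset.sum_map_toList, e] at this

theorem gE_mem (p q i j : Fin 3) (k : ℤ) : gE (p, i) (q, j) k ∈ Bl p q :=
  Subgroup.subset_closure ⟨i, j, k, rfl⟩

theorem fac_mem (p q : Fin 3) (m : M3) : (fac p q m).prod ∈ Bl p q := by
  refine Subgroup.list_prod_mem _ fun x hx => ?_
  obtain ⟨c, -, rfl⟩ := List.mem_map.1 hx
  exact gE_mem _ _ _ _ _

theorem nf {p q : Fin 3} (h : p ≠ q) (g : HG) : g ∈ Bl p q ↔ ∃ m, Mid g (1 + blk p q m) := by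
  constructor
  · intro hg
    induction hg using Subgroup.closure_induction with
    | mem x hx =>
      obtain ⟨i, j, k, rfl⟩ := hx
      exact ⟨_, mid_gE h i j k⟩
    | one => exact ⟨0, mid_one p q⟩
    | mul x y _ _ hx hy =>
      obtain ⟨m, hm⟩ := hx
      obtain ⟨m', hm'⟩ := hy
      exact ⟨_, hm.add h hm'⟩
    | inv x _ hx =>
      obtain ⟨m, hm⟩ := hx
      exact ⟨_, hm.neg h⟩
  · rintro ⟨m, hm⟩
    rw [hm.eq (mid_fac h m) rfl]
    exact fac_mem p q m

theorem comm_of {a b x y : Matrix II II ℤ} (ha : a = 1 + x) (hb : b = 1 + y) (h1 : x * y = 0)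
    (h2 : y * x = 0) : a * b = b * a := by
  subst ha hb
  simp only [add_mul, mul_add, one_mul, mul_one, h1, h2]
  abel

theorem heis {p q r : Fin 3} (h2 : q ≠ r) (h3 : p ≠ r) (a b : M3) :
    (1 + blk p q a) * (1 + blk q r b) =
      (1 + blk p r (a * b)) * (1 + blk q r b) * (1 + blk p q a) := by
  simp only [add_mul, mul_add, one_mul, mul_one, blk_mul, blk_mul_ne h2.symm, blk_mul_ne h3.symm,
    add_zero]
  abel

/-- five matrices with invertible differences -/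
def five : Fin 5 → M3 :=
  ![0, 1, !![0, 0, 1; 1, 0, 1; 0, 1, 0], !![0, 1, 0; 0, 1, 1; 1, 0, 1], !![1, 0, 1; 1, 1, 1; 0, 1, 1]]

theorem five_det : ∀ i j, i ≠ j → (-five i + five j).det * (-five i + five j).det = 1 := by
  intro i j h
  fin_cases i <;> fin_cases j <;> first
    | exact absurd rfl h
    | simp [five, Matrix.det_fin_three]

theorem five_surj {i j : Fin 5} (h : i ≠ j) (z : M3) : ∃ a : M3, a * (-five i + five j) = z := by
  refine ⟨z * ((-five i + five j).det • adjugate (-five i + five j)), ?_⟩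
  rw [mul_assoc, smul_mul_assoc, adjugate_mul, smul_smul, five_det i j h, one_smul, mul_one]

theorem comm_mem (A : Subgroup HG) {i j l : II} (h1 : i ≠ j) (h2 : j ≠ l) (h3 : i ≠ l) (k : ℤ)
    (a : gE i j k ∈ A) (b : gE j l 1 ∈ A) : gE i l k ∈ A := by
  have e := gE_st h1 h2 h3 k 1
  rw [mul_one] at e
  have : gE i l k = gE i j k * gE j l 1 * (gE i j k)⁻¹ * (gE j l 1)⁻¹ := by
    rw [e]
    group
  rw [this]
  exact A.mul_mem (A.mul_mem (A.mul_mem a b) (A.inv_mem a)) (A.inv_mem b)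

end HeisBAux
open HeisBAux

theorem Bl_nf {p q : Fin 3} (h : p ≠ q) (g : HG) : g ∈ Bl p q ↔
    ∃ m, g.ξ = 0 ∧ g.t = 0 ∧ g.v = 0 ∧ mat g.h = 1 + blk p q m := nf h g

theorem Bl_ex {p q : Fin 3} (h : p ≠ q) (m : Matrix (Fin 3) (Fin 3) ℤ) :
    ∃ g ∈ Bl p q, mat g.h = 1 + blk p q m := ⟨_, fac_mem p q m, (mid_fac h m).2.2.2⟩

theorem Bl_len {p q : Fin 3} (h : p ≠ q) {g : HG} (hg : g ∈ Bl p q) : ∃ l : List HG,
    l.length ≤ 9 ∧ l.prod = g ∧ ∀ x ∈ l, ∃ i j k, i ≠ j ∧ x = gE i j k := by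
  obtain ⟨m, hm⟩ := (nf h g).1 hg
  refine ⟨fac p q m, by simp [fac], (mid_fac h m).eq hm rfl, fun x hx => ?_⟩
  obtain ⟨c, -, rfl⟩ := List.mem_map.1 hx
  exact ⟨_, _, _, ne_of h _ _, rfl⟩

theorem Bl_hp {p q r : Fin 3} (h1 : p ≠ q) (h2 : q ≠ r) (h3 : p ≠ r) :
    HP (Bl p q) (Bl q r) (Bl p r) where
  cA z hz a ha := by
    obtain ⟨m, hm⟩ := (nf h3 z).1 hz
    obtain ⟨m', hm'⟩ := (nf h1 a).1 ha
    exact (hm.mul hm').eq (hm'.mul hm)
      (comm_of rfl rfl (blk_mul_ne h3.symm _ _ _ _) (blk_mul_ne h1.symm _ _ _ _))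
  cB z hz b hb := by
    obtain ⟨m, hm⟩ := (nf h3 z).1 hz
    obtain ⟨m', hm'⟩ := (nf h2 b).1 hb
    exact (hm.mul hm').eq (hm'.mul hm)
      (comm_of rfl rfl (blk_mul_ne h2.symm _ _ _ _) (blk_mul_ne h3.symm _ _ _ _))
  rel a ha b hb := by
    obtain ⟨m, hm⟩ := (nf h1 a).1 ha
    obtain ⟨m', hm'⟩ := (nf h2 b).1 hb
    exact ⟨_, fac_mem p r (m * m'), (hm.mul hm').eq (((mid_fac h3 _).mul hm').mul hm)
      (heis h2 h3 m m')⟩
  five := by
    refine ⟨fun i => (fac q r (five i)).prod, fun i => fac_mem _ _ _, fun i j hij z hz => ?_⟩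
    obtain ⟨m, hm⟩ := (nf h3 z).1 hz
    obtain ⟨a, rfl⟩ := five_surj hij m
    have hb := ((mid_fac h2 (five i)).neg h2).add h2 (mid_fac h2 (five j))
    exact ⟨_, fac_mem p q a, ((mid_fac h1 a).mul hb).eq ((hm.mul hb).mul (mid_fac h1 a))
      (heis h2 h3 _ _)⟩

theorem Bl_gen (A : Subgroup HG) (h1 : Bl 0 1 ≤ A) (h2 : Bl 1 2 ≤ A) (h3 : Bl 2 0 ≤ A)
    (i j : II) (k : ℤ) : gE i j k ∈ A := by
  have a01 : ∀ i j k, gE (0, i) (1, j) k ∈ A := fun i j k => h1 (gE_mem _ _ _ _ _)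
  have a12 : ∀ i j k, gE (1, i) (2, j) k ∈ A := fun i j k => h2 (gE_mem _ _ _ _ _)
  have a20 : ∀ i j k, gE (2, i) (0, j) k ∈ A := fun i j k => h3 (gE_mem _ _ _ _ _)
  have a02 : ∀ i j k, gE (0, i) (2, j) k ∈ A := fun i j k =>
    comm_mem A (j := (1, 0)) (ne_of (by decide) _ _) (ne_of (by decide) _ _)
      (ne_of (by decide) _ _) k (a01 _ _ _) (a12 _ _ _)
  have a10 : ∀ i j k, gE (1, i) (0, j) k ∈ A := fun i j k =>
    comm_mem A (j := (2, 0)) (ne_of (by decide) _ _) (ne_of (by decide) _ _)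
      (ne_of (by decide) _ _) k (a12 _ _ _) (a20 _ _ _)
  have a21 : ∀ i j k, gE (2, i) (1, j) k ∈ A := fun i j k =>
    comm_mem A (j := (0, 0)) (ne_of (by decide) _ _) (ne_of (by decide) _ _)
      (ne_of (by decide) _ _) k (a20 _ _ _) (a01 _ _ _)
  have off : ∀ p q : Fin 3, p ≠ q → ∀ i j k, gE (p, i) (q, j) k ∈ A := by
    intro p q h
    fin_cases p <;> fin_cases q <;> first | exact absurd rfl h | assumption
  obtain ⟨p, i⟩ := i
  obtain ⟨q, j⟩ := j
  by_cases hpq : p = q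
  · subst hpq
    by_cases hij : ((p, i) : II) = (p, j)
    · rw [hij, gE_self]
      exact A.one_mem
    · obtain ⟨q, hq⟩ := exists_ne p
      exact comm_mem A (j := (q, 0)) (ne_of hq.symm _ _) (ne_of hq _ _) hij k
        (off _ _ hq.symm _ _ _) (off _ _ hq _ _ _)
  · exact off p q hpq i j k

end Vale.Agent.P212
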