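import Vale.Agent.P212.Base

/-
The group: block upper triangular matrices with blocks `1, h, 1`, where `h` lies in the group
generated by the elementary matrices of size nine.
-/

noncomputable section

namespace Vale.Agent.P212

open scoped Classical
open Matrix

/-- The index set. -/
abbrev II : Type := Fin 3 × Fin 3

theorem single_sq {i j : II} (h : i ≠ j) (k l : ℤ) :
    (Matrix.single i j k : Matrix II II ℤ) * Matrix.single i j l = 0 :=
  Matrix.single_mul_single_of_ne _ _ _ _ h.symm _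

/-- Elementary matrices. -/
def el (i j : II) (k : ℤ) : (Matrix II II ℤ)ˣ :=
  if h : i = j then 1 else
    ⟨1 + Matrix.single i j k, 1 - Matrix.single i j k,
      by rw [add_mul, one_mul, mul_sub, mul_one, single_sq h]; simp,
      by rw [sub_mul, one_mul, mul_add, mul_one, single_sq h]; simp⟩

/-- The elementary group. -/
def EL : Subgroup (Matrix II II ℤ)ˣ := Subgroup.closure {g | ∃ i j k, g = el i j k}

/-- The underlying matrix. -/
def mat (h : EL) : Matrix II II ℤ := (h.1 : Matrix II II ℤ)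

@[simp] theorem mat_mul (h h' : EL) : mat (h * h') = mat h * mat h' := rfl

@[simp] theorem mat_one : mat 1 = 1 := rfl

@[simp] theorem mat_inv_mul (h : EL) : mat h⁻¹ * mat h = 1 := by rw [← mat_mul]; simp

@[simp] theorem mat_mul_inv (h : EL) : mat h * mat h⁻¹ = 1 := by rw [← mat_mul]; simp

/-- The matrix with rows `(1, ξ, t)`, `(0, h, v)`, `(0, 0, 1)`. -/
@[ext] structure HG where
  ξ : II → ℤ
  t : ℤ
  h : EL
  v : II → ℤ

instance : Mul HG := ⟨fun a b =>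
  ⟨b.ξ + a.ξ ᵥ* mat b.h, b.t + a.ξ ⬝ᵥ b.v + a.t, a.h * b.h, mat a.h *ᵥ b.v + a.v⟩⟩

instance : One HG := ⟨⟨0, 0, 1, 0⟩⟩

instance : Inv HG := ⟨fun a =>
  ⟨-(a.ξ ᵥ* mat a.h⁻¹), -a.t + (a.ξ ᵥ* mat a.h⁻¹) ⬝ᵥ a.v, a.h⁻¹, -(mat a.h⁻¹ *ᵥ a.v)⟩⟩

@[simp] theorem HG.mul_ξ (a b : HG) : (a * b).ξ = b.ξ + a.ξ ᵥ* mat b.h := rfl
@[simp] theorem HG.mul_t (a b : HG) : (a * b).t = b.t + a.ξ ⬝ᵥ b.v + a.t := rfl
@[simp] theorem HG.mul_h (a b : HG) : (a * b).h = a.h * b.h := rfl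
@[simp] theorem HG.mul_v (a b : HG) : (a * b).v = mat a.h *ᵥ b.v + a.v := rfl
@[simp] theorem HG.one_ξ : (1 : HG).ξ = 0 := rfl
@[simp] theorem HG.one_t : (1 : HG).t = 0 := rfl
@[simp] theorem HG.one_h : (1 : HG).h = 1 := rfl
@[simp] theorem HG.one_v : (1 : HG).v = 0 := rfl
@[simp] theorem HG.inv_ξ (a : HG) : a⁻¹.ξ = -(a.ξ ᵥ* mat a.h⁻¹) := rfl
@[simp] theorem HG.inv_t (a : HG) : a⁻¹.t = -a.t + (a.ξ ᵥ* mat a.h⁻¹) ⬝ᵥ a.v := rfl
@[simp] theorem HG.inv_h (a : HG) : a⁻¹.h = a.h⁻¹ := rfl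
@[simp] theorem HG.inv_v (a : HG) : a⁻¹.v = -(mat a.h⁻¹ *ᵥ a.v) := rfl

instance : Group HG := Group.ofLeftAxioms
  (fun a b c => by
    ext1
    · simp [add_vecMul, vecMul_vecMul, add_assoc]
    · simp only [HG.mul_t, HG.mul_ξ, HG.mul_v, add_dotProduct, dotProduct_add, dotProduct_mulVec]
      ring
    · simp [mul_assoc]
    · simp [mulVec_add, mulVec_mulVec, add_assoc])
  (fun a => by ext1 <;> simp)
  (fun a => by
    ext1
    · simp [neg_vecMul, vecMul_vecMul]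
    · simp only [HG.mul_t, HG.inv_ξ, HG.inv_t, HG.one_t, neg_dotProduct]
      ring
    · simp
    · simp)

/-- Elementary matrices in the middle block. -/
def gE (i j : II) (k : ℤ) : HG := ⟨0, 0, ⟨el i j k, Subgroup.subset_closure ⟨i, j, k, rfl⟩⟩, 0⟩

/-- Column translations. -/
def gV (w : II → ℤ) : HG := ⟨0, 0, 1, w⟩

/-- Row translations. -/
def gX (w : II → ℤ) : HG := ⟨w, 0, 1, 0⟩

/-- The centre. -/
def gZ (t : ℤ) : HG := ⟨0, t, 1, 0⟩

/-- The generators. -/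
def gen : (II × II) ⊕ II ⊕ II ⊕ Unit → HG
  | .inl p => gE p.1 p.2 1
  | .inr (.inl i) => gV (Pi.single i 1)
  | .inr (.inr (.inl i)) => gX (Pi.single i 1)
  | .inr (.inr (.inr _)) => gZ 1

/-- The generating set. -/
def SH : Finset HG := Finset.univ.image gen

/-- The dilation. -/
def dil : HG →* HG where
  toFun a := ⟨(2 : ℤ) • a.ξ, 4 * a.t, a.h, (2 : ℤ) • a.v⟩
  map_one' := by ext1 <;> simp
  map_mul' a b := by
    ext1
    · simp only [HG.mul_ξ, smul_vecMul, smul_add]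
    · simp only [HG.mul_t, smul_dotProduct, dotProduct_smul, smul_eq_mul]
      ring
    · rfl
    · simp only [HG.mul_v, mulVec_smul, smul_add]

/-- The block subgroups. -/
def Bl (p q : Fin 3) : Subgroup HG := Subgroup.closure {g | ∃ i j k, g = gE (p, i) (q, j) k}

/-- A matrix placed in the block `(p, q)`. -/
def blk (p q : Fin 3) (m : Matrix (Fin 3) (Fin 3) ℤ) : Matrix II II ℤ :=
  Matrix.of fun a b => if a.1 = p ∧ b.1 = q then m a.2 b.2 else 0

/-- A Heisenberg pair with five orthogonal translates. -/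
structure HP {Γ : Type} [Group Γ] (A B Z : Subgroup Γ) : Prop where
  cA : ∀ z ∈ Z, ∀ a ∈ A, Commute z a
  cB : ∀ z ∈ Z, ∀ b ∈ B, Commute z b
  rel : ∀ a ∈ A, ∀ b ∈ B, ∃ z ∈ Z, a * b = z * b * a
  five : ∃ b : Fin 5 → Γ, (∀ i, b i ∈ B) ∧ ∀ i j, i ≠ j → ∀ z ∈ Z, ∃ a ∈ A,
    a * ((b i)⁻¹ * b j) = z * ((b i)⁻¹ * b j) * a

/-- `P` is the orthogonal projection onto the vectors fixed by `A`. -/
structure IsFixP {Γ K : Type} [Group Γ] [NormedAddCommGroup K] [InnerProductSpace ℂ K]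
    [CompleteSpace K] (U : Γ →* (K →L[ℂ] K)) (A : Subgroup Γ) (P : K →L[ℂ] K) : Prop where
  proj : IsStarProjection P
  iff : ∀ ξ, P ξ = ξ ↔ ∀ a ∈ A, U a ξ = ξ

/-- The torus. -/
abbrev TT : Type := UnitAddCircle × UnitAddCircle

/-- The characters of the torus. -/
def ee (a b : ℤ) : C(TT, ℂ) :=
  (fourier a).comp ContinuousMap.fst * (fourier b).comp ContinuousMap.snd

/-- The first shear. -/
def al1 : C(TT, TT) := ⟨fun p => (p.1, p.1 + p.2), by fun_prop⟩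

/-- The second shear. -/
def al2 : C(TT, TT) := ⟨fun p => (p.1 + p.2, p.2), by fun_prop⟩

/-- The displacement functions. -/
def qq (a b : ℤ) : C(TT, ℝ) := ⟨fun p => ‖ee a b p - 1‖ ^ 2, by fun_prop⟩

end Vale.Agent.P212
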