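import Vale.Agent.P212.HeisA

/- Freeness at a given scale up to bounded order. -/

noncomputable section

namespace Vale.Agent.P212

open scoped Classical
open Matrix

namespace HeisF

theorem gen_inv_rat (A : Matrix II II ℚ) : ∃ G : Matrix II II ℚ, A * G * A = A := by
  obtain ⟨s, hs⟩ := (toLin' A).rangeRestrict.exists_rightInverse_of_surjective
    (LinearMap.range_rangeRestrict _)
  obtain ⟨p, hp⟩ := (LinearMap.range (toLin' A)).subtype.exists_leftInverse_of_injective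
    (Submodule.ker_subtype _)
  refine ⟨LinearMap.toMatrix' (s ∘ₗ p), toLin'.injective (LinearMap.ext fun x => ?_)⟩
  have h1 := LinearMap.congr_fun hp ((toLin' A).rangeRestrict x)
  have h2 := congrArg Subtype.val (LinearMap.congr_fun hs ((toLin' A).rangeRestrict x))
  rw [toLin'_mul, toLin'_mul, toLin'_toMatrix']
  exact (congrArg (fun y => toLin' A (s y)) h1).trans h2

theorem small {c : ℤ} {n : ℕ} (h : c.natAbs ≤ n) (hd : (2 : ℤ) ^ n ∣ c) : c = 0 := by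
  refine Int.eq_zero_of_abs_lt_dvd hd ?_
  have h1 : (n : ℤ) < 2 ^ n := by exact_mod_cast n.lt_two_pow_self
  rw [Int.abs_eq_natAbs]
  omega

theorem dil_iter (k : ℕ) (y : HG) :
    dil^[k] y = ⟨(2 : ℤ) ^ k • y.ξ, 4 ^ k * y.t, y.h, (2 : ℤ) ^ k • y.v⟩ := by
  induction k with
  | zero => simp
  | succ k ih =>
    rw [Function.iterate_succ_apply', ih]
    ext1
    · exact (smul_smul _ _ _).trans (by rw [pow_succ'])
    · exact (mul_assoc _ _ _).symm.trans (by rw [← pow_succ'])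
    · rfl
    · exact (smul_smul _ _ _).trans (by rw [pow_succ'])

end HeisF

theorem gen_inv (B : Matrix II II ℤ) :
    ∃ D : ℕ, 0 < D ∧ ∃ B' : Matrix II II ℤ, B * B' * B = (D : ℤ) • B := by
  obtain ⟨G, hG⟩ := HeisF.gen_inv_rat (B.map (↑))
  refine ⟨G.den, Nat.pos_of_ne_zero G.den_ne_zero, G.num,
    Matrix.map_injective (f := ((↑) : ℤ → ℚ)) Int.cast_injective ?_⟩
  have h1 : (G.den : ℚ) ≠ 0 := Nat.cast_ne_zero.2 G.den_ne_zero
  have h2 : G.num.map ((↑) : ℤ → ℚ) = (G.den : ℚ) • G :=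
    (inv_smul_eq_iff₀ h1).1 G.inv_denom_smul_num
  beta_reduce
  rw [map_mul_intCast, map_mul_intCast, h2, Matrix.mul_smul, Matrix.smul_mul, hG]
  ext i j
  rw [Matrix.smul_apply, Matrix.map_apply, Matrix.map_apply, Matrix.smul_apply, smul_eq_mul,
    smul_eq_mul, Int.cast_mul,
    Int.cast_natCast]

theorem heis_free (g : HG) : ∃ D : ℕ, 0 < D ∧ ∃ n0 : ℕ, ∀ n, n0 ≤ n → ∀ (x : HG) (i : ℤ),
    (∃ y, dil^[4 * n] y = x⁻¹ * g * x * gZ 1 ^ ((4 : ℤ) ^ (3 * n) * i)) →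
    (4 : ℤ) ^ n ∣ D * i := by
  obtain ⟨B, hB⟩ : ∃ B, mat g.h = B + 1 := ⟨mat g.h - 1, (sub_add_cancel _ _).symm⟩
  obtain ⟨D, hD, B', hB'⟩ := gen_inv B
  refine ⟨D, hD, ∑ j, (((D : ℤ) • g.ξ - g.ξ ᵥ* (B' * B)) j).natAbs +
    ∑ j, (((D : ℤ) • g.v - (B * B') *ᵥ g.v) j).natAbs +
    (g.ξ ⬝ᵥ B' *ᵥ g.v - D * g.t).natAbs, fun n hn x i ⟨y, hy⟩ => ?_⟩
  rw [gZ_zpow, HeisF.dil_iter, mul_assoc, mul_assoc, eq_inv_mul_iff_mul_eq] at hy
  have e1 := congrArg HG.ξ hy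
  have e2 := congrArg HG.t hy
  have e3 := congrArg (fun z => mat z.h) hy
  have e4 := congrArg HG.v hy
  simp only [HG.mul_ξ, HG.mul_t, HG.mul_h, HG.mul_v, gZ, mat_mul, mat_one, mul_one, vecMul_one,
    zero_add, dotProduct_zero, mulVec_zero, add_zero, hB] at e1 e2 e3 e4
  obtain ⟨a, ha⟩ : ∃ a, x.ξ = a ᵥ* mat x.h :=
    ⟨x.ξ ᵥ* mat x.h⁻¹, by rw [vecMul_vecMul, mat_inv_mul, vecMul_one]⟩
  obtain ⟨η, hη⟩ : ∃ η, y.ξ = η ᵥ* mat x.h :=
    ⟨y.ξ ᵥ* mat x.h⁻¹, by rw [vecMul_vecMul, mat_inv_mul, vecMul_one]⟩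
  have f1 : g.ξ = (2 : ℤ) ^ (4 * n) • η + a ᵥ* B := by
    have := congrArg (· ᵥ* mat x.h⁻¹) e1
    simp only [ha, hη, vecMul_vecMul, e3, add_vecMul, smul_vecMul, mul_assoc, mat_mul_inv, mul_one,
      vecMul_one, vecMul_add] at this
    rw [← add_assoc, add_comm _ a] at this
    exact (add_left_cancel this).symm
  have f2 : g.v = (2 : ℤ) ^ (4 * n) • mat x.h *ᵥ y.v - B *ᵥ x.v := by
    rw [add_mulVec, one_mulVec, mulVec_smul] at e4
    rw [eq_sub_iff_add_eq]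
    exact add_right_cancel (b := x.v) (by rw [e4]; abel)
  rw [ha, dotProduct_smul, ← dotProduct_mulVec] at e2
  generalize mat x.h *ᵥ y.v = u at e2 f2
  have g1 : (D : ℤ) • g.ξ = g.ξ ᵥ* (B' * B) := by
    refine sub_eq_zero.1 (funext fun j => HeisF.small (n := 4 * n) ?_
      ⟨((D : ℤ) • η - η ᵥ* (B' * B)) j, ?_⟩)
    · have := Finset.single_le_sum (f := fun j => (((D : ℤ) • g.ξ - g.ξ ᵥ* (B' * B)) j).natAbs)
        (fun _ _ => Nat.zero_le _) (Finset.mem_univ j)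
      omega
    · rw [f1, add_vecMul, vecMul_vecMul, ← mul_assoc, hB', vecMul_smul, smul_vecMul]
      simp only [Pi.sub_apply, Pi.add_apply, Pi.smul_apply, smul_eq_mul]
      ring
  have g2 : (D : ℤ) • g.v = (B * B') *ᵥ g.v := by
    refine sub_eq_zero.1 (funext fun j => HeisF.small (n := 4 * n) ?_
      ⟨((D : ℤ) • u - (B * B') *ᵥ u) j, ?_⟩)
    · have := Finset.single_le_sum (f := fun j => (((D : ℤ) • g.v - (B * B') *ᵥ g.v) j).natAbs)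
        (fun _ _ => Nat.zero_le _) (Finset.mem_univ j)
      omega
    · rw [f2, mulVec_sub, mulVec_mulVec, hB', smul_mulVec, mulVec_smul]
      simp only [Pi.sub_apply, Pi.smul_apply, smul_eq_mul]
      ring
  have h2 : (4 : ℤ) ^ (4 * n) = 2 ^ (4 * n) * 2 ^ (4 * n) := by rw [← mul_pow]; norm_num
  have g3 : (g.ξ - a ᵥ* B) ⬝ᵥ B' *ᵥ (g.v + B *ᵥ x.v) = 4 ^ (4 * n) * (η ⬝ᵥ B' *ᵥ u) := by
    rw [f1, f2, add_sub_cancel_right, sub_add_cancel, mulVec_smul, smul_dotProduct,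
      dotProduct_smul, h2, smul_eq_mul, smul_eq_mul, mul_assoc]
  have g4 : g.ξ ⬝ᵥ B' *ᵥ B *ᵥ x.v = D * (g.ξ ⬝ᵥ x.v) := by
    rw [mulVec_mulVec, dotProduct_mulVec, ← g1, smul_dotProduct, smul_eq_mul]
  have g5 : a ᵥ* B ⬝ᵥ B' *ᵥ g.v = D * (a ⬝ᵥ g.v) := by
    rw [← dotProduct_mulVec, mulVec_mulVec, ← g2, dotProduct_smul, smul_eq_mul]
  have g6 : a ᵥ* B ⬝ᵥ B' *ᵥ B *ᵥ x.v = D * (a ⬝ᵥ B *ᵥ x.v) := by
    rw [← dotProduct_mulVec, mulVec_mulVec, mulVec_mulVec, hB', smul_mulVec, dotProduct_smul,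
      smul_eq_mul]
  have g7 : a ⬝ᵥ g.v = 2 ^ (4 * n) * (a ⬝ᵥ u) - a ⬝ᵥ B *ᵥ x.v := by
    rw [f2, dotProduct_sub, dotProduct_smul, smul_eq_mul]
  rw [mulVec_add, sub_dotProduct, dotProduct_add, dotProduct_add, g4, g5, g6] at g3
  have h3 : (4 : ℤ) ^ (4 * n) = 4 ^ (3 * n) * 4 ^ n := by rw [← pow_add]; congr 1; omega
  have g8 : g.ξ ⬝ᵥ B' *ᵥ g.v - D * g.t =
      4 ^ (3 * n) * (D * i + 4 ^ n * (η ⬝ᵥ B' *ᵥ u - D * y.t)) := by
    rw [smul_eq_mul, h3] at e2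
    rw [h3] at g3
    linear_combination g3 + D * g7 + D * e2
  have g9 := HeisF.small (n := 3 * n) (c := g.ξ ⬝ᵥ B' *ᵥ g.v - D * g.t) (by omega)
    (g8 ▸ (pow_dvd_pow_of_dvd (by norm_num) _).mul_right _)
  rw [g9, eq_comm, mul_eq_zero, or_iff_right (by positivity), add_eq_zero_iff_eq_neg] at g8
  rw [g8]
  exact (dvd_mul_right _ _).neg_right

end Vale.Agent.P212
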