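import Vale.Agent.P212.Hull

/- The angle between the fixed spaces of a Heisenberg pair. -/

noncomputable section

namespace Vale.Agent.P212

variable {Γ K : Type} [Group Γ] [NormedAddCommGroup K] [InnerProductSpace ℂ K] [CompleteSpace K]
  {U : Γ →* (K →L[ℂ] K)}

namespace Pair

open Vale.Agent.P083

theorem sym {P : K →L[ℂ] K} (h : IsStarProjection P) : SymIdem P :=
  ⟨fun x y => by
    conv_lhs => rw [← h.isSelfAdjoint.star_eq, ContinuousLinearMap.star_eq_adjoint]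
    exact ContinuousLinearMap.adjoint_inner_left _ _ _,
   fun x => congrArg (fun T : K →L[ℂ] K => T x) h.isIdempotentElem.eq⟩

theorem mul (g h : Γ) (x : K) : U (g * h) x = U g (U h x) := by rw [map_mul]; rfl

theorem adj (hU : IsURep U) (g : Γ) (x y : K) : inner ℂ x (U g y) = inner ℂ (U g⁻¹ x) y := by
  rw [← hU.inner_map g (U g⁻¹ x) y, ← mul, mul_inv_cancel, map_one]; rfl

theorem fix {A : Subgroup Γ} {P : K →L[ℂ] K} (hP : IsFixP U A P) {a : Γ} (ha : a ∈ A) (x : K) :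
    U a (P x) = P x := (hP.iff _).1 ((sym hP.proj).idem x) a ha

theorem absorb (hU : IsURep U) {A : Subgroup Γ} {P : K →L[ℂ] K} (hP : IsFixP U A P) {a : Γ}
    (ha : a ∈ A) (x : K) : P (U a x) = P x := by
  refine ext_inner_left ℂ fun y => ?_
  rw [← (sym hP.proj).symm, adj hU, fix hP (A.inv_mem ha), (sym hP.proj).symm]

theorem hull {F : Type} [NormedAddCommGroup F] [NormedSpace ℂ F] (hU : IsURep U)
    {A : Subgroup Γ} {P : K →L[ℂ] K} (hP : IsFixP U A P) (T : K →L[ℂ] F) (x : K) (v : F)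
    (h : ∀ a ∈ A, T (U a x) = v) : T (P x) = v := by
  obtain ⟨η, h1, h2⟩ := hull_fix hU A x
  have key : ∀ {G : Type} [NormedAddCommGroup G] [NormedSpace ℂ G] (S : K →L[ℂ] G) (w : G),
      (∀ a ∈ A, S (U a x) = w) → S η = w := by
    intro G _ _ S w hS
    have c1 : Convex ℝ {ζ | S ζ = w} :=
      (convex_singleton w).linear_preimage (S.restrictScalars ℝ).toLinearMap
    have c2 : IsClosed {ζ | S ζ = w} := isClosed_eq S.continuous continuous_const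
    exact closure_minimal (convexHull_min (by rintro _ ⟨a, ha, rfl⟩; exact hS a ha) c1) c2 h2
  rw [← key P _ fun a ha => absorb hU hP ha x, (hP.iff η).2 h1]
  exact key T v h

theorem comm (hU : IsURep U) {A : Subgroup Γ} {P : K →L[ℂ] K} (hP : IsFixP U A P)
    (T : K →L[ℂ] K) (h : ∀ a ∈ A, ∀ x, T (U a x) = U a (T x)) (x : K) : T (P x) = P (T x) := by
  have h1 := hull hU hP (P.comp T) x (P (T x)) fun a ha => by
    rw [ContinuousLinearMap.comp_apply, h a ha, absorb hU hP ha]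
  rw [← h1, ContinuousLinearMap.comp_apply]
  exact ((hP.iff _).2 fun a ha => by rw [← h a ha, fix hP ha]).symm

theorem small (hU : IsURep U) {A B Z : Subgroup Γ} (h : HP A B Z) {R : K →L[ℂ] K}
    (hR : IsFixP U Z R) {w y : K} (hw : ∀ a ∈ A, U a w = w) (h0 : R w = 0)
    (hy : ∀ b ∈ B, U b y = y) : (inner ℂ w y).re ≤ 9 / 20 * (‖w‖ * ‖y‖) := by
  obtain ⟨b, hb, h5⟩ := h.five
  have o : ∀ i j, i ≠ j → inner ℂ (U (b i) w) (U (b j) w) = 0 := by
    intro i j hij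
    have e : inner ℂ (U (b i) w) (U (b j) w) = inner ℂ w (U ((b i)⁻¹ * b j) w) := by
      rw [mul, adj hU (b i)⁻¹, inv_inv]
    have h1 := hull hU hR (innerSL ℂ w) (U ((b i)⁻¹ * b j) w) (inner ℂ w (U ((b i)⁻¹ * b j) w))
      fun z hz => by
        obtain ⟨a, ha, e2⟩ := h5 i j hij z hz
        rw [innerSL_apply_apply, ← mul]
        conv_lhs => enter [3]; rw [← hw a ha, ← mul, ← e2, mul]
        rw [adj hU a, hw _ (A.inv_mem ha)]
    rw [e, ← h1, innerSL_apply_apply, ← (sym hR.proj).symm, h0, inner_zero_left]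
  have n1 : ‖∑ i, U (b i) w‖ ^ 2 = 5 * ‖w‖ ^ 2 := by
    have e : inner ℂ (∑ i, U (b i) w) (∑ i, U (b i) w) = 5 * inner ℂ w w := by
      rw [sum_inner, Finset.sum_congr rfl (g := fun _ => inner ℂ w w) fun i _ => ?_]
      · simp
      · rw [inner_sum, Finset.sum_eq_single i (fun j _ hj => o i j hj.symm) (by simp),
          hU.inner_map]
    have := congrArg Complex.re e
    rw [show (5 : ℂ) = ((5 : ℝ) : ℂ) by norm_num, Complex.re_ofReal_mul] at this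
    exact (inner_self_eq_norm_sq (𝕜 := ℂ) _).symm.trans
      (this.trans (congrArg _ (inner_self_eq_norm_sq (𝕜 := ℂ) _)))
  have n2 : inner ℂ (∑ i, U (b i) w) y = 5 * inner ℂ w y := by
    rw [sum_inner, Finset.sum_congr rfl (g := fun _ => inner ℂ w y) fun i _ => ?_]
    · simp
    · conv_lhs => rw [← hy _ (hb i)]
      exact hU.inner_map _ _ _
  have n3 : (inner ℂ (∑ i, U (b i) w) y).re ≤ ‖∑ i, U (b i) w‖ * ‖y‖ :=
    re_inner_le_norm (𝕜 := ℂ) _ _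
  rw [n2, show (5 : ℂ) = ((5 : ℝ) : ℂ) by norm_num, Complex.re_ofReal_mul] at n3
  have n4 : ‖∑ i, U (b i) w‖ ≤ 9 / 4 * ‖w‖ :=
    (abs_le_of_sq_le_sq' (by rw [n1]; nlinarith [sq_nonneg ‖w‖]) (by positivity)).2
  have := mul_le_mul_of_nonneg_right n4 (norm_nonneg y)
  linarith

end Pair

open Pair Vale.Agent.P083 in
theorem pair (hU : IsURep U) {A B Z : Subgroup Γ} (h : HP A B Z) {P Q : K →L[ℂ] K}
    (hP : IsFixP U A P) (hQ : IsFixP U B Q) (x : K) :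
    -(9 / 20 : ℝ) * (‖x - P x‖ ^ 2 + ‖x - Q x‖ ^ 2) ≤
      2 * (inner ℂ (x - P x) (x - Q x)).re := by
  obtain ⟨R, hR⟩ := exists_fixP U Z
  have sP := sym hP.proj
  have sQ := sym hQ.proj
  have sR := sym hR.proj
  have ra : ∀ a ∈ A, ∀ y, R (U a y) = U a (R y) := fun a ha y =>
    (comm hU hR (U a) (fun z hz y => by rw [← mul, ← mul, (h.cA z hz a ha).eq]) y).symm
  have rb : ∀ a ∈ B, ∀ y, R (U a y) = U a (R y) := fun a ha y =>
    (comm hU hR (U a) (fun z hz y => by rw [← mul, ← mul, (h.cB z hz a ha).eq]) y).symm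
  have zp := comm hU hP R ra
  have zq := comm hU hQ R rb
  have c1 : ∀ b ∈ B, ∀ y, U b (R (P y)) = P (U b (R y)) := fun b hb y =>
    comm hU hP ((U b).comp R) (fun a ha y => by
      obtain ⟨z, hz, e⟩ := h.rel a ha b hb
      simp only [ContinuousLinearMap.comp_apply]
      rw [ra a ha, ← mul a b, e, (h.cB z hz b hb).eq, mul_assoc, (h.cA z hz a ha).eq, mul, mul,
        fix hR hz]) y
  have c2 : P (R (Q x)) = Q (P (R x)) := comm hU hQ (P.comp R) (fun b hb y => by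
    simp only [ContinuousLinearMap.comp_apply]
    rw [rb b hb, ← c1 b hb, zp]) x
  set x₀ := R x with hx₀
  set x₁ := x - R x with hx₁
  have z0 : R x₀ = x₀ := sR.idem x
  have z1 : R x₁ = 0 := by simp [hx₁, sR.idem]
  have hP0 : R (x₀ - P x₀) = x₀ - P x₀ := by rw [map_sub, zp, z0]
  have hQ0 : R (x₀ - Q x₀) = x₀ - Q x₀ := by rw [map_sub, zq, z0]
  have hP1 : R (x₁ - P x₁) = 0 := by rw [map_sub, zp, z1]; simp
  have hQ1 : R (x₁ - Q x₁) = 0 := by rw [map_sub, zq, z1]; simp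
  have eP : x - P x = (x₀ - P x₀) + (x₁ - P x₁) := by simp only [hx₀, hx₁, map_sub]; abel
  have eQ : x - Q x = (x₀ - Q x₀) + (x₁ - Q x₁) := by simp only [hx₀, hx₁, map_sub]; abel
  have a0 : 0 ≤ (inner ℂ (x₀ - P x₀) (x₀ - Q x₀)).re :=
    pair_comm sP sQ _ (by rw [← c2, zq])
  have a1 : -(9 / 20 : ℝ) * (‖x₁ - P x₁‖ ^ 2 + ‖x₁ - Q x₁‖ ^ 2) ≤
      2 * (inner ℂ (x₁ - P x₁) (x₁ - Q x₁)).re := by
    refine pair_generic sP sQ (by norm_num) (by norm_num) _ ?_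
    have s := small hU h hR (w := P (Q x₁)) (y := Q x₁) (fun a ha => fix hP ha _)
      (by rw [zp, zq, z1, map_zero, map_zero]) (fun b hb => fix hQ hb _)
    rw [sP.symm, sP.inner_self] at s
    rcases (norm_nonneg (P (Q x₁))).eq_or_lt with c | c
    · rw [← c]; positivity
    · exact le_of_mul_le_mul_left (by nlinarith) c
  have o1 := sR.inner_eq_zero hP0 hP1
  have o2 := sR.inner_eq_zero hQ0 hQ1
  have o3 := sR.inner_eq_zero hP0 hQ1
  have o4 : inner ℂ (x₁ - P x₁) (x₀ - Q x₀) = 0 :=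
    inner_eq_zero_symm.1 (sR.inner_eq_zero hQ0 hP1)
  rw [eP, eQ, norm_add_sq (𝕜 := ℂ), norm_add_sq (𝕜 := ℂ), o1, o2, inner_add_left, inner_add_right,
    inner_add_right, o3, o4]
  simp only [map_zero, mul_zero, add_zero, zero_add, Complex.add_re]
  nlinarith [sq_nonneg ‖x₀ - P x₀‖, sq_nonneg ‖x₀ - Q x₀‖]

theorem trigap (hU : IsURep U) {A B C Z1 Z2 Z3 : Subgroup Γ} (h1 : HP A B Z1) (h2 : HP B C Z2)
    (h3 : HP C A Z3) (ξ : K) (δ : ℝ) (hA : ∀ a ∈ A, ‖U a ξ - ξ‖ ≤ δ)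
    (hB : ∀ a ∈ B, ‖U a ξ - ξ‖ ≤ δ) (hC : ∀ a ∈ C, ‖U a ξ - ξ‖ ≤ δ) :
    ∃ η : K, (∀ a ∈ A, U a η = η) ∧ (∀ a ∈ B, U a η = η) ∧ (∀ a ∈ C, U a η = η) ∧
      ‖ξ - η‖ ≤ 6 * δ := by
  obtain ⟨P, hP⟩ := exists_fixP U A
  obtain ⟨Q, hQ⟩ := exists_fixP U B
  obtain ⟨R, hR⟩ := exists_fixP U C
  have sw : ∀ {u v : K}, -(9 / 20 : ℝ) * (‖u‖ ^ 2 + ‖v‖ ^ 2) ≤ 2 * (inner ℂ u v).re →
      -(9 / 20 : ℝ) * (‖v‖ ^ 2 + ‖u‖ ^ 2) ≤ 2 * (inner ℂ v u).re := fun {u v} h => by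
    have : (inner ℂ v u).re = (inner ℂ u v).re := inner_re_symm (𝕜 := ℂ) _ _
    rw [this, add_comm]; exact h
  obtain ⟨η, e, d⟩ := tri ![P, Q, R] (fun i => by
    fin_cases i
    exacts [hP.proj, hQ.proj, hR.proj]) (fun i j hij x => by
    fin_cases i <;> fin_cases j
    exacts [absurd rfl hij, pair hU h1 hP hQ x, sw (pair hU h3 hR hP x), sw (pair hU h1 hP hQ x),
      absurd rfl hij, pair hU h2 hQ hR x, pair hU h3 hR hP x, sw (pair hU h2 hQ hR x),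
      absurd rfl hij]) ξ δ (fun i => by
    fin_cases i
    exacts [hP.near hU ξ δ hA, hQ.near hU ξ δ hB, hR.near hU ξ δ hC])
  exact ⟨η, (hP.iff η).1 (e 0), (hQ.iff η).1 (e 1), (hR.iff η).1 (e 2), d⟩

end Vale.Agent.P212
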