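import Vale.Agent.P212.HeisDefs

/- Ping-pong on the torus. -/

noncomputable section

namespace Vale.Agent.P212

namespace RT2
open MeasureTheory Filter Set Topology
open scoped CompactlySupported

theorem exists_measure (Λ : C(TT, ℝ) →ₗ[ℝ] ℝ) (h : ∀ f, 0 ≤ f → 0 ≤ Λ f) :
    ∃ μ : Measure TT, IsFiniteMeasure μ ∧ ∀ f : C(TT, ℝ), ∫ x, f x ∂μ = Λ f := by
  let L0 : C_c(TT, ℝ) →ₗ[ℝ] ℝ :=
    { toFun := fun f => Λ f.toContinuousMap
      map_add' := fun f g => by rw [← map_add]; rfl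
      map_smul' := fun c f => by rw [RingHom.id_apply, ← map_smul]; rfl }
  let L : C_c(TT, ℝ) →ₚ[ℝ] ℝ := PositiveLinearMap.mk₀ L0 fun f hf => h _ fun x => hf x
  refine ⟨RealRMK.rieszMeasure L, inferInstance, fun f => ?_⟩
  exact RealRMK.integral_rieszMeasure L (CompactlySupportedContinuousMap.continuousMapEquiv f)

theorem inv_closed (μ : Measure TT) [IsFiniteMeasure μ] (α : C(TT, TT)) {η : ℝ}
    (h : ∀ f : C(TT, ℝ), 0 ≤ f → f ≤ 1 → |∫ x, (f.comp α) x ∂μ - ∫ x, f x ∂μ| ≤ η)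
    {K : Set TT} (hK : IsClosed K) : |μ.real (α ⁻¹' K) - μ.real K| ≤ η := by
  have hm : Measurable α := α.continuous.measurable
  have h1 := tendsto_integral_thickenedIndicator_of_isClosed μ hK
    (δs := fun n ↦ (1 : ℝ) / (n + 1)) (fun _ ↦ by positivity)
    tendsto_one_div_add_atTop_nhds_zero_nat
  have h2 := tendsto_integral_thickenedIndicator_of_isClosed (μ.map α) hK
    (δs := fun n ↦ (1 : ℝ) / (n + 1)) (fun _ ↦ by positivity)
    tendsto_one_div_add_atTop_nhds_zero_nat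
  rw [map_measureReal_apply hm hK.measurableSet] at h2
  refine le_of_tendsto' (h2.sub h1).abs fun n => ?_
  have hc : Continuous fun ω : TT =>
      (thickenedIndicator (δ := (1 : ℝ) / (n + 1)) (by positivity) K ω : ℝ) := by fun_prop
  rw [integral_map hm.aemeasurable hc.aestronglyMeasurable]
  refine h ⟨_, hc⟩ (fun x => NNReal.coe_nonneg _) fun x => ?_
  exact_mod_cast thickenedIndicator_le_one _ K x

/-- The covering map. -/
def pi (z : ℝ × ℝ) : TT := ((z.1 : UnitAddCircle), (z.2 : UnitAddCircle))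

theorem cont_pi : Continuous pi := by unfold pi; fun_prop

theorem step (μ : Measure TT) [IsFiniteMeasure μ] (α : C(TT, TT)) {η : ℝ}
    (h : ∀ f : C(TT, ℝ), 0 ≤ f → f ≤ 1 → |∫ x, (f.comp α) x ∂μ - ∫ x, f x ∂μ| ≤ η)
    (hα : Function.Injective α) (a : ℝ → ℝ × ℝ → ℝ × ℝ) (hc : ∀ σ, Continuous (a σ))
    (h1 : ∀ z, a 1 (a (-1) z) = z) (h2 : ∀ z, α (pi z) = pi (a 1 z)) {σ : ℝ}
    (hσ : σ = 1 ∨ σ = -1) {S : Set (ℝ × ℝ)} (hS : IsCompact S) :
    μ.real (pi '' S) ≤ μ.real (pi '' (a σ '' S)) + η := by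
  have key : ∀ S : Set (ℝ × ℝ), IsCompact S →
      |μ.real (pi '' S) - μ.real (pi '' (a 1 '' S))| ≤ η := by
    intro S hS
    have h3 := inv_closed μ α h ((hS.image (hc 1)).image cont_pi).isClosed
    have h4 : α ⁻¹' (pi '' (a 1 '' S)) = pi '' S := by
      ext p
      constructor
      · rintro ⟨_, ⟨z, hz, rfl⟩, h5⟩
        exact ⟨z, hz, hα (by rw [h2, h5])⟩
      · rintro ⟨z, hz, rfl⟩
        exact ⟨_, ⟨z, hz, rfl⟩, (h2 z).symm⟩
    rwa [h4] at h3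
  rcases hσ with rfl | rfl
  · linarith [(abs_le.1 (key S hS)).2]
  · have h3 := key _ (hS.image (hc (-1)))
    have h4 : a 1 '' (a (-1) '' S) = S := by
      rw [image_image]; simp only [h1, image_id']
    rw [h4] at h3
    linarith [(abs_le.1 h3).1]

theorem disp {x : ℝ} (h1 : 1 / 16 ≤ |x|) (h2 : |x| ≤ 1 / 2) :
    1 / 16 ≤ ‖fourier 1 (x : UnitAddCircle) - 1‖ ^ 2 := by
  have h3 : fourier 1 (x : UnitAddCircle)
      = Complex.exp (Complex.I * ((2 * Real.pi * x : ℝ) : ℂ)) := by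
    rw [fourier_coe_apply]; congr 1; push_cast; ring
  rw [h3, Complex.norm_exp_I_mul_ofReal_sub_one, Real.norm_eq_abs, sq_abs]
  have hp := Real.pi_pos
  have h4 := Real.mul_le_sin (x := Real.pi * |x|) (by positivity) (by nlinarith)
  have h5 : 2 / Real.pi * (Real.pi * |x|) = 2 * |x| := by field_simp
  have h6 : Real.sin (2 * Real.pi * x / 2) ^ 2 = Real.sin (Real.pi * |x|) ^ 2 := by
    rw [show 2 * Real.pi * x / 2 = Real.pi * x by ring]
    rcases abs_cases x with h | h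
    · rw [h.1]
    · rw [h.1, mul_neg, Real.sin_neg, neg_sq]
  rw [mul_pow, h6]
  nlinarith

/-- The points far from the origin. -/
def far : Set TT := {p | 1 / 16 ≤ qq 1 0 p + qq 0 1 p}

theorem mem_far {z : ℝ × ℝ} (h1 : |z.1| ≤ 1 / 2) (h2 : |z.2| ≤ 1 / 2)
    (h : 1 / 16 ≤ |z.1| ∨ 1 / 16 ≤ |z.2|) : pi z ∈ far := by
  have e1 : qq 1 0 (pi z) = ‖fourier 1 (z.1 : UnitAddCircle) - 1‖ ^ 2 := by
    simp [qq, ee, pi]
  have e2 : qq 0 1 (pi z) = ‖fourier 1 (z.2 : UnitAddCircle) - 1‖ ^ 2 := by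
    simp [qq, ee, pi]
  show 1 / 16 ≤ qq 1 0 (pi z) + qq 0 1 (pi z)
  rw [e1, e2]
  rcases h with h | h
  · linarith [disp h h1, sq_nonneg ‖fourier 1 (z.2 : UnitAddCircle) - 1‖]
  · linarith [disp h h2, sq_nonneg ‖fourier 1 (z.1 : UnitAddCircle) - 1‖]

theorem pi_inj {z w : ℝ × ℝ} (h1 : |z.1| < 1 / 2) (h2 : |z.2| < 1 / 2) (h3 : |w.1| < 1 / 2)
    (h4 : |w.2| < 1 / 2) (h : pi z = pi w) : z = w := by
  have key : ∀ x y : ℝ, |x| < 1 / 2 → |y| < 1 / 2 → (x : UnitAddCircle) = y → x = y := by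
    intro x y hx hy hxy
    rw [abs_lt] at hx hy
    exact (AddCircle.coe_eq_coe_iff_of_mem_Ico (p := 1) (a := -(1 / 2))
      ⟨by linarith, by linarith⟩ ⟨by linarith, by linarith⟩).1 hxy
  exact Prod.ext (key _ _ h1 h3 (congrArg Prod.fst h)) (key _ _ h2 h4 (congrArg Prod.snd h))

theorem pi_surj (p : TT) : ∃ z : ℝ × ℝ, |z.1| ≤ 1 / 2 ∧ |z.2| ≤ 1 / 2 ∧ pi z = p := by
  have key : ∀ t : UnitAddCircle, ∃ x : ℝ, |x| ≤ 1 / 2 ∧ (x : UnitAddCircle) = t := by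
    intro t
    refine ⟨AddCircle.equivIco 1 (-(1 / 2)) t, ?_, AddCircle.coe_equivIco⟩
    have := (AddCircle.equivIco 1 (-(1 / 2)) t).2
    rw [abs_le]
    exact ⟨this.1, by linarith [this.2]⟩
  obtain ⟨x, hx, h1⟩ := key p.1
  obtain ⟨y, hy, h2⟩ := key p.2
  exact ⟨(x, y), hx, hy, Prod.ext h1 h2⟩

/-- A truncated pair of quadrants. -/
def SS (σ r : ℝ) : Set (ℝ × ℝ) :=
  {z | 0 ≤ σ * (z.1 * z.2) ∧ r ≤ |z.1| + |z.2| ∧ |z.1| ≤ 1 / 16 ∧ |z.2| ≤ 1 / 16}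

theorem SS_compact (σ r : ℝ) : IsCompact (SS σ r) := by
  refine (isCompact_closedBall (0 : ℝ × ℝ) (1 / 16)).of_isClosed_subset ?_ ?_
  · unfold SS
    simp only [ofPred_and]
    refine IsClosed.inter ?_ (IsClosed.inter ?_ (IsClosed.inter ?_ ?_)) <;>
      exact isClosed_le (by fun_prop) (by fun_prop)
  · intro z hz
    rw [mem_closedBall_zero_iff, Prod.norm_def]
    exact max_le hz.2.2.1 hz.2.2.2

theorem abs_add_sg {σ x y c : ℝ} (hσ : σ = 1 ∨ σ = -1) (h : 0 ≤ σ * (x * y)) (hc : 0 ≤ c) :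
    |x + c * (σ * y)| = |x| + c * |y| := by
  have h1 : |σ * y| = |y| := by rcases hσ with rfl | rfl <;> simp
  have h2 : 0 ≤ x * (c * (σ * y)) := by nlinarith [mul_nonneg hc h]
  rw [(abs_add_eq_add_abs_iff _ _).2 (mul_nonneg_iff.1 h2), abs_mul, h1, abs_of_nonneg hc]

theorem bound (μ : Measure TT) [IsFiniteMeasure μ] {η : ℝ}
    (h1 : ∀ f : C(TT, ℝ), 0 ≤ f → f ≤ 1 → |∫ x, (f.comp al1) x ∂μ - ∫ x, f x ∂μ| ≤ η)
    (h2 : ∀ f : C(TT, ℝ), 0 ≤ f → f ≤ 1 → |∫ x, (f.comp al2) x ∂μ - ∫ x, f x ∂μ| ≤ η)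
    {σ r : ℝ} (hσ : σ = 1 ∨ σ = -1) (hr : 0 < r) :
    μ.real (pi '' SS σ r) ≤ μ.real far + 3 * η := by
  let a : ℝ → ℝ × ℝ → ℝ × ℝ := fun σ z => (z.1, z.2 + 1 * (σ * z.1))
  let b : ℝ → ℝ × ℝ → ℝ × ℝ := fun σ z => (z.1 + 1 * (σ * z.2), z.2)
  have ca : ∀ σ, Continuous (a σ) := fun σ => by fun_prop
  have cb : ∀ σ, Continuous (b σ) := fun σ => by fun_prop
  have i1 : Function.Injective al1 := by
    intro p q h
    have h5 : (p.1, p.1 + p.2) = (q.1, q.1 + q.2) := h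
    obtain ⟨h3, h4⟩ := Prod.mk.inj h5
    exact Prod.ext h3 (by rw [h3] at h4; exact add_left_cancel h4)
  have i2 : Function.Injective al2 := by
    intro p q h
    have h5 : (p.1 + p.2, p.2) = (q.1 + q.2, q.2) := h
    obtain ⟨h4, h3⟩ := Prod.mk.inj h5
    exact Prod.ext (by rw [h3] at h4; exact add_right_cancel h4) h3
  have hS := SS_compact σ r
  have s1 := step μ al1 h1 i1 a ca (fun z => by simp [a])
    (fun z => by simp [a, al1, pi, add_comm]) hσ hS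
  have s2 := fun S hS => step μ al2 h2 i2 b cb (fun z => by simp [b])
    (fun z => by simp [b, al2, pi]) hσ (S := S) hS
  have s3 := s2 _ hS
  have s4 := s2 _ (hS.image (cb σ))
  have hσ2 : σ * σ = 1 := by rcases hσ with rfl | rfl <;> norm_num
  have fa : ∀ w ∈ a σ '' SS σ r, 0 ≤ σ * (w.1 * w.2) ∧ r ≤ |w.1| + |w.2| ∧ |w.1| ≤ |w.2| ∧
      |w.1| ≤ 3 / 16 ∧ |w.2| ≤ 3 / 16 := by
    rintro _ ⟨z, ⟨k1, k2, k3, k4⟩, rfl⟩
    have e := abs_add_sg (x := z.2) (y := z.1) hσ (by rwa [mul_comm z.2]) zero_le_one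
    simp only [a]
    rw [e]
    have := abs_nonneg z.1
    have := abs_nonneg z.2
    refine ⟨?_, by linarith, by linarith, by linarith, by linarith⟩
    have : σ * (z.1 * (z.2 + 1 * (σ * z.1))) = σ * (z.1 * z.2) + (σ * σ) * z.1 ^ 2 := by ring
    rw [this, hσ2]
    positivity
  have fb : ∀ w ∈ b σ '' (b σ '' SS σ r), 0 ≤ σ * (w.1 * w.2) ∧ r ≤ |w.1| + |w.2| ∧
      2 * |w.2| ≤ |w.1| ∧ |w.1| ≤ 3 / 16 ∧ |w.2| ≤ 3 / 16 := by
    rintro _ ⟨_, ⟨z, ⟨k1, k2, k3, k4⟩, rfl⟩, rfl⟩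
    have e := abs_add_sg (x := z.1) (y := z.2) hσ k1 zero_le_two
    simp only [b]
    rw [show z.1 + 1 * (σ * z.2) + 1 * (σ * z.2) = z.1 + 2 * (σ * z.2) by ring, e]
    have := abs_nonneg z.1
    have := abs_nonneg z.2
    refine ⟨?_, by linarith, by linarith, by linarith, by linarith⟩
    have : σ * ((z.1 + 2 * (σ * z.2)) * z.2) = σ * (z.1 * z.2) + 2 * (σ * σ) * z.2 ^ 2 := by ring
    rw [this, hσ2]
    positivity
  have hd : Disjoint (pi '' (a σ '' SS σ r)) (pi '' (b σ '' (b σ '' SS σ r))) := by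
    rw [Set.disjoint_left]
    rintro _ ⟨z, hz, rfl⟩ ⟨w, hw, h⟩
    obtain ⟨-, k2, k3, k4, k5⟩ := fa z hz
    obtain ⟨-, -, l3, l4, l5⟩ := fb w hw
    have := pi_inj (by linarith) (by linarith) (by linarith) (by linarith) h
    subst this
    have := abs_nonneg w.2
    linarith
  have hsub : ∀ w : ℝ × ℝ, 0 ≤ σ * (w.1 * w.2) → r ≤ |w.1| + |w.2| → |w.1| ≤ 3 / 16 →
      |w.2| ≤ 3 / 16 → pi w ∈ pi '' SS σ r ∪ far := by
    intro w k1 k2 k3 k4
    by_cases h : 1 / 16 ≤ |w.1| ∨ 1 / 16 ≤ |w.2|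
    · exact Or.inr (mem_far (by linarith) (by linarith) h)
    · rw [not_or, not_le, not_le] at h
      exact Or.inl ⟨w, ⟨k1, k2, h.1.le, h.2.le⟩, rfl⟩
  have hu : pi '' (a σ '' SS σ r) ∪ pi '' (b σ '' (b σ '' SS σ r)) ⊆ pi '' SS σ r ∪ far := by
    rintro _ (⟨w, hw, rfl⟩ | ⟨w, hw, rfl⟩)
    · obtain ⟨k1, k2, -, k4, k5⟩ := fa w hw
      exact hsub w k1 k2 k4 k5
    · obtain ⟨k1, k2, -, k4, k5⟩ := fb w hw
      exact hsub w k1 k2 k4 k5
  have m1 := measureReal_union (μ := μ) hd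
    (((hS.image (cb σ)).image (cb σ)).image cont_pi).isClosed.measurableSet
  have m2 := measureReal_mono (μ := μ) hu
  have m3 := measureReal_union_le (μ := μ) (pi '' SS σ r) far
  linarith

theorem punct (μ : Measure TT) [IsFiniteMeasure μ] {M : ℝ}
    (h : ∀ σ r : ℝ, σ = 1 ∨ σ = -1 → 0 < r → μ.real (pi '' SS σ r) ≤ M) :
    μ.real ({0}ᶜ : Set TT) ≤ μ.real far + 2 * M := by
  let K : ℕ → Set TT := fun n =>
    far ∪ (pi '' SS 1 (1 / (n + 1)) ∪ pi '' SS (-1) (1 / (n + 1)))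
  have hmono : Monotone K := by
    intro m n hmn
    have h1 : (1 : ℝ) / (n + 1) ≤ 1 / (m + 1) := Nat.one_div_le_one_div hmn
    have h2 : ∀ σ, pi '' SS σ (1 / (m + 1)) ⊆ pi '' SS σ (1 / (n + 1)) := fun σ =>
      image_mono fun z hz => ⟨hz.1, h1.trans hz.2.1, hz.2.2⟩
    exact union_subset_union_right _ (union_subset_union (h2 _) (h2 _))
  have hK : ∀ n, μ.real (K n) ≤ μ.real far + 2 * M := by
    intro n
    have h1 := measureReal_union_le (μ := μ) far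
      (pi '' SS 1 (1 / (n + 1)) ∪ pi '' SS (-1) (1 / (n + 1)))
    have h2 := measureReal_union_le (μ := μ) (pi '' SS 1 (1 / (n + 1)))
      (pi '' SS (-1) (1 / (n + 1)))
    have h3 := h 1 (1 / (n + 1)) (Or.inl rfl) (by positivity)
    have h4 := h (-1) (1 / (n + 1)) (Or.inr rfl) (by positivity)
    simp only [K]
    linarith
  have hsub : ({0}ᶜ : Set TT) ⊆ ⋃ n, K n := by
    intro p hp
    obtain ⟨z, h1, h2, rfl⟩ := pi_surj p
    by_cases h3 : 1 / 16 ≤ |z.1| ∨ 1 / 16 ≤ |z.2|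
    · exact mem_iUnion.2 ⟨0, Or.inl (mem_far h1 h2 h3)⟩
    rw [not_or, not_le, not_le] at h3
    have h4 : 0 < |z.1| + |z.2| := by
      by_contra hc
      have k1 := abs_nonneg z.1
      have k2 := abs_nonneg z.2
      have k3 : z.1 = 0 := abs_eq_zero.1 (by linarith)
      have k4 : z.2 = 0 := abs_eq_zero.1 (by linarith)
      exact hp (by simp [pi, k3, k4])
    obtain ⟨n, hn⟩ := exists_nat_one_div_lt h4
    refine mem_iUnion.2 ⟨n, Or.inr ?_⟩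
    rcases le_total 0 (z.1 * z.2) with h5 | h5
    · exact Or.inl ⟨z, ⟨by linarith, hn.le, h3.1.le, h3.2.le⟩, rfl⟩
    · exact Or.inr ⟨z, ⟨by linarith, hn.le, h3.1.le, h3.2.le⟩, rfl⟩
  have ht := (ENNReal.tendsto_toReal (measure_ne_top μ _)).comp
    (tendsto_measure_iUnion_atTop (μ := μ) hmono)
  exact (measureReal_mono hsub).trans (le_of_tendsto' ht hK)

end RT2

open MeasureTheory in
theorem pingpong : ∃ C : ℝ, 0 < C ∧ ∀ (Λ : C(TT, ℝ) →ₗ[ℝ] ℝ), (∀ f, 0 ≤ f → 0 ≤ Λ f) →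
    ∀ η η' : ℝ, (∀ f : C(TT, ℝ), 0 ≤ f → f ≤ 1 → |Λ (f.comp al1) - Λ f| ≤ η) →
    (∀ f : C(TT, ℝ), 0 ≤ f → f ≤ 1 → |Λ (f.comp al2) - Λ f| ≤ η) →
    Λ (qq 1 0) ≤ η' → Λ (qq 0 1) ≤ η' → ∀ k : ℤ, Λ (qq k 0) ≤ C * (η + η') := by
  refine ⟨400, by norm_num, fun Λ hΛ η η' h1 h2 h3 h4 k => ?_⟩
  obtain ⟨μ, hμ, hi⟩ := RT2.exists_measure Λ hΛ
  have hq : ∀ a b p, 0 ≤ qq a b p := fun a b p => sq_nonneg _
  have hη : 0 ≤ η := (abs_nonneg _).trans (h1 0 le_rfl zero_le_one)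
  have hη' : 0 ≤ η' := (hΛ _ fun p => hq 1 0 p).trans h3
  have hint : ∀ f : C(TT, ℝ), Integrable f μ := fun f =>
    f.continuous.integrable_of_hasCompactSupport (HasCompactSupport.of_compactSpace f)
  have hfar : μ.real RT2.far ≤ 32 * η' := by
    have h5 := mul_meas_ge_le_integral_of_nonneg (μ := μ) (f := fun p => qq 1 0 p + qq 0 1 p)
      (Filter.Eventually.of_forall fun p => add_nonneg (hq _ _ p) (hq _ _ p))
      ((hint _).add (hint _)) (1 / 16)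
    rw [integral_add (hint _) (hint _), hi, hi] at h5
    unfold RT2.far
    linarith
  have h5 := RT2.punct μ fun σ r hσ hr => RT2.bound μ (η := η)
    (fun f k1 k2 => by rw [hi, hi]; exact h1 f k1 k2)
    (fun f k1 k2 => by rw [hi, hi]; exact h2 f k1 k2) hσ hr
  have hm : MeasurableSet ({0}ᶜ : Set TT) := (measurableSet_singleton _).compl
  have h6 : ∫ p, qq k 0 p ∂μ ≤ ∫ p, ({0}ᶜ : Set TT).indicator (fun _ => (4 : ℝ)) p ∂μ := by
    refine integral_mono (hint _) ((integrable_const _).indicator hm) fun p => ?_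
    by_cases hp : p = 0
    · subst hp
      simp [qq, ee]
    · rw [Set.indicator_of_mem (by simpa using hp)]
      have k1 : ‖ee k 0 p‖ = 1 := by simp [ee, Circle.norm_coe]
      have k2 : ‖ee k 0 p - 1‖ ≤ 2 := (norm_sub_le _ _).trans (by rw [k1, norm_one]; norm_num)
      show ‖ee k 0 p - 1‖ ^ 2 ≤ 4
      nlinarith [norm_nonneg (ee k 0 p - 1)]
  rw [integral_indicator_const _ hm, hi, smul_eq_mul] at h6
  linarith

end Vale.Agent.P212
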