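import Vale.Agent.P212.RT1
import Vale.Agent.P212.RT2

/- Relative property (T). -/

noncomputable section

namespace Vale.Agent.P212

namespace RT3

variable {K : Type} [NormedAddCommGroup K] [InnerProductSpace ℂ K] [CompleteSpace K]

/-- A real function as a complex function. -/
def cx (f : C(TT, ℝ)) : C(TT, ℂ) := ⟨fun p => (f p : ℂ), by fun_prop⟩

theorem cx_add (f g : C(TT, ℝ)) : cx (f + g) = cx f + cx g := by
  ext p
  simp [cx]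

theorem cx_smul (c : ℝ) (f : C(TT, ℝ)) : cx (c • f) = (c : ℂ) • cx f := by
  ext p
  simp [cx]

theorem cx_comp (f : C(TT, ℝ)) (α : C(TT, TT)) : cx (f.comp α) = (cx f).comp α := rfl

theorem norm_cx {f : C(TT, ℝ)} (h0 : 0 ≤ f) (h1 : f ≤ 1) : ‖cx f‖ ≤ 1 := by
  refine (ContinuousMap.norm_le _ zero_le_one).2 fun p => ?_
  have h2 : 0 ≤ f p := h0 p
  have h3 : f p ≤ 1 := h1 p
  show ‖(f p : ℂ)‖ ≤ 1
  rwa [Complex.norm_real, Real.norm_of_nonneg h2]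

/-- The functional. -/
def Lam (Φ : C(TT, ℂ) →⋆ₐ[ℂ] (K →L[ℂ] K)) (ξ : K) : C(TT, ℝ) →ₗ[ℝ] ℝ where
  toFun f := (inner ℂ ξ (Φ (cx f) ξ)).re
  map_add' f g := by
    rw [cx_add, map_add, add_apply, inner_add_right, Complex.add_re]
  map_smul' c f := by
    rw [cx_smul, map_smul, smul_apply, inner_smul_right,
      Complex.re_ofReal_mul]
    rfl

theorem Lam_sq (Φ : C(TT, ℂ) →⋆ₐ[ℂ] (K →L[ℂ] K)) (ξ : K) {f : C(TT, ℝ)} {g : C(TT, ℂ)}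
    (h : cx f = star g * g) : Lam Φ ξ f = ‖Φ g ξ‖ ^ 2 := by
  show (inner ℂ ξ (Φ (cx f) ξ)).re = _
  rw [h, map_mul, map_star, mul_apply_eq_comp, ContinuousLinearMap.star_eq_adjoint,
    ContinuousLinearMap.adjoint_inner_right]
  exact inner_self_eq_norm_sq (𝕜 := ℂ) _

theorem Lam_nonneg (Φ : C(TT, ℂ) →⋆ₐ[ℂ] (K →L[ℂ] K)) (ξ : K) (f : C(TT, ℝ)) (hf : 0 ≤ f) :
    0 ≤ Lam Φ ξ f := by
  have h : cx f = star (cx ⟨fun p => Real.sqrt (f p), by fun_prop⟩) *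
      cx ⟨fun p => Real.sqrt (f p), by fun_prop⟩ := by
    ext p
    have h2 : 0 ≤ f p := hf p
    simp only [cx, ContinuousMap.coe_mk, ContinuousMap.mul_apply, ContinuousMap.star_apply,
      RCLike.star_def, Complex.conj_ofReal]
    rw [← Complex.ofReal_mul, Real.mul_self_sqrt h2]
  rw [Lam_sq Φ ξ h]
  positivity

theorem Lam_qq (Φ : C(TT, ℂ) →⋆ₐ[ℂ] (K →L[ℂ] K)) (ξ : K) (a b : ℤ) :
    Lam Φ ξ (qq a b) = ‖Φ (ee a b) ξ - ξ‖ ^ 2 := by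
  have h : cx (qq a b) = star (ee a b - 1) * (ee a b - 1) := by
    ext p
    simp only [cx, qq, ContinuousMap.coe_mk, ContinuousMap.mul_apply, ContinuousMap.star_apply,
      RCLike.star_def, ContinuousMap.sub_apply, ContinuousMap.one_apply]
    rw [Complex.conj_mul']
    push_cast
    rfl
  rw [Lam_sq Φ ξ h, map_sub, map_one]
  rfl

theorem Lam_comp (Φ : C(TT, ℂ) →⋆ₐ[ℂ] (K →L[ℂ] K)) (ξ : K) {u : K →L[ℂ] K}
    (hu : u ∈ unitary (K →L[ℂ] K)) {α : C(TT, TT)}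
    (h : ∀ f : C(TT, ℂ), u * Φ f = Φ (f.comp α) * u) {ε : ℝ} (hε : ‖u ξ - ξ‖ ≤ ε)
    (f : C(TT, ℝ)) (h0 : 0 ≤ f) (h1 : f ≤ 1) :
    |Lam Φ ξ (f.comp α) - Lam Φ ξ f| ≤ 2 * (ε * ‖ξ‖) := by
  obtain ⟨T, hT⟩ : ∃ T, T = Φ (cx (f.comp α)) := ⟨_, rfl⟩
  have hT1 : ‖T‖ ≤ 1 := by
    rw [hT]
    exact (NonUnitalStarAlgHom.norm_apply_le Φ _).trans
      (norm_cx (fun p => h0 (α p)) fun p => h1 (α p))
  have hT2 : ∀ x, ‖T x‖ ≤ ‖x‖ := fun x =>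
    (T.le_of_opNorm_le hT1 x).trans (one_mul _).le
  have h2 : u (Φ (cx f) ξ) = T (u ξ) := by
    rw [hT, cx_comp]
    exact congrArg (fun S : K →L[ℂ] K => S ξ) (h (cx f))
  have h3 : inner ℂ ξ (Φ (cx f) ξ) = inner ℂ (u ξ) (T (u ξ)) := by
    rw [← h2]
    exact (Unitary.inner_map_map ⟨u, hu⟩ _ _).symm
  have h4 : ‖u ξ‖ = ‖ξ‖ := Unitary.norm_map ⟨u, hu⟩ ξ
  show |(inner ℂ ξ (Φ (cx (f.comp α)) ξ)).re - (inner ℂ ξ (Φ (cx f) ξ)).re| ≤ _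
  rw [h3, ← hT, ← Complex.sub_re]
  refine (Complex.abs_re_le_norm _).trans ?_
  have h5 : inner ℂ ξ (T ξ) - inner ℂ (u ξ) (T (u ξ)) =
      -(inner ℂ (u ξ - ξ) (T ξ) + inner ℂ (u ξ) (T (u ξ - ξ))) := by
    rw [map_sub, inner_sub_left, inner_sub_right]
    ring
  rw [h5, norm_neg]
  refine (norm_add_le _ _).trans ?_
  have h6 : ‖inner ℂ (u ξ - ξ) (T ξ)‖ ≤ ε * ‖ξ‖ :=
    (norm_inner_le_norm _ _).trans
      (mul_le_mul hε (hT2 ξ) (norm_nonneg _) ((norm_nonneg _).trans hε))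
  have h7 : ‖inner ℂ (u ξ) (T (u ξ - ξ))‖ ≤ ‖ξ‖ * ε :=
    (norm_inner_le_norm _ _).trans
      (mul_le_mul h4.le ((hT2 _).trans hε) (norm_nonneg _) (norm_nonneg _))
  linarith

theorem ee_add (k l : ℤ) : ee (k + l) 0 = ee k 0 * ee l 0 := by
  ext p
  simp [ee]

theorem ee_zero : ee 0 0 = 1 := by
  ext p
  simp [ee]

theorem ee10_al1 : (ee 1 0).comp al1 = ee 1 0 := by
  ext p
  simp [ee, al1]

theorem ee01_al1 : (ee 0 1).comp al1 = ee 1 0 * ee 0 1 := by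
  ext p
  simp [ee, al1, AddCircle.toCircle_add]

theorem ee10_al2 : (ee 1 0).comp al2 = ee 1 0 * ee 0 1 := by
  ext p
  simp [ee, al2, AddCircle.toCircle_add]

theorem ee01_al2 : (ee 0 1).comp al2 = ee 0 1 := by
  ext p
  simp [ee, al2]

theorem mem_unitary {Γ : Type} [Group Γ] {U : Γ →* (K →L[ℂ] K)} (hU : IsURep U) (g : Γ) :
    U g ∈ unitary (K →L[ℂ] K) := by
  constructor
  · rw [hU g, ← map_mul, inv_mul_cancel, map_one]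
  · rw [hU g, ← map_mul, mul_inv_cancel, map_one]

theorem Phi_ee {Γ : Type} [Group Γ] (U : Γ →* (K →L[ℂ] K))
    (Φ : C(TT, ℂ) →⋆ₐ[ℂ] (K →L[ℂ] K)) {a : Γ} (h : Φ (ee 1 0) = U a) (k : ℤ) :
    Φ (ee k 0) = U (a ^ k) := by
  induction k using Int.induction_on with
  | zero => rw [ee_zero, map_one, zpow_zero, map_one]
  | succ k ih => rw [ee_add, map_mul, ih, h, zpow_add_one, map_mul]
  | pred k ih =>
    have h1 : Φ (ee (-(k : ℤ) - 1) 0) * U a = U (a ^ (-(k : ℤ))) := by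
      rw [← ih, ← h, ← map_mul, ← ee_add, sub_add_cancel]
    rw [zpow_sub_one, map_mul, ← h1, mul_assoc, ← map_mul, mul_inv_cancel, map_one, mul_one]

end RT3

open RT3 in
theorem relT : ∃ C : ℝ, 0 < C ∧ ∀ (Γ K : Type) [Group Γ] [NormedAddCommGroup K]
    [InnerProductSpace ℂ K] [CompleteSpace K] (U : Γ →* (K →L[ℂ] K)), IsURep U →
    ∀ a b u l : Γ, a * b = b * a → u * a = a * u → u * b = a * b * u → l * b = b * l →
    l * a = a * b * l → ∀ (ξ : K) (ε : ℝ), ‖U a ξ - ξ‖ ≤ ε → ‖U b ξ - ξ‖ ≤ ε →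
    ‖U u ξ - ξ‖ ≤ ε → ‖U l ξ - ξ‖ ≤ ε → ∀ k : ℤ,
    ‖U (a ^ k) ξ - ξ‖ ^ 2 ≤ C * (ε * ‖ξ‖ + ε ^ 2) := by
  obtain ⟨C, hC, H⟩ := pingpong
  refine ⟨2 * C, by positivity, ?_⟩
  intro Γ K _ _ _ _ U hU a b u l hab hua hub hlb hla ξ ε ha hb hu hl k
  obtain ⟨Φ, h1, h2⟩ := exists_calc (U a) (U b) (mem_unitary hU a) (mem_unitary hU b)
    (by rw [Commute, SemiconjBy, ← map_mul, ← map_mul, hab])
  have c1 := calc_conj Φ (U u) (mem_unitary hU u) al1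
    (by rw [ee10_al1, h1, ← map_mul, ← map_mul, hua])
    (by rw [ee01_al1, map_mul, h1, h2, ← map_mul, ← map_mul, ← map_mul, hub])
  have c2 := calc_conj Φ (U l) (mem_unitary hU l) al2
    (by rw [ee10_al2, map_mul, h1, h2, ← map_mul, ← map_mul, ← map_mul, hla])
    (by rw [ee01_al2, h2, ← map_mul, ← map_mul, hlb])
  have h3 := H (Lam Φ ξ) (Lam_nonneg Φ ξ) (2 * (ε * ‖ξ‖)) (ε ^ 2)
    (Lam_comp Φ ξ (mem_unitary hU u) c1 hu) (Lam_comp Φ ξ (mem_unitary hU l) c2 hl)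
    (by rw [Lam_qq, h1]; exact pow_le_pow_left₀ (norm_nonneg _) ha 2)
    (by rw [Lam_qq, h2]; exact pow_le_pow_left₀ (norm_nonneg _) hb 2) k
  rw [Lam_qq, Phi_ee U Φ h1] at h3
  nlinarith [mul_nonneg hC.le (sq_nonneg ε)]

end Vale.Agent.P212
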