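import Vale.Agent.P212.HeisB
import Vale.Agent.P212.HeisF
import Vale.Agent.P212.RT3
import Vale.Agent.P212.Pair

/- Property (T). -/

noncomputable section

namespace Vale.Agent.P212

open scoped Classical
open Matrix

namespace HeisG

theorem gE_gV {i j : II} (h : i ≠ j) (w : II → ℤ) :
    gE i j 1 * gV w = gV (w + Pi.single i (w j)) * gE i j 1 := by
  have h1 : mat (gE i j 1).h *ᵥ w = w + Pi.single i (w j) := by
    rw [mat_gE h, add_mulVec, one_mulVec, single_mulVec]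
    simp [Pi.single]
  ext1
  · simp [gE, gV]
  · simp [gE, gV]
  · simp [gV]
  · rw [HG.mul_v, HG.mul_v]
    change mat (gE i j 1).h *ᵥ w + 0 = mat 1 *ᵥ 0 + _
    rw [h1]
    simp [gV]

theorem gX_gE {i j : II} (h : i ≠ j) (w : II → ℤ) :
    gX w * gE i j 1 = gE i j 1 * gX (w + Pi.single j (w i)) := by
  have h1 : w ᵥ* mat (gE i j 1).h = w + Pi.single j (w i) := by
    rw [mat_gE h, vecMul_add, vecMul_one]
    ext k
    by_cases hk : k = j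
    · subst hk
      simp [vecMul, dotProduct, Matrix.single_apply]
    · simp [vecMul, dotProduct, Matrix.single_apply, hk, Ne.symm hk]
  ext1
  · rw [HG.mul_ξ, HG.mul_ξ]
    change 0 + w ᵥ* mat (gE i j 1).h = _ + 0 ᵥ* _
    rw [h1]
    simp [gX]
  · simp [gE, gX]
  · simp [gX]
  · simp [gE, gX]

theorem gE_gX {i j : II} (h : i ≠ j) (w : II → ℤ) :
    (gE i j 1)⁻¹ * gX w = gX (w + Pi.single j (w i)) * (gE i j 1)⁻¹ := by
  rw [inv_mul_eq_iff_eq_mul, ← mul_assoc, ← gX_gE h, mul_inv_cancel_right]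

theorem gV_mul (w w' : II → ℤ) : gV w * gV w' = gV (w + w') := by
  ext1 <;> simp [gV, add_comm]

theorem gX_mul (w w' : II → ℤ) : gX w * gX w' = gX (w + w') := by
  ext1 <;> simp [gX, add_comm]

theorem third (i j : II) : ∃ m, m ≠ i ∧ m ≠ j := by
  revert i j
  decide

/-- the stabiliser of a vector -/
def stab {K : Type} [NormedAddCommGroup K] [InnerProductSpace ℂ K] (U : HG →* (K →L[ℂ] K))
    (η : K) : Subgroup HG where
  carrier := {g | U g η = η}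
  mul_mem' := fun {a b} ha hb => by
    change U (a * b) η = η
    rw [map_mul, ContinuousLinearMap.mul_apply, hb, ha]
  one_mem' := by
    change U 1 η = η
    rw [map_one, ContinuousLinearMap.one_apply]
  inv_mem' := fun {a} ha => by
    change U a⁻¹ η = η
    conv_lhs => rw [← ha]
    rw [← ContinuousLinearMap.mul_apply, ← map_mul, inv_mul_cancel, map_one,
      ContinuousLinearMap.one_apply]

end HeisG

open HeisG

theorem root_disp : ∃ C : ℝ, 0 < C ∧ ∀ (K : Type) [NormedAddCommGroup K] [InnerProductSpace ℂ K]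
    [CompleteSpace K] (U : HG →* (K →L[ℂ] K)), IsURep U → ∀ (ξ : K) (ε : ℝ),
    (∀ s ∈ SH, ‖U s ξ - ξ‖ ≤ ε) →
    (∀ i j k, i ≠ j → ‖U (gE i j k) ξ - ξ‖ ^ 2 ≤ C * (ε * ‖ξ‖ + ε ^ 2)) ∧
    (∀ i k, ‖U (gV (Pi.single i k)) ξ - ξ‖ ^ 2 ≤ C * (ε * ‖ξ‖ + ε ^ 2)) ∧
    (∀ i k, ‖U (gX (Pi.single i k)) ξ - ξ‖ ^ 2 ≤ C * (ε * ‖ξ‖ + ε ^ 2)) := by
  obtain ⟨C, hC, h⟩ := relT
  refine ⟨C, hC, fun K _ _ _ U hU ξ ε hs => ?_⟩
  have hE := fun i j => hs (gE i j 1) (gen_mem (.inl (i, j)))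
  have hV := fun i => hs (gV (Pi.single i 1)) (gen_mem (.inr (.inl i)))
  have hX := fun i => hs (gX (Pi.single i 1)) (gen_mem (.inr (.inr (.inl i))))
  refine ⟨fun i j k hij => ?_, fun i k => ?_, fun i k => ?_⟩
  · obtain ⟨m, hi, hj⟩ := third i j
    have hab := gE_comm hj.symm hij 1 1
    rw [← gE_zpow]
    refine h HG K U hU _ (gE m j 1) (gE i m 1) (gE m i 1) hab (gE_comm hi hij 1 1)
      (gE_st hi.symm hj hij 1 1) (gE_comm hi.symm hj 1 1) ?_ ξ ε (hE _ _) (hE _ _) (hE _ _)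
      (hE _ _) k
    rw [hab]
    exact gE_st hi hij hj 1 1
  · obtain ⟨m, hi, -⟩ := third i i
    rw [← gV_zpow]
    refine h HG K U hU _ (gV (Pi.single m 1)) (gE i m 1) (gE m i 1) ?_ ?_ ?_ ?_ ?_ ξ ε (hV _)
      (hV _) (hE _ _) (hE _ _) k
    · rw [gV_mul, gV_mul, add_comm]
    · simp [gE_gV hi.symm, hi]
    · simp [gE_gV hi.symm, gV_mul, add_comm]
    · simp [gE_gV hi, hi.symm]
    · simp [gE_gV hi, gV_mul]
  · obtain ⟨m, hi, -⟩ := third i i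
    rw [← gX_zpow]
    refine h HG K U hU _ (gX (Pi.single m 1)) (gE m i 1)⁻¹ (gE i m 1)⁻¹ ?_ ?_ ?_ ?_ ?_ ξ ε (hX _)
      (hX _) ((hU.disp_inv _ _).trans_le (hE _ _)) ((hU.disp_inv _ _).trans_le (hE _ _)) k
    · rw [gX_mul, gX_mul, add_comm]
    · simp [gE_gX hi, hi]
    · simp [gE_gX hi, gX_mul, add_comm]
    · simp [gE_gX hi.symm, hi.symm]
    · simp [gE_gX hi.symm, gX_mul]

theorem HeisG.gap_aux : ∃ D : ℝ, 0 < D ∧ ∀ (K : Type) [NormedAddCommGroup K]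
    [InnerProductSpace ℂ K] [CompleteSpace K] (U : HG →* (K →L[ℂ] K)), IsURep U →
    ∀ (ξ : K) (ε : ℝ), 0 ≤ ε → (∀ s ∈ SH, ‖U s ξ - ξ‖ ≤ ε) →
    (∀ η : K, (∀ g, U g η = η) → inner ℂ η ξ = 0) → ‖ξ‖ ^ 2 ≤ ε ^ 2 * D := by
  obtain ⟨C, hC, h⟩ := root_disp
  refine ⟨(130 ^ 2 * C) ^ 2 + 2 * (130 ^ 2 * C), by positivity,
    fun K _ _ _ U hU ξ ε hε hs hξ => ?_⟩
  obtain ⟨hE, hV, hX⟩ := h K U hU ξ ε hs
  set δ := √(C * (ε * ‖ξ‖ + ε ^ 2)) with hδ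
  have hδ0 : 0 ≤ δ := Real.sqrt_nonneg _
  have hB : ∀ p q : Fin 3, p ≠ q → ∀ a ∈ Bl p q, ‖U a ξ - ξ‖ ≤ 9 * δ := fun p q hpq a ha => by
    obtain ⟨l, h1, rfl, h2⟩ := Bl_len hpq ha
    refine (hU.disp_list l ξ δ fun x hx => ?_).trans (by gcongr; exact_mod_cast h1)
    obtain ⟨i, j, k, hij, rfl⟩ := h2 x hx
    exact Real.le_sqrt_of_sq_le (hE i j k hij)
  obtain ⟨η, h1, h2, h3, h4⟩ := trigap hU (Bl_hp (p := 0) (q := 1) (r := 2) (by decide)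
    (by decide) (by decide)) (Bl_hp (p := 1) (q := 2) (r := 0) (by decide) (by decide) (by decide))
    (Bl_hp (p := 2) (q := 0) (r := 1) (by decide) (by decide) (by decide)) ξ (9 * δ)
    (hB _ _ (by decide)) (hB _ _ (by decide)) (hB _ _ (by decide))
  obtain ⟨η', h5, h6⟩ := near_fix hU ⊤ ξ (130 * δ) fun g _ => by
    obtain ⟨n, hn, hg⟩ := split_HG g
    obtain ⟨l, l1, rfl, l2⟩ := N_len n hn
    have a1 : ‖U l.prod ξ - ξ‖ ≤ 22 * δ := by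
      refine (hU.disp_list l ξ δ fun x hx => ?_).trans (by gcongr; exact_mod_cast l1)
      obtain ⟨i, k, rfl | rfl⟩ := l2 x hx
      exacts [Real.le_sqrt_of_sq_le (hV i k), Real.le_sqrt_of_sq_le (hX i k)]
    have a2 : U ⟨0, 0, g.h, 0⟩ η = η := mid_mem (stab U η) (Bl_gen _ h1 h2 h3) g.h
    have a3 : U ⟨0, 0, g.h, 0⟩ ξ - ξ = U ⟨0, 0, g.h, 0⟩ (ξ - η) - (ξ - η) := by
      rw [map_sub, a2]; abel
    have a4 := norm_sub_le (U ⟨0, 0, g.h, 0⟩ (ξ - η)) (ξ - η)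
    rw [← a3, hU.norm_map] at a4
    rw [hg]
    linarith [hU.disp_mul l.prod ⟨0, 0, g.h, 0⟩ ξ]
  have b1 : ‖ξ‖ ^ 2 ≤ ‖ξ - η'‖ * ‖ξ‖ := by
    have b2 := re_inner_le_norm (𝕜 := ℂ) (ξ - η') ξ
    rwa [inner_sub_left, hξ η' fun g => h5 g trivial, sub_zero, inner_self_eq_norm_sq] at b2
  have b3 : ‖ξ‖ ≤ 130 * δ := by
    by_contra hc
    have hc' := not_le.1 hc
    nlinarith [norm_nonneg ξ]
  have b4 : ‖ξ‖ ^ 2 ≤ 130 ^ 2 * C * (ε * ‖ξ‖ + ε ^ 2) := by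
    have b5 := pow_le_pow_left₀ (norm_nonneg _) b3 2
    rwa [mul_pow, hδ, Real.sq_sqrt (by positivity), ← mul_assoc] at b5
  nlinarith [sq_nonneg (‖ξ‖ - 130 ^ 2 * C * ε)]

theorem heis_gap : Gap SH := by
  obtain ⟨D, hD, h⟩ := gap_aux
  refine ⟨1 / D, one_div_pos.2 hD, fun K _ _ _ U hU ξ hξ => ?_⟩
  have h1 := h K U hU ξ _ (Real.sqrt_nonneg _) (fun s hs => Real.le_sqrt_of_sq_le
    (Finset.single_le_sum (f := fun s => ‖U s ξ - ξ‖ ^ 2) (fun _ _ => sq_nonneg _) hs)) hξ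
  rw [Real.sq_sqrt (Finset.sum_nonneg fun _ _ => sq_nonneg _)] at h1
  rwa [one_div_mul_eq_div, div_le_iff₀ hD]

theorem exists_gd : Nonempty (GD HG) :=
  ⟨⟨SH, SH_gen, dil, dil_inj, dil_fin, gZ 1, gZ_cen, dil_gZ, heis_gap, heis_free⟩⟩

end Vale.Agent.P212
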