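import Vale.Agent.P212.Wop
import Vale.Agent.P089.Sep

/- The Hilbert sums in use, and Cuntz families. -/

noncomputable section

namespace Vale.Agent.P212

open scoped Classical

variable {X H : Type} [NormedAddCommGroup H] [InnerProductSpace ℂ H] [CompleteSpace H]

namespace Hsum

theorem mk' {Ω E : Type} [NormedAddCommGroup E] [InnerProductSpace ℂ E] [CompleteSpace E]
    (I : Ω → H →ₗᵢ[ℂ] E) (h1 : ∀ ω ω', ω ≠ ω' → ∀ ξ η, inner ℂ (I ω ξ) (I ω' η) = 0)
    (h2 : ∀ x, (∀ ω ξ, inner ℂ (I ω ξ) x = 0) → x = 0) : IsHilbertSum ℂ (fun _ : Ω => H) I := by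
  refine IsHilbertSum.mk (fun ω ω' h ξ η => h1 ω ω' h ξ η) ?_
  rw [top_le_iff, Submodule.topologicalClosure_eq_top_iff, eq_bot_iff]
  intro x hx
  exact h2 x fun ω ξ => hx _ (Submodule.mem_iSup_of_mem ω ⟨ξ, rfl⟩)

/-- The isometry induced by an injection of the index set of a basis. -/
def W (b : HilbertBasis ℕ ℂ H) (f : ℕ → ℕ) (hf : Function.Injective f) : H →ₗᵢ[ℂ] H :=
  (b.orthonormal.comp f hf).orthogonalFamily.linearIsometry.comp b.repr.toLinearIsometry

theorem W_apply (b : HilbertBasis ℕ ℂ H) (f : ℕ → ℕ) (hf : Function.Injective f) (k : ℕ) :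
    W b f hf (b k) = b (f k) := by
  have h1 : W b f hf (b k) =
      (b.orthonormal.comp f hf).orthogonalFamily.linearIsometry (b.repr (b k)) := rfl
  rw [h1, b.repr_self, OrthogonalFamily.linearIsometry_apply_single]
  simp

theorem inner_star_mul (K K' : H →ₗᵢ[ℂ] H) (ξ η : H) :
    inner ℂ ξ ((star K.toContinuousLinearMap * K'.toContinuousLinearMap) η) =
      inner ℂ (K ξ) (K' η) :=
  ContinuousLinearMap.adjoint_inner_right K.toContinuousLinearMap ξ (K' η)

theorem exists_hs (b : HilbertBasis ℕ ℂ H) {κ : Type} (e : κ × ℕ ≃ ℕ) :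
    ∃ K : κ → H →ₗᵢ[ℂ] H, IsHilbertSum ℂ (fun _ : κ => H) K := by
  have hf : ∀ i : κ, Function.Injective fun k => e (i, k) := fun i k l h =>
    (Prod.ext_iff.1 (e.injective h)).2
  refine ⟨fun i => W b _ (hf i), mk' _ (fun i j hij ξ η => ?_) fun x hx => ?_⟩
  · have : star (W b _ (hf i)).toContinuousLinearMap * (W b _ (hf j)).toContinuousLinearMap = 0 := by
      refine P089.Sep.ext_basis b fun k l => ?_
      rw [inner_star_mul, W_apply, W_apply, orthonormal_iff_ite.1 b.orthonormal, if_neg]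
      · simp
      · exact fun h => hij (Prod.ext_iff.1 (e.injective h)).1
    rw [← inner_star_mul, this]
    simp
  · apply b.repr.injective
    ext n
    have := hx (e.symm n).1 (b (e.symm n).2)
    rw [W_apply] at this
    simp only [Prod.mk.eta, Equiv.apply_symm_apply] at this
    rw [b.repr_apply_apply, this]
    simp

theorem star_mul {Ω : Type} {K : Ω → H →ₗᵢ[ℂ] H} (hK : IsHilbertSum ℂ (fun _ : Ω => H) K)
    (i j : Ω) : star (K i).toContinuousLinearMap * (K j).toContinuousLinearMap =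
      if i = j then 1 else 0 := by
  ext η
  refine ext_inner_left ℂ fun ξ => ?_
  rw [inner_star_mul, hs_inner hK]
  split_ifs <;> simp

end Hsum

omit [CompleteSpace H] in
theorem inner_JX (x : X) (ξ : H) (f : EX X H) : inner ℂ (JX X H x ξ) f = inner ℂ ξ (f x) :=
  lp.inner_single_left x ξ f

omit [CompleteSpace H] in
theorem JX_apply (x y : X) (ξ : H) : (JX X H x ξ : EX X H) y = if y = x then ξ else 0 := by
  change (lp.single 2 x ξ : EX X H) y = _
  rw [lp.single_apply, Pi.single_apply]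

theorem hs_JX : IsHilbertSum ℂ (fun _ : X => H) (JX X H) := by
  refine Hsum.mk' _ (fun x y h ξ η => ?_) fun f hf => ?_
  · rw [inner_JX, JX_apply, if_neg h, inner_zero_right]
  · ext x
    have := hf x (f x)
    rw [inner_JX, inner_self_eq_zero] at this
    simpa using this

theorem hs_IX {Ω : Type} {Kf : ℕ → H →ₗᵢ[ℂ] H} (hK : IsHilbertSum ℂ (fun _ : ℕ => H) Kf)
    (slot : Ω ≃ X × ℕ) : IsHilbertSum ℂ (fun _ : Ω => H) (IX Kf slot) := by
  refine Hsum.mk' _ (fun ω ω' h ξ η => ?_) fun f hf => ?_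
  · change inner ℂ (JX X H (slot ω).1 (Kf (slot ω).2 ξ)) (JX X H (slot ω').1 (Kf (slot ω').2 η)) = 0
    rw [hs_inner hs_JX, hs_inner hK]
    split_ifs with h1 h2
    · exact absurd (slot.injective (Prod.ext h1 h2)) h
    · rfl
    · rfl
  · ext x
    have : f x = 0 := hs_vec_ext hK fun j ξ => by
      have h1 : inner ℂ (JX X H (slot (slot.symm (x, j))).1 (Kf (slot (slot.symm (x, j))).2 ξ)) f
        = 0 := hf (slot.symm (x, j)) ξ
      rw [Equiv.apply_symm_apply, inner_JX] at h1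
      rw [h1, inner_zero_right]
    simpa using this

theorem exists_Kf (b : HilbertBasis ℕ ℂ H) :
    ∃ Kf : ℕ → H →ₗᵢ[ℂ] H, IsHilbertSum ℂ (fun _ : ℕ => H) Kf :=
  Hsum.exists_hs b Nat.pairEquiv

theorem exists_cuntz (b : HilbertBasis ℕ ℂ H) (κ : Type) [Fintype κ] [Nonempty κ] :
    ∃ s : κ → H →L[ℂ] H, Cuntz s := by
  obtain ⟨e⟩ : Nonempty (κ × ℕ ≃ ℕ) := nonempty_equiv_of_countable
  obtain ⟨K, hK⟩ := Hsum.exists_hs b e
  refine ⟨fun i => (K i).toContinuousLinearMap, fun i j => ?_, hs_ext hK fun j ξ => ?_⟩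
  · rw [Hsum.star_mul hK]
  · have h1 : (∑ i, (K i).toContinuousLinearMap * star (K i).toContinuousLinearMap) *
        (K j).toContinuousLinearMap = (K j).toContinuousLinearMap := by
      rw [Finset.sum_mul, Finset.sum_eq_single j]
      · rw [mul_assoc, Hsum.star_mul hK, if_pos rfl, mul_one]
      · intro i _ hi
        rw [mul_assoc, Hsum.star_mul hK, if_neg hi, mul_zero]
      · simp
    exact congrArg (fun T : H →L[ℂ] H => T ξ) h1

/-- A diagonal operator with one nonzero coefficient. -/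
theorem IsW.single {Kf : ℕ → H →ₗᵢ[ℂ] H} (hK : IsHilbertSum ℂ (fun _ : ℕ => H) Kf) (n : ℕ)
    (T : H →L[ℂ] H) :
    IsW Kf id (fun m => if m = n then T else 0)
      ((Kf n).toContinuousLinearMap * T * star (Kf n).toContinuousLinearMap) := by
  intro m ξ
  have h1 := congrArg (fun S : H →L[ℂ] H => Kf n (T (S ξ))) (Hsum.star_mul hK n m)
  refine Eq.trans h1 ?_
  by_cases h : m = n
  · subst h; simp
  · simp [h, Ne.symm h]

theorem Kf_iso (K : H →ₗᵢ[ℂ] H) : star K.toContinuousLinearMap * K.toContinuousLinearMap = 1 := by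
  ext η
  refine ext_inner_left ℂ fun ξ => ?_
  rw [Hsum.inner_star_mul, K.inner_map_map]
  rfl

end Vale.Agent.P212
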