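import Vale.Agent.P212.HeisDefs
import Vale.Agent.P083.Gap

/- Fixed vectors in convex hulls of orbits; three projections. -/

noncomputable section

namespace Vale.Agent.P212

variable {Γ K : Type} [Group Γ] [NormedAddCommGroup K] [InnerProductSpace ℂ K] [CompleteSpace K]
  {U : Γ →* (K →L[ℂ] K)}

theorem IsURep.inner_map (hU : IsURep U) (g : Γ) (ξ η : K) :
    inner ℂ (U g ξ) (U g η) = inner ℂ ξ η := by
  rw [← ContinuousLinearMap.adjoint_inner_right, ← ContinuousLinearMap.star_eq_adjoint, hU g,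
    ← ContinuousLinearMap.mul_apply, ← map_mul, inv_mul_cancel, map_one,
    ContinuousLinearMap.one_apply]

theorem IsURep.norm_map (hU : IsURep U) (g : Γ) (ξ : K) : ‖U g ξ‖ = ‖ξ‖ := by
  rw [@norm_eq_sqrt_re_inner ℂ, hU.inner_map, ← @norm_eq_sqrt_re_inner ℂ]

theorem IsURep.disp_mul (hU : IsURep U) (g h : Γ) (ξ : K) :
    ‖U (g * h) ξ - ξ‖ ≤ ‖U g ξ - ξ‖ + ‖U h ξ - ξ‖ := by
  have e : U (g * h) ξ - ξ = (U g ξ - ξ) + U g (U h ξ - ξ) := by
    rw [map_mul, ContinuousLinearMap.mul_apply, map_sub]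
    abel
  rw [e]
  exact (norm_add_le _ _).trans (by rw [hU.norm_map])

theorem IsURep.disp_inv (hU : IsURep U) (g : Γ) (ξ : K) : ‖U g⁻¹ ξ - ξ‖ = ‖U g ξ - ξ‖ := by
  rw [← hU.norm_map g, map_sub, ← ContinuousLinearMap.mul_apply, ← map_mul, mul_inv_cancel,
    map_one, ContinuousLinearMap.one_apply, norm_sub_rev]

theorem IsURep.disp_list (hU : IsURep U) (l : List Γ) (ξ : K) (δ : ℝ)
    (h : ∀ g ∈ l, ‖U g ξ - ξ‖ ≤ δ) : ‖U l.prod ξ - ξ‖ ≤ l.length * δ := by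
  induction l with
  | nil => simp
  | cons a l ih =>
    have h1 := h a (by simp)
    have h2 := ih fun g hg => h g (by simp [hg])
    have h3 := hU.disp_mul a l.prod ξ
    rw [List.prod_cons, List.length_cons]
    push_cast
    linarith

theorem hull_fix (hU : IsURep U) (A : Subgroup Γ) (ξ : K) : ∃ η : K, (∀ a ∈ A, U a η = η) ∧
    η ∈ closure (convexHull ℝ {ζ | ∃ a ∈ A, ζ = U a ξ}) := by
  set C := closure (convexHull ℝ {ζ | ∃ a ∈ A, ζ = U a ξ}) with hC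
  have hconv : Convex ℝ C := (convex_convexHull ℝ _).closure
  have hne : C.Nonempty := ⟨U 1 ξ, subset_closure (subset_convexHull ℝ _ ⟨1, A.one_mem, rfl⟩)⟩
  have hinv : ∀ a ∈ A, Set.MapsTo (U a) C C := by
    intro a ha
    refine Set.MapsTo.closure (convexHull_min ?_ ?_) (U a).continuous
    · rintro _ ⟨b, hb, rfl⟩
      exact subset_convexHull ℝ _ ⟨a * b, A.mul_mem ha hb, by rw [map_mul]; rfl⟩
    · exact (convex_convexHull ℝ _).linear_preimage ((U a).restrictScalars ℝ).toLinearMap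
  let : InnerProductSpace ℝ K := InnerProductSpace.complexToReal
  obtain ⟨v, hv, hmin⟩ :=
    exists_norm_eq_iInf_of_complete_convex hne isClosed_closure.isComplete hconv 0
  have hle : ∀ w ∈ C, ‖v‖ ≤ ‖w‖ := by
    intro w hw
    have := ciInf_le (f := fun w : C => ‖(0 : K) - w‖) ⟨0, by rintro _ ⟨x, rfl⟩; positivity⟩ ⟨w, hw⟩
    rw [← hmin] at this
    simpa using this
  refine ⟨v, fun a ha => ?_, hv⟩
  have h1 := hle _ (hconv (hinv a ha hv) hv (a := 1 / 2) (b := 1 / 2) (by norm_num) (by norm_num)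
    (by norm_num))
  rw [← smul_add, norm_smul, Real.norm_of_nonneg (by norm_num)] at h1
  have h2 := parallelogram_law_with_norm ℂ (U a v) v
  rw [hU.norm_map] at h2
  have h3 : ‖U a v - v‖ ^ 2 ≤ 0 := by nlinarith [norm_nonneg v]
  exact sub_eq_zero.1 (norm_eq_zero.1 (pow_eq_zero_iff two_ne_zero |>.1
    (le_antisymm h3 (sq_nonneg _))))

theorem near_fix (hU : IsURep U) (A : Subgroup Γ) (ξ : K) (δ : ℝ)
    (h : ∀ a ∈ A, ‖U a ξ - ξ‖ ≤ δ) : ∃ η : K, (∀ a ∈ A, U a η = η) ∧ ‖ξ - η‖ ≤ δ := by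
  obtain ⟨η, h1, h2⟩ := hull_fix hU A ξ
  refine ⟨η, h1, ?_⟩
  have : η ∈ Metric.closedBall ξ δ := by
    refine closure_minimal (convexHull_min ?_ (convex_closedBall ξ δ)) Metric.isClosed_closedBall h2
    rintro _ ⟨a, ha, rfl⟩
    exact mem_closedBall_iff_norm.2 (h a ha)
  exact mem_closedBall_iff_norm'.1 this

theorem exists_fixP (U : Γ →* (K →L[ℂ] K)) (A : Subgroup Γ) : ∃ P, IsFixP U A P := by
  let V : Submodule ℂ K := ⨅ a ∈ A, LinearMap.ker (U a - 1 : K →L[ℂ] K).toLinearMap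
  have hV : ∀ ξ, ξ ∈ V ↔ ∀ a ∈ A, U a ξ = ξ := fun ξ => by
    simp [V, Submodule.mem_iInf, sub_eq_zero]
  have hc : IsClosed (V : Set K) := by
    have : (V : Set K) = ⋂ a ∈ A, {ξ | U a ξ = ξ} := by
      ext ξ
      simp [hV]
    rw [this]
    exact isClosed_biInter fun a _ => isClosed_eq (U a).continuous continuous_id
  have : CompleteSpace V := hc.completeSpace_coe
  exact ⟨V.starProjection, isStarProjection_starProjection, fun ξ => by
    rw [Submodule.starProjection_eq_self_iff, hV]⟩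

private theorem symIdem {P : K →L[ℂ] K} (hP : IsStarProjection P) : P083.SymIdem P :=
  ⟨fun x y => by
    rw [← ContinuousLinearMap.adjoint_inner_right, ← ContinuousLinearMap.star_eq_adjoint,
      hP.isSelfAdjoint.star_eq],
   fun x => by rw [← ContinuousLinearMap.mul_apply, hP.isIdempotentElem.eq]⟩

theorem IsFixP.near (hU : IsURep U) {A : Subgroup Γ} {P : K →L[ℂ] K} (hP : IsFixP U A P) (ξ : K)
    (δ : ℝ) (h : ∀ a ∈ A, ‖U a ξ - ξ‖ ≤ δ) : ‖ξ - P ξ‖ ≤ δ := by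
  obtain ⟨η, h1, h2⟩ := near_fix hU A ξ δ h
  have h3 := (symIdem hP.proj).norm_compl_sq (ξ - η)
  rw [map_sub, (hP.iff η).2 h1, sub_sub_sub_cancel_right] at h3
  refine le_trans (abs_le_of_sq_le_sq' ?_ (norm_nonneg _)).2 h2
  nlinarith [sq_nonneg ‖P ξ - η‖]

/-- Three projections with small angles. -/
theorem tri (P : Fin 3 → K →L[ℂ] K) (hP : ∀ i, IsStarProjection (P i))
    (h : ∀ i j, i ≠ j → ∀ x, -(9 / 20 : ℝ) * (‖x - P i x‖ ^ 2 + ‖x - P j x‖ ^ 2) ≤
      2 * (inner ℂ (x - P i x) (x - P j x)).re) (ξ : K) (δ : ℝ) (hξ : ∀ i, ‖ξ - P i ξ‖ ≤ δ) :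
    ∃ η : K, (∀ i, P i η = η) ∧ ‖ξ - η‖ ≤ 6 * δ := by
  have hS := fun i => symIdem (hP i)
  let D : K →L[ℂ] K := ∑ i, (1 - P i)
  have hD : ∀ x, D x = ∑ i, (x - P i x) := fun x => by simp [D]
  have gap : ∀ x, ∑ i, ‖x - P i x‖ ^ 2 ≤ 10 * ‖D x‖ ^ 2 := by
    intro x
    have h01 := h 0 1 (by decide) x
    have h02 := h 0 2 (by decide) x
    have h12 := h 1 2 (by decide) x
    rw [hD, Fin.sum_univ_three, Fin.sum_univ_three, norm_add_sq (𝕜 := ℂ), norm_add_sq (𝕜 := ℂ)]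
    simp only [inner_add_left, RCLike.re_to_complex, Complex.add_re]
    linarith
  have hin : ∀ z x, inner ℂ z (D x) = ∑ i, inner ℂ (z - P i z) (x - P i x) := by
    intro z x
    rw [hD, inner_sum]
    refine Finset.sum_congr rfl fun i _ => ?_
    rw [inner_sub_left, (hS i).symm, map_sub, (hS i).idem, sub_self, inner_zero_right, sub_zero]
  have key : ∀ x, ‖D x‖ ^ 2 ≤ 10 * ∑ i, ‖D x - P i (D x)‖ ^ 2 := by
    intro x
    have h1 : ‖D x‖ ^ 2 ≤ ∑ i, (5 * ‖D x - P i (D x)‖ ^ 2 + 1 / 20 * ‖x - P i x‖ ^ 2) := by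
      rw [← inner_self_eq_norm_sq (𝕜 := ℂ), hin, map_sum]
      refine Finset.sum_le_sum fun i _ => (re_inner_le_norm _ _).trans ?_
      nlinarith [sq_nonneg (10 * ‖D x - P i (D x)‖ - ‖x - P i x‖)]
    rw [Finset.sum_add_distrib, ← Finset.mul_sum, ← Finset.mul_sum] at h1
    linarith [gap x]
  let V := (LinearMap.range D.toLinearMap).topologicalClosure
  have hV : ∀ z ∈ V, ‖z‖ ^ 2 ≤ 10 * ∑ i, ‖z - P i z‖ ^ 2 := by
    intro z hz
    refine closure_minimal (t := {z | ‖z‖ ^ 2 ≤ 10 * ∑ i, ‖z - P i z‖ ^ 2}) ?_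
      (isClosed_le (by fun_prop) (by fun_prop)) hz
    rintro _ ⟨x, rfl⟩
    exact key x
  obtain ⟨z, hz, η, hη, e⟩ := V.exists_add_mem_mem_orthogonal ξ
  have h0 : ∀ i, η - P i η = 0 := by
    have h1 : inner ℂ η (D η) = 0 := Submodule.inner_left_of_mem_orthogonal (K := V)
      (Submodule.le_topologicalClosure _ (LinearMap.mem_range_self D.toLinearMap η)) hη
    have h2 : ∑ i, ‖η - P i η‖ ^ 2 = 0 := by
      have := congrArg RCLike.re h1
      rw [hin, map_sum] at this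
      simpa only [inner_self_eq_norm_sq, map_zero] using this
    intro i
    exact norm_eq_zero.1 (pow_eq_zero_iff two_ne_zero |>.1
      ((Finset.sum_eq_zero_iff_of_nonneg fun _ _ => sq_nonneg _).1 h2 i (Finset.mem_univ i)))
  refine ⟨η, fun i => (sub_eq_zero.1 (h0 i)).symm, ?_⟩
  have hδ : 0 ≤ δ := (norm_nonneg _).trans (hξ 0)
  have h1 : ∀ i, ‖z - P i z‖ ^ 2 ≤ δ ^ 2 := fun i => by
    have : z - P i z = ξ - P i ξ := by
      rw [e, map_add, add_sub_add_comm, h0, add_zero]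
    rw [this]
    exact pow_le_pow_left₀ (norm_nonneg _) (hξ i) 2
  have h2 := hV z hz
  rw [Fin.sum_univ_three] at h2
  rw [e, add_sub_cancel_right]
  refine (abs_le_of_sq_le_sq' ?_ (by positivity)).2
  nlinarith [h1 0, h1 1, h1 2]

end Vale.Agent.P212
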