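import Vale.Agent.P212.Base2

/- Tent functions. -/

noncomputable section

namespace Vale.Agent.P212

variable {L : ℕ} [NeZero L]

namespace Tent

theorem Lpos : (0 : ℝ) < L := Nat.cast_pos.mpr (NeZero.pos _)

theorem loc_coe (c : ZMod L) (s : UnitAddCircle) :
    ((loc L c s / L : ℝ) : UnitAddCircle) = s - ZMod.toAddCircle c := by
  rw [loc, mul_div_cancel_left₀ _ (Lpos (L := L)).ne']
  exact AddCircle.coe_equivIco

theorem loc_abs (c : ZMod L) (s : UnitAddCircle) :
    |loc L c s| = L * ‖s - ZMod.toAddCircle c‖ := by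
  have h := (AddCircle.equivIco 1 (-1 / 2) (s - ZMod.toAddCircle c)).2
  have h2 : ‖(((AddCircle.equivIco 1 (-1 / 2) (s - ZMod.toAddCircle c) : ℝ)) : UnitAddCircle)‖ =
      |(AddCircle.equivIco 1 (-1 / 2) (s - ZMod.toAddCircle c) : ℝ)| := by
    rw [AddCircle.norm_coe_eq_abs_iff (p := 1) one_ne_zero, abs_one, abs_le]
    constructor <;> linarith [h.1, h.2]
  rw [AddCircle.coe_equivIco] at h2
  rw [loc, abs_mul, abs_of_pos Lpos, h2]

theorem tent_eq (c : ZMod L) (s : UnitAddCircle) : tent L c s = max 0 (1 - |loc L c s|) := by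
  rw [tent, loc_abs]

theorem abs_lt_of_ne {c : ZMod L} {s : UnitAddCircle} (h : tent L c s ≠ 0) : |loc L c s| < 1 := by
  by_contra h'
  exact h (by rw [tent_eq, max_eq_left (by linarith [not_lt.1 h'])])

theorem loc_eq (hL : 8 ≤ L) {c : ZMod L} {s : UnitAddCircle} {y : ℝ} (hy : |y| ≤ 1)
    (h : ((y / L : ℝ) : UnitAddCircle) = s - ZMod.toAddCircle c) : loc L c s = y := by
  have h8 : (8 : ℝ) ≤ L := by exact_mod_cast hL
  have hp := Lpos (L := L)
  rw [abs_le] at hy
  rw [loc, ← h, AddCircle.equivIco_coe_of_mem, mul_div_cancel₀ _ hp.ne']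
  constructor
  · rw [le_div_iff₀ hp]; linarith [hy.1]
  · rw [div_lt_iff₀ hp]; linarith [hy.2]

theorem loc_diff (c c' : ZMod L) (s : UnitAddCircle) :
    ∃ m : ℤ, loc L c s - loc L c' s = m ∧ (m : ZMod L) = c' - c := by
  obtain ⟨j, hj⟩ := ZMod.intCast_surjective (c' - c)
  have h : (((loc L c s - loc L c' s - j) / L : ℝ) : UnitAddCircle) = 0 := by
    rw [sub_div, sub_div, AddCircle.coe_sub, AddCircle.coe_sub, loc_coe, loc_coe,
      ← ZMod.toAddCircle_intCast, hj, map_sub]
    abel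
  obtain ⟨n, hn⟩ := (AddCircle.coe_eq_zero_iff _).1 h
  rw [zsmul_eq_mul, mul_one, eq_div_iff (Lpos (L := L)).ne'] at hn
  refine ⟨j + n * L, ?_, ?_⟩
  · push_cast; linarith
  · push_cast; simp [hj]

end Tent

open Tent

theorem LL_ge (n : ℕ) : 8 ≤ LL n := by
  rw [LL, pow_add]
  have := Nat.one_le_two_pow (n := n)
  omega

theorem tent_nonneg (c : ZMod L) (s : UnitAddCircle) : 0 ≤ tent L c s := le_max_left _ _

theorem tent_le (c : ZMod L) (s : UnitAddCircle) : tent L c s ≤ 1 := by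
  rw [tent_eq]
  exact max_le zero_le_one (by linarith [abs_nonneg (loc L c s)])

theorem tent_cont (c : ZMod L) : Continuous (tent L c) := by
  unfold tent
  fun_prop

theorem tent_shift (c k : ZMod L) (s : UnitAddCircle) :
    tent L (c + k) s = tent L c (s - ZMod.toAddCircle k) := by
  rw [tent, tent, map_add, sub_sub, add_comm]

theorem tent_sum (hL : 8 ≤ L) (s : UnitAddCircle) : ∑ c : ZMod L, tent L c s = 1 := by
  obtain ⟨x, rfl⟩ := QuotientAddGroup.mk_surjective s
  have hp := Lpos (L := L)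
  have h0 := Int.fract_nonneg (L * x)
  have h1 := Int.fract_lt_one (L * x)
  have e0 : loc L ((⌊L * x⌋ : ℤ) : ZMod L) (x : UnitAddCircle) = Int.fract (L * x) := by
    refine loc_eq hL (by rw [abs_le]; constructor <;> linarith) ?_
    rw [ZMod.toAddCircle_intCast, ← AddCircle.coe_sub, Int.fract]
    congr 1
    field_simp
  have e1 : loc L (((⌊L * x⌋ : ℤ) : ZMod L) + 1) (x : UnitAddCircle) = Int.fract (L * x) - 1 := by
    refine loc_eq hL (by rw [abs_le]; constructor <;> linarith) ?_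
    rw [show ((⌊L * x⌋ : ℤ) : ZMod L) + 1 = ((⌊L * x⌋ + 1 : ℤ) : ZMod L) by push_cast; rfl,
      ZMod.toAddCircle_intCast, ← AddCircle.coe_sub, Int.fract]
    congr 1
    push_cast
    field_simp
    ring
  have : Fact (1 < L) := ⟨by omega⟩
  rw [Fintype.sum_eq_add ((⌊L * x⌋ : ℤ) : ZMod L) (((⌊L * x⌋ : ℤ) : ZMod L) + 1) (by simp)]
  · rw [tent_eq, tent_eq, e0, e1, abs_of_nonneg h0, abs_of_nonpos (by linarith),
      max_eq_right (by linarith), max_eq_right (by linarith)]
    ring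
  · rintro c ⟨hc0, hc1⟩
    by_contra hc
    have h2 := abs_lt.1 (abs_lt_of_ne hc)
    obtain ⟨m, hm, hm'⟩ := loc_diff ((⌊L * x⌋ : ℤ) : ZMod L) c (x : UnitAddCircle)
    rw [e0] at hm
    have h3 : (-1 : ℝ) < m := by linarith [h2.2]
    have h4 : (m : ℝ) < 2 := by linarith [h2.1]
    have h5 : -1 < m := by exact_mod_cast h3
    have h6 : m < 2 := by exact_mod_cast h4
    obtain rfl | rfl : m = 0 ∨ m = 1 := by omega
    · exact hc0 (by linear_combination (norm := (push_cast; ring1)) -hm')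
    · exact hc1 (by linear_combination (norm := (push_cast; ring1)) -hm')

theorem tent_adj (hL : 8 ≤ L) {c c' : ZMod L} {s : UnitAddCircle} (h : tent L c s ≠ 0)
    (h' : tent L c' s ≠ 0) : c' = c ∨ c' = c + 1 ∨ c = c' + 1 := by
  have h1 := abs_lt.1 (abs_lt_of_ne h)
  have h2 := abs_lt.1 (abs_lt_of_ne h')
  obtain ⟨m, hm, hm'⟩ := loc_diff c c' s
  have h3 : (-2 : ℝ) < m := by linarith [h1.1, h2.2]
  have h4 : (m : ℝ) < 2 := by linarith [h1.2, h2.1]
  have h5 : -2 < m := by exact_mod_cast h3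
  have h6 : m < 2 := by exact_mod_cast h4
  obtain rfl | rfl | rfl : m = 0 ∨ m = 1 ∨ m = -1 := by omega
  · exact Or.inl (by linear_combination (norm := (push_cast; ring1)) -hm')
  · exact Or.inr (Or.inl (by linear_combination (norm := (push_cast; ring1)) -hm'))
  · exact Or.inr (Or.inr (by linear_combination (norm := (push_cast; ring1)) hm'))

theorem zmod_small (hL : 8 ≤ L) {k k' : ℤ} (h : |k - k'| ≤ 7) (e : (k : ZMod L) = k') : k = k' := by
  have h1 := (ZMod.intCast_eq_intCast_iff_dvd_sub k k' L).1 e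
  have h2 := Int.eq_zero_of_abs_lt_dvd h1 (by rw [abs_sub_comm]; omega)
  omega

theorem sqt_star (c : ZMod L) : star (sqt L c) = sqt L c := by
  ext s
  simp [sqt]

theorem sqt_norm (c : ZMod L) : ‖sqt L c‖ ≤ 1 := by
  refine (ContinuousMap.norm_le _ zero_le_one).2 fun s => ?_
  change ‖((Real.sqrt (tent L c s) : ℝ) : ℂ)‖ ≤ 1
  rw [Complex.norm_real, Real.norm_eq_abs, abs_of_nonneg (Real.sqrt_nonneg _)]
  exact Real.sqrt_le_one.2 (tent_le c s)

theorem sqt_sum (hL : 8 ≤ L) : ∑ c : ZMod L, sqt L c * sqt L c = 1 := by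
  ext s
  have h : (1 : ℂ) = ∑ c : ZMod L, ((tent L c s : ℝ) : ℂ) := by
    rw [← Complex.ofReal_sum, tent_sum hL s, Complex.ofReal_one]
  rw [ContinuousMap.sum_apply, ContinuousMap.one_apply, h]
  refine Finset.sum_congr rfl fun c _ => ?_
  change ((Real.sqrt (tent L c s) : ℝ) : ℂ) * ((Real.sqrt (tent L c s) : ℝ) : ℂ) = _
  rw [← Complex.ofReal_mul, Real.mul_self_sqrt (tent_nonneg c s)]

theorem sqt_orth (hL : 8 ≤ L) {c c' : ZMod L} (h1 : c' ≠ c) (h2 : c' ≠ c + 1) (h3 : c ≠ c' + 1) :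
    sqt L c * sqt L c' = 0 := by
  ext s
  change ((Real.sqrt (tent L c s) : ℝ) : ℂ) * ((Real.sqrt (tent L c' s) : ℝ) : ℂ) = 0
  by_cases h : tent L c s = 0
  · simp [h]
  by_cases h' : tent L c' s = 0
  · simp [h']
  rcases tent_adj hL h h' with e | e | e
  exacts [(h1 e).elim, (h2 e).elim, (h3 e).elim]

theorem Tent.ne_small (hL : 8 ≤ L) {k k' : ℤ} (h : |k - k'| ≤ 7) (hk : k ≠ k') {c c' : ZMod L}
    (e : c - c' = (k : ZMod L) - k') : c ≠ c' := by
  rintro rfl
  exact hk (zmod_small hL h (by linear_combination -e))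

theorem sqt_three (hL : 8 ≤ L) (c : ZMod L) : sqt L c * (sqt L (c - 1) * sqt L (c - 1) +
    sqt L c * sqt L c + sqt L (c + 1) * sqt L (c + 1)) = sqt L c := by
  classical
  have n1 : c - 1 ≠ c := ne_small hL (k := -1) (k' := 0) (by norm_num) (by norm_num) (by simp)
  have n2 : c - 1 ≠ c + 1 :=
    ne_small hL (k := -1) (k' := 1) (by norm_num) (by norm_num) (by push_cast; ring)
  have n3 : c ≠ c + 1 := ne_small hL (k := 0) (k' := 1) (by norm_num) (by norm_num) (by simp)
  have h : ∑ z ∈ ({c - 1, c, c + 1} : Finset (ZMod L)), sqt L c * (sqt L z * sqt L z) =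
      ∑ z, sqt L c * (sqt L z * sqt L z) := by
    refine Finset.sum_subset (Finset.subset_univ _) fun z _ hz => ?_
    simp only [Finset.mem_insert, Finset.mem_singleton, not_or] at hz
    rw [← mul_assoc, sqt_orth hL hz.2.1 hz.2.2 fun e => hz.1 (by rw [e]; ring), zero_mul]
  rw [← Finset.mul_sum, ← Finset.mul_sum, sqt_sum hL, mul_one,
    Finset.sum_insert (by simp [n1, n2]), Finset.sum_pair n3, ← add_assoc] at h
  exact h

theorem sqt_two (hL : 8 ≤ L) (c : ZMod L) : sqt L c * sqt L (c + 1) *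
    (sqt L c * sqt L c + sqt L (c + 1) * sqt L (c + 1)) = sqt L c * sqt L (c + 1) := by
  classical
  have n3 : c ≠ c + 1 := ne_small hL (k := 0) (k' := 1) (by norm_num) (by norm_num) (by simp)
  have h : ∑ z ∈ ({c, c + 1} : Finset (ZMod L)), sqt L c * sqt L (c + 1) * (sqt L z * sqt L z) =
      ∑ z, sqt L c * sqt L (c + 1) * (sqt L z * sqt L z) := by
    refine Finset.sum_subset (Finset.subset_univ _) fun z _ hz => ?_
    simp only [Finset.mem_insert, Finset.mem_singleton, not_or] at hz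
    by_cases e : c = z + 1
    · have h0 : sqt L (c + 1) * sqt L z = 0 := sqt_orth hL hz.2
        (ne_small hL (k := 0) (k' := 3) (by norm_num) (by norm_num) (by rw [e]; push_cast; ring))
        fun e' => hz.1 (add_right_cancel e').symm
      linear_combination (sqt L c * sqt L z) * h0
    · linear_combination (sqt L (c + 1) * sqt L z) * sqt_orth hL hz.1 hz.2 e
  rw [← Finset.mul_sum, ← Finset.mul_sum, sqt_sum hL, mul_one, Finset.sum_pair n3] at h
  exact h

theorem loc_succ (hL : 8 ≤ L) {c : ZMod L} {s : UnitAddCircle} (h : tent L c s ≠ 0)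
    (h' : tent L (c + 1) s ≠ 0) : loc L c s = loc L (c + 1) s + 1 := by
  have h1 := abs_lt.1 (abs_lt_of_ne h)
  have h2 := abs_lt.1 (abs_lt_of_ne h')
  obtain ⟨m, hm, hm'⟩ := loc_diff c (c + 1) s
  have h3 : (-2 : ℝ) < m := by linarith [h1.1, h2.2]
  have h4 : (m : ℝ) < 2 := by linarith [h1.2, h2.1]
  have h5 : -2 < m := by exact_mod_cast h3
  have h6 : m < 2 := by exact_mod_cast h4
  have h7 : m = 1 := zmod_small hL (by rw [abs_le]; omega) (by rw [hm']; simp)
  rw [h7] at hm
  push_cast at hm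
  linarith

theorem loc_int (c : ZMod L) (s : UnitAddCircle) (D : ℤ) :
    Complex.exp (2 * Real.pi * Complex.I * (D * loc L c s)) = fourier (D * L) s := by
  obtain ⟨j, rfl⟩ := ZMod.intCast_surjective c
  have hp : (L : ℂ) ≠ 0 := Nat.cast_ne_zero.2 (NeZero.ne L)
  have h : s = ((loc L (j : ZMod L) s / L + j / L : ℝ) : UnitAddCircle) := by
    rw [AddCircle.coe_add, loc_coe, ← ZMod.toAddCircle_intCast, sub_add_cancel]
  conv_rhs => rw [h, fourier_coe_apply]
  rw [← mul_one (Complex.exp _), ← Complex.exp_int_mul_two_pi_mul_I (D * j), ← Complex.exp_add]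
  congr 1
  push_cast
  field_simp

theorem exists_GG (hL : 8 ≤ L) : ∃ GG : ZMod L → ℝ → C(UnitAddCircle, ℂ), ∀ c β s,
    GG c β s = sqt L c s * Complex.exp (2 * Real.pi * Complex.I * (β * loc L c s)) := by
  have h8 : (8 : ℝ) ≤ L := by exact_mod_cast hL
  refine ⟨fun c β => ⟨fun s => sqt L c s *
    Complex.exp (2 * Real.pi * Complex.I * (β * loc L c s)), ?_⟩, fun _ _ _ => rfl⟩
  refine continuous_iff_continuousAt.2 fun s => ?_
  by_cases hs : s - ZMod.toAddCircle c = ((-1 / 2 : ℝ) : UnitAddCircle)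
  · have h1 : 1 < L * ‖s - ZMod.toAddCircle c‖ := by
      rw [hs, (AddCircle.norm_coe_eq_abs_iff (p := 1) one_ne_zero).2 (by norm_num [abs_div]),
        abs_of_neg (by norm_num)]
      linarith
    have h2 : ∀ᶠ t in nhds s, 1 < L * ‖t - ZMod.toAddCircle c‖ :=
      (isOpen_lt continuous_const (by fun_prop)).mem_nhds h1
    refine (continuousAt_const (y := (0 : ℂ))).congr (h2.mono fun t ht => ?_)
    have h3 : sqt L c t = 0 := by
      change ((Real.sqrt (tent L c t) : ℝ) : ℂ) = 0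
      rw [tent, max_eq_left (by linarith)]
      simp
    simp only [h3, zero_mul]
  · have h1 : ContinuousAt (loc L c) s := by
      unfold loc
      refine continuousAt_const.mul (continuousAt_subtype_val.comp ?_)
      exact ContinuousAt.comp (f := fun t : UnitAddCircle => t - ZMod.toAddCircle c)
        (AddCircle.continuousAt_equivIco 1 (-1 / 2) hs) (by fun_prop)
    refine (sqt L c).continuous.continuousAt.mul ?_
    have h2 : ContinuousAt (fun t => ((loc L c t : ℝ) : ℂ)) s :=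
      Complex.continuous_ofReal.continuousAt.comp h1
    exact Complex.continuous_exp.continuousAt.comp
      (continuousAt_const.mul (continuousAt_const.mul h2))

end Vale.Agent.P212
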