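import Vale.Agent.P212.Inv
import Vale.Agent.P212.Tent

/- The invariant of a loop. -/

noncomputable section

namespace Vale.Agent.P212

open Vale.Agent.P089
open scoped Classical

variable {H : Type} [NormedAddCommGroup H] [InnerProductSpace ℂ H] [CompleteSpace H] {v M L : ℕ}
  [NeZero M] [NeZero L] {G : Geo v M} {s a : Fin v → H →L[ℂ] H} {F : H →L[ℂ] H}
  {t : TrSet (H →L[ℂ] H)} {w : (Fin v → Bool) → H →L[ℂ] H}

namespace IndY

/-- The exponential. -/
def ex (x : ℝ) : ℂ := Complex.exp (2 * Real.pi * Complex.I * x)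

theorem ex_add (x y : ℝ) : ex (x + y) = ex x * ex y := by
  rw [ex, ex, ex, ← Complex.exp_add]; congr 1; push_cast; ring

theorem ex_zero : ex 0 = 1 := by simp [ex]

theorem ex_star (x : ℝ) : star (ex x) = ex (-x) := by
  rw [ex, ex, Complex.star_def, ← Complex.exp_conj]; congr 1
  simp only [map_mul, Complex.conj_ofReal, Complex.conj_I, map_ofNat]; push_cast; ring

theorem chi (i d : ℤ) : (ZMod.stdAddChar ((i : ZMod M) * (d : ZMod M)) : ℂ) = ex (i * d / M) := by
  rw [← Int.cast_mul, ZMod.stdAddChar_coe, ex]; congr 1; push_cast; ring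

theorem phase (hL : 8 ≤ L) (ℓ : ZMod L → Fin v) (D : ℕ) (h3 : ∀ c, G.adj (ℓ c) (ℓ (c + 1)))
    (h4 : ∀ c, G.c (ℓ c) (ℓ (c + 1)) = D) (i : ℤ) {c c0 : ZMod L} {p : UnitAddCircle}
    (h : tent L c p ≠ 0) (h' : tent L c0 p ≠ 0) :
    (ZMod.stdAddChar ((i : ZMod M) * G.c (ℓ c) (ℓ c0)) : ℂ) * ex (i * D / M * loc L c0 p) =
      ex (i * D / M * loc L c p) := by
  rcases tent_adj hL h h' with e | e | e
  · subst e; rw [G.c_self]; simp
  · subst e
    rw [h4, loc_succ hL h h', ← Int.cast_natCast, chi, ← ex_add]; congr 1; push_cast; ring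
  · subst e
    rw [G.c_symm (h3 c0), h4, loc_succ hL h' h, ← Int.cast_natCast, ← Int.cast_neg, chi, ← ex_add]
    congr 1; push_cast; ring

theorem sqt_zero {c : ZMod L} {p : UnitAddCircle} (h : tent L c p = 0) : sqt L c p = 0 := by
  change ((Real.sqrt (tent L c p) : ℝ) : ℂ) = 0
  rw [h]; simp

theorem sqt_st (c : ZMod L) (p : UnitAddCircle) : star (sqt L c p) = sqt L c p :=
  congrArg (fun f : C(UnitAddCircle, ℂ) => f p) (sqt_star c)

end IndY

open IndY

/-- The trivialisation of the line bundles over a loop. -/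
theorem exists_triv (hL : 8 ≤ L) (hs : Cuntz s) (C : Circ H) {K : H →L[ℂ] H}
    (hK : star K * K = 1) (ℓ : ZMod L → Fin v) (hℓ : Function.Injective ℓ)
    (h1 : ∀ c, a (ℓ c) = K * C.π0 (sqt L c) * star K) (h2 : ∀ x, (∀ c, x ≠ ℓ c) → a x = 0)
    (D : ℕ) (h3 : ∀ c, G.adj (ℓ c) (ℓ (c + 1))) (h4 : ∀ c, G.c (ℓ c) (ℓ (c + 1)) = D) :
    ∃ (f : ℤ → ZMod L → C(UnitAddCircle, ℂ)) (g : Fin v → ℤ → C(UnitAddCircle, ℂ))
      (u : ℤ → H →L[ℂ] H), (∀ i, u i = ∑ c, s (ℓ c) * K * C.π0 (f i c)) ∧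
      (∀ i, star (u i) * u i = 1) ∧ (∀ i : ℤ, u i * star (u i) = pp G s a (i : ZMod M)) ∧
      (∀ (x) (i' i : ℤ), dd G s a x (i' : ZMod M) (i : ZMod M) =
        u i' * C.π0 (g x (i - i')) * star (u i)) ∧
      ∀ i m : ℤ, u (i + M * m) = u i * C.π0 (fourier (D * L * m)) := by
  obtain ⟨GG, hG0⟩ := exists_GG hL
  have hG : ∀ c β p, GG c β p = sqt L c p * ex (β * loc L c p) := fun c β p => by
    rw [hG0, ex]; push_cast; rfl
  let β : ℤ → ℝ := fun i => i * D / M
  let u : ℤ → H →L[ℂ] H := fun i => ∑ c, s (ℓ c) * K * C.π0 (GG c (β i))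
  have hsum : ∀ φ : Fin v → H →L[ℂ] H, (∀ x, a x = 0 → φ x = 0) → ∑ x, φ x = ∑ c, φ (ℓ c) :=
    fun φ hφ => (Fintype.sum_of_injective ℓ hℓ _ φ
      (fun x hx => hφ x (h2 x fun c e => hx ⟨c, e.symm⟩)) fun _ => rfl).symm
  have hGG : ∀ b : ℝ, ∑ c, GG c b * star (GG c b) = 1 := fun b => by
    rw [← sqt_sum hL]
    refine Finset.sum_congr rfl fun c _ => ?_
    ext p
    simp only [ContinuousMap.mul_apply, ContinuousMap.star_apply, hG, star_mul, ex_star, sqt_st]
    calc _ = sqt L c p * sqt L c p * (ex (b * loc L c p) * ex (-(b * loc L c p))) := by ring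
      _ = _ := by rw [← ex_add, add_neg_cancel, ex_zero, mul_one]
  have hKK : ∀ x y : H →L[ℂ] H, x * star K * (K * y) = x * y := fun x y => by
    rw [mul_assoc, ← mul_assoc (star K), hK, one_mul]
  have huu : ∀ (i : ZMod M) c0, uu G s a i (ℓ c0) = (∑ c, s (ℓ c) * K *
      C.π0 ((ZMod.stdAddChar (i * G.c (ℓ c) (ℓ c0)) : ℂ) • sqt L c)) * star K := fun i c0 => by
    rw [uu, hsum _ fun x hx => by rw [hx, mul_zero, smul_zero], Finset.sum_mul]
    refine Finset.sum_congr rfl fun c _ => ?_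
    rw [h1, map_smul]
    simp only [mul_smul_comm, smul_mul_assoc, mul_assoc]
  have hua : ∀ (i : ℤ) c0, uu G s a i (ℓ c0) * a (ℓ c0) =
      u i * C.π0 (GG c0 (-β i)) * star K := fun i c0 => by
    rw [huu, h1, mul_assoc K, hKK, ← mul_assoc]
    congr 1
    simp only [u, Finset.sum_mul]
    refine Finset.sum_congr rfl fun c _ => ?_
    rw [mul_assoc, mul_assoc _ (C.π0 _), ← map_mul, ← map_mul]
    congr 2
    ext p
    simp only [ContinuousMap.mul_apply, ContinuousMap.smul_apply, hG, smul_eq_mul]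
    by_cases e : tent L c p = 0
    · simp [sqt_zero e]
    by_cases e' : tent L c0 p = 0
    · simp [sqt_zero e']
    rw [← phase hL ℓ D h3 h4 i e e']
    have e1 : ex (β i * loc L c0 p) * ex (-β i * loc L c0 p) = 1 := by
      rw [← ex_add, ← add_mul, add_neg_cancel, zero_mul, ex_zero]
    simp only [β] at e1 ⊢
    linear_combination (-(ZMod.stdAddChar ((i : ZMod M) * G.c (ℓ c) (ℓ c0)) : ℂ) *
      sqt L c p * sqt L c0 p) * e1
  have hu1 : ∀ i, star (u i) * u i = 1 := fun i => by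
    simp only [u, star_sum, Finset.sum_mul, Finset.mul_sum]
    have : ∀ c c', star (s (ℓ c) * K * C.π0 (GG c (β i))) * (s (ℓ c') * K * C.π0 (GG c' (β i))) =
        if c = c' then C.π0 (GG c' (β i) * star (GG c' (β i))) else 0 := fun c c' => by
      calc _ = star (C.π0 (GG c (β i))) * star K * (star (s (ℓ c)) * s (ℓ c')) * K *
            C.π0 (GG c' (β i)) := by simp only [star_mul, mul_assoc]
        _ = _ := by
          rw [hs.orth]
          by_cases e : c = c'
          · subst e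
            rw [if_pos rfl, if_pos rfl, mul_one, mul_assoc, hKK, ← map_star, ← map_mul, mul_comm]
          · rw [if_neg e, if_neg (hℓ.ne e)]; simp
    simp only [this, Finset.sum_ite_eq', Finset.mem_univ, if_true]
    rw [← map_sum, hGG, map_one]
  refine ⟨fun i c => GG c (β i), fun x m => if h : ∃ c, x = ℓ c then GG h.choose (β m) else 0, u,
    fun _ => rfl, hu1, fun i => ?_, fun x i' i => ?_, fun i m => ?_⟩
  · rw [pp, hsum _ fun x hx => by rw [hx]; simp]
    have : ∀ c, uu G s a i (ℓ c) * (a (ℓ c) * a (ℓ c)) * star (uu G s a i (ℓ c)) =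
        u i * C.π0 (GG c (-β i) * star (GG c (-β i))) * star (u i) := fun c => by
      have e : star (a (ℓ c)) = a (ℓ c) := by
        rw [h1, star_mul, star_mul, star_star, ← map_star, sqt_star, mul_assoc]
      calc _ = uu G s a i (ℓ c) * a (ℓ c) * star (uu G s a i (ℓ c) * a (ℓ c)) := by
            rw [star_mul, e]; simp only [mul_assoc]
        _ = _ := by
            rw [hua, star_mul, star_star, hKK, star_mul, map_mul, map_star]; simp only [mul_assoc]
    simp only [this]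
    rw [← Finset.sum_mul, ← Finset.mul_sum, ← map_sum, hGG, map_one, mul_one]
  · beta_reduce
    by_cases h : ∃ c, x = ℓ c
    · obtain ⟨c0, rfl⟩ := h
      have h : ∃ c, ℓ c0 = ℓ c := ⟨c0, rfl⟩
      have hc : h.choose = c0 := (hℓ h.choose_spec).symm
      rw [dif_pos h, hc, dd, hua, huu, star_mul, star_star, hKK, mul_assoc, mul_assoc]
      congr 1
      simp only [u, star_sum, Finset.mul_sum]
      refine Finset.sum_congr rfl fun c _ => ?_
      rw [star_mul, star_mul _ (C.π0 _), ← mul_assoc, ← mul_assoc, ← map_star, ← map_star,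
        ← map_mul, ← map_mul]
      congr 2
      ext p
      simp only [ContinuousMap.mul_apply, ContinuousMap.smul_apply, ContinuousMap.star_apply, hG,
        smul_eq_mul, star_mul, sqt_st]
      by_cases e : tent L c p = 0
      · simp [sqt_zero e]
      by_cases e' : tent L c0 p = 0
      · simp [sqt_zero e']
      rw [← phase hL ℓ D h3 h4 i e e', star_mul, ex_star]
      calc _ = sqt L c0 p * sqt L c p * star _ * ex (-β i' * loc L c0 p) := by ring
        _ = sqt L c0 p * sqt L c p * star _ *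
            (ex (β (i - i') * loc L c0 p) * ex (-(β i * loc L c0 p))) := by
          rw [← ex_add]; congr 2; simp only [β]; push_cast; ring
        _ = _ := by simp only [β]; ring
    · rw [dif_neg h, dd, h2 x fun c e => h ⟨c, e⟩]; simp
  · simp only [u, Finset.sum_mul]
    refine Finset.sum_congr rfl fun c _ => ?_
    rw [mul_assoc _ (C.π0 _), ← map_mul]
    congr 2
    ext p
    have e := loc_int c p (D * m)
    have hM : (M : ℝ) ≠ 0 := Nat.cast_ne_zero.2 (NeZero.ne M)
    rw [ContinuousMap.mul_apply, hG, hG, show (D : ℤ) * L * m = D * m * L by ring, ← e, mul_assoc]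
    congr 1
    rw [show β (i + M * m) * loc L c p = β i * loc L c p + (D * m : ℤ) * loc L c p by
      simp only [β]; push_cast; field_simp, ex_add]
    congr 1
    rw [ex]; push_cast; rfl

theorem ind_y (hL : 8 ≤ L) (ht : StdT t) (hs : Cuntz s) (hw : Cuntz w) (ha : IsA G a)
    (hF : IsF a F) (C : Circ H) {K : H →L[ℂ] H} (hK : star K * K = 1) (ℓ : ZMod L → Fin v)
    (hℓ : Function.Injective ℓ) (h1 : ∀ c, a (ℓ c) = K * C.π0 (sqt L c) * star K)
    (h2 : ∀ x, (∀ c, x ≠ ℓ c) → a x = 0) (D : ℕ) (h3 : ∀ c, G.adj (ℓ c) (ℓ (c + 1)))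
    (h4 : ∀ c, G.c (ℓ c) (ℓ (c + 1)) = D) (h5 : F * K = K * ((2 : ℂ) • C.Pi - 1))
    (h6 : star F = F) :
    ∃ (nn : ℤ → ℤ) (e : ℤ) (i0 : ℂ), e.natAbs = D * L ∧ (∀ j, nn (j + M) = nn j + e) ∧
      IsInd t G s w a F fun j => Alt v (fun i => (nn i : ℂ)) j + i0 := by
  obtain ⟨f, g, u, hu, hu1, hup, hd, hper⟩ := exists_triv hL hs C hK ℓ hℓ h1 h2 D h3 h4
  let q := t.K.ringCon.mk'
  have hq : ∀ x y, q x = q y ↔ x - y ∈ t.K := fun x y => by
    rw [← TwoSidedIdeal.rel_iff]; exact RingCon.eq _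
  have hc : ∀ φ, q C.Pi * q (C.π0 φ) = q (C.π0 φ) * q C.Pi := fun φ => by
    rw [← map_mul, ← map_mul, hq, ht.K_iff]; exact C.cpt φ
  have hPi : C.Pi * C.Pi = C.Pi := C.proj.isIdempotentElem
  have hPs : star C.Pi = C.Pi := C.proj.isSelfAdjoint
  have hq1 : ∀ i, q (star (u i)) * q (u i) = 1 := fun i => by rw [← map_mul, hu1, map_one]
  have hq2 : ∀ i x, q (star (u i)) * (q (u i) * x) = x := fun i x => by
    rw [← mul_assoc, hq1, one_mul]
  have hA : ∀ i, q (amp s F) * q (u i) = q (u i) * (q C.Pi + q C.Pi - 1) := fun i => by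
    rw [← map_mul, hu, Finset.mul_sum, map_sum, map_sum, Finset.sum_mul]
    refine Finset.sum_congr rfl fun c _ => ?_
    rw [← mul_assoc, ← mul_assoc, amp_s hs, mul_assoc (s _), h5, two_smul]
    simp only [map_mul, map_sub, map_add, map_one, mul_assoc]
    congr 2
    rw [sub_mul, add_mul, hc, mul_sub, mul_add, mul_one, one_mul]
  have hPP : ∀ i : ℤ, u i * C.Pi * star (u i) - PP G s a F (i : ZMod M) ∈ t.K := fun i => by
    have e1 : q ((4 : ℂ) • (u i * C.Pi * star (u i))) =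
        q (pp G s a (i : ZMod M) * (2 + amp s (F + star F)) * pp G s a (i : ZMod M)) := by
      rw [← hup, h6, amp_add, show (4 : ℂ) = 1 + 1 + 1 + 1 by norm_num, ← one_add_one_eq_two]
      simp only [add_smul, one_smul, map_add, map_mul, map_one, mul_assoc, add_mul, mul_add,
        one_mul]
      rw [← mul_assoc (q (amp s F)), hA]
      simp only [mul_assoc, hq2, sub_mul, add_mul, mul_sub, mul_add, one_mul]
      abel
    have e2 := t.K.mul_mem_left ((4⁻¹ : ℂ) • 1) _ ((hq _ _).1 e1)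
    rwa [smul_mul_assoc, one_mul, smul_sub, smul_smul, inv_mul_cancel₀ (by norm_num : (4 : ℂ) ≠ 0),
      one_smul] at e2
  let Q : ZMod M → H →L[ℂ] H := fun i => u i.val * C.Pi * star (u i.val)
  have hQQ : ∀ i, u i * C.Pi * star (u i) * (u i * C.Pi * star (u i)) = u i * C.Pi * star (u i) :=
    fun i => by
      calc _ = u i * C.Pi * (star (u i) * u i) * C.Pi * star (u i) := by simp only [mul_assoc]
        _ = _ := by rw [hu1, mul_one, mul_assoc (u i), hPi]
  have hQ : ∀ i, IsStarProjection (Q i) ∧ IsCompactOperator (Q i - PP G s a F i : H →L[ℂ] H) :=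
    fun i => ⟨⟨hQQ _, C.proj.isSelfAdjoint.conjugate _⟩, by
      have := hPP i.val
      rwa [Int.cast_natCast, ZMod.natCast_zmod_val, ht.K_iff] at this⟩
  choose z hz using ind_of_lift ht hs hw ha hF Q hQ
  have hM : (M : ℤ) ≠ 0 := Nat.cast_ne_zero.2 (NeZero.ne M)
  let nn : ℤ → ℤ := fun i => D * L * (i / M)
  have hui : ∀ i : ℤ, u i = u (i : ZMod M).val * C.π0 (fourier (nn i)) := fun i => by
    rw [← hper, ZMod.val_intCast, Int.emod_add_mul_ediv]
  have hfs : ∀ n : ℤ, star (C.π0 (fourier n)) = C.π0 (fourier (-n)) := fun n => by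
    rw [← map_star]; congr 1; ext p; simp [fourier_neg]
  have hff : ∀ n : ℤ, C.π0 (fourier n) * C.π0 (fourier (-n)) = 1 := fun n => by
    rw [← map_mul, ← map_one C.π0]; congr 1; ext p
    rw [ContinuousMap.mul_apply, ← fourier_add, add_neg_cancel, fourier_zero]; rfl
  let r : ℤ → H →L[ℂ] H := fun i =>
    C.Pi * C.π0 (fourier (-nn i)) * C.Pi * (C.Pi * star (u (i : ZMod M).val))
  have hr : ∀ i : ℤ, HasInd t (Q i) C.Pi (r i) (nn i) := fun i => by
    have e1 : HasInd t (Q i) C.Pi (C.Pi * star (u (i : ZMod M).val)) 0 := by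
      refine Index.iso (u (i : ZMod M).val * C.Pi) (hQQ _) hPi ?_ ?_ ?_
      · calc _ = C.Pi * C.Pi * (star (u (i : ZMod M).val) * u (i : ZMod M).val) * C.Pi *
              star (u (i : ZMod M).val) := by simp only [Q, mul_assoc]
          _ = _ := by rw [hu1, mul_one, hPi, hPi]
      · rw [← mul_assoc, mul_assoc (u _) C.Pi, hPi]
      · rw [mul_assoc, ← mul_assoc (star _), hu1, one_mul, hPi]
    have e2 := Index.mul e1 (toeplitz ht C (-nn i))
    rwa [zero_add, Int.cast_neg, neg_neg] at e2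
  have hr' : ∀ i : ℤ, q (r i) = q C.Pi * q (star (u i)) := fun i => by
    rw [hui i, star_mul, hfs]
    simp only [r, map_mul]
    rw [hc, mul_assoc (q (C.π0 _)), ← map_mul q C.Pi, hPi, ← mul_assoc, mul_assoc (q (C.π0 _)),
      ← map_mul q C.Pi, hPi, ← hc, mul_assoc]
  have hQ' : ∀ i : ℤ, q (Q i) = q (u i) * q C.Pi * q (star (u i)) := fun i => by
    rw [hui i, star_mul, hfs]
    simp only [Q, map_mul, mul_assoc]
    rw [← mul_assoc (q (C.π0 _)), ← hc, mul_assoc, ← mul_assoc (q (C.π0 _)), ← map_mul q (C.π0 _),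
      hff, map_one, one_mul]
  let W : ℤ → Matrix (Fin v → Bool) (Fin v → Bool) (H →L[ℂ] H) :=
    cw fun l i' i => C.π0 (g l (i - i'))
  have hW : ∀ j, W j = W 0 := fun j => by
    ext ε δ : 2
    simp [W, cw]
  have hz' : ∀ j, MInd t w (W 0) (fun _ => C.Pi) (z j - Alt v (fun i => (nn i : ℂ)) j) := fun j => by
    rw [← hW j]
    refine mind_cmp hw (hz j) (fun ε => r (j + dg ε)) (fun ε => nn (j + dg ε)) (fun ε => hr _)
      fun ε δ => ?_
    rw [← hq, ← sub_eq_zero, ← map_sub]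
    refine cw_mem q.toAddMonoidHom.ker _ _ j j (fun _ => C.Pi) (fun ε => r (j + dg ε))
      (fun ε => r (j + dg ε)) (fun ε => Q ((j + dg ε : ℤ) : ZMod M)) (fun l ε δ _ => ?_) ε δ
    change q _ = 0
    rw [hd]
    simp only [map_sub, map_mul, hr', hQ', mul_assoc, hq2, sub_self]
  refine ⟨nn, D * L, z 0 - Alt v (fun i => (nn i : ℂ)) 0, ?_, fun j => ?_, Q, hQ, fun j => ?_⟩
  · rw [← Nat.cast_mul, Int.natAbs_natCast]
  · simp only [nn]
    rw [Int.add_ediv_of_dvd_right dvd_rfl, Int.ediv_self hM]; ring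
  · beta_reduce
    rw [← Index.uniq (hz' j) (hz' 0), add_sub_cancel]
    exact hz j

end Vale.Agent.P212
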