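import Vale.Agent.P212.Base
import Vale.Agent.P089.Index
import Vale.Agent.P089.Mat

/- Indices of compressed odd matrices. -/

noncomputable section

namespace Vale.Agent.P212

open Vale.Agent.P089
open scoped Classical

namespace MIdx

section Alg

variable {R : Type} [Ring R]

theorem mem_iff (K : TwoSidedIdeal R) (x y : R) :
    x - y ∈ K ↔ K.ringCon.mk' x = K.ringCon.mk' y := by
  rw [← K.rel_iff]
  exact (RingCon.eq K.ringCon).symm

theorem alg {e e' q W p : R} (hq : q * q = q) (he : e * e = e) (he' : e' * e' = e')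
    (c : e * q = q * e) (c' : e' * q = q * e') (hW : W * e' = e * W) (hWW : W * W = p)
    (hp : p * q = q) (hc : q * W = W * q) :
    e * q * W * (e' * q) * (e' * q * W * (e * q)) = e * q := by
  have h1 : e' * q * (e' * q) = e' * q := by
    calc e' * q * (e' * q) = e' * (q * e') * q := by noncomm_ring
      _ = (e' * e') * (q * q) := by rw [← c']; noncomm_ring
      _ = e' * q := by rw [he', hq]
  have h2 : e * q * e = e * q := by
    calc e * q * e = e * (q * e) := by noncomm_ring
      _ = e * e * q := by rw [← c]; noncomm_ring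
      _ = e * q := by rw [he]
  calc e * q * W * (e' * q) * (e' * q * W * (e * q))
      = e * q * W * (e' * q * (e' * q)) * W * (e * q) := by noncomm_ring
    _ = e * q * (W * e') * (q * W) * (e * q) := by rw [h1]; noncomm_ring
    _ = (e * q * e) * (W * W) * (q * e) * q := by rw [hW, hc]; noncomm_ring
    _ = e * q * (p * q) * e * q := by rw [h2, hWW]; noncomm_ring
    _ = e * (q * q) * e * q := by rw [hp]; noncomm_ring
    _ = e * (q * q) := by rw [hq, h2, mul_assoc, hq]
    _ = e * q := by rw [hq]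

theorem algK (K : TwoSidedIdeal R) {e e' q W p : R} (hq : q * q = q) (he : e * e = e)
    (he' : e' * e' = e') (c : e * q = q * e) (c' : e' * q = q * e') (hW : W * e' = e * W)
    (hWW : W * W = p) (hp : p * q - q ∈ K) (hc : q * W - W * q ∈ K) :
    e * q - e * q * W * (e' * q) * (e' * q * W * (e * q)) ∈ K := by
  rw [mem_iff] at hp hc ⊢
  simp only [map_mul] at hp hc ⊢
  refine (alg (p := K.ringCon.mk' p) ?_ ?_ ?_ ?_ ?_ ?_ ?_ hp hc).symm
  · rw [← map_mul, hq]
  · rw [← map_mul, he]
  · rw [← map_mul, he']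
  · rw [← map_mul, c, map_mul]
  · rw [← map_mul, c', map_mul]
  · rw [← map_mul, hW, map_mul]
  · rw [← map_mul, hWW]

theorem ex2 {t : TrSet R} {P Q T : R} (S S' : R) (hP : P * P = P) (hQ : Q * Q = Q)
    (hT : Q * T * P = T) (ha : P - S * T ∈ t.K) (hb : Q - T * S' ∈ t.K) :
    ∃ z, HasInd t P Q T z := by
  have hQT := Index.left_of hQ hT
  have hTP := Index.right_of hP hT
  refine Index.ex (S * T * S') hP hQ hT ?_ ?_
  · have e : P - S * T * S' * T = (P - S * T) + S * (Q - T * S') * T := by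
      have : S * (Q - T * S') * T = S * (Q * T) - S * T * S' * T := by noncomm_ring
      rw [this, hQT]; noncomm_ring
    rw [e]
    exact t.K.add_mem ha (t.K.mul_mem_right _ _ (t.K.mul_mem_left _ _ hb))
  · have e : Q - T * (S * T * S') = (Q - T * S') + T * (P - S * T) * S' := by
      have : T * (P - S * T) * S' = (T * P) * S' - T * (S * T * S') := by noncomm_ring
      rw [this, hTP]; noncomm_ring
    rw [e]
    exact t.K.add_mem hb (t.K.mul_mem_right _ _ (t.K.mul_mem_left _ _ ha))

variable {ι : Type} [Fintype ι] [DecidableEq ι] {w w' : ι → R}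

open Mat

theorem Phi_add (w w' : ι → R) (M N : Matrix ι ι R) :
    Phi w w' (M + N) = Phi w w' M + Phi w w' N := by
  simp only [Phi, ← Finset.sum_add_distrib, Matrix.add_apply, mul_add, add_mul]

theorem Phi_zero (w w' : ι → R) : Phi w w' (0 : Matrix ι ι R) = 0 := by
  simp [Phi]

theorem Phi_ent (h : ∀ i j, w' i * w j = if i = j then 1 else 0) (M : Matrix ι ι R) (a b : ι) :
    w' a * Phi w w' M * w b = M a b := by
  have key : ∀ i j, w' a * (w i * M i j * w' j) * w b =
      if i = a then (if j = b then M a b else 0) else 0 := by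
    intro i j
    have : w' a * (w i * M i j * w' j) * w b = (w' a * w i) * M i j * (w' j * w b) := by
      simp only [mul_assoc]
    rw [this, h, h]
    by_cases e : i = a
    · subst e
      by_cases e' : j = b
      · subst e'; simp
      · simp [e']
    · simp [e, Ne.symm e]
  simp only [Phi, Finset.mul_sum, Finset.sum_mul, key]
  simp

theorem D_eq (par : ι → Bool) (b : Bool) (X : ι → R) :
    D par b X = D par b (fun _ => 1) * Matrix.diagonal X := by
  simp only [D, Matrix.diagonal_mul_diagonal]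
  refine congrArg Matrix.diagonal (funext fun i => ?_)
  split_ifs <;> simp

theorem D_comm (par : ι → Bool) (b : Bool) (X : ι → R) :
    D par b (fun _ => 1) * Matrix.diagonal X = Matrix.diagonal X * D par b (fun _ => 1) := by
  simp only [D, Matrix.diagonal_mul_diagonal]
  refine congrArg Matrix.diagonal (funext fun i => ?_)
  split_ifs <;> simp

theorem D_mul (par : ι → Bool) (b : Bool) (X Y : ι → R) :
    D par b X * D par b Y = D par b fun i => X i * Y i := by
  simp only [D, Matrix.diagonal_mul_diagonal]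
  refine congrArg Matrix.diagonal (funext fun i => ?_)
  split_ifs <;> simp

theorem D_add (par : ι → Bool) (b : Bool) (X Y : ι → R) :
    D par b (fun i => X i + Y i) = D par b X + D par b Y := by
  simp only [D, Matrix.diagonal_add]
  refine congrArg Matrix.diagonal (funext fun i => ?_)
  split_ifs <;> simp

theorem D_zero (par : ι → Bool) (b : Bool) : D par b (fun _ => (0 : R)) = 0 := by
  simp [D]

theorem D_sand (par : ι → Bool) (b b' : Bool) (X Y : ι → R) (W : Matrix ι ι R) (i j : ι) :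
    (D par b X * W * D par b' Y) i j =
      if par i = b ∧ par j = b' then X i * W i j * Y j else 0 := by
  simp only [D, Matrix.diagonal_mul, Matrix.mul_diagonal]
  by_cases e : par i = b <;> by_cases e' : par j = b' <;> simp [e, e']

theorem param (K : TwoSidedIdeal R) (h : ∀ i j, w' i * w j = if i = j then 1 else 0)
    (par : ι → Bool) {W : Matrix ι ι R} {p Q : ι → R}
    (hodd : ∀ ε δ, par ε = par δ → W ε δ = 0) (hsq : W * W = Matrix.diagonal p)
    (hQ : ∀ ε, Q ε * Q ε = Q ε) (hp : ∀ ε, p ε * Q ε - Q ε ∈ K)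
    (hc : ∀ ε δ, Q ε * W ε δ - W ε δ * Q δ ∈ K) (b : Bool) :
    Phi w w' (D par b Q) - Phi w w' (D par b Q) * Phi w w' W * Phi w w' (D par (!b) Q) *
      (Phi w w' (D par (!b) Q) * Phi w w' W * Phi w w' (D par b Q)) ∈ K := by
  rw [D_eq par b Q, D_eq par (!b) Q, ← Phi_mul h, ← Phi_mul h]
  refine algK K (p := Phi w w' (Matrix.diagonal p)) ?_ ?_ ?_ ?_ ?_ ?_ ?_ ?_ ?_
  · rw [Phi_mul h, Matrix.diagonal_mul_diagonal]; simp only [hQ]
  · rw [Phi_mul h, D_mul]; simp only [mul_one]
  · rw [Phi_mul h, D_mul]; simp only [mul_one]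
  · rw [Phi_mul h, Phi_mul h, D_comm]
  · rw [Phi_mul h, Phi_mul h, D_comm]
  · rw [Phi_mul h, Phi_mul h, ← odd_mul hodd (!b), Bool.not_not]
  · rw [Phi_mul h, hsq]
  · rw [Phi_mul h, Phi_sub]
    refine Phi_mem _ _ _ fun i j => ?_
    rw [Matrix.diagonal_mul_diagonal, Matrix.sub_apply]
    by_cases e : i = j
    · subst e
      simp only [Matrix.diagonal_apply_eq]
      exact hp i
    · simp only [Matrix.diagonal_apply_ne _ e, sub_zero]
      exact K.zero_mem
  · rw [Phi_mul h, Phi_mul h, Phi_sub]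
    refine Phi_mem _ _ _ fun i j => ?_
    rw [Matrix.sub_apply, Matrix.diagonal_mul, Matrix.mul_diagonal]
    exact hc i j

theorem idem (h : ∀ i j, w' i * w j = if i = j then 1 else 0) (par : ι → Bool) {Q : ι → R}
    (hQ : ∀ ε, Q ε * Q ε = Q ε) (b : Bool) :
    Phi w w' (D par b Q) * Phi w w' (D par b Q) = Phi w w' (D par b Q) := by
  rw [Phi_mul h, D_mul]; simp only [hQ]

theorem norm_of {P Q W : R} (hP : P * P = P) (hQ : Q * Q = Q) :
    Q * (Q * W * P) * P = Q * W * P := by
  calc Q * (Q * W * P) * P = (Q * Q) * W * (P * P) := by noncomm_ring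
    _ = _ := by rw [hP, hQ]

theorem idem_of (h : ∀ i j, w' i * w j = if i = j then 1 else 0) (par : ι → Bool) {Q : ι → R}
    (hQ : ∀ b, Phi w w' (D par b Q) * Phi w w' (D par b Q) = Phi w w' (D par b Q)) (ε : ι) :
    Q ε * Q ε = Q ε := by
  have h1 := congrArg (fun X => w' ε * X * w ε) (hQ (par ε))
  simp only [Phi_mul h, D_mul, Phi_ent h] at h1
  simpa [D] using h1

end Alg

variable {H : Type} [NormedAddCommGroup H] [InnerProductSpace ℂ H] [CompleteSpace H] {v : ℕ}
  {w : (Fin v → Bool) → H →L[ℂ] H}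

theorem orth (hw : Cuntz w) (i j : Fin v → Bool) :
    star (w i) * w j = if i = j then 1 else 0 := by
  have h := hw.orth i j
  by_cases e : i = j
  · rw [if_pos e] at h ⊢; exact h
  · rw [if_neg e] at h ⊢; exact h

theorem Ph_eq (w : (Fin v → Bool) → H →L[ℂ] H)
    (A : Matrix (Fin v → Bool) (Fin v → Bool) (H →L[ℂ] H)) :
    Ph w A = Mat.Phi w (fun i => star (w i)) A := rfl

theorem DD_eq (w : (Fin v → Bool) → H →L[ℂ] H) (b : Bool) (Q : (Fin v → Bool) → H →L[ℂ] H) :
    DD w b Q = Mat.Phi w (fun i => star (w i)) (Mat.D par b Q) := rfl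

/-- A left parametrix of `P' P`. -/
theorem left_param {t : TrSet (H →L[ℂ] H)} (ht : StdT t) {P P' A A' : H →L[ℂ] H}
    (hP : IsStarProjection P) (hA : IsCompactOperator (P - A : H →L[ℂ] H))
    (hA' : IsCompactOperator (P' - A' : H →L[ℂ] H)) (h : ‖A - A'‖ < 1) :
    ∃ y, P - y * (P * P' * P) ∈ t.K ∧ P - P * P' * P * y ∈ t.K := by
  have hPP : P * P = P := hP.isIdempotentElem
  have hn : ‖P * (A - A') * P‖ < 1 := by
    have h1 : ‖P‖ ≤ 1 := hP.norm_le
    have h2 := norm_mul_le (P * (A - A')) P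
    have h3 := norm_mul_le P (A - A')
    have h4 : ‖P‖ * ‖A - A'‖ ≤ ‖A - A'‖ := mul_le_of_le_one_left (norm_nonneg _) h1
    have h5 : ‖P * (A - A')‖ * ‖P‖ ≤ ‖P * (A - A')‖ := mul_le_of_le_one_right (norm_nonneg _) h1
    linarith
  obtain ⟨u, hu⟩ : IsUnit (1 - P * (A - A') * P) := (Units.oneSub _ hn).isUnit
  have y1 : (↑u⁻¹ : H →L[ℂ] H) * (1 - P * (A - A') * P) = 1 := by rw [← hu]; simp
  have y2 : (1 - P * (A - A') * P) * (↑u⁻¹ : H →L[ℂ] H) = 1 := by rw [← hu]; simp
  generalize (↑u⁻¹ : H →L[ℂ] H) = y at y1 y2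
  have k1 := (ht.K_iff _).2 hA
  have k2 := (ht.K_iff _).2 hA'
  have k : P - P * (A - A') * P - P * P' * P ∈ t.K := by
    have e : P - P * (A - A') * P - P * P' * P = P * ((P - A) - (P' - A')) * P := by
      have : P * ((P - A) - (P' - A')) * P = P * P * P - P * (A - A') * P - P * P' * P := by
        noncomm_ring
      rw [this, hPP, hPP]
    rw [e]
    exact t.K.mul_mem_right _ _ (t.K.mul_mem_left _ _ (t.K.sub_mem k1 k2))
  refine ⟨y, ?_, ?_⟩
  · have e : P - y * (P * P' * P) = y * (P - P * (A - A') * P - P * P' * P) := by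
      have h1 : y * (P - P * (A - A') * P) = P := by
        calc y * (P - P * (A - A') * P) = y * (P - P * (A - A') * (P * P)) := by rw [hPP]
          _ = y * (1 - P * (A - A') * P) * P := by noncomm_ring
          _ = P := by rw [y1, one_mul]
      rw [mul_sub y _ (P * P' * P), h1]
    rw [e]
    exact t.K.mul_mem_left _ _ k
  · have e : P - P * P' * P * y = (P - P * (A - A') * P - P * P' * P) * y := by
      have h1 : (P - P * (A - A') * P) * y = P := by
        calc (P - P * (A - A') * P) * y = (P - (P * P) * (A - A') * P) * y := by rw [hPP]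
          _ = P * ((1 - P * (A - A') * P) * y) := by noncomm_ring
          _ = P := by rw [y2, mul_one]
      rw [sub_mul _ (P * P' * P) y, h1]
    rw [e]
    exact t.K.mul_mem_right _ _ k

theorem four_add (a b : ℤ) :
    (fourier (a + b) : C(UnitAddCircle, ℂ)) = fourier a * fourier b := by
  ext x
  rw [ContinuousMap.mul_apply, fourier_add]

theorem four_zero : (fourier 0 : C(UnitAddCircle, ℂ)) = 1 := by
  ext x
  rw [ContinuousMap.one_apply, fourier_zero]

theorem four_neg (a : ℤ) : (fourier (-a) : C(UnitAddCircle, ℂ)) = star (fourier a) := by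
  ext x
  rw [ContinuousMap.star_apply, fourier_neg]
  rfl

theorem toep_add {t : TrSet (H →L[ℂ] H)} (ht : StdT t) (C : Circ H) {a b : ℤ} {α β : ℂ}
    (ha : HasInd t C.Pi C.Pi (C.Pi * C.π0 (fourier a) * C.Pi) α)
    (hb : HasInd t C.Pi C.Pi (C.Pi * C.π0 (fourier b) * C.Pi) β) :
    HasInd t C.Pi C.Pi (C.Pi * C.π0 (fourier (b + a)) * C.Pi) (α + β) := by
  have hPP : C.Pi * C.Pi = C.Pi := C.proj.isIdempotentElem
  refine Index.kpert (Index.mul ha hb) (norm_of hPP hPP) ?_
  have k := (ht.K_iff _).2 (C.cpt (fourier a))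
  rw [four_add, map_mul]
  generalize C.π0 (fourier a) = U at k ⊢
  generalize C.π0 (fourier b) = V
  generalize C.Pi = P at hPP k ⊢
  have e : P * (V * U) * P - P * V * P * (P * U * P) = -(P * V * (P * U - U * P) * P) := by
    have h1 : P * V * P * (P * U * P) = P * V * (P * P) * U * P := by noncomm_ring
    have h2 : P * V * (P * U - U * P) * P = P * V * P * U * P - P * V * U * (P * P) := by
      noncomm_ring
    rw [h1, h2, hPP]; noncomm_ring
  rw [e]
  exact t.K.neg_mem (t.K.mul_mem_right _ _ (t.K.mul_mem_left _ _ k))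

theorem toep_one {t : TrSet (H →L[ℂ] H)} (ht : StdT t) (C : Circ H) :
    HasInd t C.Pi C.Pi (C.Pi * C.π0 (fourier 1) * C.Pi) (-1) ∧
      HasInd t C.Pi C.Pi (C.Pi * C.π0 (fourier (-1)) * C.Pi) 1 := by
  have hPP : C.Pi * C.Pi = C.Pi := C.proj.isIdempotentElem
  have hPs : star C.Pi = C.Pi := C.proj.isSelfAdjoint
  have hU : star (C.π0 (fourier 1)) * C.π0 (fourier 1) = 1 := by
    rw [← map_star, ← map_mul, ← four_neg, ← four_add, neg_add_cancel, four_zero, map_one]
  have hs := C.shift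
  have hd := C.defect
  obtain ⟨r1, r2⟩ := ht.rk C.v0 C.norm_v0
  rw [four_neg, map_star]
  generalize InnerProductSpace.rankOne ℂ C.v0 C.v0 = ρ at hd r1 r2
  generalize C.π0 (fourier 1) = U at hU hs hd ⊢
  generalize C.Pi = P at hPP hPs hs hd ⊢
  have hs' : P * star U * P = P * star U := by
    have := congrArg star hs
    simp only [star_mul, hPs] at this
    rw [mul_assoc]; exact this
  have e1 : P - P * star U * (U * P) = 0 := by
    have : P * star U * (U * P) = P * (star U * U) * P := by noncomm_ring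
    rw [this, hU, mul_one, hPP, sub_self]
  have e2 : P - U * P * (P * star U) = ρ := by
    have : U * P * (P * star U) = U * (P * P) * star U := by noncomm_ring
    rw [this, hPP, hd]
  constructor
  · refine Index.mk' (P * star U) hPP hPP (norm_of hPP hPP) ?_ ?_ ?_
    · rw [hs, e1]; exact t.I.zero_mem
    · rw [hs, e2]; exact r1
    · rw [hs, e1, e2, r2, Index.tau_zero, zero_sub]
  · refine Index.mk' (U * P) hPP hPP (norm_of hPP hPP) ?_ ?_ ?_
    · rw [hs', e2]; exact r1
    · rw [hs', e1]; exact t.I.zero_mem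
    · rw [hs', e1, e2, r2, Index.tau_zero, sub_zero]

end MIdx

open MIdx

variable {H : Type} [NormedAddCommGroup H] [InnerProductSpace ℂ H] [CompleteSpace H] {v : ℕ}
  {t : TrSet (H →L[ℂ] H)} {w : (Fin v → Bool) → H →L[ℂ] H}
  {W W' : Matrix (Fin v → Bool) (Fin v → Bool) (H →L[ℂ] H)}
  {Q Q' : (Fin v → Bool) → H →L[ℂ] H} {z z' : ℂ}

theorem hasInd_symm {R : Type} [Ring R] {t : TrSet R} {P Q T : R} {z : ℂ} (h : HasInd t P Q T z) :
    ∃ S, HasInd t Q P S (-z) ∧ P - S * T ∈ t.I ∧ Q - T * S ∈ t.I := by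
  obtain ⟨hP, hQ, hT, S, hS, ha, hb, hz⟩ := h
  exact ⟨S, ⟨hQ, hP, hS, T, hT, hb, ha, by rw [hz, neg_sub]⟩, ha, hb⟩

theorem mind_ex (hw : Cuntz w) (p : (Fin v → Bool) → H →L[ℂ] H)
    (hodd : ∀ ε δ, par ε = par δ → W ε δ = 0) (hsq : W * W = Matrix.diagonal p)
    (hQ : ∀ ε, Q ε * Q ε = Q ε) (hp : ∀ ε, p ε * Q ε - Q ε ∈ t.K)
    (hc : ∀ ε δ, Q ε * W ε δ - W ε δ * Q δ ∈ t.K) : ∃ z, MInd t w W Q z := by
  have h := orth hw
  have i1 := idem h par hQ true
  have i0 := idem h par hQ false
  exact Index.ex (DD w true Q * Ph w W * DD w false Q) i1 i0 (norm_of i1 i0)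
    (param t.K h par hodd hsq hQ hp hc true) (param t.K h par hodd hsq hQ hp hc false)

theorem mind_zero (hw : Cuntz w) (p : (Fin v → Bool) → H →L[ℂ] H)
    (hodd : ∀ ε δ, par ε = par δ → W ε δ = 0) (hsq : W * W = Matrix.diagonal p)
    (hQ : ∀ ε, Q ε * Q ε = Q ε) (hp : ∀ ε, p ε * Q ε = Q ε)
    (hc : ∀ ε δ, Q ε * W ε δ = W ε δ * Q δ) : MInd t w W Q 0 := by
  have h := orth hw
  have i1 := idem h par hQ true
  have i0 := idem h par hQ false
  have hp' : ∀ ε, p ε * Q ε - Q ε ∈ (⊥ : TwoSidedIdeal (H →L[ℂ] H)) := fun ε => by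
    rw [hp, sub_self]; exact TwoSidedIdeal.zero_mem _
  have hc' : ∀ ε δ, Q ε * W ε δ - W ε δ * Q δ ∈ (⊥ : TwoSidedIdeal (H →L[ℂ] H)) := fun ε δ => by
    rw [hc, sub_self]; exact TwoSidedIdeal.zero_mem _
  have a1 := param ⊥ h par hodd hsq hQ hp' hc' true
  have a0 := param ⊥ h par hodd hsq hQ hp' hc' false
  rw [TwoSidedIdeal.mem_bot, sub_eq_zero] at a1 a0
  exact Index.iso (DD w true Q * Ph w W * DD w false Q) i1 i0 (norm_of i1 i0) a1.symm a0.symm

theorem mind_cmp (hw : Cuntz w) (hz : MInd t w W Q z) (r : (Fin v → Bool) → H →L[ℂ] H)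
    (k : (Fin v → Bool) → ℂ) (hr : ∀ ε, HasInd t (Q ε) (Q' ε) (r ε) (k ε))
    (hK : ∀ ε δ, Q' ε * W' ε δ * r δ - r ε * W ε δ * Q δ ∈ t.K) :
    MInd t w W' Q' (z - ∑ ε, if par ε then k ε else -k ε) := by
  have h := orth hw
  have hs : ∀ b : Bool, HasInd t (DD w b Q) (DD w b Q') (DD w b r)
      (∑ i ∈ Finset.univ.filter fun i => par i = b, k i) := fun b => by
    simp only [DD_eq, Mat.D, Mat.Phi_diag]
    exact Mat.hasInd_sum (indexS _ t) h hr _
  obtain ⟨S, hS, -, hb⟩ := hasInd_symm (hs true)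
  have i1 := (hs true).2.1
  have i0 := (hs false).2.1
  have hm := Index.mul (Index.mul hS hz) (hs false)
  have ez : z - ∑ ε, (if par ε then k ε else -k ε) =
      -(∑ i ∈ Finset.univ.filter fun i => par i = true, k i) + z +
        ∑ i ∈ Finset.univ.filter fun i => par i = false, k i := by
    rw [Finset.sum_ite, Finset.sum_neg_distrib]
    simp only [Bool.not_eq_true]
    ring
  rw [ez]
  refine Index.kpert hm (norm_of i1 i0) ?_
  have hq : ∀ ε, Q' ε * r ε = r ε := fun ε => Index.left_of (hr ε).2.1 (hr ε).2.2.1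
  have hq' : ∀ ε, r ε * Q ε = r ε := fun ε => Index.right_of (hr ε).1 (hr ε).2.2.1
  have m1 : DD w true Q' * DD w true r = DD w true r := by
    simp only [DD_eq, Mat.Phi_mul h, D_mul, hq]
  have m0 : DD w false r * DD w false Q = DD w false r := by
    simp only [DD_eq, Mat.Phi_mul h, D_mul, hq']
  have k1 : DD w false Q' * Ph w W' * DD w true r - DD w false r * Ph w W * DD w true Q ∈ t.K := by
    simp only [DD_eq, Ph_eq, Mat.Phi_mul h, Mat.Phi_sub]
    refine Mat.Phi_mem _ _ _ fun i j => ?_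
    rw [Matrix.sub_apply, D_sand, D_sand]
    split_ifs
    · exact hK i j
    · rw [sub_zero]; exact t.K.zero_mem
  generalize DD w true Q' = P1' at *
  generalize DD w false Q' = P0' at *
  generalize DD w true Q = P1 at *
  generalize DD w false Q = P0 at *
  generalize DD w true r = R1 at *
  generalize DD w false r = R0 at *
  generalize Ph w W' = A' at *
  generalize Ph w W = A at *
  have e : P0' * A' * P1' - R0 * (P0 * A * P1 * S) =
      P0' * A' * P1' * (P1' - R1 * S) + (P0' * A' * R1 - R0 * A * P1) * S := by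
    have h1 : P0' * A' * P1' * (P1' - R1 * S) =
        P0' * A' * (P1' * P1') - P0' * A' * (P1' * R1) * S := by noncomm_ring
    have h2 : R0 * (P0 * A * P1 * S) = (R0 * P0) * A * P1 * S := by noncomm_ring
    rw [h1, h2, i1, m1, m0]; noncomm_ring
  rw [e]
  exact t.K.add_mem (t.K.mul_mem_left _ _ (t.le hb)) (t.K.mul_mem_right _ _ k1)

theorem mind_conj (hw : Cuntz w) (hz : MInd t w W Q z) {u : H →L[ℂ] H} (hu : star u * u = 1)
    (hW : ∀ ε δ, W' ε δ * u = u * W ε δ) : MInd t w W' (fun ε => u * Q ε * star u) z := by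
  have h := orth hw
  have hQ : ∀ ε, Q ε * Q ε = Q ε := idem_of h par fun b => by
    cases b
    · exact hz.2.1
    · exact hz.1
  have m : ∀ X Y : H →L[ℂ] H, X * star u * (u * Y) = X * Y := fun X Y => by
    calc X * star u * (u * Y) = X * (star u * u) * Y := by simp only [mul_assoc]
      _ = X * Y := by rw [hu, mul_one]
  have h1 := mind_cmp (W' := W') (Q' := fun ε => u * Q ε * star u) hw hz (fun ε => u * Q ε)
    (fun _ => 0) (fun ε => ?_) (fun ε δ => ?_)
  · simpa using h1
  · refine Index.iso (Q ε * star u) (hQ ε) ?_ ?_ ?_ ?_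
    · rw [mul_assoc u (Q ε) (star u), ← mul_assoc u (Q ε) (star u), mul_assoc u (Q ε) (star u),
        ← mul_assoc u (Q ε) (star u)]
      calc u * Q ε * star u * (u * Q ε * star u) = u * Q ε * star u * (u * (Q ε * star u)) := by
            simp only [mul_assoc]
        _ = u * (Q ε * Q ε) * star u := by rw [m]; simp only [mul_assoc]
        _ = _ := by rw [hQ]
    · rw [m, mul_assoc u, hQ, mul_assoc u, hQ]
    · rw [m, hQ]
    · calc u * Q ε * (Q ε * star u) = u * (Q ε * Q ε) * star u := by simp only [mul_assoc]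
        _ = _ := by rw [hQ]
  · have e : u * Q ε * star u * W' ε δ * (u * Q δ) = u * Q ε * W ε δ * Q δ := by
      calc u * Q ε * star u * W' ε δ * (u * Q δ) = u * Q ε * star u * (W' ε δ * u) * Q δ := by
            simp only [mul_assoc]
        _ = _ := by rw [hW, m]
    rw [e, sub_self]
    exact t.K.zero_mem

theorem mind_add (hw : Cuntz w) (hz : MInd t w W Q z) (hz' : MInd t w W Q' z')
    (h1 : ∀ ε, Q ε * Q' ε = 0) (h2 : ∀ ε, Q' ε * Q ε = 0)
    (h3 : ∀ ε δ, Q ε * W ε δ * Q' δ = 0) (h4 : ∀ ε δ, Q' ε * W ε δ * Q δ = 0) :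
    MInd t w W (fun ε => Q ε + Q' ε) (z + z') := by
  have h := orth hw
  have a : ∀ b, DD w b (fun ε => Q ε + Q' ε) = DD w b Q + DD w b Q' := fun b => by
    simp only [DD_eq, D_add, Phi_add]
  have o1 : ∀ b, DD w b Q * DD w b Q' = 0 := fun b => by
    simp only [DD_eq, Mat.Phi_mul h, D_mul, h1, D_zero, Phi_zero]
  have o2 : ∀ b, DD w b Q' * DD w b Q = 0 := fun b => by
    simp only [DD_eq, Mat.Phi_mul h, D_mul, h2, D_zero, Phi_zero]
  have o3 : DD w false Q * Ph w W * DD w true Q' = 0 := by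
    have : Mat.D par false Q * W * Mat.D par true Q' = 0 := by
      refine Matrix.ext fun i j => ?_
      rw [D_sand, h3, ite_self, Matrix.zero_apply]
    simp only [DD_eq, Ph_eq, Mat.Phi_mul h, this, Phi_zero]
  have o4 : DD w false Q' * Ph w W * DD w true Q = 0 := by
    have : Mat.D par false Q' * W * Mat.D par true Q = 0 := by
      refine Matrix.ext fun i j => ?_
      rw [D_sand, h4, ite_self, Matrix.zero_apply]
    simp only [DD_eq, Ph_eq, Mat.Phi_mul h, this, Phi_zero]
  have ha := Index.add hz hz' (o1 true) (o2 true) (o1 false) (o2 false)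
  unfold MInd
  rw [a, a, add_mul, add_mul, mul_add, mul_add, o3, o4, add_zero, zero_add]
  exact ha

theorem rel_ex (ht : StdT t) {P P' A A' : H →L[ℂ] H} (hP : IsStarProjection P)
    (hP' : IsStarProjection P') (hA : IsCompactOperator (P - A : H →L[ℂ] H))
    (hA' : IsCompactOperator (P' - A' : H →L[ℂ] H)) (h : ‖A - A'‖ < 1) :
    ∃ n : ℤ, HasInd t P P' (P' * P) n := by
  have hPP : P * P = P := hP.isIdempotentElem
  have hPP' : P' * P' = P' := hP'.isIdempotentElem
  obtain ⟨y, hy, -⟩ := left_param ht hP hA hA' h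
  obtain ⟨y', -, hy'⟩ := left_param ht hP' hA' hA (by rwa [norm_sub_rev])
  obtain ⟨z, hz⟩ := ex2 (t := t) (T := P' * P) (y * P) (P' * y') hPP hPP'
    (by rw [← mul_assoc, hPP', mul_assoc, hPP])
    (by simpa only [mul_assoc] using hy) (by simpa only [mul_assoc] using hy')
  obtain ⟨n, rfl⟩ := ht.int _ _ _ _ hP hP' hz
  exact ⟨n, hz⟩

theorem toeplitz (ht : StdT t) (C : Circ H) (m : ℤ) :
    HasInd t C.Pi C.Pi (C.Pi * C.π0 (fourier m) * C.Pi) (-m) := by
  have hPP : C.Pi * C.Pi = C.Pi := C.proj.isIdempotentElem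
  obtain ⟨h1, h2⟩ := toep_one ht C
  induction m using Int.induction_on with
  | zero =>
    rw [four_zero, map_one, mul_one, hPP, Int.cast_zero, neg_zero]
    exact Index.iso C.Pi hPP hPP (by rw [hPP, hPP]) hPP hPP
  | succ i ih =>
    have h := toep_add ht C h1 ih
    have e : (-(((i : ℤ) + 1 : ℤ) : ℂ)) = -1 + -((i : ℤ) : ℂ) := by push_cast; ring
    rw [e]; exact h
  | pred i ih =>
    have h := toep_add ht C h2 ih
    have e : (-((-(i : ℤ) - 1 : ℤ) : ℂ)) = 1 + -((-(i : ℤ) : ℤ) : ℂ) := by push_cast; ring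
    rw [e, sub_eq_add_neg]; exact h

end Vale.Agent.P212
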