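import Vale.Agent.P212.Bund
import Vale.Agent.P212.MIdx
import Vale.Agent.P212.Lift
import Vale.Agent.P212.Adj

/- The invariant of a Fredholm module. -/

noncomputable section

namespace Vale.Agent.P212

open Vale.Agent.P089
open scoped ZeroAtInfty Classical

variable {H : Type} [NormedAddCommGroup H] [InnerProductSpace ℂ H] [CompleteSpace H] {v M : ℕ}
  [NeZero M] {G : Geo v M} {s a a' : Fin v → H →L[ℂ] H} {F F' : H →L[ℂ] H}
  {t : TrSet (H →L[ℂ] H)} {w : (Fin v → Bool) → H →L[ℂ] H} {ind ind' : ℤ → ℂ}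

namespace InvAux

theorem qq {R : Type} [Ring R] (K : TwoSidedIdeal R) (x y : R) :
    K.ringCon.mk' x = K.ringCon.mk' y ↔ x - y ∈ K := by
  rw [← TwoSidedIdeal.rel_iff]; exact RingCon.eq _

theorem rel (ht : StdT t) (hs : Cuntz s) (ha : IsA G a) (hF : IsF a F) :
    (∀ i, PP G s a F i * PP G s a F i - PP G s a F i ∈ t.K) ∧
      ∀ x i' i, PP G s a F i' * dd G s a x i' i - dd G s a x i' i * PP G s a F i ∈ t.K :=
  PP_rel t.K hs ha (fun x => (ht.K_iff _).2 (hF.comm x)) (fun x => (ht.K_iff _).2 (hF.sa x))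
    (fun x => by
      have := t.K.neg_mem ((ht.K_iff _).2 (cpt_star (hF.sa x)))
      rwa [star_mul, star_sub, star_star, ha.sa, ← mul_neg, neg_sub] at this)
    fun x => (ht.K_iff _).2 (hF.sq x)

/-- Lifts commute with the Clifford matrix modulo compacts. -/
theorem lift_comm (ht : StdT t) (hs : Cuntz s) (ha : IsA G a) (hF : IsF a F)
    {Q : ZMod M → H →L[ℂ] H} (hQ : ∀ i, IsCompactOperator (Q i - PP G s a F i : H →L[ℂ] H))
    (j : ℤ) (ε δ : Fin v → Bool) :
    t.K.ringCon.mk' (Q ((j + dg ε : ℤ) : ZMod M)) * t.K.ringCon.mk' (WW G s a j ε δ) =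
      t.K.ringCon.mk' (WW G s a j ε δ) * t.K.ringCon.mk' (Q ((j + dg δ : ℤ) : ZMod M)) := by
  have h1 : ∀ i, t.K.ringCon.mk' (Q i) = t.K.ringCon.mk' (PP G s a F i) := fun i =>
    (qq _ _ _).2 ((ht.K_iff _).2 (hQ i))
  rw [h1, h1, ← map_mul, ← map_mul, ← sub_eq_zero, ← map_sub]
  have := cw_mem t.K.ringCon.mk'.toAddMonoidHom.ker
    (fun l i' i => dd G s a l (i' : ZMod M) (i : ZMod M))
    (fun l i' i => dd G s a l (i' : ZMod M) (i : ZMod M)) j j
    (fun ε => PP G s a F ((j + dg ε : ℤ) : ZMod M)) (fun _ => 1) (fun _ => 1)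
    (fun ε => PP G s a F ((j + dg ε : ℤ) : ZMod M)) (fun l ε δ _ => by
      change t.K.ringCon.mk' _ = 0
      rw [mul_one, one_mul, map_sub, sub_eq_zero, qq]
      exact (rel ht hs ha hF).2 _ _ _) ε δ
  rwa [mul_one, one_mul] at this

theorem WW_conj {U : H →L[ℂ] H} (h : ∀ x i' i, dd G s a' x i' i * U = U * dd G s a x i' i) (j : ℤ)
    (ε δ : Fin v → Bool) : WW G s a' j ε δ * U = U * WW G s a j ε δ := by
  have := cw_mem (⊥ : AddSubgroup (H →L[ℂ] H))
    (fun l i' i => dd G s a' l (i' : ZMod M) (i : ZMod M))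
    (fun l i' i => dd G s a l (i' : ZMod M) (i : ZMod M)) j j
    (fun _ => 1) (fun _ => U) (fun _ => U) (fun _ => 1) (fun l ε δ _ => by
      rw [mul_one, one_mul, h, sub_self]; exact zero_mem _) ε δ
  rwa [mul_one, one_mul, AddSubgroup.mem_bot, sub_eq_zero] at this

theorem cpt_conj (U : H →L[ℂ] H) {T : H →L[ℂ] H} (h : IsCompactOperator T) :
    IsCompactOperator (U * T * star U : H →L[ℂ] H) :=
  (h.clm_comp U).comp_clm (star U)

/-- The bundles of a direct sum. -/
theorem sum_eq (hs : Cuntz s) {u u' : H →L[ℂ] H} (hu : star u * u = 1) (h0 : star u' * u = 0)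
    {b : Fin v → H →L[ℂ] H} (hb : ∀ x, b x = u * a x * star u + u' * a' x * star u') :
    (∀ x i' i, dd G s b x i' i * amp s u = amp s u * dd G s a x i' i) ∧
      ∀ i, pp G s b i * amp s u = amp s u * pp G s a i := by
  have h0' : star u * u' = 0 := by simpa using congrArg star h0
  have h1 : ∀ x, b x * u = u * a x := fun x => by
    rw [hb, add_mul, mul_assoc _ _ u, mul_assoc _ _ u, hu, h0, mul_one, mul_zero, add_zero]
  have h1' : ∀ x, star (b x) * u = u * star (a x) := fun x => by
    rw [hb]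
    simp only [star_add, star_mul, star_star, add_mul, mul_assoc, hu, h0, mul_one, mul_zero,
      add_zero]
  have h2 : ∀ i x, uu G s b i x * u = amp s u * uu G s a i x := fun i x => by
    simp only [uu, Finset.sum_mul, Finset.mul_sum, smul_mul_assoc, mul_smul_comm, mul_assoc, h1]
    simp only [← mul_assoc, amp_s hs]
  have h3 : ∀ i x, star (uu G s b i x) * amp s u = u * star (uu G s a i x) := fun i x => by
    have e : ∀ y, star (s y) * amp s u = u * star (s y) := fun y => by
      have := congrArg star (amp_s hs (star u) y)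
      rwa [star_mul, star_mul, amp_star, star_star] at this
    simp only [uu, star_sum, star_smul, star_mul, Finset.sum_mul, Finset.mul_sum, smul_mul_assoc,
      mul_smul_comm, mul_assoc, e]
    simp only [← mul_assoc, h1']
  refine ⟨fun x i' i => ?_, fun i => ?_⟩
  · rw [dd, dd, mul_assoc, h3, ← mul_assoc, mul_assoc _ (b x), h1, ← mul_assoc, h2]
    simp only [mul_assoc]
  · simp only [pp, Finset.sum_mul, Finset.mul_sum]
    refine Finset.sum_congr rfl fun x _ => ?_
    rw [mul_assoc, h3, ← mul_assoc, mul_assoc _ (b x * b x), mul_assoc (b x), h1, ← mul_assoc (b x),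
      h1, ← mul_assoc, ← mul_assoc, h2]
    simp only [mul_assoc]

theorem PP_conj (hs : Cuntz s) {u : H →L[ℂ] H} {b : Fin v → H →L[ℂ] H} {E : H →L[ℂ] H}
    (h : ∀ i, pp G s b i * amp s u = amp s u * pp G s a i) (h1 : E * u = u * F)
    (h2 : star E * u = u * star F) (i : ZMod M) :
    PP G s b E i * amp s u = amp s u * PP G s a F i := by
  have e : (2 + amp s (E + star E)) * amp s u = amp s u * (2 + amp s (F + star F)) := by
    rw [add_mul, mul_add, amp_mul hs, amp_mul hs, add_mul, mul_add, h1, h2, two_mul, mul_two]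
  rw [PP, PP, smul_mul_assoc, mul_smul_comm, mul_assoc, h, mul_assoc, ← mul_assoc _ (amp s u), e,
    ← mul_assoc, ← mul_assoc, h]
  simp only [mul_assoc]

end InvAux

open InvAux

/-- Any family of lifts has an index function. -/
theorem ind_of_lift (ht : StdT t) (hs : Cuntz s) (hw : Cuntz w) (ha : IsA G a) (hF : IsF a F)
    (Q : ZMod M → H →L[ℂ] H) (hQ : ∀ i, IsStarProjection (Q i) ∧
      IsCompactOperator (Q i - PP G s a F i : H →L[ℂ] H)) (j : ℤ) :
    ∃ z, MInd t w (WW G s a j) (fun ε => Q ((j + dg ε : ℤ) : ZMod M)) z := by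
  refine mind_ex hw _ (cw_odd _ j) (WW_sq hs ha j) (fun ε => (hQ _).1.isIdempotentElem)
    (fun ε => ?_) fun ε δ => ?_
  · have h1 : ∀ i, t.K.ringCon.mk' (Q i) = t.K.ringCon.mk' (PP G s a F i) := fun i =>
      (qq _ _ _).2 ((ht.K_iff _).2 (hQ i).2)
    rw [← qq, map_mul, h1, ← map_mul, pp_PP hs ha]
  · rw [← qq, map_mul, map_mul]
    exact lift_comm ht hs ha hF (fun i => (hQ i).2) j ε δ

theorem ind_ex (ht : StdT t) (hs : Cuntz s) (hw : Cuntz w) (ha : IsA G a) (hF : IsF a F) :
    ∃ ind, IsInd t G s w a F ind := by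
  have : ∀ i, ∃ q, IsStarProjection q ∧ IsCompactOperator (q - PP G s a F i : H →L[ℂ] H) :=
    fun i => by
      obtain ⟨q, h1, h2, -⟩ := lift_proj (PP_star hs ha i)
        ((ht.K_iff _).1 ((rel ht hs ha hF).1 i))
      exact ⟨q, h1, h2⟩
  choose Q hQ using this
  choose z hz using ind_of_lift ht hs hw ha hF Q hQ
  exact ⟨z, Q, hQ, hz⟩

theorem ind_near (ht : StdT t) (hs : Cuntz s) (hw : Cuntz w) (ha : IsA G a) (hF : IsF a F)
    (hF' : IsF a F') (h : ‖F - F'‖ < 1) (h1 : IsInd t G s w a F ind)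
    (h2 : IsInd t G s w a F' ind') : ind - ind' ∈ NN v M := by
  obtain ⟨Q, hQ, hz⟩ := h1
  obtain ⟨Q', hQ', hz'⟩ := h2
  choose n hn using fun i => rel_ex ht (hQ i).1 (hQ' i).1 (hQ i).2 (hQ' i).2
    ((PP_near hs ha F' i).trans_lt h)
  refine AddSubgroup.subset_closure ⟨n, 0, fun j => ?_⟩
  have := mind_cmp (W' := WW G s a j) hw (hz j) _ _ (fun ε => hn ((j + dg ε : ℤ) : ZMod M))
    fun ε δ => by
      have e := lift_comm ht hs ha hF (fun i => (hQ i).2) j ε δ
      have e' := lift_comm ht hs ha hF' (fun i => (hQ' i).2) j ε δ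
      rw [← qq]
      simp only [map_mul, mul_assoc]
      rw [← mul_assoc _ _ (t.K.ringCon.mk' (Q _)), ← mul_assoc (t.K.ringCon.mk' (Q _)), e, ← e',
        mul_assoc, mul_assoc, ← map_mul _ (Q _), (hQ _).1.isIdempotentElem.eq, ← mul_assoc,
        ← map_mul, (hQ' _).1.isIdempotentElem.eq]
  rw [Pi.sub_apply, Index.uniq (hz' j) this, add_zero, sub_sub_cancel, Alt]

theorem ind_deg (hs : Cuntz s) (hw : Cuntz w) (ha : IsA G a) (h1 : ∀ x, F * a x - a x * F = 0)
    (h2 : ∀ x, (F - star F) * a x = 0) (h3 : ∀ x, (F * F - 1) * a x = 0) :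
    IsInd t G s w a F 0 := by
  obtain ⟨r1, r2⟩ := PP_rel ⊥ hs ha (fun x => by rw [h1]; exact zero_mem _)
    (fun x => by rw [h2]; exact zero_mem _) (fun x => by
      have := congrArg (fun x => -star x) (h2 x)
      simp only [star_mul, star_sub, star_star, ha.sa, star_zero, neg_zero] at this
      rw [← mul_neg, neg_sub] at this
      rw [this]; exact zero_mem _) fun x => by rw [h3]; exact zero_mem _
  simp only [TwoSidedIdeal.mem_bot, sub_eq_zero] at r1 r2
  refine ⟨PP G s a F, fun i => ⟨⟨r1 i, PP_star hs ha i⟩, by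
    rw [sub_self]; exact isCompactOperator_zero⟩, fun j => ?_⟩
  refine mind_zero hw _ (cw_odd _ j) (WW_sq hs ha j) (fun ε => r1 _) (fun ε => pp_PP hs ha _)
    fun ε δ => ?_
  have := cw_mem (⊥ : AddSubgroup (H →L[ℂ] H))
    (fun l i' i => dd G s a l (i' : ZMod M) (i : ZMod M))
    (fun l i' i => dd G s a l (i' : ZMod M) (i : ZMod M)) j j
    (fun ε => PP G s a F ((j + dg ε : ℤ) : ZMod M)) (fun _ => 1) (fun _ => 1)
    (fun ε => PP G s a F ((j + dg ε : ℤ) : ZMod M)) (fun l ε δ _ => by
      rw [mul_one, one_mul, r2, sub_self]; exact zero_mem _) ε δ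
  rwa [mul_one, one_mul, AddSubgroup.mem_bot, sub_eq_zero] at this

theorem ind_uni (hs : Cuntz s) (hw : Cuntz w) {u : H →L[ℂ] H} (hu : star u * u = 1)
    (hu' : u * star u = 1) (h : IsInd t G s w a F ind) :
    IsInd t G s w (fun x => u * a x * star u) (u * F * star u) ind := by
  obtain ⟨Q, hQ, hz⟩ := h
  obtain ⟨e1, e2⟩ := sum_eq (G := G) (a := a) (a' := a) (u' := 0) hs hu (by simp)
    (b := fun x => u * a x * star u) (by simp)
  have e3 := PP_conj (E := u * F * star u) (F := F) hs e2 (by rw [mul_assoc, hu, mul_one])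
    (by simp only [star_mul, star_star, mul_assoc, hu, mul_one])
  have U1 : star (amp s u) * amp s u = 1 := by rw [amp_star, amp_mul hs, hu, amp_one hs]
  have U2 : amp s u * star (amp s u) = 1 := by rw [amp_star, amp_mul hs, hu', amp_one hs]
  refine ⟨fun i => amp s u * Q i * star (amp s u), fun i => ⟨⟨?_, (hQ i).1.isSelfAdjoint.conjugate _⟩,
    ?_⟩, fun j => mind_conj hw (hz j) U1 (WW_conj e1 j)⟩
  · calc _ = amp s u * Q i * (star (amp s u) * amp s u) * Q i * star (amp s u) := by
          simp only [mul_assoc]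
      _ = _ := by rw [U1, mul_one, mul_assoc (amp s u), (hQ i).1.isIdempotentElem.eq]
  · have := cpt_conj (amp s u) (hQ i).2
    rwa [mul_sub, sub_mul, ← e3, mul_assoc (PP _ _ _ _ _), U2, mul_one] at this

theorem ind_sum (hs : Cuntz s) (hw : Cuntz w) {u u' : H →L[ℂ] H} (hu : star u * u = 1)
    (hu' : star u' * u' = 1) (huu : u * star u + u' * star u' = 1) (h : IsInd t G s w a F ind)
    (h' : IsInd t G s w a' F' ind') :
    IsInd t G s w (fun x => u * a x * star u + u' * a' x * star u')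
      (u * F * star u + u' * F' * star u') (ind + ind') := by
  obtain ⟨Q, hQ, hz⟩ := h
  obtain ⟨Q', hQ', hz'⟩ := h'
  have h0 : star u' * u = 0 := by
    have e : u' * star u' * u = 0 := by
      have := congrArg (· * u) huu
      simp only [add_mul, one_mul] at this
      rwa [mul_assoc u, hu, mul_one, add_eq_left] at this
    have := congrArg (star u' * ·) e
    simp only [mul_zero] at this
    rwa [← mul_assoc, ← mul_assoc, hu', one_mul] at this
  have h0' : star u * u' = 0 := by simpa using congrArg star h0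
  obtain ⟨e1, e2⟩ := sum_eq (G := G) (a := a) (a' := a') hs hu h0
    (b := fun x => u * a x * star u + u' * a' x * star u') fun _ => rfl
  obtain ⟨e1', e2'⟩ := sum_eq (G := G) (a := a') (a' := a) hs hu' h0'
    (b := fun x => u * a x * star u + u' * a' x * star u') fun _ => add_comm _ _
  have e3 := PP_conj (E := u * F * star u + u' * F' * star u') (F := F) hs e2
    (by simp only [add_mul, mul_assoc, hu, h0, mul_one, mul_zero, add_zero])
    (by simp only [star_add, star_mul, star_star, add_mul, mul_assoc, hu, h0, mul_one, mul_zero,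
      add_zero])
  have e3' := PP_conj (E := u * F * star u + u' * F' * star u') (F := F') hs e2'
    (by simp only [add_mul, mul_assoc, hu', h0', mul_one, mul_zero, zero_add])
    (by simp only [star_add, star_mul, star_star, add_mul, mul_assoc, hu', h0', mul_one, mul_zero,
      zero_add])
  have a0 : amp s (0 : H →L[ℂ] H) = 0 := by simp [amp]
  have U1 : star (amp s u) * amp s u = 1 := by rw [amp_star, amp_mul hs, hu, amp_one hs]
  have U1' : star (amp s u') * amp s u' = 1 := by rw [amp_star, amp_mul hs, hu', amp_one hs]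
  have U0 : star (amp s u') * amp s u = 0 := by rw [amp_star, amp_mul hs, h0, a0]
  have U0' : star (amp s u) * amp s u' = 0 := by rw [amp_star, amp_mul hs, h0', a0]
  have U2 : amp s u * star (amp s u) + amp s u' * star (amp s u') = 1 := by
    rw [amp_star, amp_star, amp_mul hs, amp_mul hs, ← amp_add, huu, amp_one hs]
  generalize amp s u = U at *
  generalize amp s u' = U' at *
  have V1 : ∀ x, star U * (U * x) = x := fun x => by rw [← mul_assoc, U1, one_mul]
  have V1' : ∀ x, star U' * (U' * x) = x := fun x => by rw [← mul_assoc, U1', one_mul]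
  have V0 : ∀ x, star U' * (U * x) = 0 := fun x => by rw [← mul_assoc, U0, zero_mul]
  have V0' : ∀ x, star U * (U' * x) = 0 := fun x => by rw [← mul_assoc, U0', zero_mul]
  refine ⟨fun i => U * Q i * star U + U' * Q' i * star U', fun i => ⟨⟨?_,
    ((hQ i).1.isSelfAdjoint.conjugate _).add ((hQ' i).1.isSelfAdjoint.conjugate _)⟩, ?_⟩,
    fun j => mind_add hw (mind_conj hw (hz j) U1 (WW_conj e1 j))
      (mind_conj hw (hz' j) U1' (WW_conj e1' j)) (fun ε => ?_) (fun ε => ?_) (fun ε δ => ?_)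
      fun ε δ => ?_⟩
  · change _ * _ = _
    simp only [add_mul, mul_add, mul_assoc, V1, V1', V0, V0', mul_zero, add_zero, zero_add]
    rw [← mul_assoc (Q i), ← mul_assoc (Q' i), (hQ i).1.isIdempotentElem.eq,
      (hQ' i).1.isIdempotentElem.eq]
  · have : IsCompactOperator (U * (Q i - PP G s a F i) * star U +
        U' * (Q' i - PP G s a' F' i) * star U' : H →L[ℂ] H) :=
      (cpt_conj U (hQ i).2).add (cpt_conj U' (hQ' i).2)
    rwa [mul_sub, sub_mul, mul_sub, sub_mul, ← e3, ← e3', sub_add_sub_comm,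
      mul_assoc (PP _ _ _ _ _), mul_assoc (PP _ _ _ _ _), ← mul_add, U2, mul_one] at this
  · simp only [mul_assoc, V0', mul_zero]
  · simp only [mul_assoc, V0, mul_zero]
  · rw [mul_assoc, ← mul_assoc (WW _ _ _ _ _ _), ← mul_assoc (WW _ _ _ _ _ _), WW_conj e1']
    simp only [mul_assoc, V0', mul_zero]
  · rw [mul_assoc, ← mul_assoc (WW _ _ _ _ _ _), ← mul_assoc (WW _ _ _ _ _ _), WW_conj e1]
    simp only [mul_assoc, V0, mul_zero]

end Vale.Agent.P212
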