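import Vale.Agent.P212.Inv

/- The invariant as a homomorphism on K-homology. -/

noncomputable section

namespace Vale.Agent.P212

open Vale.Agent.P089
open scoped ZeroAtInfty Classical

variable {H : Type} [NormedAddCommGroup H] [InnerProductSpace ℂ H] [CompleteSpace H] {v M : ℕ}
  [NeZero M] {G : Geo v M} {s : Fin v → H →L[ℂ] H} {t : TrSet (H →L[ℂ] H)}
  {w : (Fin v → Bool) → H →L[ℂ] H}

theorem inv_hom (ht : StdT t) (hs : Cuntz s) (hw : Cuntz w) {Z : Type} [TopologicalSpace Z]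
    (b : Fin v → C₀(Z, ℂ)) (hb : ∀ x : Fred Z H, IsA G fun i => x.π (b i)) :
    ∃ Φ : KHom Z H →+ (ℤ → ℂ) ⧸ NN v M, ∀ (x : Fred Z H) (ind : ℤ → ℂ),
      IsInd t G s w (fun i => x.π (b i)) x.F ind → Φ x.cls = QuotientAddGroup.mk ind := by
  have hF : ∀ x : Fred Z H, IsF (fun i => x.π (b i)) x.F := fun x =>
    ⟨fun i => x.comm _, fun i => x.sa _, fun i => x.sq _⟩
  choose I hI using fun x : Fred Z H => ind_ex ht hs hw (hb x) (hF x)
  have key : ∀ (x : Fred Z H) (ind : ℤ → ℂ), IsInd t G s w (fun i => x.π (b i)) x.F ind →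
      (QuotientAddGroup.mk (I x) : (ℤ → ℂ) ⧸ NN v M) = QuotientAddGroup.mk ind := fun x ind h =>
    QuotientAddGroup.eq_iff_sub_mem.2 (ind_near ht hs hw (hb x) (hF x) (hF x) (by simp) (hI x) h)
  let φ : FreeAbelianGroup (Fred Z H) →+ (ℤ → ℂ) ⧸ NN v M :=
    FreeAbelianGroup.lift fun x => QuotientAddGroup.mk (I x)
  have hφ : ∀ x, φ (FreeAbelianGroup.of x) = QuotientAddGroup.mk (I x) := fun x =>
    FreeAbelianGroup.lift_apply_of _ _
  refine ⟨QuotientAddGroup.lift _ φ ?_, fun x ind h => (hφ x).trans (key x ind h)⟩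
  rw [AddSubgroup.closure_le]
  intro a ha
  change φ a = 0
  cases ha with
  | unitary x y u h1 h2 h3 h4 =>
    rw [map_sub, hφ, hφ, sub_eq_zero, key y (I x)]
    simp only [h3, h4]
    exact ind_uni hs hw h1 h2 (hI x)
  | homotopy γ h1 h2 =>
    rw [map_sub, hφ, hφ, sub_eq_zero]
    have : IsLocallyConstant fun r => (QuotientAddGroup.mk (I (γ r)) : (ℤ → ℂ) ⧸ NN v M) := by
      rw [IsLocallyConstant.iff_eventually_eq]
      intro r
      have h3 : ∀ᶠ r' in nhds r, dist (γ r').F (γ r).F < 1 :=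
        Metric.tendsto_nhds.1 (h2.tendsto r) 1 one_pos
      filter_upwards [h3] with r' hr'
      rw [dist_eq_norm] at hr'
      have e : (γ r).π = (γ r').π := by rw [h1 r, h1 r']
      refine QuotientAddGroup.eq_iff_sub_mem.2
        (ind_near ht hs hw (hb (γ r')) (hF _) ?_ hr' (hI _) ?_)
      · rw [← e]; exact hF _
      · rw [← e]; exact hI _
    exact this.apply_eq_of_preconnectedSpace 0 1
  | sum x y z u u' h1 h2 h3 h4 h5 =>
    rw [map_sub, map_sub, hφ, hφ, hφ, sub_sub, sub_eq_zero, key z (I x + I y)]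
    · rfl
    · simp only [h4, h5]
      exact ind_sum hs hw h1 h2 h3 (hI x) (hI y)
  | degenerate x h1 h2 h3 =>
    rw [hφ, key x 0 (ind_deg hs hw (hb x) (fun _ => h1 _) (fun _ => h2 _) fun _ => h3 _)]
    rfl

end Vale.Agent.P212
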