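import Vale.Agent.P212.Base2

/- The Kazhdan projection and the step between levels. -/

noncomputable section

namespace Vale.Agent.P212

open scoped Classical

variable {Γ K : Type} [Group Γ] [NormedAddCommGroup K] [InnerProductSpace ℂ K] [CompleteSpace K]
  {U : Γ →* (K →L[ℂ] K)} {Q : K →L[ℂ] K}

namespace KP

open Filter Topology

/-- The invariant vectors. -/
def invs (U : Γ →* (K →L[ℂ] K)) : Submodule ℂ K where
  carrier := {ξ | ∀ g, U g ξ = ξ}
  add_mem' := fun ha hb g => by rw [map_add, ha g, hb g]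
  zero_mem' := fun g => map_zero _
  smul_mem' := fun c _ ha g => by rw [map_smul, ha g]

omit [CompleteSpace K] in
theorem invs_closed (U : Γ →* (K →L[ℂ] K)) : IsClosed (invs U : Set K) := by
  have : (invs U : Set K) = ⋂ g, {ξ | U g ξ = ξ} := by
    ext ξ
    rw [Set.mem_iInter]
    rfl
  rw [this]
  exact isClosed_iInter fun g => isClosed_eq (U g).continuous continuous_id

omit [CompleteSpace K] in
theorem span_eq (U : Γ →* (K →L[ℂ] K)) :
    (Algebra.adjoin ℂ (Set.range U)).toSubmodule = Submodule.span ℂ (Set.range U) := by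
  rw [Algebra.adjoin_eq_span, ← MonoidHom.coe_mrange, Submonoid.closure_eq]

theorem inner_lap (a : K →L[ℂ] K) (ξ : K) : (inner ℂ ξ ((star a * a) ξ)).re = ‖a ξ‖ ^ 2 := by
  rw [mul_apply_eq_comp, ContinuousLinearMap.star_eq_adjoint,
    ContinuousLinearMap.adjoint_inner_right]
  exact inner_self_eq_norm_sq (𝕜 := ℂ) _

omit [CompleteSpace K] in
theorem contr {Δ : K →L[ℂ] K} {κ : ℝ} (hκ : 0 < κ) {ξ : K}
    (h : κ * ‖ξ‖ ^ 2 ≤ (inner ℂ ξ (Δ ξ)).re) :
    ‖ξ - ((κ / (‖Δ‖ ^ 2 + κ ^ 2) : ℝ) : ℂ) • Δ ξ‖ ≤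
      (1 - κ ^ 2 / (‖Δ‖ ^ 2 + κ ^ 2) / 2) * ‖ξ‖ := by
  obtain ⟨t, ht⟩ : ∃ t : ℝ, t = κ / (‖Δ‖ ^ 2 + κ ^ 2) := ⟨_, rfl⟩
  have hD : 0 < ‖Δ‖ ^ 2 + κ ^ 2 := by positivity
  have ht0 : 0 < t := by rw [ht]; positivity
  have e1 : κ ^ 2 / (‖Δ‖ ^ 2 + κ ^ 2) = t * κ := by rw [ht]; ring
  have e2 : t * (‖Δ‖ ^ 2 + κ ^ 2) = κ := by rw [ht]; field_simp
  have e3 : t * κ ≤ 1 := by
    rw [← e1, div_le_one hD]
    nlinarith [sq_nonneg ‖Δ‖]
  have e4 : t * ‖Δ‖ ^ 2 ≤ κ := by nlinarith [mul_nonneg ht0.le (sq_nonneg κ)]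
  rw [← ht, e1]
  have e5 : ‖ξ - (t : ℂ) • Δ ξ‖ ^ 2 =
      ‖ξ‖ ^ 2 - 2 * (t * (inner ℂ ξ (Δ ξ)).re) + t ^ 2 * ‖Δ ξ‖ ^ 2 := by
    rw [@norm_sub_sq ℂ, inner_smul_right, norm_smul, Complex.norm_real, Real.norm_eq_abs, mul_pow,
      sq_abs]
    simp
  have e6 : ‖Δ ξ‖ ^ 2 ≤ ‖Δ‖ ^ 2 * ‖ξ‖ ^ 2 := by
    rw [← mul_pow]
    exact pow_le_pow_left₀ (norm_nonneg _) (Δ.le_opNorm ξ) 2
  have e7 : t * ‖Δ ξ‖ ^ 2 ≤ κ * ‖ξ‖ ^ 2 := by
    have a1 := mul_le_mul_of_nonneg_left e6 ht0.le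
    have a2 := mul_le_mul_of_nonneg_right e4 (sq_nonneg ‖ξ‖)
    linarith
  have e8 := mul_le_mul_of_nonneg_left e7 ht0.le
  have e9 := mul_le_mul_of_nonneg_left h ht0.le
  refine (pow_le_pow_iff_left₀ (norm_nonneg _) (mul_nonneg (by linarith) (norm_nonneg _))
    two_ne_zero).1 ?_
  rw [e5]
  nlinarith [sq_nonneg (t * κ * ‖ξ‖)]

theorem Q_mul (hU : IsURep U) (hp : IsStarProjection Q) (hi : ∀ g, U g * Q = Q) (g : Γ) :
    Q * U g = Q := by
  have := congrArg star (hi g⁻¹)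
  rwa [star_mul, hU, inv_inv, hp.isSelfAdjoint.star_eq] at this

end KP

open Filter Topology in
theorem exists_kaz {S : Finset Γ} (hg : Subgroup.closure (S : Set Γ) = ⊤) (h : Gap S)
    (hU : IsURep U) : ∃ Q, IsKaz U Q := by
  obtain ⟨κ, hκ, h⟩ := h
  have : CompleteSpace (KP.invs U) := (KP.invs_closed U).completeSpace_coe
  obtain ⟨Q, hQ⟩ : ∃ Q, Q = (KP.invs U).starProjection := ⟨_, rfl⟩
  have hp : IsStarProjection Q := hQ ▸ isStarProjection_starProjection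
  have hi : ∀ g, U g * Q = Q := by
    intro g
    ext ξ
    rw [hQ]
    exact (KP.invs U).starProjection_apply_mem ξ g
  have hi' := KP.Q_mul hU hp hi
  refine ⟨Q, hp, hi, fun ξ hξ => ?_, ?_⟩
  · rw [hQ]
    exact Submodule.starProjection_eq_self_iff.2 hξ
  obtain ⟨Δ, hΔ⟩ : ∃ Δ, Δ = ∑ s ∈ S, star (U s - 1) * (U s - 1) := ⟨_, rfl⟩
  obtain ⟨a, ha⟩ : ∃ a, a = 1 - ((κ / (‖Δ‖ ^ 2 + κ ^ 2) : ℝ) : ℂ) • Δ := ⟨_, rfl⟩
  have hΔQ : Δ * Q = 0 := by
    rw [hΔ, Finset.sum_mul]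
    refine Finset.sum_eq_zero fun s _ => ?_
    rw [mul_assoc, sub_mul, hi, one_mul, sub_self, mul_zero]
  have hQΔ : Q * Δ = 0 := by
    rw [hΔ, Finset.mul_sum]
    refine Finset.sum_eq_zero fun s _ => ?_
    rw [← mul_assoc, star_sub, hU, star_one, mul_sub Q, hi', mul_one, sub_self, zero_mul]
  have haQ : a * Q = Q := by rw [ha, sub_mul, smul_mul_assoc, hΔQ, smul_zero, sub_zero, one_mul]
  have hQa : Q * a = Q := by rw [ha, mul_sub, mul_smul_comm, hQΔ, smul_zero, sub_zero, mul_one]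
  have hQQ : Q * Q = Q := hp.isIdempotentElem
  have hmem : a ∈ Algebra.adjoin ℂ (Set.range U) := by
    have hu : ∀ g, U g ∈ Algebra.adjoin ℂ (Set.range U) := fun g =>
      Algebra.subset_adjoin ⟨g, rfl⟩
    rw [ha, hΔ]
    refine sub_mem (one_mem _) (Subalgebra.smul_mem _ (sum_mem fun s _ => ?_) _)
    rw [star_sub, hU, star_one]
    exact mul_mem (sub_mem (hu _) (one_mem _)) (sub_mem (hu _) (one_mem _))
  have hD : 0 < ‖Δ‖ ^ 2 + κ ^ 2 := by positivity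
  have hρ0 : 0 ≤ 1 - κ ^ 2 / (‖Δ‖ ^ 2 + κ ^ 2) / 2 := by
    have : κ ^ 2 / (‖Δ‖ ^ 2 + κ ^ 2) ≤ 1 := by
      rw [div_le_one hD]
      nlinarith [sq_nonneg ‖Δ‖]
    linarith
  have hb : ‖a - Q‖ < 1 := by
    refine lt_of_le_of_lt (ContinuousLinearMap.opNorm_le_bound _ hρ0 fun ξ => ?_) ?_
    · have e1 : (a - Q) ξ = a (ξ - Q ξ) := by
        rw [map_sub, ← mul_apply_eq_comp a Q, haQ, sub_apply]
      have e2 : ξ - Q ξ ∈ (KP.invs U)ᗮ := hQ ▸ (KP.invs U).sub_starProjection_mem_orthogonal ξ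
      have e3 : ‖ξ - Q ξ‖ ≤ ‖ξ‖ := by
        have := hp.one_sub.norm_le
        have e := (1 - Q).le_opNorm ξ
        rw [sub_apply, one_apply_eq_self] at e
        exact e.trans (mul_le_of_le_one_left (norm_nonneg _) this)
      have e4 := h K U hU (ξ - Q ξ) fun η hη => (Submodule.mem_orthogonal _ _).1 e2 η hη
      generalize ξ - Q ξ = ζ at e1 e3 e4
      have e5 : (inner ℂ ζ (Δ ζ)).re = ∑ s ∈ S, ‖U s ζ - ζ‖ ^ 2 := by
        rw [hΔ, sum_apply, inner_sum, Complex.re_sum]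
        exact Finset.sum_congr rfl fun s _ => KP.inner_lap _ _
      rw [e1, ha]
      exact (KP.contr hκ (e5 ▸ e4)).trans (mul_le_mul_of_nonneg_left e3 hρ0)
    · have : 0 < κ ^ 2 / (‖Δ‖ ^ 2 + κ ^ 2) := by positivity
      linarith
  have hpow : ∀ n : ℕ, a ^ (n + 1) = (a - Q) ^ (n + 1) + Q := by
    intro n
    induction n with
    | zero => simp
    | succ n ih =>
      have e : (a - Q) ^ (n + 1) * Q = 0 := by
        rw [pow_succ, mul_assoc, sub_mul, haQ, hQQ, sub_self, mul_zero]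
      rw [pow_succ a, ih, add_mul, hQa, pow_succ (a - Q) (n + 1), mul_sub, e, sub_zero]
  have hlim : Tendsto (fun n : ℕ => a ^ (n + 1)) atTop (𝓝 Q) := by
    have := ((tendsto_pow_atTop_nhds_zero_of_norm_lt_one hb).comp
      (tendsto_add_atTop_nat 1)).add_const Q
    rw [zero_add] at this
    exact this.congr fun n => (hpow n).symm
  refine mem_closure_of_tendsto hlim (Eventually.of_forall fun n => ?_)
  rw [← KP.span_eq]
  exact pow_mem hmem _

theorem IsKaz.comm (hQ : IsKaz U Q) {x : K →L[ℂ] K} (h : ∀ g, Commute x (U g)) : Commute x Q := by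
  have h1 : IsClosed {y : K →L[ℂ] K | x * y = y * x} := isClosed_eq (by fun_prop) (by fun_prop)
  refine closure_minimal (fun y hy => ?_) h1 hQ.lim
  induction hy using Submodule.span_induction with
  | mem y hy => obtain ⟨g, rfl⟩ := hy; exact h g
  | zero => exact Commute.zero_right x
  | add y z _ _ hy hz => exact Commute.add_right hy hz
  | smul c y _ hy => exact Commute.smul_right hy c

theorem IsKaz.absorb (hQ : IsKaz U Q) {x : K →L[ℂ] K} (h : ∀ g, U g * x = x) : Q * x = x := by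
  ext ξ
  exact hQ.fix (x ξ) fun g => congrArg (fun y : K →L[ℂ] K => y ξ) (h g)

variable {ψ : Γ →* Γ} {T : Finset Γ} {V e e' : K →L[ℂ] K}

namespace KP

theorem card_pos (hT : IsTr ψ T) : 0 < T.card := by
  obtain ⟨t, ht, -⟩ := hT.ex 1
  exact Finset.card_pos.2 ⟨t, ht⟩

theorem e_eq (hT : IsTr ψ T) (hV : IsV U ψ T V e e') : star V * V = e := by
  obtain ⟨t, ht, -⟩ := hT.ex 1
  have := hV.orth t ht t ht
  rwa [if_pos rfl, mul_assoc, ← mul_assoc (U t⁻¹), ← map_mul, inv_mul_cancel, map_one,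
    one_mul] at this

theorem cov' (hU : IsURep U) (hV : IsV U ψ T V e e') (g : Γ) :
    U g * star V = star V * U (ψ g) := by
  have := congrArg star (hV.cov g⁻¹)
  rwa [star_mul, star_mul, hU, hU, inv_inv, map_inv ψ, inv_inv] at this

theorem e_comm (hU : IsURep U) (hT : IsTr ψ T) (hV : IsV U ψ T V e e') (g : Γ) :
    Commute e (U g) := by
  rw [← e_eq hT hV, Commute, SemiconjBy, mul_assoc, hV.cov, ← mul_assoc, ← cov' hU hV, mul_assoc]

theorem cc (hT : IsTr ψ T) :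
    (((Real.sqrt T.card)⁻¹ : ℝ) : ℂ) * (((Real.sqrt T.card)⁻¹ : ℝ) : ℂ) * (T.card : ℂ) = 1 := by
  have h : (0 : ℝ) < T.card := by exact_mod_cast card_pos hT
  have : (Real.sqrt T.card)⁻¹ * (Real.sqrt T.card)⁻¹ * (T.card : ℝ) = 1 := by
    rw [← mul_inv, Real.mul_self_sqrt h.le, inv_mul_cancel₀ h.ne']
  exact_mod_cast this

theorem star_vv (hU : IsURep U) (hQ : IsKaz U Q) :
    star (vv U T V Q) =
      (((Real.sqrt T.card)⁻¹ : ℝ) : ℂ) • (Q * ∑ t ∈ T, star V * U t⁻¹) := by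
  rw [vv, star_smul, star_mul, star_sum, hQ.proj.isSelfAdjoint.star_eq, Complex.star_def,
    Complex.conj_ofReal]
  simp only [star_mul, hU _]

end KP

theorem vv_inv (hU : IsURep U) (hQ : IsKaz U Q) (hT : IsTr ψ T) (hV : IsV U ψ T V e e') (g : Γ) :
    U g * vv U T V Q = vv U T V Q := by
  choose σ hσ l hl using hT.ex
  have key : U g * ((∑ t ∈ T, U t * V) * Q) = (∑ t ∈ T, U t * V) * Q := by
    rw [Finset.sum_mul, Finset.mul_sum]
    refine Finset.sum_bij (fun t _ => σ (g * t)) (fun t _ => hσ _) ?_ ?_ ?_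
    · intro t ht t' ht' h
      refine hT.uniq t ht t' ht' (l (g * t))⁻¹ (l (g * t'))⁻¹ (mul_left_cancel (a := g) ?_)
      rw [map_inv, map_inv, ← mul_assoc, ← mul_assoc, mul_inv_eq_iff_eq_mul.2 (hl (g * t)),
        mul_inv_eq_iff_eq_mul.2 (hl (g * t')), h]
    · intro t ht
      refine ⟨σ (g⁻¹ * t), hσ _, hT.uniq _ (hσ _) t ht (l (g * σ (g⁻¹ * t))) (l (g⁻¹ * t))⁻¹ ?_⟩
      rw [← hl, map_inv, eq_mul_inv_iff_mul_eq, mul_assoc, ← hl, mul_inv_cancel_left]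
    · intro t _
      rw [← mul_assoc, ← mul_assoc, ← map_mul]
      conv_lhs => rw [hl (g * t)]
      rw [map_mul, mul_assoc (U _), ← hV.cov, mul_assoc, mul_assoc, hQ.inv, mul_assoc]
  rw [vv, mul_smul_comm, key]

theorem vv_src (hU : IsURep U) (hQ : IsKaz U Q) (hT : IsTr ψ T) (hV : IsV U ψ T V e e') :
    star (vv U T V Q) * vv U T V Q = e * Q ∧ Commute e Q ∧ vv U T V Q * e = vv U T V Q ∧
      vv U T V Q * Q = vv U T V Q := by
  have hc : Commute e Q := hQ.comm (KP.e_comm hU hT hV)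
  have hQQ : Q * Q = Q := hQ.proj.isIdempotentElem
  refine ⟨?_, hc, ?_, ?_⟩
  · have h1 : (∑ t ∈ T, star V * U t⁻¹) * (∑ t ∈ T, U t * V) = (T.card : ℂ) • e := by
      rw [Finset.sum_mul_sum, Nat.cast_smul_eq_nsmul, ← Finset.sum_const]
      refine Finset.sum_congr rfl fun t ht => ?_
      rw [Finset.sum_congr rfl fun t' ht' => hV.orth t ht t' ht', Finset.sum_ite_eq, if_pos ht]
    rw [KP.star_vv hU hQ, vv, smul_mul_smul_comm, mul_assoc, ← mul_assoc _ _ Q, h1, smul_mul_assoc,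
      mul_smul_comm, smul_smul, KP.cc hT, one_smul, ← mul_assoc, ← hc.eq, mul_assoc, hQQ]
  · rw [vv, smul_mul_assoc, mul_assoc, ← hc.eq, ← mul_assoc, Finset.sum_mul]
    simp only [mul_assoc, hV.supp]
  · rw [vv, smul_mul_assoc, mul_assoc, hQQ]

theorem vv_rng (hU : IsURep U) (hQ : IsKaz U Q) (hT : IsTr ψ T) (hV : IsV U ψ T V e e') :
    vv U T V Q * star (vv U T V Q) = e' * Q := by
  have hQQ : Q * Q = Q := hQ.proj.isIdempotentElem
  have h1 : star (vv U T V Q) * Q = star (vv U T V Q) := by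
    have := congrArg star (hQ.absorb (vv_inv hU hQ hT hV))
    rwa [star_mul, hQ.proj.isSelfAdjoint.star_eq] at this
  have h2 : Q * (star V * Q) = star V * Q :=
    hQ.absorb fun g => by rw [← mul_assoc, KP.cov' hU hV, mul_assoc, hQ.inv]
  have h3 : (∑ t ∈ T, star V * U t⁻¹) * Q = (T.card : ℂ) • (star V * Q) := by
    rw [Finset.sum_mul, Nat.cast_smul_eq_nsmul, ← Finset.sum_const]
    exact Finset.sum_congr rfl fun t _ => by rw [mul_assoc, hQ.inv]
  have h4 : e' * Q = (∑ t ∈ T, U t * V) * (star V * Q) := by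
    rw [← hV.sum, Finset.sum_mul, Finset.sum_mul]
    exact Finset.sum_congr rfl fun t _ => by rw [mul_assoc, mul_assoc (star V), hQ.inv]
  rw [← h1, KP.star_vv hU hQ, vv, smul_mul_assoc _ _ Q, smul_mul_smul_comm, mul_assoc Q, h3,
    mul_smul_comm, mul_smul_comm, smul_smul, KP.cc hT, one_smul, h2, mul_assoc, h2, h4]

theorem vv_comm (hU : IsURep U) (hQ : IsKaz U Q) (hT : IsTr ψ T) (hV : IsV U ψ T V e e')
    {x : K →L[ℂ] K} (hx : ∀ g, Commute x (U g)) {c : Γ} (hc : ∀ g, g * c = c * g)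
    (h : x * V = U c * V * x) : x * vv U T V Q = vv U T V Q * x := by
  have h1 : x * (∑ t ∈ T, U t * V) = U c * (∑ t ∈ T, U t * V) * x := by
    rw [Finset.mul_sum, Finset.mul_sum, Finset.sum_mul]
    refine Finset.sum_congr rfl fun t _ => ?_
    rw [← mul_assoc, (hx t).eq, mul_assoc, h, ← mul_assoc, ← mul_assoc, ← map_mul, hc, map_mul,
      mul_assoc (U c)]
  conv_rhs => rw [← vv_inv hU hQ hT hV c]
  rw [vv, mul_smul_comm, mul_smul_comm, smul_mul_assoc, ← mul_assoc, h1, mul_assoc _ x,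
    (hQ.comm hx).eq, ← mul_assoc, mul_assoc (U c)]

end Vale.Agent.P212
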