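import Vale.Agent.P212.Tent

/- The coefficient operators. -/

noncomputable section

namespace Vale.Agent.P212

variable {H : Type} [NormedAddCommGroup H] [InnerProductSpace ℂ H] [CompleteSpace H]
  (C : Circ H) {L : ℕ} [NeZero L]

theorem R_unit (θ : UnitAddCircle) : C.R θ ∈ unitary (H →L[ℂ] H) := by
  rw [Unitary.mem_iff, C.R_star, ← C.R_add, ← C.R_add, neg_add_cancel, add_neg_cancel, C.R_zero]
  exact ⟨rfl, rfl⟩

theorem R_sqt (c k : ZMod L) : C.R (ZMod.toAddCircle k) * C.π0 (sqt L c) =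
    C.π0 (sqt L (c + k)) * C.R (ZMod.toAddCircle k) :=
  C.R_π _ _ _ fun s => by
    change ((Real.sqrt (tent L (c + k) s) : ℝ) : ℂ) = ((Real.sqrt (tent L c _) : ℝ) : ℂ)
    rw [tent_shift]

namespace LoopAlg

/-- the ideal of compact operators -/
def KI (H : Type) [NormedAddCommGroup H] [InnerProductSpace ℂ H] : TwoSidedIdeal (H →L[ℂ] H) :=
  TwoSidedIdeal.mk' {T | IsCompactOperator T} isCompactOperator_zero
    (fun hx hy => IsCompactOperator.add hx hy) (fun hx => IsCompactOperator.neg hx)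
    (fun {x _} hy => IsCompactOperator.clm_comp hy x)
    (fun {_ y} hx => IsCompactOperator.comp_clm hx y)

/-- the quotient map -/
def q (H : Type) [NormedAddCommGroup H] [InnerProductSpace ℂ H] :
    (H →L[ℂ] H) →+* (KI H).ringCon.Quotient := RingCon.mk' _

omit [CompleteSpace H] in
theorem q_eq {x y : H →L[ℂ] H} : q H x = q H y ↔ IsCompactOperator (x - y : H →L[ℂ] H) :=
  (KI H).ringCon.eq

omit [CompleteSpace H] in
theorem q_zero {x : H →L[ℂ] H} (h : q H x = 0) : IsCompactOperator x := by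
  have := q_eq.1 (h.trans (map_zero (q H)).symm)
  rwa [sub_zero] at this

theorem a_star (c : ZMod L) : star (C.π0 (sqt L c)) = C.π0 (sqt L c) := by
  rw [← map_star, sqt_star]

theorem a_norm (c : ZMod L) : ‖C.π0 (sqt L c)‖ ≤ 1 :=
  (NonUnitalStarAlgHom.norm_apply_le C.π0 _).trans (sqt_norm c)

theorem R_norm (θ : UnitAddCircle) : ‖C.R θ‖ ≤ 1 := by
  rw [← mul_one (C.R θ), CStarRing.norm_mem_unitary_mul _ (R_unit C θ)]
  exact ContinuousLinearMap.norm_id_le

omit [CompleteSpace H] in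
theorem mul_le {x y : H →L[ℂ] H} (hx : ‖x‖ ≤ 1) (hy : ‖y‖ ≤ 1) : ‖x * y‖ ≤ 1 :=
  (norm_mul_le x y).trans (mul_le_one₀ hx (norm_nonneg _) hy)

theorem q_comm (f : C(UnitAddCircle, ℂ)) :
    q H (C.π0 f) * q H C.Pi = q H C.Pi * q H (C.π0 f) := by
  rw [← map_mul, ← map_mul]
  exact (q_eq.2 (C.cpt f)).symm

/-- normal forms -/
def N (L : ℕ) [NeZero L] (f : C(UnitAddCircle, ℂ)) (k : ZMod L) : (KI H).ringCon.Quotient :=
  q H (C.Pi * C.π0 f * C.R (ZMod.toAddCircle k))

theorem N_add (f g : C(UnitAddCircle, ℂ)) (k : ZMod L) :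
    N C L f k + N C L g k = N C L (f + g) k := by
  rw [N, N, N, ← map_add, map_add C.π0, mul_add, add_mul]

theorem N_zero (k : ZMod L) : N C L 0 k = 0 := by
  rw [N, map_zero, mul_zero, zero_mul, map_zero]

theorem N_mul (f : C(UnitAddCircle, ℂ)) (c d k l : ZMod L) :
    N C L f k * N C L (sqt L c * sqt L d) l =
      N C L (f * (sqt L (c + k) * sqt L (d + k))) (k + l) := by
  have h1 : C.R (ZMod.toAddCircle k) * (C.Pi * C.π0 (sqt L c * sqt L d) *
      C.R (ZMod.toAddCircle l)) = C.Pi * (C.π0 (sqt L (c + k) * sqt L (d + k)) *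
        C.R (ZMod.toAddCircle (k + l))) := by
    rw [map_mul, map_mul, map_add, C.R_add]
    simp only [← mul_assoc]
    rw [(C.R_Pi _).eq, mul_assoc C.Pi, R_sqt, mul_assoc C.Pi, mul_assoc (C.π0 _), R_sqt]
    simp only [← mul_assoc]
  rw [N, N, N, ← map_mul, mul_assoc _ (C.R _), h1, map_mul C.π0 f]
  simp only [map_mul (q H), ← mul_assoc]
  rw [mul_assoc (q H C.Pi) (q H (C.π0 f)) (q H C.Pi), q_comm, ← mul_assoc, ← map_mul,
    C.proj.isIdempotentElem.eq]

/-- the compressed rotations -/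
def W (L : ℕ) [NeZero L] (k : ZMod L) : H →L[ℂ] H :=
  C.π0 (sqt L 0) * C.Pi * C.R (ZMod.toAddCircle k) * C.π0 (sqt L 0)

theorem q_W (k : ZMod L) : q H (W C L k) = N C L (sqt L 0 * sqt L k) k := by
  rw [W, N, mul_assoc _ (C.R _), R_sqt, zero_add, map_mul C.π0]
  simp only [map_mul (q H), ← mul_assoc]
  rw [q_comm]

theorem T0_eq : T0 C L = W C L 0 := by
  rw [W, map_zero, C.R_zero, mul_one, T0]

theorem T1_eq : T1 C L = W C L (-1) := by
  rw [W, map_neg, T1]

theorem W_star (k : ZMod L) : star (W C L k) = W C L (-k) := by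
  simp only [W, star_mul, a_star, C.R_star, C.proj.isSelfAdjoint.star_eq, map_neg, mul_assoc]
  rw [← mul_assoc (C.R _), (C.R_Pi _).eq, mul_assoc]

theorem W_norm (k : ZMod L) : ‖W C L k‖ ≤ 1 :=
  mul_le (mul_le (mul_le (a_norm C 0) (C.proj.norm_le _)) (R_norm C _)) (a_norm C 0)

theorem orth_two (hL : 8 ≤ L) : sqt L 0 * sqt L (-2) = 0 :=
  sqt_orth hL
    (Tent.ne_small hL (k := -2) (k' := 0) (by norm_num) (by norm_num) (by push_cast; ring))
    (Tent.ne_small hL (k := -2) (k' := 1) (by norm_num) (by norm_num) (by push_cast; ring))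
    (Tent.ne_small hL (k := 0) (k' := -1) (by norm_num) (by norm_num) (by push_cast; ring))

theorem q_Pav (hL : 8 ≤ L) : q H (Pav C L) = q H C.Pi := by
  have h : ∀ z : ZMod L, q H (C.π0 (sqt L z) * C.Pi * C.π0 (sqt L z)) =
      q H (C.Pi * C.π0 (sqt L z * sqt L z)) := fun z => by
    rw [map_mul C.π0]
    simp only [map_mul (q H), ← mul_assoc]
    rw [q_comm]
  rw [Pav, map_sum]
  simp only [h]
  rw [← map_sum, ← Finset.mul_sum, ← map_sum, sqt_sum hL, map_one, mul_one]

theorem q_Mk (hL : 8 ≤ L) (k : ℤ) : q H (Mk C L k) = q H (W C L (-(k : ZMod L))) := by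
  rw [Mk, W, map_neg]
  simp only [map_mul (q H), q_Pav C hL]

end LoopAlg

open LoopAlg

theorem T0_star : star (T0 C L) = T0 C L := by
  rw [T0_eq, W_star, neg_zero]

theorem T0_norm : ‖T0 C L‖ ≤ 1 := by
  rw [T0_eq]
  exact W_norm C _

theorem T1_norm : ‖T1 C L‖ ≤ 1 := by
  rw [T1_eq]
  exact W_norm C _

theorem cpt_T0 (hL : 8 ≤ L) : IsCompactOperator (T0 C L * T0 C L + T1 C L * star (T1 C L) +
    star (T1 C L) * T1 C L - T0 C L : H →L[ℂ] H) := by
  rw [← q_eq, T0_eq, T1_eq, W_star, neg_neg]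
  simp only [map_add (q H), map_mul (q H), q_W, N_mul, add_zero, zero_add, neg_add_cancel,
    add_neg_cancel, N_add]
  congr 1
  have h := sqt_three hL (0 : ZMod L)
  rw [zero_sub, zero_add] at h
  linear_combination sqt L 0 * h

theorem cpt_T1 (hL : 8 ≤ L) :
    IsCompactOperator (T0 C L * T1 C L + T1 C L * T0 C L - T1 C L : H →L[ℂ] H) := by
  rw [← q_eq, T0_eq, T1_eq]
  simp only [map_add (q H), map_mul (q H), q_W, N_mul, add_zero, zero_add, N_add]
  congr 1
  have h := sqt_two hL (-1 : ZMod L)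
  rw [neg_add_cancel] at h
  linear_combination h

theorem cpt_T2 (hL : 8 ≤ L) : IsCompactOperator (T1 C L * T1 C L : H →L[ℂ] H) := by
  apply q_zero
  rw [T1_eq, map_mul, q_W, N_mul, ← N_zero C (-1 + -1 : ZMod L)]
  congr 1
  rw [show (-1 + -1 : ZMod L) = -2 by ring]
  linear_combination (sqt L (-1) * sqt L (0 + -1)) * orth_two hL

theorem Pav_star : star (Pav C L) = Pav C L := by
  simp only [Pav, star_sum, star_mul, a_star, C.proj.isSelfAdjoint.star_eq, mul_assoc]

theorem Pav_norm (hL : 8 ≤ L) : ‖Pav C L‖ ≤ 1 := by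
  have h0 : 0 ≤ Pav C L := Finset.sum_nonneg fun z _ =>
    IsSelfAdjoint.conjugate_nonneg C.proj.nonneg (a_star C z)
  rw [CStarAlgebra.norm_le_one_iff_of_nonneg _ h0]
  have h1 : (1 : H →L[ℂ] H) = ∑ z : ZMod L, C.π0 (sqt L z) * 1 * C.π0 (sqt L z) := by
    simp only [mul_one, ← map_mul]
    rw [← map_sum, sqt_sum hL, map_one]
  rw [h1]
  exact Finset.sum_le_sum fun z _ => IsSelfAdjoint.conjugate_le_conjugate
    (sub_nonneg.1 C.proj.one_sub.nonneg) (a_star C z)

theorem Pav_cpt (hL : 8 ≤ L) : IsCompactOperator (Pav C L - C.Pi : H →L[ℂ] H) :=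
  q_eq.1 (q_Pav C hL)

theorem R_Pav (k : ZMod L) : Commute (C.R (ZMod.toAddCircle k)) (Pav C L) := by
  rw [Commute, SemiconjBy, Pav, Finset.mul_sum, Finset.sum_mul]
  refine Fintype.sum_equiv (Equiv.addRight k) _ _ fun z => ?_
  simp only [Equiv.coe_addRight, ← mul_assoc]
  rw [R_sqt, mul_assoc _ (C.R _), (C.R_Pi _).eq, ← mul_assoc, mul_assoc _ (C.R _), R_sqt,
    ← mul_assoc]

theorem Mk_star (k : ℤ) : star (Mk C L k) = Mk C L (-k) := by
  simp only [Mk, star_mul, a_star, C.R_star, Pav_star, Int.cast_neg, map_neg, neg_neg, mul_assoc]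
  rw [← mul_assoc (C.R _), (R_Pav C _).eq, mul_assoc]

theorem Mk_norm (hL : 8 ≤ L) (k : ℤ) : ‖Mk C L k‖ ≤ 1 :=
  mul_le (mul_le (mul_le (a_norm C 0) (Pav_norm C hL)) (R_norm C _)) (a_norm C 0)

theorem Mk_zero (hL : 8 ≤ L) : IsCompactOperator (Mk C L 0 - T0 C L : H →L[ℂ] H) := by
  rw [← q_eq, q_Mk C hL, T0_eq, Int.cast_zero, neg_zero]

theorem Mk_one (hL : 8 ≤ L) : IsCompactOperator (Mk C L 1 - T1 C L : H →L[ℂ] H) := by
  rw [← q_eq, q_Mk C hL, T1_eq, Int.cast_one]

theorem Mk_two (hL : 8 ≤ L) : IsCompactOperator (Mk C L 2 : H →L[ℂ] H) := by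
  apply q_zero
  rw [q_Mk C hL, q_W, Int.cast_ofNat, orth_two hL, N_zero]

theorem Mk_conj (c : ZMod L) (k : ℤ) :
    C.R (ZMod.toAddCircle (c + (k : ZMod L))) * Mk C L k * C.R (-ZMod.toAddCircle c) =
      C.π0 (sqt L (c + (k : ZMod L))) * Pav C L * C.π0 (sqt L c) := by
  have h1 : C.R (ZMod.toAddCircle (c + (k : ZMod L))) * C.R (-ZMod.toAddCircle (k : ZMod L)) =
      C.R (ZMod.toAddCircle c) := by
    rw [← C.R_add, map_add, add_neg_cancel_right]
  have h2 : C.R (ZMod.toAddCircle c) * C.R (-ZMod.toAddCircle c) = 1 := by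
    rw [← C.R_add, add_neg_cancel, C.R_zero]
  simp only [Mk, ← mul_assoc]
  rw [R_sqt, zero_add, mul_assoc _ (C.R _) (Pav C L), (R_Pav C _).eq, ← mul_assoc,
    mul_assoc _ (C.R _) (C.R _), h1, mul_assoc _ (C.R _) (C.π0 _), R_sqt, zero_add, ← mul_assoc,
    mul_assoc _ (C.R _) (C.R _), h2, mul_one]

theorem Pav_far (hL : 8 ≤ L) {c c' : ZMod L} (h : ∀ k ∈ Finset.Icc (-2 : ℤ) 2, c' ≠ c + (k : ZMod L)) :
    C.π0 (sqt L c') * Pav C L * C.π0 (sqt L c) = 0 := by
  rw [Pav, Finset.mul_sum, Finset.sum_mul]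
  refine Finset.sum_eq_zero fun z _ => ?_
  have key : sqt L c' * sqt L z = 0 ∨ sqt L z * sqt L c = 0 := by
    by_contra hc
    rw [not_or] at hc
    have h1 : z = c' ∨ z = c' + 1 ∨ c' = z + 1 := by
      by_contra h'
      simp only [not_or] at h'
      exact hc.1 (sqt_orth hL h'.1 h'.2.1 h'.2.2)
    have h2 : c = z ∨ c = z + 1 ∨ z = c + 1 := by
      by_contra h'
      simp only [not_or] at h'
      exact hc.2 (sqt_orth hL h'.1 h'.2.1 h'.2.2)
    rcases h1 with e | e | e <;> rcases h2 with e' | e' | e'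
    · exact h 0 (by simp) (by push_cast; linear_combination -e - e')
    · exact h (-1) (by simp) (by push_cast; linear_combination -e - e')
    · exact h 1 (by simp) (by push_cast; linear_combination -e + e')
    · exact h (-1) (by simp) (by push_cast; linear_combination -e - e')
    · exact h (-2) (by simp) (by push_cast; linear_combination -e - e')
    · exact h 0 (by simp) (by push_cast; linear_combination -e + e')
    · exact h 1 (by simp) (by push_cast; linear_combination e - e')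
    · exact h 0 (by simp) (by push_cast; linear_combination e - e')
    · exact h 2 (by simp) (by push_cast; linear_combination e + e')
  rcases key with e | e
  · simp only [← mul_assoc]
    rw [← map_mul, e, map_zero, zero_mul, zero_mul, zero_mul]
  · simp only [mul_assoc]
    rw [← map_mul, e, map_zero, mul_zero, mul_zero, mul_zero]

end Vale.Agent.P212
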