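import Vale.Agent.P212.Base

/- The topology of the Rips complex. -/

noncomputable section

namespace Vale.Agent.P212

open scoped ZeroAtInfty Classical

variable {X : Type} [MetricSpace X] {r r' : ℝ}

theorem Rips.ext' {p q : Rips X r} (h : p.t = q.t) : p = q := by
  cases p; cases q; cases h; rfl

namespace TopAux

/-- closed simplices -/
def Sx (r : ℝ) (τ : Finset X) : Type := {p : Rips X r // p.t.support ⊆ τ}

instance (τ : Finset X) : TopologicalSpace (Sx r τ) :=
  TopologicalSpace.induced (fun p (x : X) => p.1.t x) inferInstance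

/-- vertex sets of simplices -/
def Sim (r : ℝ) (τ : Finset X) : Prop := ∀ x ∈ τ, ∀ y ∈ τ, dist x y ≤ r

theorem cont_val {τ : Finset X} (h : Sim r τ) : Continuous fun p : Sx r τ => p.1 :=
  continuous_iSup_rng (i := (⟨τ, h⟩ : {s : Finset X // ∀ x ∈ s, ∀ y ∈ s, dist x y ≤ r}))
    continuous_coinduced_rng

theorem cont_out {Y : Type} [TopologicalSpace Y] {f : Rips X r → Y}
    (h : ∀ τ, Sim r τ → Continuous fun p : Sx r τ => f p.1) : Continuous f :=
  continuous_iSup_dom.2 fun τ => continuous_coinduced_dom.2 (h τ.1 τ.2)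

theorem cont_co (τ : Finset X) (x : X) : Continuous fun p : Sx r τ => p.1.t x :=
  (continuous_apply x).comp continuous_induced_dom

theorem sum_eq (p : Rips X r) {τ : Finset X} (h : p.t.support ⊆ τ) : ∑ x ∈ τ, p.t x = 1 := by
  rw [← p.sum_one, Finsupp.sum_of_support_subset _ h _ fun _ _ => rfl]

theorem cpt {τ : Finset X} (h : Sim r τ) : CompactSpace (Sx r τ) := by
  refine ⟨(Topology.IsInducing.isCompact_iff
    (f := fun (p : Sx r τ) (x : X) => p.1.t x) ⟨rfl⟩).2 ?_⟩
  have e : (fun (p : Sx r τ) (x : X) => p.1.t x) '' Set.univ =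
      {f | ∀ x, 0 ≤ f x} ∩ ({f | ∀ x, x ∉ τ → f x = 0} ∩ {f | ∑ x ∈ τ, f x = 1}) := by
    ext f
    constructor
    · rintro ⟨p, -, rfl⟩
      exact ⟨p.1.nonneg, fun x hx => Finsupp.notMem_support_iff.1 fun h' => hx (p.2 h'),
        sum_eq p.1 p.2⟩
    · rintro ⟨h1, h2, h3⟩
      have h4 : ∀ x, f x ≠ 0 → x ∈ τ := fun x hx => by_contra fun h' => hx (h2 x h')
      have h5 : (Finsupp.onFinset τ f h4).support ⊆ τ := Finsupp.support_onFinset_subset
      exact ⟨⟨⟨Finsupp.onFinset τ f h4, h1,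
        by rw [Finsupp.sum_of_support_subset _ h5 _ fun _ _ => rfl]; exact h3,
        fun x hx y hy => h x (h5 hx) y (h5 hy)⟩, h5⟩, trivial, rfl⟩
  rw [e]
  refine (isCompact_univ_pi fun _ => isCompact_Icc (a := (0 : ℝ)) (b := 1)).of_isClosed_subset
    (IsClosed.inter ?_ (IsClosed.inter ?_ (isClosed_eq (by fun_prop) continuous_const))) ?_
  · rw [Set.setOf_forall]
    exact isClosed_iInter fun x => isClosed_le continuous_const (continuous_apply x)
  · simp only [Set.setOf_forall]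
    exact isClosed_iInter fun x => isClosed_iInter fun _ =>
      isClosed_eq (continuous_apply x) continuous_const
  · rintro f ⟨h1, h2, h3⟩ x -
    refine ⟨h1 x, ?_⟩
    by_cases hx : x ∈ τ
    · exact (Finset.single_le_sum (fun y _ => h1 y) hx).trans_eq h3
    · rw [h2 x hx]; exact zero_le_one

theorem sum_app (V : Finset X) (f : X → C₀(Rips X r, ℂ)) (p : Rips X r) :
    (∑ x ∈ V, f x) p = ∑ x ∈ V, f x p := by
  induction V using Finset.induction_on with
  | empty => rfl
  | insert a s ha ih => rw [Finset.sum_insert ha, Finset.sum_insert ha, ← ih]; rfl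

end TopAux

open TopAux

theorem cont_coord (x : X) : Continuous fun p : Rips X r => p.t x :=
  cont_out fun τ _ => cont_co τ x

theorem cpt_supp (s : Finset X) : IsCompact {p : Rips X r | p.t.support ⊆ s} := by
  have e : {p : Rips X r | p.t.support ⊆ s} =
      ⋃ τ ∈ s.powerset.filter (Sim r), Set.range fun p : Sx r τ => p.1 := by
    ext p
    simp only [Set.mem_iUnion, Finset.mem_filter, Finset.mem_powerset]
    exact ⟨fun h => ⟨_, ⟨h, p.diam⟩, ⟨p, subset_rfl⟩, rfl⟩,
      fun ⟨τ, h, q, hq⟩ => hq ▸ q.2.trans h.1⟩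
  rw [e]
  refine Finset.isCompact_biUnion _ fun τ hτ => ?_
  have := cpt (Finset.mem_filter.1 hτ).2
  exact isCompact_range (cont_val (Finset.mem_filter.1 hτ).2)

theorem cont_into {Z : Type} [TopologicalSpace Z] (g : Z → Rips X r) (s : Finset X)
    (hs : ∀ z, (g z).t.support ⊆ s) (hc : ∀ x, Continuous fun z => (g z).t x) : Continuous g := by
  refine (locallyFinite_of_finite fun τ : s.powerset.filter (Sim r) =>
    {z | ∀ x, x ∉ τ.1 → (g z).t x = 0}).continuous ?_ (fun τ => ?_) fun τ => ?_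
  · refine Set.eq_univ_of_forall fun z => Set.mem_iUnion.2 ⟨⟨_, Finset.mem_filter.2
      ⟨Finset.mem_powerset.2 (hs z), (g z).diam⟩⟩, fun x => Finsupp.notMem_support_iff.1⟩
  · simp only [Set.setOf_forall]
    exact isClosed_iInter fun x => isClosed_iInter fun _ => isClosed_eq (hc x) continuous_const
  · rw [continuousOn_iff_continuous_restrict]
    exact (cont_val (Finset.mem_filter.1 τ.2).2).comp
      (f := fun z : {z | ∀ x, x ∉ τ.1 → (g z).t x = 0} => (⟨g z, fun x hx =>
        by_contra fun h => Finsupp.mem_support_iff.1 hx (z.2 x h)⟩ : Sx r τ))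
      (continuous_induced_rng.2 (continuous_pi fun x => (hc x).comp continuous_subtype_val))

theorem cont_incl (h : r ≤ r') : Continuous (Rips.incl h : Rips X r → Rips X r') :=
  cont_out fun τ _ => cont_into _ τ (fun p => p.2) (cont_co τ)

theorem BddGeom.ball_fin (bg : BddGeom X) (x : X) (R : ℝ) : (Metric.closedBall x R).Finite := by
  obtain ⟨N, hN⟩ := bg R
  exact Set.finite_of_encard_le_coe (hN x)

theorem sub_of_cpt (bg : BddGeom X) {K : Set (Rips X r)} (hK : IsCompact K) :
    ∃ s : Finset X, ∀ p ∈ K, p.t.support ⊆ s := by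
  obtain ⟨t, ht⟩ := hK.elim_finite_subcover (fun x => {p : Rips X r | p.t x ≠ 0})
    (fun x => isOpen_ne_fun (cont_coord x) continuous_const) fun p _ => by
      obtain ⟨x, -, hx⟩ := Finset.exists_ne_zero_of_sum_ne_zero
        ((sum_eq p subset_rfl).trans_ne one_ne_zero)
      exact Set.mem_iUnion.2 ⟨x, hx⟩
  refine ⟨t.biUnion fun x => (bg.ball_fin x r).toFinset, fun p hp y hy => ?_⟩
  obtain ⟨x, hx, h⟩ := Set.mem_iUnion₂.1 (ht hp)
  exact Finset.mem_biUnion.2 ⟨x, hx, (Set.Finite.mem_toFinset _).2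
    (p.diam y hy x (Finsupp.mem_support_iff.2 h))⟩

theorem small_far (bg : BddGeom X) (f : C₀(Rips X r, ℂ)) {ε : ℝ} (hε : 0 < ε) :
    ∃ s : Finset X, ∀ p : Rips X r, ¬ p.t.support ⊆ s → ‖f p‖ < ε := by
  obtain ⟨K, hK, h⟩ := Filter.mem_cocompact.1 (Metric.tendsto_nhds.1 (zero_at_infty f) ε hε)
  obtain ⟨s, hs⟩ := sub_of_cpt bg hK
  exact ⟨s, fun p hp => by simpa using h fun h' => hp (hs p h')⟩

theorem exists_res (bg : BddGeom X) (h : r ≤ r') (f' : C₀(Rips X r', ℂ)) :
    ∃ f : C₀(Rips X r, ℂ), ∀ p, f p = f' (Rips.incl h p) := by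
  refine ⟨⟨⟨fun p => f' (Rips.incl h p), (map_continuous f').comp (cont_incl h)⟩,
    Metric.tendsto_nhds.2 fun ε hε => ?_⟩, fun _ => rfl⟩
  obtain ⟨s, hs⟩ := small_far bg f' hε
  filter_upwards [(cpt_supp s).compl_mem_cocompact] with p hp
  simpa using hs (Rips.incl h p) hp

theorem exists_bary (bg : BddGeom X) (r : ℝ) : ∃ a : X → C₀(Rips X r, ℂ), Bary a := by
  refine ⟨fun x => ⟨⟨fun p => ((√(p.t x) : ℝ) : ℂ),
    Complex.continuous_ofReal.comp (cont_coord x).sqrt⟩, tendsto_const_nhds.congr' ?_⟩,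
    fun _ _ => rfl⟩
  filter_upwards [(cpt_supp (bg.ball_fin x r).toFinset).compl_mem_cocompact] with p hp
  have : p.t x = 0 := by_contra fun h => hp fun y hy =>
    (Set.Finite.mem_toFinset _).2 (p.diam y hy x (Finsupp.mem_support_iff.2 h))
  simp [this]

theorem Bary.star_eq {a : X → C₀(Rips X r, ℂ)} (ha : Bary a) (x : X) : star (a x) = a x := by
  ext p
  simp [ha x p]

theorem Bary.orth {a : X → C₀(Rips X r, ℂ)} (ha : Bary a) {x y : X} (h : r < dist x y) :
    a x * a y = 0 := by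
  ext p
  by_cases hx : p.t x = 0
  · simp [ha x p, hx]
  have hy : p.t y = 0 := by_contra fun hy => h.not_ge
    (p.diam x (Finsupp.mem_support_iff.2 hx) y (Finsupp.mem_support_iff.2 hy))
  simp [ha y p, hy]

theorem Bary.sum {a : X → C₀(Rips X r, ℂ)} (ha : Bary a) (V : Finset X) (y : X)
    (h : ∀ x, dist x y ≤ r → x ∈ V) : (∑ x ∈ V, a x * a x) * a y = a y := by
  ext p
  by_cases hy : p.t y = 0
  · simp [ha y p, hy]
  have h1 := sum_eq p fun x hx => h x (p.diam x hx y (Finsupp.mem_support_iff.2 hy))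
  have h2 : ∀ x, (a x * a x) p = (p.t x : ℂ) := fun x => by
    rw [ZeroAtInftyContinuousMap.mul_apply, ha, ← Complex.ofReal_mul,
      Real.mul_self_sqrt (p.nonneg x)]
  rw [ZeroAtInftyContinuousMap.mul_apply, sum_app]
  simp only [h2]
  rw [← Complex.ofReal_sum, h1, Complex.ofReal_one, one_mul]

end Vale.Agent.P212
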