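import Vale.Agent.P212.Tent
import Vale.Agent.P212.Top
import Vale.Agent.P212.Hsum

/- The Fredholm module of the loops. -/

noncomputable section

namespace Vale.Agent.P212

open scoped ZeroAtInfty Classical

variable {X H : Type} [MetricSpace X] [NormedAddCommGroup H] [InnerProductSpace ℂ H]
  [CompleteSpace H]

theorem exists_loop (sp : Spc X) (n : ℕ) : ∃ γ : C(UnitAddCircle, Rips X 1),
    (∀ s c, (γ s).t (sp.loop n c) = tent (LL n) c s) ∧
    ∀ s x, (∀ c, x ≠ sp.loop n c) → (γ s).t x = 0 := by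
  set t : UnitAddCircle → X →₀ ℝ := fun s => ∑ c, Finsupp.single (sp.loop n c) (tent (LL n) c s)
    with ht
  have h1 : ∀ s c, t s (sp.loop n c) = tent (LL n) c s := fun s c => by
    simp [ht, Finsupp.finset_sum_apply, Finsupp.single_apply, (sp.loop_inj n).eq_iff]
  have h2 : ∀ s x, (∀ c, x ≠ sp.loop n c) → t s x = 0 := fun s x hx => by
    simp [ht, Finsupp.finset_sum_apply, Finsupp.single_apply, fun c => (hx c).symm]
  have h3 : ∀ s, (t s).support ⊆ Finset.univ.image (sp.loop n) := fun s x hx => by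
    by_contra h
    exact Finsupp.mem_support_iff.1 hx (h2 s x fun c hc => h (by simp [hc]))
  refine ⟨⟨fun s => ⟨t s, fun x => ?_, ?_, fun x hx y hy => ?_⟩, cont_into _ _ h3 fun x => ?_⟩,
    h1, h2⟩
  · by_cases hx : ∃ c, x = sp.loop n c
    · obtain ⟨c, rfl⟩ := hx
      rw [h1]; exact tent_nonneg _ _
    · rw [h2 s x (not_exists.1 hx)]
  · rw [Finsupp.sum_of_support_subset _ (h3 s) _ fun _ _ => rfl,
      Finset.sum_image fun _ _ _ _ h => sp.loop_inj n h]
    simp only [h1, tent_sum (LL_ge n)]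
  · obtain ⟨c, -, rfl⟩ := Finset.mem_image.1 (h3 s hx)
    obtain ⟨c', -, rfl⟩ := Finset.mem_image.1 (h3 s hy)
    rw [Finsupp.mem_support_iff, h1] at hx hy
    rcases tent_adj (LL_ge n) hx hy with rfl | rfl | rfl
    · simp
    · exact sp.loop_dist n c
    · rw [dist_comm]; exact sp.loop_dist n c'
  · by_cases hx : ∃ c, x = sp.loop n c
    · obtain ⟨c, rfl⟩ := hx
      simp only [h1]; exact tent_cont _
    · simp only [fun s => h2 s x (not_exists.1 hx)]; exact continuous_const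

namespace YMod

/-- restriction to a loop -/
def ev {r : ℝ} (h : 1 ≤ r) (γ : C(UnitAddCircle, Rips X 1)) (f : C₀(Rips X r, ℂ)) :
    C(UnitAddCircle, ℂ) :=
  ⟨fun s => f (Rips.incl h (γ s)), (map_continuous f).comp ((cont_incl h).comp γ.continuous)⟩

theorem exists_pi (C : Circ H) {Kf : ℕ → H →ₗᵢ[ℂ] H} (hK : IsHilbertSum ℂ (fun _ : ℕ => H) Kf)
    (γ : ℕ → C(UnitAddCircle, Rips X 1)) {r : ℝ} (h : 1 ≤ r) :
    ∃ π : C₀(Rips X r, ℂ) →⋆ₙₐ[ℂ] (H →L[ℂ] H),
      ∀ f, IsW Kf id (fun n => C.π0 (ev h (γ n) f)) (π f) := by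
  have h1 : ∀ f : C₀(Rips X r, ℂ), ∃ A, IsW Kf id (fun n => C.π0 (ev h (γ n) f)) A := fun f =>
    exists_W hK _ _ ‖f‖ (fun n => (NonUnitalStarAlgHom.norm_apply_le C.π0 _).trans
      ((ContinuousMap.norm_le _ (norm_nonneg f)).2 fun s => f.toBCF.norm_coe_le_norm _))
      (Set.injOn_id _)
  choose π hπ using h1
  exact ⟨{ toFun := π
           map_smul' := fun c f => (hπ _).ext hK ((hπ f).smul c) fun n =>
             ⟨map_smul C.π0 c (ev h (γ n) f), fun _ => rfl⟩
           map_zero' := (hπ _).ext hK (IsW.zero id) fun n => ⟨map_zero C.π0, fun _ => rfl⟩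
           map_add' := fun f g => (hπ _).ext hK ((hπ f).add (hπ g)) fun n =>
             ⟨map_add C.π0 (ev h (γ n) f) (ev h (γ n) g), fun _ => rfl⟩
           map_mul' := fun f g => (hπ _).ext hK ((hπ f).mul (hπ g)) fun n =>
             ⟨map_mul C.π0 (ev h (γ n) f) (ev h (γ n) g), fun _ => rfl⟩
           map_star' := fun f => (hπ _).ext hK ((hπ f).adj_id hK) fun n =>
             ⟨map_star C.π0 (ev h (γ n) f), fun _ => rfl⟩ }, hπ⟩

theorem fin_big (sp : Spc X) (γ : ℕ → C(UnitAddCircle, Rips X 1))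
    (hγ : ∀ n s x, (∀ c, x ≠ sp.loop n c) → (γ n s).t x = 0) {r : ℝ} (h : 1 ≤ r)
    (f : C₀(Rips X r, ℂ)) {ε : ℝ} (hε : 0 < ε) : {n | ε < ‖ev h (γ n) f‖}.Finite := by
  obtain ⟨s, hs⟩ := small_far sp.bg f hε
  refine (s.image sp.comp).finite_toSet.subset fun n hn => ?_
  by_contra hc
  refine not_le.2 hn ((ContinuousMap.norm_le (ev h (γ n) f) hε.le).2 fun z => (hs _ fun h' => ?_).le)
  obtain ⟨x, hx, hx'⟩ := Finset.exists_ne_zero_of_sum_ne_zero
    ((TopAux.sum_eq (γ n z) h').trans_ne one_ne_zero)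
  obtain ⟨c, rfl⟩ : ∃ c, x = sp.loop n c := by_contra fun h2 => hx' (hγ n z x (not_exists.1 h2))
  exact hc (Finset.mem_coe.2 (Finset.mem_image.2 ⟨_, hx, sp.loop_comp n c⟩))

theorem loop_ne (sp : Spc X) {m n : ℕ} (h : m ≠ n) (c c') : sp.loop n c ≠ sp.loop m c' :=
  fun e => h (by rw [← sp.loop_comp m c', ← e, sp.loop_comp])

theorem app {sp : Spc X} {C : Circ H} {Kf : ℕ → H →ₗᵢ[ℂ] H} {r : ℝ} {y : Fred (Rips X r) H}
    (hy : IsY sp C Kf y) {a : X → C₀(Rips X r, ℂ)} (ha : Bary a) (x : X) (n : ℕ) (η : H) :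
    y.π (a x) (Kf n η) =
      ∑ c, if x = sp.loop n c then Kf n (C.π0 (sqt (LL n) c) η) else 0 := by
  by_cases hx : ∃ m c, x = sp.loop m c
  · obtain ⟨m, c, rfl⟩ := hx
    rw [hy.on a ha m c n η]
    by_cases h : n = m
    · subst h
      simp [(sp.loop_inj n).eq_iff]
    · simp [h, loop_ne sp h]
  · push Not at hx
    simp [hy.off a ha x hx, hx n]

theorem half {B ι : Type} [Fintype ι] [Ring B] [Algebra ℂ B] (S : ι → B) (p t : B)
    (h : ∑ z, S z * S z = 1) :
    (2⁻¹ : ℂ) • (t + ∑ z, S z * (((2 : ℂ) • p - 1) * (S z * t))) = (∑ z, S z * p * S z) * t := by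
  have e : ∀ z, S z * (((2 : ℂ) • p - 1) * (S z * t)) =
      (2 : ℂ) • (S z * p * S z * t) - S z * S z * t := fun z => by
    simp [sub_mul, mul_sub, mul_assoc]
  simp only [e, Finset.sum_sub_distrib, ← Finset.sum_mul, h, ← Finset.smul_sum, one_mul,
    add_sub_cancel, smul_smul]
  norm_num

end YMod

open YMod

theorem exists_y (sp : Spc X) (C : Circ H) {Kf : ℕ → H →ₗᵢ[ℂ] H}
    (hK : IsHilbertSum ℂ (fun _ : ℕ => H) Kf) :
    ∃ y : ∀ r : ℝ, 1 ≤ r → Fred (Rips X r) H, (∀ r h, IsY sp C Kf (y r h)) ∧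
      ∀ r h, IsPush h (y 1 le_rfl) (y r h) := by
  choose γ g1 g2 using exists_loop sp
  choose π hπ using fun (r : ℝ) (h : 1 ≤ r) => exists_pi C hK γ h
  set S : H →L[ℂ] H := (2 : ℂ) • C.Pi - 1 with hS
  obtain ⟨F, hF⟩ := exists_W hK id (fun _ => S) ‖S‖ (fun _ => le_rfl) (Set.injOn_id _)
  have s1 : S = star S := by simp [hS, C.proj.isSelfAdjoint.star_eq]
  have s2 : S * S = 1 := by
    simp only [hS, sub_mul, mul_sub, smul_mul_assoc, mul_smul_comm, C.proj.isIdempotentElem.eq,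
      one_mul, mul_one]
    module
  have f1 : F = star F := hF.ext hK (hF.adj_id hK) fun _ => ⟨s1, fun _ => rfl⟩
  have f2 : F * F = 1 := (hF.mul hF).ext hK IsW.one fun _ => ⟨s2, fun _ => rfl⟩
  refine ⟨fun r h => ⟨π r h, F, fun f => ?_, fun f => ?_, fun f => ?_⟩,
    fun r h => ⟨hF, fun a ha n c => ?_, fun a ha x hx => ?_⟩, fun r h => ⟨rfl, fun f' => ?_⟩⟩
  · refine IsW.cpt hK (IsW.sub (σ := id) (hF.mul (hπ r h f)) ((hπ r h f).mul hF)) (fun n => ?_)
      fun ε hε => ?_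
    · have e : S * C.π0 (ev h (γ n) f) - C.π0 (ev h (γ n) f) * S =
          (2 : ℂ) • (C.Pi * C.π0 (ev h (γ n) f) - C.π0 (ev h (γ n) f) * C.Pi) := by
        simp [hS, sub_mul, mul_sub, smul_sub]
      change IsCompactOperator (S * C.π0 (ev h (γ n) f) - C.π0 (ev h (γ n) f) * S : H →L[ℂ] H)
      rw [e]
      exact (C.cpt _).smul (2 : ℂ)
    · refine (fin_big sp γ g2 h f (ε := ε / (2 * ‖S‖ + 1)) (by positivity)).subset fun n hn => ?_
      have a1 : ε ≤ ‖S * C.π0 (ev h (γ n) f) - C.π0 (ev h (γ n) f) * S‖ := hn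
      have a2 := norm_sub_le (S * C.π0 (ev h (γ n) f)) (C.π0 (ev h (γ n) f) * S)
      have a3 := norm_mul_le S (C.π0 (ev h (γ n) f))
      have a4 := norm_mul_le (C.π0 (ev h (γ n) f)) S
      have a5 := mul_le_mul_of_nonneg_left
        (NonUnitalStarAlgHom.norm_apply_le C.π0 (ev h (γ n) f)) (norm_nonneg S)
      rw [Set.mem_ofPred_eq, div_lt_iff₀ (by positivity)]
      rcases (norm_nonneg (ev h (γ n) f)).eq_or_lt with a6 | a6
      · rw [← a6] at a5; linarith
      · linarith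
  · rw [← f1, sub_self, zero_mul]; exact isCompactOperator_zero
  · rw [f2, sub_self, zero_mul]; exact isCompactOperator_zero
  · refine (hπ r h _).congr fun m => ⟨?_, fun _ => rfl⟩
    split_ifs with hm
    · subst hm
      exact congrArg _ (ContinuousMap.ext fun s => (ha _ _).trans
        (congrArg (fun u : ℝ => ((√u : ℝ) : ℂ)) (g1 m s c)))
    · rw [← map_zero C.π0]
      refine congrArg _ (ContinuousMap.ext fun s => (ha _ _).trans ?_)
      change ((√((γ m s).t _) : ℝ) : ℂ) = 0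
      simp [g2 m s _ (loop_ne sp hm c)]
  · refine (hπ r h _).ext hK (IsW.zero id) fun m => ⟨?_, fun _ => rfl⟩
    rw [← map_zero C.π0]
    refine congrArg _ (ContinuousMap.ext fun s => (ha _ _).trans ?_)
    change ((√((γ m s).t _) : ℝ) : ℂ) = 0
    simp [g2 m s _ (hx m)]
  · obtain ⟨f, hf⟩ := exists_res sp.bg h f'
    exact ⟨f, hf, (hπ r h f').ext hK (hπ 1 le_rfl f) fun n =>
      ⟨congrArg _ (ContinuousMap.ext fun s => (hf _).symm), fun _ => rfl⟩⟩

/-- The entries of the index operator. -/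
theorem IsY.entry {sp : Spc X} {C : Circ H} {Kf : ℕ → H →ₗᵢ[ℂ] H}
    (hK : IsHilbertSum ℂ (fun _ : ℕ => H) Kf) {r : ℝ} {y : Fred (Rips X r) H}
    (hy : IsY sp C Kf y) {a : X → C₀(Rips X r, ℂ)} (ha : Bary a)
    {P : EX X H →L[ℂ] EX X H}
    (h1 : ∀ n c j ξ, P (JX X H (sp.loop n c) (Kf j ξ)) = if j = n then
      ∑ c' : ZMod (LL n), JX X H (sp.loop n c') (Kf n ((C.π0 (sqt (LL n) c') * Pav C (LL n) *
        C.π0 (sqt (LL n) c)) ξ)) else 0)
    (h2 : ∀ x, (∀ n c, x ≠ sp.loop n c) → ∀ ξ, P (JX X H x ξ) = 0) : IsIndexOp y a P := by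
  refine ⟨ha, fun x x' ξ => ?_⟩
  change P (JX X H x' ξ) x = _
  simp only [map_mul]
  by_cases hx : ∃ m c, x' = sp.loop m c
  swap
  · push Not at hx
    simp [h2 x' hx, hy.off a ha x' hx]
  obtain ⟨n, c, rfl⟩ := hx
  have z1 : ∀ z, z ∉ Finset.univ.image (sp.loop n) → y.π (a z) * y.π (a (sp.loop n c)) = 0 :=
    fun z hz => hs_ext hK fun j η => by
      rw [mul_apply_eq_comp, hy.on a ha n c j η]
      by_cases hj : j = n
      · subst hj
        have : ∀ c', z ≠ sp.loop j c' := fun c' h => hz (by simp [h])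
        simp [app hy ha, this]
      · simp [hj]
  rw [finsum_eq_sum_of_support_subset (s := Finset.univ.image (sp.loop n)) _ fun z hz =>
    by_contra fun h => hz (by simp only [z1 z h]; simp),
    Finset.sum_image fun _ _ _ _ h => sp.loop_inj n h]
  have b1 := ((hy.on a ha n c).add (IsW.sum (σ := id) Finset.univ fun z _ =>
    (hy.on a ha n z).mul (hy.op.mul ((hy.on a ha n z).mul (hy.on a ha n c))))).smul 2⁻¹
  have b2 : lp.evalCLM ℂ (fun _ : X => H) 2 x ∘L P ∘L
      (JX X H (sp.loop n c)).toContinuousLinearMap = y.π (a x) * ((2⁻¹ : ℂ) •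
        (y.π (a (sp.loop n c)) + ∑ z, y.π (a (sp.loop n z)) *
          (y.F * (y.π (a (sp.loop n z)) * y.π (a (sp.loop n c)))))) := by
    refine hs_ext hK fun j η => ?_
    rw [mul_apply_eq_comp, b1 j η]
    change P (JX X H (sp.loop n c) (Kf j η)) x = _
    rw [h1]
    by_cases hj : j = n
    · subst hj
      simp only [id, if_true]
      rw [half _ _ _ (by simp only [← map_mul, ← map_sum, sqt_sum (LL_ge j), map_one]),
        app hy ha, lp.coeFn_sum, Finset.sum_apply]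
      simp only [JX_apply]
      rfl
    · simp [hj]
  refine (DFunLike.congr_fun b2 ξ).trans ?_
  simp

end Vale.Agent.P212
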