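import Vale.Agent.P212.OpsEx
import Vale.Agent.P212.YMod

/- The bottom level carries the index operator. -/

noncomputable section

namespace Vale.Agent.P212

open scoped ZeroAtInfty Classical

variable {Γ X Y H : Type} [Group Γ] [MetricSpace X] [MulAction Γ Y] [NormedAddCommGroup H]
  [InnerProductSpace ℂ H] [CompleteSpace H] {sp : Spc X} {sy : Sys Γ X Y sp} {C : Circ H}
  {Kf : ℕ → H →ₗᵢ[ℂ] H}

namespace Lvl0

/-- The angle of a point of the bottom level. -/
def ang (sy : Sys Γ X Y sp) (y : Y) : UnitAddCircle :=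
  if h : ∃ p : Σ n, ZMod (LL n), y = sy.lft p.1 p.2 then ZMod.toAddCircle h.choose.2 else 0

theorem lft_inj (sy : Sys Γ X Y sp) {p q : Σ n, ZMod (LL n)}
    (h : sy.lft p.1 p.2 = sy.lft q.1 q.2) : p = q := by
  obtain ⟨n, c⟩ := p
  obtain ⟨m, d⟩ := q
  have h1 : sp.loop n c = sp.loop m d := by
    rw [← sy.pr_lft, ← sy.pr_lft]
    exact congrArg sy.pr h
  have h2 : n = m := by
    rw [← sp.loop_comp n c, h1, sp.loop_comp]
  subst h2
  rw [sp.loop_inj n h1]

theorem ang_lft (sy : Sys Γ X Y sp) (n : ℕ) (c : ZMod (LL n)) :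
    ang sy (sy.lft n c) = ZMod.toAddCircle c := by
  have h : ∃ p : Σ n, ZMod (LL n), sy.lft n c = sy.lft p.1 p.2 := ⟨⟨n, c⟩, rfl⟩
  have e : (⟨n, c⟩ : Σ n, ZMod (LL n)) = h.choose := lft_inj sy h.choose_spec
  unfold ang
  rw [dif_pos h]
  exact (congrArg (fun p : Σ n, ZMod (LL n) => (ZMod.toAddCircle p.2 : UnitAddCircle)) e).symm

theorem ang_off (sy : Sys Γ X Y sp) {y : Y} (hy : sy.lev y ≠ 0) : ang sy y = 0 := by
  unfold ang
  rw [dif_neg]
  rintro ⟨p, rfl⟩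
  exact hy (sy.lev_lft _ _)

theorem R_norm (C : Circ H) (θ : UnitAddCircle) : ‖C.R θ‖ ≤ 1 := by
  rcases subsingleton_or_nontrivial (H →L[ℂ] H) with h | h
  · rw [Subsingleton.elim (C.R θ) 0, norm_zero]
    exact zero_le_one
  · exact (CStarRing.norm_of_mem_unitary (R_unit C θ)).le

theorem S_zpow_comp (sy : Sys Γ X Y sp) (k : ℤ) (y : Y) :
    sp.comp (sy.pr ((sy.S ^ k) y)) = sp.comp (sy.pr y) := by
  induction k using Int.induction_on with
  | zero => simp
  | succ k ih => rw [add_comm, zpow_one_add, Equiv.Perm.mul_apply, sy.comp_S, ih]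
  | pred k ih =>
    rw [← ih, ← sy.comp_S ((sy.S ^ (-(k : ℤ) - 1)) y), ← Equiv.Perm.mul_apply, ← zpow_one_add]
    congr 4
    ring

theorem S_zpow_lft (sy : Sys Γ X Y sp) (n : ℕ) (k : ℤ) (c : ZMod (LL n)) :
    (sy.S ^ k) (sy.lft n c) = sy.lft n (c + (k : ZMod (LL n))) := by
  induction k using Int.induction_on with
  | zero => simp
  | succ k ih =>
    rw [add_comm, zpow_one_add, Equiv.Perm.mul_apply, ih, sy.S_lft]
    congr 1
    push_cast
    ring
  | pred k ih =>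
    apply sy.S.injective
    rw [← Equiv.Perm.mul_apply, ← zpow_one_add, sy.S_lft,
      show (1 : ℤ) + (-(k : ℤ) - 1) = -(k : ℤ) by ring, ih]
    congr 1
    push_cast
    ring

omit [CompleteSpace H] in
theorem IX_lft (sy : Sys Γ X Y sp) (n : ℕ) (c : ZMod (LL n)) (j : ℕ) (ξ : H) :
    IX Kf sy.slot (sy.lft n c, j) ξ = JX X H (sp.loop n c) (Kf j ξ) := by
  unfold IX
  rw [sy.slot_zero _ _ (sy.lev_lft n c), sy.pr_lft]
  rfl

theorem comm_star_sa {B : Type} [Ring B] [StarRing B] {e x : B} (he : star e = e)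
    (h : Commute e x) : Commute e (star x) := by
  have := congrArg star h.eq
  rw [star_mul, star_mul, he] at this
  exact this.symm

theorem exists_m (sy : Sys Γ X Y sp) (C : Circ H) (hK : IsHilbertSum ℂ (fun _ : ℕ => H) Kf)
    (k : ℤ) : ∃ m : FP X H, IsW (IX Kf sy.slot) id
      (fun ω => if ω.2 = sp.comp (sy.pr ω.1) then Mk C (LL ω.2) k else 0) m.1 := by
  obtain ⟨A, hA⟩ := exists_W (hs_IX hK sy.slot) id
    (fun ω => if ω.2 = sp.comp (sy.pr ω.1) then Mk C (LL ω.2) k else 0) 1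
    (fun ω => by
      split_ifs
      · exact Mk_norm C (LL_ge _) k
      · simp) (Function.injective_id.injOn)
  exact ⟨⟨A, IsW.mem_FP hK hA 0 fun ω _ => by simp⟩, hA⟩

theorem sum_small {L : ℕ} [NeZero L] (hL : 8 ≤ L) {E : Type} [AddCommMonoid E] (c : ZMod L)
    (g : ZMod L → E) (hg : ∀ c', (∀ k ∈ Finset.Icc (-2 : ℤ) 2, c' ≠ c + (k : ZMod L)) → g c' = 0) :
    ∑ k ∈ Finset.Icc (-2 : ℤ) 2, g (c + (k : ZMod L)) = ∑ c', g c' := by
  rw [← Finset.sum_image (s := Finset.Icc (-2 : ℤ) 2) (g := fun k : ℤ => c + (k : ZMod L)) (f := g)]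
  · refine Finset.sum_subset (Finset.subset_univ _) fun c' _ h => hg c' fun k hk e => h ?_
    exact Finset.mem_image.2 ⟨k, hk, e.symm⟩
  · intro k hk k' hk' e
    have h1 := Finset.mem_Icc.1 (Finset.mem_coe.1 hk)
    have h2 := Finset.mem_Icc.1 (Finset.mem_coe.1 hk')
    exact zmod_small hL (abs_le.2 ⟨by omega, by omega⟩) (add_left_cancel e)

end Lvl0

open Lvl0

/-- The rotation which straightens the loops. -/
theorem exists_rot (sy : Sys Γ X Y sp) (C : Circ H) (hK : IsHilbertSum ℂ (fun _ : ℕ => H) Kf) :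
    ∃ Θ : FP X H, Θ ∈ unitary (FP X H) ∧
      (∀ n c j ξ, Θ.1 (IX Kf sy.slot (sy.lft n c, j) ξ) =
        IX Kf sy.slot (sy.lft n c, j) (C.R (ZMod.toAddCircle c) ξ)) ∧
      (∀ n c j ξ, (star Θ).1 (IX Kf sy.slot (sy.lft n c, j) ξ) =
        IX Kf sy.slot (sy.lft n c, j) (C.R (-ZMod.toAddCircle c) ξ)) ∧
      ∀ y j ξ, sy.lev y ≠ 0 → (star Θ).1 (IX Kf sy.slot (y, j) ξ) = IX Kf sy.slot (y, j) ξ := by
  have hI := hs_IX hK sy.slot
  obtain ⟨A, hA⟩ := exists_W hI id (fun ω => C.R (ang sy ω.1)) 1 (fun ω => R_norm C _)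
    (Function.injective_id.injOn)
  have hB := hA.adj_id hI
  refine ⟨⟨A, IsW.mem_FP hK hA 0 fun ω _ => by simp⟩, ?_, fun n c j ξ => ?_, fun n c j ξ => ?_,
    fun y j ξ hy => ?_⟩
  · refine Unitary.mem_iff.2 ⟨Subtype.ext ?_, Subtype.ext ?_⟩
    · exact IsW.ext hI (hB.mul hA) IsW.one fun ω =>
        ⟨(Unitary.mem_iff.1 (R_unit C _)).1, fun _ => rfl⟩
    · exact IsW.ext hI (hA.mul hB) IsW.one fun ω =>
        ⟨(Unitary.mem_iff.1 (R_unit C _)).2, fun _ => rfl⟩
  · have := hA (sy.lft n c, j) ξ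
    dsimp only at this
    rw [ang_lft] at this
    exact this
  · have := hB (sy.lft n c, j) ξ
    dsimp only at this
    rw [ang_lft, C.R_star] at this
    exact this
  · have := hB (y, j) ξ
    dsimp only at this
    rw [ang_off sy hy, C.R_zero, star_one] at this
    exact this

/-- The exact form of the essential projection. -/
theorem Ops.exists_exact (o : Ops sy C Kf) (hK : IsHilbertSum ℂ (fun _ : ℕ => H) Kf) :
    ∃ P' : FP X H, star P' = P' ∧ (P' - o.P).1 ∈ Roe X H ∧ (∀ A, Commute (o.e A) P') ∧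
      ∀ y j ξ, P'.1 (IX Kf sy.slot (y, j) ξ) = if j = sp.comp (sy.pr y) then
        ∑ k ∈ Finset.Icc (-2 : ℤ) 2, IX Kf sy.slot ((sy.S ^ k) y, j) (Mk C (LL j) k ξ) else 0 := by
  have hI := hs_IX hK sy.slot
  choose m hm using exists_m sy C hK
  have hst : ∀ k, star (m k) = m (-k) := fun k => Subtype.ext <|
    IsW.ext hI ((hm k).adj_id hI) (hm (-k)) fun ω => ⟨by
      split_ifs
      · exact Mk_star C k
      · exact star_zero _, fun _ => rfl⟩
  have hem : ∀ A k, Commute (o.e A) (m k) := fun A k => Subtype.ext <|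
    IsW.ext hI ((o.he A).mul (hm k)) ((hm k).mul (o.he A)) fun ω => ⟨by
      simp only [id]
      split_ifs <;> simp, fun _ => rfl⟩
  have hs' : IsW (IX Kf sy.slot) (fun ω => (sy.S⁻¹ ω.1, ω.2)) (fun _ => 1) (star o.s).1 :=
    (o.hs.adj_perm hI _ (fun ω => (sy.S⁻¹ ω.1, ω.2)) (fun ω => by simp) (fun ω => by simp)).congr
      fun ω => ⟨star_one _, fun _ => rfl⟩
  have r0 : (m 0 - o.t0).1 ∈ Roe X H :=
    Ops.diag_Roe hK (T := fun n => Mk C (LL n) 0 - T0 C (LL n)) (fun n => Mk_zero C (LL_ge n))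
      (((hm 0).sub o.ht0).congr fun ω => ⟨by split_ifs <;> simp, fun _ => rfl⟩)
  have r1 : (m 1 - o.t1).1 ∈ Roe X H :=
    Ops.diag_Roe hK (T := fun n => Mk C (LL n) 1 - T1 C (LL n)) (fun n => Mk_one C (LL_ge n))
      (((hm 1).sub o.ht1).congr fun ω => ⟨by split_ifs <;> simp, fun _ => rfl⟩)
  have r2 : (m 2).1 ∈ Roe X H :=
    Ops.diag_Roe hK (T := fun n => Mk C (LL n) 2) (fun n => Mk_two C (LL_ge n)) (hm 2)
  have q1 : (o.s * (m 1 - o.t1)).1 ∈ Roe X H := FP_mul_Roe sp.bg o.s.2 r1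
  have q2 : (o.s * o.s * m 2).1 ∈ Roe X H := FP_mul_Roe sp.bg (o.s * o.s).2 r2
  refine ⟨m 0 + o.s * m 1 + star (o.s * m 1) + o.s * o.s * m 2 + star (o.s * o.s * m 2), ?_, ?_,
    fun A => ?_, fun y j ξ => ?_⟩
  · simp only [star_add, star_star, hst 0, neg_zero]
    abel
  · have e : m 0 + o.s * m 1 + star (o.s * m 1) + o.s * o.s * m 2 + star (o.s * o.s * m 2) - o.P =
        (m 0 - o.t0) + o.s * (m 1 - o.t1) + star (o.s * (m 1 - o.t1)) + o.s * o.s * m 2 +
          star (o.s * o.s * m 2) := by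
      simp only [Ops.P, mul_sub, star_sub]
      abel
    rw [e]
    exact add_mem (add_mem (add_mem (add_mem r0 q1) (star_mem q1)) q2) (star_mem q2)
  · have c1 : Commute (o.e A) (o.s * m 1) := (o.e_s hK A).mul_right (hem A 1)
    have c2 : Commute (o.e A) (o.s * o.s * m 2) :=
      ((o.e_s hK A).mul_right (o.e_s hK A)).mul_right (hem A 2)
    exact ((((hem A 0).add_right c1).add_right (comm_star_sa (o.e_star hK A) c1)).add_right
      c2).add_right (comm_star_sa (o.e_star hK A) c2)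
  · have e1 : star (o.s * m 1) = m (-1) * star o.s := by rw [star_mul, hst]
    have e2 : star (o.s * o.s * m 2) = m (-2) * (star o.s * star o.s) := by
      rw [star_mul, star_mul, hst]
    have a0 := hm 0 (y, j) ξ
    have a1 := (o.hs.mul (hm 1)) (y, j) ξ
    have a2 := ((o.hs.mul o.hs).mul (hm 2)) (y, j) ξ
    have b1 := ((hm (-1)).mul hs') (y, j) ξ
    have b2 := ((hm (-2)).mul (hs'.mul hs')) (y, j) ξ
    have i1 : sy.S⁻¹ y = (sy.S ^ (-1 : ℤ)) y := by rw [zpow_neg_one]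
    have i2 : sy.S⁻¹ (sy.S⁻¹ y) = (sy.S ^ (-2 : ℤ)) y := by
      rw [zpow_neg, zpow_ofNat, sq, mul_inv_rev, Equiv.Perm.mul_apply]
    have i3 : sy.S (sy.S y) = (sy.S ^ (2 : ℤ)) y := by
      rw [zpow_ofNat, sq, Equiv.Perm.mul_apply]
    simp only [id, one_mul, mul_one] at a0 a1 a2 b1 b2
    rw [i2, S_zpow_comp] at b2
    rw [i1, S_zpow_comp] at b1
    rw [i3] at a2
    rw [e1, e2]
    change (m 0).1 _ + (o.s.1 * (m 1).1) _ + ((m (-1)).1 * (star o.s).1) _ +
      (o.s.1 * o.s.1 * (m 2).1) _ + ((m (-2)).1 * ((star o.s).1 * (star o.s).1)) _ = _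
    rw [a0, a1, a2, b1, b2]
    split_ifs with h
    · rw [show Finset.Icc (-2 : ℤ) 2 = {-2, -1, 0, 1, 2} by decide]
      simp only [Finset.mem_insert, Finset.mem_singleton, Int.reduceNeg, Int.reduceEq, or_self,
        not_false_eq_true, Finset.sum_insert, Finset.sum_singleton, zpow_zero, zpow_one,
        Equiv.Perm.one_apply]
      abel
    · simp

theorem Ops.lvl0 (o : Ops sy C Kf) (hK : IsHilbertSum ℂ (fun _ : ℕ => H) Kf) {r : ℝ}
    {y : Fred (Rips X r) H} (hy : IsY sp C Kf y) :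
    ∃ (a : X → C₀(Rips X r, ℂ)) (Py Θ : FP X H), IsIndexOp y a Py.1 ∧ star Py = Py ∧
      Θ ∈ unitary (FP X H) ∧ (Py - Θ * (o.P * o.e {p | p.2 = 0}) * star Θ).1 ∈ Roe X H := by
  obtain ⟨a, ha⟩ := exists_bary sp.bg r
  obtain ⟨P', hst, hR, hc, hP⟩ := o.exists_exact hK
  obtain ⟨Θ, hU, h1, h2, h3⟩ := exists_rot sy C hK
  refine ⟨a, Θ * (P' * o.e {p | p.2 = 0}) * star Θ, Θ, hy.entry hK ha (fun n c j ξ => ?_)
    (fun x hx ξ => ?_), ?_, hU, ?_⟩
  · change Θ.1 (P'.1 ((o.e {p | p.2 = 0}).1 ((star Θ).1 _))) = _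
    have he := o.he {p | p.2 = 0} (sy.lft n c, j) (C.R (-ZMod.toAddCircle c) ξ)
    dsimp only at he
    rw [if_pos (show sy.pos (sy.lft n c) ∈ {p : ℕ × ℕ | p.2 = 0} from sy.lev_lft n c)] at he
    rw [← IX_lft sy, h2, he]
    change Θ.1 (P'.1 (IX Kf sy.slot (sy.lft n c, j) (C.R (-ZMod.toAddCircle c) ξ))) = _
    rw [hP, sy.pr_lft, sp.loop_comp]
    split_ifs with h
    · subst h
      rw [map_sum, ← sum_small (LL_ge j) c]
      · refine Finset.sum_congr rfl fun k _ => ?_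
        rw [S_zpow_lft, h1, IX_lft, ← Mk_conj]
        rfl
      · intro c' hc'
        rw [Pav_far C (LL_ge j) hc']
        simp
    · exact map_zero _
  · have : (Θ * (P' * o.e {p | p.2 = 0}) * star Θ).1.comp (JX X H x).toContinuousLinearMap = 0 := by
      refine hs_ext hK fun j η => ?_
      obtain ⟨⟨z, i⟩, hz⟩ := sy.slot.surjective (x, j)
      have e : JX X H x (Kf j η) = IX Kf sy.slot (z, i) η := by
        unfold IX
        rw [hz]
        rfl
      have hl : sy.lev z ≠ 0 := fun h => by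
        obtain ⟨n, c, rfl⟩ := sy.lft_surj z h
        have := sy.slot_fst (sy.lft n c, i)
        rw [hz, sy.pr_lft] at this
        exact hx n c this
      have he := o.he {p | p.2 = 0} (z, i) η
      dsimp only at he
      rw [if_neg (show ¬ sy.pos z ∈ {p : ℕ × ℕ | p.2 = 0} from hl)] at he
      change Θ.1 (P'.1 ((o.e {p | p.2 = 0}).1 ((star Θ).1 (JX X H x (Kf j η))))) = 0
      rw [e, h3 z i η hl, he]
      simp
    exact DFunLike.congr_fun this ξ
  · rw [star_mul, star_mul, star_star, star_mul, hst, o.e_star hK, (hc _).eq, ← mul_assoc]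
  · have e : Θ * (P' * o.e {p | p.2 = 0}) * star Θ - Θ * (o.P * o.e {p | p.2 = 0}) * star Θ =
        Θ * ((P' - o.P) * o.e {p | p.2 = 0}) * star Θ := by
      simp only [sub_mul, mul_sub]
    rw [e]
    exact Roe_mul_FP sp.bg (star Θ).2 (FP_mul_Roe sp.bg Θ.2
      (Roe_mul_FP sp.bg (o.e {p | p.2 = 0}).2 hR))

end Vale.Agent.P212
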