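import Vale.Agent.P212.OpsV
import Vale.Agent.P212.Lvl0
import Vale.Agent.P212.Cen
import Vale.Agent.P212.Ext
import Vale.Agent.P212.ExpJ
import Vale.Agent.P212.KP

/- The index vanishes. -/

noncomputable section

namespace Vale.Agent.P212

open scoped Classical

theorem Cl_nxt (top : ℕ → ℕ) (typ : ℕ → ℕ → Fin 3) (θ : Fin 3) (b : ℕ) :
    Cl top typ θ b ∩ nxt (Cl top typ θ b) = ∅ := by
  ext p
  simp only [Cl, nxt, Set.mem_inter_iff, Set.mem_setOf_eq, Set.mem_empty_iff_false, iff_false]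
  rintro ⟨⟨-, -, h⟩, l, hl, -, -, h'⟩
  omega

section Abs

variable {Γ K D : Type} [Group Γ] [NormedAddCommGroup K] [InnerProductSpace ℂ K] [CompleteSpace K]
  [Ring D] [StarRing D] [Algebra ℂ D]

theorem IsV.map (ρ : D →⋆ₐ[ℂ] (K →L[ℂ] K)) {u : Γ →* D} {U : Γ →* (K →L[ℂ] K)}
    (hU : ∀ g, U g = ρ (u g)) {ψ : Γ →* Γ} {T : Finset Γ} {V e e' : D} (h : IsV u ψ T V e e') :
    IsV U ψ T (ρ V) (ρ e) (ρ e') where
  cov g := by rw [hU, hU, ← map_mul, ← map_mul, h.cov]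
  orth t ht t' ht' := by
    rw [hU, hU, ← map_star, ← map_mul, ← map_mul, ← map_mul, h.orth t ht t' ht']
    split_ifs <;> simp
  sum := by
    rw [← h.sum, map_sum]
    simp only [hU, map_mul, map_star]
  supp := by rw [← map_mul, h.supp]

/-- One step of the swindle. -/
theorem step_join {A : NonUnitalStarSubalgebra ℂ (K →L[ℂ] K)} (hA : IsClosed (A : Set (K →L[ℂ] K)))
    {P Q e e' v : K →L[ℂ] K} (hE : Ess A (P * e * Q)) (hv : Mlt A v) (h1 : star v * v = e * Q)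
    (h2 : v * star v = e' * Q) (hQ : Q * Q = Q) (he : e * e = e) (heQ : Commute e Q)
    (hve : v * e = v) (hvQ : v * Q = v) (hee : e * e' = 0) (hP : P * v = v * P)
    (hPe : Commute e P) (hPQ : Commute P Q) :
    JoinedIn (UA A) (EE (P * e * Q)) (EE (P * e' * Q)) := by
  have h3 : v * star v * v = v := by rw [mul_assoc, h1, ← mul_assoc, hve, hvQ]
  have h0 : v * v = 0 := by
    calc v * v = (v * e) * (v * star v * v) := by rw [hve, h3]
      _ = v * (e * e') * Q * v := by rw [h2]; simp only [mul_assoc]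
      _ = 0 := by rw [hee]; simp
  have h4 : star v * v * (P * e * Q) = P * e * Q := by
    calc star v * v * (P * e * Q) = e * (Q * P) * e * Q := by rw [h1]; simp only [mul_assoc]
      _ = (e * P) * (Q * e) * Q := by rw [← hPQ.eq]; simp only [mul_assoc]
      _ = P * (e * e) * (Q * Q) := by rw [hPe.eq, ← heQ.eq]; simp only [mul_assoc]
      _ = _ := by rw [he, hQ]
  have h5 : v * (P * e * Q) * star v = P * e' * Q := by
    calc v * (P * e * Q) * star v = (v * P) * e * Q * star v := by simp only [mul_assoc]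
      _ = P * (v * e * Q * star v) := by rw [← hP]; simp only [mul_assoc]
      _ = _ := by rw [hve, hvQ, h2, mul_assoc]
  have := join_rot hA hE hv h0 h4 h3
  rwa [h5] at this


/-- The abstract data of the swindle. -/
structure Sw (A : NonUnitalStarSubalgebra ℂ (K →L[ℂ] K)) (U : Γ →* (K →L[ℂ] K))
    (P : K →L[ℂ] K) (e : Set (ℕ × ℕ) → K →L[ℂ] K) : Prop where
  cl : IsClosed (A : Set (K →L[ℂ] K))
  mU : ∀ g, Mlt A (U g)
  mP : Mlt A P
  me : ∀ B, Mlt A (e B)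
  sP : IsSelfAdjoint P
  se : ∀ B, IsSelfAdjoint (e B)
  PU : ∀ g, Commute P (U g)
  eU : ∀ B g, Commute (e B) (U g)
  eP : ∀ B, Commute (e B) P
  ee : ∀ B B', e B * e B' = e (B ∩ B')
  e0 : e ∅ = 0
  eu : ∀ B B', Disjoint B B' → e (B ∪ B') = e B + e B'
  sq : P * P - P ∈ A

variable {A : NonUnitalStarSubalgebra ℂ (K →L[ℂ] K)} {U : Γ →* (K →L[ℂ] K)} {P Q : K →L[ℂ] K}
  {e : Set (ℕ × ℕ) → K →L[ℂ] K}

theorem Sw.mQ (h : Sw A U P e) (hQ : IsKaz U Q) : Mlt A Q :=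
  Mlt.lim h.cl (by rintro _ ⟨g, rfl⟩; exact h.mU _) hQ.lim

theorem Sw.ff (h : Sw A U P e) (hQ : IsKaz U Q) (B B' : Set (ℕ × ℕ)) :
    P * e B * Q * (P * e B' * Q) = P * P * e (B ∩ B') * Q := by
  calc _ = P * e B * (Q * P) * e B' * Q := by simp only [mul_assoc]
    _ = P * (e B * P) * (Q * e B') * Q := by rw [← (hQ.comm h.PU).eq]; simp only [mul_assoc]
    _ = P * P * (e B * e B') * (Q * Q) := by
        rw [(h.eP B).eq, ← (hQ.comm (h.eU B')).eq]; simp only [mul_assoc]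
    _ = _ := by rw [h.ee, hQ.proj.isIdempotentElem.eq]

theorem Sw.ess (h : Sw A U P e) (hQ : IsKaz U Q) (B : Set (ℕ × ℕ)) : Ess A (P * e B * Q) where
  sa := by
    rw [IsSelfAdjoint, star_mul, star_mul, hQ.proj.isSelfAdjoint.star_eq, h.sP.star_eq,
      (h.se B).star_eq, (h.eP B).eq, ← (((hQ.comm h.PU).mul_left (hQ.comm (h.eU B)))).eq]
  mul := (h.mP.mul (h.me _)).mul (h.mQ hQ)
  sq := by
    have h1 : P * e B * Q * (P * e B * Q) - P * e B * Q = (P * P - P) * (e B * Q) := by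
      rw [h.ff hQ, Set.inter_self]
      simp only [sub_mul, mul_assoc]
    rw [h1]
    exact (((h.me _).mul (h.mQ hQ)) _ h.sq).2

theorem Sw.main (h : Sw A U P e) (hQ : IsKaz U Q) (top : ℕ → ℕ) (htop : ∀ n, 0 < top n)
    (typ : ℕ → ℕ → Fin 3) (hv : ∀ θ b, ∃ v, Mlt A v ∧ star v * v = e (Cl top typ θ b) * Q ∧
      v * star v = e (nxt (Cl top typ θ b)) * Q ∧ v * e (Cl top typ θ b) = v ∧ v * Q = v ∧
      P * v = v * P) (h0 : ∀ g, U g * e {p | p.2 = 0} = e {p | p.2 = 0}) {q : K →L[ℂ] K}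
    (hq : IsStarProjection q) (hqU : ∀ g, Commute q (U g))
    (hqd : q - P * e {p | p.2 = top p.1} ∈ A) :
    Ess A (P * e {p | p.2 = 0}) ∧ JoinedIn (UA A) (EE (P * e {p | p.2 = 0})) 1 := by
  have hQQ : Q * Q = Q := hQ.proj.isIdempotentElem
  have hsw := swindle (A := A) top htop typ (fun B => EE (P * e B * Q))
    (fun B => (h.ess hQ B).mem h.cl)
    (fun B B' hd => by
      have h1 : P * e (B ∪ B') * Q = P * e B * Q + P * e B' * Q := by
        rw [h.eu _ _ hd, mul_add, add_mul]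
      have h2 : Commute (P * e B * Q) (P * e B' * Q) := by
        rw [Commute, SemiconjBy, h.ff hQ, h.ff hQ, Set.inter_comm]
      rw [h1, EE_add h2])
    (fun θ b => by
      obtain ⟨v, g0, g1, g2, g3, g4, g5⟩ := hv θ b
      exact step_join h.cl (h.ess hQ _) g0 g1 g2 hQQ (by rw [h.ee, Set.inter_self])
        (hQ.comm (h.eU _)) g3 g4 (by rw [h.ee, Cl_nxt, h.e0]) g5 (h.eP _) (hQ.comm h.PU))
  have hqQ : Commute q Q := hQ.comm hqU
  have j1 : JoinedIn (UA A) (EE (P * e {p | p.2 = top p.1} * Q)) (EE (q * Q)) := by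
    refine join_pert h.cl (h.ess hQ _) ?_ ?_
    · rw [IsSelfAdjoint, star_mul, hQ.proj.isSelfAdjoint.star_eq, hq.isSelfAdjoint.star_eq, hqQ.eq]
    · rw [← sub_mul]
      exact (h.mQ hQ _ hqd).2
  have e1 : EE (q * Q) = 1 := EE_proj (by
    calc q * Q * (q * Q) = q * (Q * q) * Q := by simp only [mul_assoc]
      _ = (q * q) * (Q * Q) := by rw [← hqQ.eq]; simp only [mul_assoc]
      _ = _ := by rw [hq.isIdempotentElem.eq, hQQ])
  have e0 : P * e {p | p.2 = 0} * Q = P * e {p | p.2 = 0} := by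
    rw [mul_assoc, (hQ.comm (h.eU _)).eq, hQ.absorb h0]
  rw [← e0]
  exact ⟨h.ess hQ _, e1 ▸ hsw.trans j1⟩

theorem join_fin (hA : IsClosed (A : Set (K →L[ℂ] K))) {a b u : K →L[ℂ] K} (hE : Ess A a)
    (j : JoinedIn (UA A) (EE a) 1) (hu : u ∈ unitary (K →L[ℂ] K)) (hm : Mlt A u)
    (hb : IsSelfAdjoint b) (hd : b - u * a * star u ∈ A) : JoinedIn (UA A) (EE b) 1 := by
  have j3 := join_conj hu hm j
  rw [← EE_conj hu, mul_one, hu.2] at j3
  have hE' : Ess A (u * a * star u) :=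
    { sa := hE.sa.conjugate _
      mul := (hm.mul hE.mul).mul hm.star
      sq := by
        have : u * a * star u * (u * a * star u) - u * a * star u = u * (a * a - a) * star u := by
          rw [mul_sub, sub_mul]
          congr 1
          calc _ = u * a * (star u * u) * a * star u := by simp only [mul_assoc]
            _ = _ := by rw [hu.1]; simp only [mul_assoc, one_mul]
        rw [this]
        exact (hm.star _ (hm _ hE.sq).1).2 }
  exact (join_pert hA hE' hb hd).symm.trans j3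

theorem vv_data (hU : IsURep U) (hQ : IsKaz U Q) (mU : ∀ g, Mlt A (U g)) (mQ : Mlt A Q)
    {ψ : Γ →* Γ} {T : Finset Γ} (hT : IsTr ψ T) {V e e' s t0 t1 : K →L[ℂ] K} (mV : Mlt A V)
    (hV : IsV U ψ T V e e') {c : Γ} (hc : ∀ g, g * c = c * g) (hs : s ∈ unitary (K →L[ℂ] K))
    (us : ∀ g, Commute s (U g)) (u0 : ∀ g, Commute t0 (U g)) (u1 : ∀ g, Commute t1 (U g))
    (vs : s * V = U c * V * s) (v0 : t0 * V = V * t0) (v1 : t1 * V = V * t1)
    (v1' : star t1 * V = V * star t1) :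
    ∃ v, Mlt A v ∧ star v * v = e * Q ∧ v * star v = e' * Q ∧ v * e = v ∧ v * Q = v ∧
      (t0 + s * t1 + star (s * t1)) * v = v * (t0 + s * t1 + star (s * t1)) := by
  obtain ⟨g1, -, g3, g4⟩ := vv_src hU hQ hT hV
  have hcm : ∀ x : K →L[ℂ] K, (∀ g, Commute x (U g)) → x * V = V * x →
      x * vv U T V Q = vv U T V Q * x := fun x h h' =>
    vv_comm hU hQ hT hV h (c := 1) (by simp) (by rw [map_one, one_mul, h'])
  have c0 := hcm _ u0 v0
  have c1 := hcm _ u1 v1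
  have c1' := hcm _ (fun g => by
    have := (u1 g⁻¹).star_star
    rwa [hU, inv_inv] at this) v1'
  have cs := vv_comm hU hQ hT hV us hc vs
  have cs' : star s * vv U T V Q = vv U T V Q * star s := by
    calc _ = star s * (vv U T V Q * s) * star s := by rw [mul_assoc, mul_assoc, hs.2, mul_one]
      _ = _ := by rw [← cs, ← mul_assoc, hs.1, one_mul]
  refine ⟨vv U T V Q, ((Mlt.sum _ fun t _ => (mU _).mul mV).mul mQ).smul _, g1,
    vv_rng hU hQ hT hV, g3, g4, ?_⟩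
  simp only [star_mul, add_mul, mul_add, mul_assoc, c0, c1, cs']
  rw [← mul_assoc s, cs, ← mul_assoc (star t1), c1']
  simp only [mul_assoc]

end Abs

variable {Γ X Y H : Type} [Group Γ] [MetricSpace X] [MulAction Γ Y] [NormedAddCommGroup H]
  [InnerProductSpace ℂ H] [CompleteSpace H] {sp : Spc X} {C : Circ H} {Kf : ℕ → H →ₗᵢ[ℂ] H}

theorem Ops.join {sy : Sys Γ X Y sp} (o : Ops sy C Kf) (hK : IsHilbertSum ℂ (fun _ : ℕ => H) Kf)
    {S : Finset Γ} (hg : Subgroup.closure (S : Set Γ) = ⊤) (hS : Gap S) {K : Type}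
    [NormedAddCommGroup K] [InnerProductSpace ℂ K] [CompleteSpace K]
    {A : NonUnitalStarSubalgebra ℂ (K →L[ℂ] K)} (ρ : FP X H →⋆ₐ[ℂ] (K →L[ℂ] K))
    (hA : IsClosed (A : Set (K →L[ℂ] K))) (hM : ∀ T, Mlt A (ρ T))
    (hR : ∀ T : FP X H, T.1 ∈ Roe X H → ρ T ∈ A) :
    Ess A (ρ o.P * ρ (o.e {p | p.2 = 0})) ∧
      JoinedIn (UA A) (EE (ρ o.P * ρ (o.e {p | p.2 = 0}))) 1 := by
  have hsa : ∀ T : FP X H, star T = T → IsSelfAdjoint (ρ T) := fun T h => by
    rw [IsSelfAdjoint, ← map_star, h]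
  let U : Γ →* (K →L[ℂ] K) := (ρ : FP X H →* (K →L[ℂ] K)).comp o.u
  have hUe : ∀ g, U g = ρ (o.u g) := fun g => rfl
  have hU : IsURep U := fun g => by rw [hUe, hUe, ← map_star, o.u_star]
  obtain ⟨Q, hQ⟩ := exists_kaz hg hS hU
  have hc : ∀ T : FP X H, (∀ g, Commute (o.u g) T) → ∀ g, Commute (ρ T) (U g) := fun T h g =>
    ((h g).map ρ).symm
  have hw : Sw A U (ρ o.P) fun B => ρ (o.e B) :=
    { cl := hA
      mU := fun g => hM _
      mP := hM _
      me := fun _ => hM _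
      sP := hsa _ (o.P_star hK)
      se := fun B => hsa _ (o.e_star hK B)
      PU := hc _ (o.u_P hK)
      eU := fun B => hc _ fun g => o.u_e hK g B
      eP := fun B => (o.e_P hK B).map ρ
      ee := fun B B' => by rw [← map_mul, o.e_mul hK]
      e0 := by rw [o.e_empty hK, map_zero]
      eu := fun B B' h => by rw [o.e_union hK h, map_add]
      sq := by
        rw [← map_mul, ← map_sub]
        exact hR _ (o.P_sq hK) }
  obtain ⟨q, hq, hqu, hqd⟩ := o.cen hK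
  refine hw.main hQ sy.top sy.top_pos sy.typ (fun θ b => ?_) (fun g => ?_) (q := ρ q)
    (hq.map ρ) (hc _ fun g => (hqu g).symm) ?_
  · obtain ⟨V, hV, hs, h0, h1, h1'⟩ := o.exists_V hK θ b
    have hP : ρ o.P = ρ o.t0 + ρ o.s * ρ o.t1 + star (ρ o.s * ρ o.t1) := by
      rw [Ops.P, map_add, map_add, map_star, map_mul]
    rw [hP]
    refine vv_data hU hQ hw.mU (hw.mQ hQ) (sy.tr θ) (hM V) (hV.map ρ hUe) (sy.gc_cen θ)
      ⟨?_, ?_⟩ (hc _ (o.u_s hK)) (hc _ (o.u_t0 hK)) (hc _ (o.u_t1 hK)) ?_ ?_ ?_ ?_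
    · rw [← map_star, ← map_mul, o.s_unit.1, map_one]
    · rw [← map_star, ← map_mul, o.s_unit.2, map_one]
    · rw [hUe, ← map_mul, hs, map_mul, map_mul]
    · rw [← map_mul, h0, map_mul]
    · rw [← map_mul, h1, map_mul]
    · rw [← map_star, ← map_mul, h1', map_mul]
  · rw [hUe, ← map_mul, o.u_e0 hK]
  · rw [← map_mul, ← map_sub]
    exact hR _ hqd

theorem vanish {S : Finset Γ} (hg : Subgroup.closure (S : Set Γ) = ⊤) (hS : Gap S)
    (sy : Sys Γ X Y sp) (hK : IsHilbertSum ℂ (fun _ : ℕ => H) Kf) {r : ℝ} {y : Fred (Rips X r) H}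
    (hy : IsY sp C Kf y) : IndexZero y := by
  obtain ⟨o⟩ := exists_ops sy C hK
  obtain ⟨a, Py, Θ, hI, hPy, hΘ, hd⟩ := o.lvl0 hK hy
  refine ⟨a, Py.1, hI, fun K _ _ _ ρ hρ => ?_⟩
  obtain ⟨A, ρ', hAe, hM, hR, hmul⟩ := ext_Roe sp.bg ρ hρ
  have hA : IsClosed (A : Set (K →L[ℂ] K)) := hAe ▸ isClosed_closure
  have hsa : IsSelfAdjoint (ρ' Py) := by rw [IsSelfAdjoint, ← map_star, hPy]
  refine ⟨ρ' Py, hsa, hmul Py, ?_⟩
  rw [← hAe]
  obtain ⟨hE, hj⟩ := o.join hK hg hS ρ' hA hM hR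
  refine join_fin hA hE hj (u := ρ' Θ) ⟨?_, ?_⟩ (hM Θ) hsa ?_
  · rw [← map_star, ← map_mul, hΘ.1, map_one]
  · rw [← map_star, ← map_mul, hΘ.2, map_one]
  · rw [← map_star, ← map_mul, ← map_mul, ← map_mul, ← map_sub]
    exact hR _ hd

end Vale.Agent.P212
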