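import Vale.Agent.P212.NonT
import Vale.Agent.P212.Vanish
import Vale.Agent.P212.CircEx
import Vale.Agent.P212.GeoS
import Vale.Agent.P212.HeisG

/- The counterexample. -/

noncomputable section

namespace Vale.Agent.P212

theorem main (H : Type) [NormedAddCommGroup H] [InnerProductSpace ℂ H] [CompleteSpace H]
    (b : HilbertBasis ℕ ℂ H) : ∃ (X : Type) (_ : MetricSpace X), UnifDiscrete X ∧ BddGeom X ∧
      ∃ (r : ℝ) (y : Fred (Rips X r) H), NonTorsion y ∧ IndexZero y := by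
  obtain ⟨g⟩ := exists_gd
  obtain ⟨X, Y, _, _, sp, hc, ⟨sy⟩⟩ := exists_sys g
  obtain ⟨C⟩ := exists_circ b
  obtain ⟨Kf, hK⟩ := exists_Kf b
  obtain ⟨y, hy, hp⟩ := exists_y sp C hK
  exact ⟨X, inferInstance, sp.ud, sp.bg, 1, y 1 le_rfl,
    fun r h => ⟨y r h, hp r h, not_torsion b hc hK h (hy r h)⟩,
    vanish g.gen g.gap sy hK (hy 1 le_rfl)⟩

end Vale.Agent.P212
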