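import Vale.Agent.P212.Base
import Vale.Agent.P089.Index
import Vale.Agent.P089.Sep

/- The trace on finite rank operators. -/

noncomputable section

namespace Vale.Agent.P212

open Vale.Agent.P089

variable {H : Type} [NormedAddCommGroup H] [InnerProductSpace ℂ H] [CompleteSpace H]

namespace TrS

open Filter Topology InnerProductSpace

omit [CompleteSpace H]

/-- The range of an operator. -/
def rg (A : H →L[ℂ] H) : Submodule ℂ H := LinearMap.range (A : H →ₗ[ℂ] H)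

theorem mem_rg (A : H →L[ℂ] H) (x : H) : A x ∈ rg A := ⟨x, rfl⟩

/-- Restriction of an operator to subspaces. -/
def rs (A : H →L[ℂ] H) (V W : Submodule ℂ H) (h : ∀ x ∈ V, A x ∈ W) : V →ₗ[ℂ] W :=
  (A : H →ₗ[ℂ] H).restrict h

theorem rs_apply (A : H →L[ℂ] H) (V W : Submodule ℂ H) (h : ∀ x ∈ V, A x ∈ W) (x : V) :
    (rs A V W h x : H) = A x := rfl

/-- The trace of the restriction to the range. -/
def tau (A : H →L[ℂ] H) : ℂ :=
  LinearMap.trace ℂ (rg A) (rs A (rg A) (rg A) fun x _ => mem_rg A x)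

theorem rg_le {A : H →L[ℂ] H} {W : Submodule ℂ H} (h : ∀ x, A x ∈ W) : rg A ≤ W := by
  rintro _ ⟨x, rfl⟩
  exact h x

theorem fin_of {A : H →L[ℂ] H} (W : Submodule ℂ H) [FiniteDimensional ℂ W] (h : ∀ x, A x ∈ W) :
    FiniteDimensional ℂ (rg A) := Submodule.finiteDimensional_of_le (rg_le h)

theorem tau_eq {A : H →L[ℂ] H} (W : Submodule ℂ H) [FiniteDimensional ℂ W] (h : ∀ x, A x ∈ W)
    (f : W →ₗ[ℂ] W) (hf : ∀ x : W, (f x : H) = A x) : tau A = LinearMap.trace ℂ W f := by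
  haveI := fin_of W h
  have e1 : rs A (rg A) (rg A) (fun x _ => mem_rg A x) =
      rs A W (rg A) (fun x _ => mem_rg A x) ∘ₗ Submodule.inclusion (rg_le h) :=
    LinearMap.ext fun x => Subtype.ext rfl
  have e2 : f = Submodule.inclusion (rg_le h) ∘ₗ rs A W (rg A) (fun x _ => mem_rg A x) :=
    LinearMap.ext fun x => Subtype.ext (hf x)
  rw [tau, e1, LinearMap.trace_comp_comm', ← e2]

/-- The ideal of finite rank operators. -/
def II (H : Type) [NormedAddCommGroup H] [InnerProductSpace ℂ H] : TwoSidedIdeal (H →L[ℂ] H) :=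
  TwoSidedIdeal.mk' {A | FiniteDimensional ℂ (rg A)}
    (fin_of ⊥ fun _ => Submodule.zero_mem _)
    (fun {A B} (hA : FiniteDimensional ℂ (rg A)) (hB : FiniteDimensional ℂ (rg B)) =>
      fin_of (rg A ⊔ rg B) fun x => Submodule.add_mem_sup (mem_rg A x) (mem_rg B x))
    (fun {A} (hA : FiniteDimensional ℂ (rg A)) =>
      fin_of (rg A) fun x => Submodule.neg_mem _ (mem_rg A x))
    (fun {r A} (hA : FiniteDimensional ℂ (rg A)) =>
      fin_of ((rg A).map (r : H →ₗ[ℂ] H)) fun x => Submodule.mem_map_of_mem (mem_rg A x))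
    (fun {A r} (hA : FiniteDimensional ℂ (rg A)) => fin_of (rg A) fun x => mem_rg A (r x))

theorem mem_II {A : H →L[ℂ] H} : A ∈ II H ↔ FiniteDimensional ℂ (rg A) :=
  TwoSidedIdeal.mem_mk' _ _ _ _ _ _ A

/-- The ideal of compact operators. -/
def KK (H : Type) [NormedAddCommGroup H] [InnerProductSpace ℂ H] : TwoSidedIdeal (H →L[ℂ] H) :=
  TwoSidedIdeal.mk' {A | IsCompactOperator A} isCompactOperator_zero
    (fun {A B} (hA : IsCompactOperator A) (hB : IsCompactOperator B) => hA.add hB)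
    (fun {A} (hA : IsCompactOperator A) => hA.neg)
    (fun {r A} (hA : IsCompactOperator A) => hA.clm_comp r)
    (fun {A r} (hA : IsCompactOperator A) => hA.comp_clm r)

theorem mem_KK {A : H →L[ℂ] H} : A ∈ KK H ↔ IsCompactOperator A :=
  TwoSidedIdeal.mem_mk' _ _ _ _ _ _ A

theorem II_le : II H ≤ KK H := by
  intro A hA
  haveI := mem_II.1 hA
  haveI : ProperSpace (rg A) := FiniteDimensional.proper ℂ _
  exact mem_KK.2 ((isCompactOperator_of_locallyCompactSpace_dom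
    (A.codRestrict (rg A) (mem_rg A))).clm_comp (rg A).subtypeL)

theorem tau_add {A B : H →L[ℂ] H} (hA : A ∈ II H) (hB : B ∈ II H) :
    tau (A + B) = tau A + tau B := by
  haveI := mem_II.1 hA
  haveI := mem_II.1 hB
  have h1 : ∀ x, A x ∈ rg A ⊔ rg B := fun x => Submodule.mem_sup_left (mem_rg A x)
  have h2 : ∀ x, B x ∈ rg A ⊔ rg B := fun x => Submodule.mem_sup_right (mem_rg B x)
  rw [tau_eq (rg A ⊔ rg B) h1 (rs A _ _ fun x _ => h1 x) fun _ => rfl,
    tau_eq (rg A ⊔ rg B) h2 (rs B _ _ fun x _ => h2 x) fun _ => rfl, ← map_add]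
  exact tau_eq (rg A ⊔ rg B) (fun x => Submodule.add_mem _ (h1 x) (h2 x)) _ fun _ => rfl

theorem tau_comm {A : H →L[ℂ] H} (hA : A ∈ II H) (r : H →L[ℂ] H) :
    tau (A * r) = tau (r * A) := by
  haveI := mem_II.1 hA
  have h1 : ∀ x ∈ rg A, r x ∈ (rg A).map (r : H →ₗ[ℂ] H) := fun x hx =>
    Submodule.mem_map_of_mem hx
  have h2 : ∀ x ∈ (rg A).map (r : H →ₗ[ℂ] H), A x ∈ rg A := fun x _ => mem_rg A x
  rw [tau_eq (A := A * r) (rg A) (fun x => mem_rg A (r x)) (rs A _ _ h2 ∘ₗ rs r _ _ h1)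
      fun _ => rfl,
    tau_eq (A := r * A) ((rg A).map (r : H →ₗ[ℂ] H)) (fun x => h1 _ (mem_rg A x))
      (rs r _ _ h1 ∘ₗ rs A _ _ h2) fun _ => rfl, LinearMap.trace_comp_comm']

theorem rankOne_mem (x y : H) : rankOne ℂ x y ∈ II H :=
  mem_II.2 (fin_of (Submodule.span ℂ {x}) fun z => by
    rw [rankOne_apply]
    exact Submodule.smul_mem _ _ (Submodule.mem_span_singleton_self x))

theorem tau_rankOne {v : H} (hv : ‖v‖ = 1) : tau (rankOne ℂ v v) = 1 := by
  have h0 : v ≠ 0 := by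
    rintro rfl
    simp at hv
  rw [tau_eq (A := rankOne ℂ v v) (Submodule.span ℂ {v}) (fun z => by
      rw [rankOne_apply]
      exact Submodule.smul_mem _ _ (Submodule.mem_span_singleton_self v)) LinearMap.id ?_,
    LinearMap.trace_id, finrank_span_singleton h0, Nat.cast_one]
  rintro ⟨x, hx⟩
  obtain ⟨c, rfl⟩ := Submodule.mem_span_singleton.1 hx
  simp [rankOne_apply, inner_smul_right, inner_self_eq_norm_sq_to_K, hv]

theorem tau_int {P Q T S : H →L[ℂ] H} (hP : P * P = P) (hQ : Q * Q = Q) (hT : Q * T * P = T)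
    (hS : P * S * Q = S) (hA : P - S * T ∈ II H) (hB : Q - T * S ∈ II H) :
    ∃ n : ℤ, tau (P - S * T) - tau (Q - T * S) = n := by
  haveI := mem_II.1 hA
  haveI := mem_II.1 hB
  have hQT := Index.left_of hQ hT
  have hTP := Index.right_of hP hT
  have hPS := Index.left_of hP hS
  have hSQ := Index.right_of hQ hS
  have e1 : T * (P - S * T) = (Q - T * S) * T := by
    rw [mul_sub, sub_mul, hTP, hQT, mul_assoc]
  have e2 : S * (Q - T * S) = (P - S * T) * S := by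
    rw [mul_sub, sub_mul, hSQ, hPS, mul_assoc]
  have e3 : P * (P - S * T) = P - S * T := by rw [mul_sub, hP, ← mul_assoc, hPS]
  have e4 : Q * (Q - T * S) = Q - T * S := by rw [mul_sub, hQ, ← mul_assoc, hQT]
  have h1 : ∀ x ∈ rg (P - S * T), T x ∈ rg (Q - T * S) := by
    rintro _ ⟨x, rfl⟩
    exact ⟨T x, (DFunLike.congr_fun e1 x).symm⟩
  have h2 : ∀ x ∈ rg (Q - T * S), S x ∈ rg (P - S * T) := by
    rintro _ ⟨x, rfl⟩
    exact ⟨S x, (DFunLike.congr_fun e2 x).symm⟩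
  have k1 : ∀ x ∈ rg (P - S * T), P x = x := by
    rintro _ ⟨x, rfl⟩
    exact DFunLike.congr_fun e3 x
  have k2 : ∀ x ∈ rg (Q - T * S), Q x = x := by
    rintro _ ⟨x, rfl⟩
    exact DFunLike.congr_fun e4 x
  rw [tau_eq (rg (P - S * T)) (mem_rg _) (LinearMap.id - rs S _ _ h2 ∘ₗ rs T _ _ h1) fun x => ?_,
    tau_eq (rg (Q - T * S)) (mem_rg _) (LinearMap.id - rs T _ _ h1 ∘ₗ rs S _ _ h2) fun x => ?_,
    map_sub, map_sub, LinearMap.trace_id, LinearMap.trace_id,
    LinearMap.trace_comp_comm' (rs T _ _ h1)]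
  · refine ⟨(Module.finrank ℂ (rg (P - S * T)) : ℤ) - Module.finrank ℂ (rg (Q - T * S)), ?_⟩
    push_cast
    ring
  · show (x : H) - T (S x) = Q x - T (S x)
    rw [k2 x x.2]
  · show (x : H) - S (T x) = P x - S (T x)
    rw [k1 x x.2]

theorem jac [CompleteSpace H] (b : HilbertBasis ℕ ℂ H) {k : H →L[ℂ] H} (hk : k ∈ KK H) :
    ∃ i ∈ II H, IsUnit (1 + k - i) := by
  have hp : ∀ x, Tendsto (fun n => (∑ j ∈ Finset.range n, rankOne ℂ (b j) (b j)) x) atTop
      (𝓝 x) := fun x => by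
    have := (b.hasSum_repr x).tendsto_sum_nat
    simpa [b.repr_apply_apply] using this
  have h1 := Metric.tendsto_nhds.1 (Sep.tendsto_mul_cpt hp (mem_KK.1 hk)) 1 one_pos
  obtain ⟨n, hn⟩ := h1.exists
  refine ⟨(∑ j ∈ Finset.range n, rankOne ℂ (b j) (b j)) * k,
    (II H).mul_mem_right _ _ (sum_mem fun j _ => rankOne_mem _ _), ?_⟩
  rw [dist_eq_norm] at hn
  have := (Units.oneSub _ hn).isUnit
  rw [Units.val_oneSub] at this
  rwa [show 1 + k - (∑ j ∈ Finset.range n, rankOne ℂ (b j) (b j)) * k =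
    1 - ((∑ j ∈ Finset.range n, rankOne ℂ (b j) (b j)) * k - k) by abel]

end TrS

theorem exists_stdT (b : HilbertBasis ℕ ℂ H) : ∃ t : TrSet (H →L[ℂ] H), StdT t := by
  refine ⟨⟨TrS.II H, TrS.KK H, TrS.tau, TrS.II_le, fun _ hA _ hB => TrS.tau_add hA hB,
    fun _ hA r => TrS.tau_comm hA r, fun _ hk => TrS.jac b hk⟩, fun _ => TrS.mem_KK, ?_,
    fun v hv => ⟨TrS.rankOne_mem v v, TrS.tau_rankOne hv⟩⟩
  rintro P Q T z - - ⟨hP, hQ, hT, S, hS, hA, hB, rfl⟩
  exact TrS.tau_int hP hQ hT hS hA hB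

end Vale.Agent.P212
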