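import Vale.Agent.P212.InvH
import Vale.Agent.P212.IndY
import Vale.Agent.P212.TrS
import Vale.Agent.P212.Top
import Vale.Agent.P212.Hsum

/- The class of the loops is not torsion. -/

noncomputable section

namespace Vale.Agent.P212

open scoped ZeroAtInfty Classical

variable {X H : Type} [MetricSpace X] [NormedAddCommGroup H] [InnerProductSpace ℂ H]
  [CompleteSpace H]

theorem not_torsion (b : HilbertBasis ℕ ℂ H) {sp : Spc X} (hc : sp.Coc) {C : Circ H}
    {Kf : ℕ → H →ₗᵢ[ℂ] H} (hK : IsHilbertSum ℂ (fun _ : ℕ => H) Kf) {r : ℝ} (hr : 1 ≤ r)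
    {y : Fred (Rips X r) H} (hy : IsY sp C Kf y) (k : ℕ) (hk : 0 < k) : k • y.cls ≠ 0 := by
  intro h0
  obtain ⟨D, hD, n0, hn⟩ := hc r hr
  obtain ⟨n, hn0, hnr, hnk⟩ : ∃ n : ℕ, n0 ≤ n ∧ r ≤ n ∧ k * D ≤ n :=
    ⟨max n0 (max ⌈r⌉₊ (k * D)), le_max_left _ _,
      (Nat.le_ceil r).trans (by exact_mod_cast (le_max_left _ _).trans (le_max_right _ _)),
      (le_max_right _ _).trans (le_max_right _ _)⟩
  obtain ⟨c, hc1, hc2⟩ := hn n hn0
  obtain ⟨a, ha⟩ := exists_bary sp.bg r
  obtain ⟨t, ht⟩ := exists_stdT b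
  let V : Finset X := (sp.comp_fin n).toFinset
  have hV : ∀ x, x ∈ V ↔ sp.comp x = n := fun x => by simp [V]
  let ev : Fin V.card ≃ V := V.equivFin.symm
  have hev : ∀ i, sp.comp (ev i).1 = n := fun i => (hV _).1 (ev i).2
  let G : Geo V.card (MM n) :=
    { adj := fun i j => dist (ev i).1 (ev j).1 ≤ r
      refl := fun i => by simpa using zero_le_one.trans hr
      symm := fun i j h => by rwa [dist_comm]
      c := fun i j => c (ev i).1 (ev j).1
      coc := fun i j l h1 h2 h3 => hc1 _ _ _ (hev i) (hev j) (hev l) h1 h2 h3 }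
  let ℓ : ZMod (LL n) → Fin V.card := fun z => ev.symm ⟨sp.loop n z, (hV _).2 (sp.loop_comp n z)⟩
  have hℓ : ∀ z, (ev (ℓ z)).1 = sp.loop n z := fun z => by simp [ℓ]
  haveI : Nonempty (Fin V.card) := ⟨ℓ 0⟩
  obtain ⟨s, hs⟩ := exists_cuntz b (Fin V.card)
  obtain ⟨w, hw⟩ := exists_cuntz b (Fin V.card → Bool)
  have hb : ∀ x : Fred (Rips X r) H, IsA G fun i => x.π (a (ev i).1) := fun x =>
    { sa := fun i => by rw [← map_star, ha.star_eq]
      comm := fun i j => by rw [Commute, SemiconjBy, ← map_mul, ← map_mul, mul_comm]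
      orth := fun i j h => by rw [← map_mul, ha.orth (not_le.1 h), map_zero]
      sum := fun j => by
        have h1 := ha.sum V (ev j).1 fun x hx => (hV x).2 (by
          by_contra h
          have := sp.comp_far (ev j).1 x (by rw [hev]; exact Ne.symm h)
          rw [hev, dist_comm] at this
          linarith)
        have h2 : ∑ i, a (ev i).1 * a (ev i).1 = ∑ x ∈ V, a x * a x := by
          rw [Equiv.sum_comp ev fun x : V => a x.1 * a x.1, Finset.sum_coe_sort V fun x => a x * a x]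
        simp only [← map_mul]
        rw [← map_sum, ← map_mul, h2, h1] }
  obtain ⟨Φ, hΦ⟩ := inv_hom ht hs hw (fun i => a (ev i).1) hb
  have hF : IsF (fun i => y.π (a (ev i).1)) y.F :=
    ⟨fun i => y.comm _, fun i => y.sa _, fun i => y.sq _⟩
  have hPi : star ((2 : ℂ) • C.Pi - 1 : H →L[ℂ] H) = (2 : ℂ) • C.Pi - 1 := by
    rw [star_sub, star_smul, C.proj.isSelfAdjoint.star_eq, star_one]; simp
  obtain ⟨nn, e, i0, he, hnn, hind⟩ := ind_y (LL_ge n) ht hs hw (hb y) hF C (Kf_iso (Kf n)) ℓ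
    (fun z z' h => sp.loop_inj n (by rw [← hℓ, ← hℓ, h]))
    (fun z => by
      rw [hℓ]
      exact (hy.on a ha n z).ext hK (IsW.single hK n _) fun _ => ⟨rfl, fun _ => rfl⟩)
    (fun x hx => hy.off a ha _ fun m z h => by
      have hm : m = n := by rw [← hev x, h, sp.loop_comp]
      subst hm
      exact hx z (ev.injective (Subtype.ext (by rw [hℓ, h]))))
    D (fun z => by
      change dist (ev (ℓ z)).1 (ev (ℓ (z + 1))).1 ≤ r
      rw [hℓ, hℓ]; exact (sp.loop_dist n z).trans hr)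
    (fun z => by
      change c (ev (ℓ z)).1 (ev (ℓ (z + 1))).1 = D
      rw [hℓ, hℓ, hc2])
    (by ext ξ; exact hy.op n ξ)
    ((hy.op.adj_id hK).ext hK hy.op fun _ => ⟨hPi, fun _ => rfl⟩)
  have h1 := congrArg Φ h0
  rw [map_nsmul, hΦ y _ hind, map_zero, ← QuotientAddGroup.mk_nsmul,
    QuotientAddGroup.eq_zero_iff] at h1
  have h2 := arith (Nat.pos_of_ne_zero (NeZero.ne _)) nn e hnn i0 k h1
  have h3 : MM n ∣ k * (D * LL n) := by
    have := Int.natAbs_dvd_natAbs.2 h2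
    rwa [Int.natAbs_mul, he, Int.natAbs_natCast, Int.natAbs_natCast] at this
  have h4 : MM n = LL n * LL n := by
    rw [MM, LL, ← mul_pow]; norm_num
  rw [h4, ← mul_assoc] at h3
  have h5 := Nat.le_of_dvd (Nat.mul_pos hk hD)
    (Nat.dvd_of_mul_dvd_mul_right (Nat.pos_of_ne_zero (NeZero.ne _)) h3)
  have h6 : n + 3 < LL n := Nat.lt_two_pow_self
  omega

end Vale.Agent.P212
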