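import Vale.Agent.P212.RoeAlg
import Vale.Agent.P212.LoopAlg

/- The operators of the tower: existence and relations. -/

noncomputable section

namespace Vale.Agent.P212

open scoped Classical

variable {Γ X Y H : Type} [Group Γ] [MetricSpace X] [MulAction Γ Y] [NormedAddCommGroup H]
  [InnerProductSpace ℂ H] [CompleteSpace H] {sp : Spc X} {sy : Sys Γ X Y sp} {C : Circ H}
  {Kf : ℕ → H →ₗᵢ[ℂ] H}

namespace OpsEx

omit [CompleteSpace H] in
theorem one_le : ‖(1 : H →L[ℂ] H)‖ ≤ 1 := ContinuousLinearMap.norm_id_le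

theorem diag (sy : Sys Γ X Y sp) (hK : IsHilbertSum ℂ (fun _ : ℕ => H) Kf)
    (T : Y × ℕ → H →L[ℂ] H) (hT : ∀ ω, ‖T ω‖ ≤ 1) :
    ∃ A : FP X H, IsW (IX Kf sy.slot) id T A.1 := by
  obtain ⟨A, hA⟩ := exists_W (hs_IX hK sy.slot) id T 1 hT (Set.injOn_id _)
  exact ⟨⟨A, hA.mem_FP hK 0 fun ω _ => by simp⟩, hA⟩

theorem perm (sy : Sys Γ X Y sp) (hK : IsHilbertSum ℂ (fun _ : ℕ => H) Kf) (f : Y → Y)
    (hf : Function.Injective f) (R : ℝ) (hR : ∀ y, dist (sy.pr (f y)) (sy.pr y) ≤ R) :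
    ∃ A : FP X H, IsW (IX Kf sy.slot) (fun ω => (f ω.1, ω.2)) (fun _ => 1) A.1 := by
  obtain ⟨A, hA⟩ := exists_W (hs_IX hK sy.slot) (fun ω : Y × ℕ => (f ω.1, ω.2)) (fun _ => 1) 1
    (fun _ => one_le) fun ω _ ω' _ e =>
      Prod.ext (hf (Prod.ext_iff.1 e).1) (Prod.ext_iff.1 e).2
  refine ⟨⟨A, hA.mem_FP hK R fun ω _ => ?_⟩, hA⟩
  rw [sy.slot_fst, sy.slot_fst]
  exact hR _

theorem comm_diag (hK : IsHilbertSum ℂ (fun _ : ℕ => H) Kf) {σ : Y × ℕ → Y × ℕ}
    {T : Y × ℕ → H →L[ℂ] H} {A B : FP X H} (hA : IsW (IX Kf sy.slot) σ (fun _ => 1) A.1)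
    (hB : IsW (IX Kf sy.slot) id T B.1) (h : ∀ ω, T (σ ω) = T ω) : Commute A B :=
  Subtype.ext ((hA.mul hB).ext (hs_IX hK sy.slot) (hB.mul hA) fun ω =>
    ⟨by rw [h, one_mul, mul_one], fun _ => rfl⟩)

theorem comm_diag' (hK : IsHilbertSum ℂ (fun _ : ℕ => H) Kf)
    {T T' : Y × ℕ → H →L[ℂ] H} {A B : FP X H} (hA : IsW (IX Kf sy.slot) id T A.1)
    (hB : IsW (IX Kf sy.slot) id T' B.1) (h : ∀ ω, T ω * T' ω = T' ω * T ω) : Commute A B :=
  Subtype.ext ((hA.mul hB).ext (hs_IX hK sy.slot) (hB.mul hA) fun ω => ⟨h ω, fun _ => rfl⟩)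

end OpsEx

theorem exists_ops (sy : Sys Γ X Y sp) (C : Circ H) (hK : IsHilbertSum ℂ (fun _ : ℕ => H) Kf) :
    Nonempty (Ops sy C Kf) := by
  have hI := hs_IX hK sy.slot
  have h1 : ∀ g : Γ, ∃ A : FP X H,
      IsW (IX Kf sy.slot) (fun ω => (g • ω.1, ω.2)) (fun _ => 1) A.1 := fun g => by
    obtain ⟨R, hR⟩ := sy.disp_smul g
    exact OpsEx.perm sy hK (fun y => g • y) (MulAction.injective g) R hR
  choose u hu using h1
  obtain ⟨s, hs⟩ := OpsEx.perm sy hK sy.S sy.S.injective 1 sy.disp_S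
  obtain ⟨t0, ht0⟩ := OpsEx.diag sy hK
    (fun ω => if ω.2 = sp.comp (sy.pr ω.1) then T0 C (LL ω.2) else 0) fun ω => by
      split_ifs
      · exact T0_norm C
      · simp
  obtain ⟨t1, ht1⟩ := OpsEx.diag sy hK
    (fun ω => if ω.2 = sp.comp (sy.pr ω.1) then T1 C (LL ω.2) else 0) fun ω => by
      split_ifs
      · exact T1_norm C
      · simp
  have h2 : ∀ A : Set (ℕ × ℕ), ∃ e : FP X H,
      IsW (IX Kf sy.slot) id (fun ω => if sy.pos ω.1 ∈ A then 1 else 0) e.1 := fun A =>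
    OpsEx.diag sy hK _ fun ω => by
      split_ifs
      · exact OpsEx.one_le
      · simp
  choose e he using h2
  have u1 : u 1 = 1 := Subtype.ext ((hu 1).ext hI IsW.one fun ω => ⟨rfl, fun _ => by simp⟩)
  have um : ∀ g g', u (g * g') = u g * u g' := fun g g' =>
    Subtype.ext ((hu _).ext hI ((hu g).mul (hu g')) fun ω =>
      ⟨(one_mul _).symm, fun _ => by simp [mul_smul]⟩)
  have us : ∀ g, star (u g) = u g⁻¹ := fun g =>
    Subtype.ext (((hu g).adj_perm hI _ (fun ω => (g⁻¹ • ω.1, ω.2)) (fun ω => by simp)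
      fun ω => by simp).ext hI (hu g⁻¹) fun ω => ⟨star_one _, fun _ => rfl⟩)
  have hs' := hs.adj_perm hI _ (fun ω => (sy.S.symm ω.1, ω.2)) (fun ω => by simp)
    fun ω => by simp
  have su : s ∈ unitary (FP X H) := Unitary.mem_iff.2
    ⟨Subtype.ext ((hs'.mul hs).ext hI IsW.one fun ω => ⟨by simp, fun _ => by simp⟩),
      Subtype.ext ((hs.mul hs').ext hI IsW.one fun ω => ⟨by simp, fun _ => by simp⟩)⟩
  exact ⟨⟨⟨⟨u, u1⟩, um⟩, hu, us, s, hs, su, t0, ht0, t1, ht1, e, he⟩⟩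

namespace Ops

variable (o : Ops sy C Kf) (hK : IsHilbertSum ℂ (fun _ : ℕ => H) Kf)
include hK

theorem t0_star : star o.t0 = o.t0 :=
  Subtype.ext ((o.ht0.adj_id (hs_IX hK sy.slot)).ext (hs_IX hK sy.slot) o.ht0 fun ω =>
    ⟨by
      split_ifs
      · exact T0_star C
      · exact star_zero _, fun _ => rfl⟩)

theorem u_s (g : Γ) : Commute (o.u g) o.s :=
  Subtype.ext (((o.hu g).mul o.hs).ext (hs_IX hK sy.slot) (o.hs.mul (o.hu g)) fun ω =>
    ⟨rfl, fun _ => by simp only [sy.S_smul]⟩)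

theorem u_t0 (g : Γ) : Commute (o.u g) o.t0 :=
  OpsEx.comm_diag hK (o.hu g) o.ht0 fun ω => by simp only [sy.comp_smul]

theorem u_t1 (g : Γ) : Commute (o.u g) o.t1 :=
  OpsEx.comm_diag hK (o.hu g) o.ht1 fun ω => by simp only [sy.comp_smul]

theorem u_e (g : Γ) (A : Set (ℕ × ℕ)) : Commute (o.u g) (o.e A) :=
  OpsEx.comm_diag hK (o.hu g) (o.he A) fun ω => by
    have e : sy.pos (g • ω.1) = sy.pos ω.1 := by rw [Sys.pos, sy.comp_smul, sy.lev_smul, Sys.pos]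
    simp only [e]

theorem s_t0 : Commute o.s o.t0 :=
  OpsEx.comm_diag hK o.hs o.ht0 fun ω => by simp only [sy.comp_S]

theorem s_t1 : Commute o.s o.t1 :=
  OpsEx.comm_diag hK o.hs o.ht1 fun ω => by simp only [sy.comp_S]

theorem e_s (A : Set (ℕ × ℕ)) : Commute (o.e A) o.s :=
  (OpsEx.comm_diag hK o.hs (o.he A) fun ω => by
    have e : sy.pos (sy.S ω.1) = sy.pos ω.1 := by rw [Sys.pos, sy.comp_S, sy.lev_S, Sys.pos]
    simp only [e]).symm

theorem e_t0 (A : Set (ℕ × ℕ)) : Commute (o.e A) o.t0 :=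
  OpsEx.comm_diag' hK (o.he A) o.ht0 fun ω => by
    by_cases h : sy.pos ω.1 ∈ A <;> simp [h]

theorem e_t1 (A : Set (ℕ × ℕ)) : Commute (o.e A) o.t1 :=
  OpsEx.comm_diag' hK (o.he A) o.ht1 fun ω => by
    by_cases h : sy.pos ω.1 ∈ A <;> simp [h]

theorem e_star (A : Set (ℕ × ℕ)) : star (o.e A) = o.e A :=
  Subtype.ext (((o.he A).adj_id (hs_IX hK sy.slot)).ext (hs_IX hK sy.slot) (o.he A) fun ω =>
    ⟨by by_cases h : sy.pos ω.1 ∈ A <;> simp [h], fun _ => rfl⟩)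

theorem e_mul (A A' : Set (ℕ × ℕ)) : o.e A * o.e A' = o.e (A ∩ A') :=
  Subtype.ext (((o.he A).mul (o.he A')).ext (hs_IX hK sy.slot) (o.he _) fun ω =>
    ⟨by by_cases h : sy.pos ω.1 ∈ A <;> by_cases h' : sy.pos ω.1 ∈ A' <;> simp [h, h'],
      fun _ => rfl⟩)

theorem e_empty : o.e ∅ = 0 :=
  Subtype.ext ((o.he ∅).ext (hs_IX hK sy.slot) (IsW.zero id) fun ω => ⟨by simp, fun _ => rfl⟩)

theorem e_union {A A' : Set (ℕ × ℕ)} (h : Disjoint A A') : o.e (A ∪ A') = o.e A + o.e A' :=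
  Subtype.ext ((o.he _).ext (hs_IX hK sy.slot) ((o.he A).add (o.he A')) fun ω =>
    ⟨by
      by_cases h1 : sy.pos ω.1 ∈ A
      · simp [h1, Set.disjoint_left.1 h h1]
      · simp [h1], fun _ => rfl⟩)

theorem u_e0 (g : Γ) : o.u g * o.e {p | p.2 = 0} = o.e {p | p.2 = 0} := by
  refine Subtype.ext (((o.hu g).mul (o.he _)).ext (hs_IX hK sy.slot) (o.he _) fun ω =>
    ⟨one_mul _, fun h => ?_⟩)
  have h0 : sy.lev ω.1 = 0 := by
    by_contra h0
    refine h ?_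
    have : sy.pos ω.1 ∉ {p : ℕ × ℕ | p.2 = 0} := h0
    rw [if_neg this, mul_zero]
  obtain ⟨n, c, e⟩ := sy.lft_surj _ h0
  refine Prod.ext ?_ rfl
  change g • ω.1 = ω.1
  rw [e, sy.smul_lft]

omit hK in
theorem comm_star {a b : FP X H} (ha : a ∈ unitary (FP X H)) (h : Commute a b) :
    Commute a (star b) := by
  have h1 : star a * star b = star b * star a := by rw [← star_mul, ← star_mul, h.eq]
  have h2 := Unitary.mem_iff.1 ha
  calc a * star b = a * star b * (star a * a) := by rw [h2.1, mul_one]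
    _ = a * (star b * star a) * a := by simp only [mul_assoc]
    _ = star b * a := by rw [← h1, ← mul_assoc, h2.2, one_mul]

theorem P_star : star o.P = o.P := by
  rw [Ops.P, star_add, star_add, star_star, o.t0_star hK, add_right_comm]

theorem u_P (g : Γ) : Commute (o.u g) o.P := by
  have hu : o.u g ∈ unitary (FP X H) := Unitary.mem_iff.2
    ⟨by rw [o.u_star, ← map_mul, inv_mul_cancel, map_one],
      by rw [o.u_star, ← map_mul, mul_inv_cancel, map_one]⟩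
  have h := (o.u_s hK g).mul_right (o.u_t1 hK g)
  exact ((o.u_t0 hK g).add_right h).add_right (comm_star hu h)

theorem e_P (A : Set (ℕ × ℕ)) : Commute (o.e A) o.P := by
  have h := (o.e_s hK A).mul_right (o.e_t1 hK A)
  refine ((o.e_t0 hK A).add_right h).add_right ?_
  have h1 := congrArg star h.eq
  rw [star_mul, star_mul (o.s * o.t1), o.e_star hK] at h1
  exact h1.symm

/-- A diagonal operator with compact coefficients in the slot of the piece. -/
theorem diag_Roe {T : ℕ → H →L[ℂ] H} (hT : ∀ n, IsCompactOperator (T n)) {A : FP X H}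
    (h : IsW (IX Kf sy.slot) id (fun ω => if ω.2 = sp.comp (sy.pr ω.1) then T ω.2 else 0) A.1) :
    A.1 ∈ Roe X H := by
  refine h.mem_Roe hK 0 (fun ω _ => by simp) (fun ω => ?_) fun x => ?_
  · split_ifs
    · exact hT _
    · exact isCompactOperator_zero
  · refine ((sy.fib_fin x).prod (Set.finite_singleton (sp.comp x))).subset fun ω hω => ?_
    have h1 : sy.pr ω.1 = x := (sy.slot_fst ω).symm.trans hω.1
    refine ⟨h1, ?_⟩
    by_contra h2
    exact hω.2 (if_neg (by rw [h1]; exact h2))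

theorem P_sq : (o.P * o.P - o.P).1 ∈ Roe X H := by
  have hI := hs_IX hK sy.slot
  have h1s := o.ht1.adj_id hI
  have d0 : (o.t0 * o.t0 + o.t1 * star o.t1 + star o.t1 * o.t1 - o.t0).1 ∈ Roe X H :=
    diag_Roe hK (fun n => cpt_T0 C (LL_ge n))
      (((((o.ht0.mul o.ht0).add (o.ht1.mul h1s)).add (h1s.mul o.ht1)).sub o.ht0).congr fun ω =>
        ⟨by
          by_cases h : ω.2 = sp.comp (sy.pr ω.1) <;> simp only [id, h, if_true, if_false] <;> simp,
          fun _ => rfl⟩)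
  have d1 : (o.t0 * o.t1 + o.t1 * o.t0 - o.t1).1 ∈ Roe X H :=
    diag_Roe hK (fun n => cpt_T1 C (LL_ge n))
      ((((o.ht0.mul o.ht1).add (o.ht1.mul o.ht0)).sub o.ht1).congr fun ω =>
        ⟨by
          by_cases h : ω.2 = sp.comp (sy.pr ω.1) <;> simp only [id, h, if_true, if_false] <;> simp,
          fun _ => rfl⟩)
  have d2 : (o.t1 * o.t1).1 ∈ Roe X H :=
    diag_Roe hK (fun n => cpt_T2 C (LL_ge n))
      ((o.ht1.mul o.ht1).congr fun ω =>
        ⟨by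
          by_cases h : ω.2 = sp.comp (sy.pr ω.1) <;> simp only [id, h, if_true, if_false] <;> simp,
          fun _ => rfl⟩)
  have e1 := FP_mul_Roe sp.bg o.s.2 d1
  have e2 := FP_mul_Roe sp.bg (o.s * o.s).2 d2
  have hs := Unitary.mem_iff.1 o.s_unit
  have c0 := (o.s_t0 hK).eq
  have c1 := (o.s_t1 hK).eq
  have c2 := (comm_star o.s_unit (o.s_t1 hK)).eq
  have bc : o.s * o.t1 * star (o.s * o.t1) = o.t1 * star o.t1 := by
    rw [star_mul, c1, mul_assoc, ← mul_assoc o.s, c2, mul_assoc, hs.2, mul_one]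
  have cb : star (o.s * o.t1) * (o.s * o.t1) = star o.t1 * o.t1 := by
    rw [star_mul, mul_assoc, ← mul_assoc (star o.s), hs.1, one_mul]
  have f1 : o.s * (o.t0 * o.t1 + o.t1 * o.t0 - o.t1) =
      o.t0 * (o.s * o.t1) + o.s * o.t1 * o.t0 - o.s * o.t1 := by
    rw [mul_sub, mul_add, ← mul_assoc, c0, mul_assoc o.t0, mul_assoc o.s]
  have f2 : o.s * o.s * (o.t1 * o.t1) = o.s * o.t1 * (o.s * o.t1) := by
    rw [mul_assoc, mul_assoc o.s o.t1, ← mul_assoc o.t1 o.s, ← c1, mul_assoc o.s o.t1]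
  have key : o.P * o.P - o.P = (o.t0 * o.t0 + o.t1 * star o.t1 + star o.t1 * o.t1 - o.t0) +
      o.s * (o.t0 * o.t1 + o.t1 * o.t0 - o.t1) +
      star (o.s * (o.t0 * o.t1 + o.t1 * o.t0 - o.t1)) + o.s * o.s * (o.t1 * o.t1) +
      star (o.s * o.s * (o.t1 * o.t1)) := by
    rw [f1, f2, ← bc, ← cb, Ops.P]
    generalize o.s * o.t1 = b
    simp only [star_sub, star_add, star_mul, o.t0_star hK]
    noncomm_ring
  rw [key]
  exact add_mem (add_mem (add_mem (add_mem d0 e1) (star_mem e1)) e2) (star_mem e2)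

end Ops

end Vale.Agent.P212
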