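import Vale.Agent.P212.OpsEx

/- The vertical operators. -/

noncomputable section

namespace Vale.Agent.P212

open scoped Classical

variable {Γ X Y H : Type} [Group Γ] [MetricSpace X] [MulAction Γ Y] [NormedAddCommGroup H]
  [InnerProductSpace ℂ H] [CompleteSpace H] {sp : Spc X} {sy : Sys Γ X Y sp} {C : Circ H}
  {Kf : ℕ → H →ₗᵢ[ℂ] H}

namespace OpsV

variable (sy) in
/-- The class of a point. -/
def Cc (θ : Fin 3) (b : ℕ) (y : Y) : Prop := sy.pos y ∈ Cl sy.top sy.typ θ b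

variable (sy) in
/-- The range of a translated vertical map. -/
def Rg (θ : Fin 3) (b : ℕ) (t : Γ) (y' : Y) : Prop := ∃ y, Cc sy θ b y ∧ t • sy.up y = y'

variable (sy) in
/-- The inverse of a translated vertical map. -/
def dw (θ : Fin 3) (b : ℕ) (t : Γ) (y' : Y) : Y := if h : Rg sy θ b t y' then h.choose else y'

variable {θ : Fin 3} {b : ℕ}

theorem cc_smul (g : Γ) (y : Y) : Cc sy θ b (g • y) ↔ Cc sy θ b y := by
  unfold Cc Sys.pos
  rw [sy.comp_smul, sy.lev_smul]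

theorem cc_S (y : Y) : Cc sy θ b (sy.S y) ↔ Cc sy θ b y := by
  unfold Cc Sys.pos
  rw [sy.comp_S, sy.lev_S]

theorem Cc.lt {y : Y} (h : Cc sy θ b y) : sy.lev y < sy.top (sp.comp (sy.pr y)) := h.1

theorem Cc.ty {y : Y} (h : Cc sy θ b y) : sy.typ (sp.comp (sy.pr y)) (sy.lev y) = θ := h.2.1

theorem Cc.inj {y y' : Y} (h : Cc sy θ b y) (h' : Cc sy θ b y') {t t' : Γ} (ht : t ∈ sy.Tr θ)
    (ht' : t' ∈ sy.Tr θ) (e : t • sy.up y = t' • sy.up y') : t = t' ∧ y = y' :=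
  sy.up_inj y y' h.lt h'.lt t (h.ty.symm ▸ ht) t' (h'.ty.symm ▸ ht') e

theorem Rg.dw {t : Γ} {y' : Y} (h : Rg sy θ b t y') :
    Cc sy θ b (dw sy θ b t y') ∧ t • sy.up (dw sy θ b t y') = y' := by
  unfold OpsV.dw
  rw [dif_pos h]
  exact h.choose_spec

theorem Cc.dw {y : Y} (h : Cc sy θ b y) {t : Γ} (ht : t ∈ sy.Tr θ) :
    dw sy θ b t (t • sy.up y) = y :=
  have h1 : Rg sy θ b t (t • sy.up y) := ⟨y, h, rfl⟩
  (h1.dw.1.inj h ht ht h1.dw.2).2

theorem Rg.nxt {t : Γ} {y' : Y} (h : Rg sy θ b t y') :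
    sy.pos y' ∈ nxt (Cl sy.top sy.typ θ b) := by
  obtain ⟨y, h, rfl⟩ := h
  refine ⟨sy.lev y, ?_, ?_⟩
  · show sy.lev _ = _
    rw [sy.lev_smul, sy.lev_up y h.lt]
  · show (sp.comp (sy.pr _), _) ∈ _
    rw [sy.comp_smul, sy.comp_up]
    exact h

theorem exists_rg {y' : Y} (h : sy.pos y' ∈ nxt (Cl sy.top sy.typ θ b)) :
    ∃ t ∈ sy.Tr θ, Rg sy θ b t y' := by
  obtain ⟨l, h1, h2⟩ := h
  have h3 : sy.lev y' = l + 1 := h1
  obtain ⟨y, h4, h5, t, ht, rfl⟩ := sy.up_surj y' (by omega)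
  have h6 : Cc sy θ b y := by
    unfold Cc Sys.pos
    rw [h5, show sy.lev y = l by omega]
    exact h2
  exact ⟨t, h6.ty ▸ ht, y, h6, rfl⟩

omit [CompleteSpace H] in
theorem sum_rg (y' : Y) : ∑ t ∈ sy.Tr θ, (if Rg sy θ b t y' then (1 : H →L[ℂ] H) else 0) =
    if sy.pos y' ∈ nxt (Cl sy.top sy.typ θ b) then 1 else 0 := by
  split_ifs with h
  · obtain ⟨t, ht, h1⟩ := exists_rg h
    rw [Finset.sum_eq_single_of_mem t ht, if_pos h1]
    intro t' ht' hne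
    exact if_neg fun h2 => hne (h2.dw.1.inj h1.dw.1 ht' ht (h2.dw.2.trans h1.dw.2.symm)).1
  · exact Finset.sum_eq_zero fun t _ => if_neg fun h2 => h h2.nxt

variable (sy Kf θ b) in
/-- The translated vertical operators. -/
def IsU (t : Γ) (A : EX X H →L[ℂ] EX X H) : Prop :=
  IsW (IX Kf sy.slot) (fun ω => (t • sy.up ω.1, ω.2))
    (fun ω => if Cc sy θ b ω.1 then 1 else 0) A

theorem IsU.adj (hK : IsHilbertSum ℂ (fun _ : ℕ => H) Kf) {t : Γ} (ht : t ∈ sy.Tr θ)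
    {A : EX X H →L[ℂ] EX X H} (h : IsU sy Kf θ b t A) :
    IsW (IX Kf sy.slot) (fun ω => (dw sy θ b t ω.1, ω.2))
      (fun ω => if Rg sy θ b t ω.1 then 1 else 0) (star A) := by
  refine IsW.adj (hs_IX hK sy.slot) h ?_
  rintro ⟨y, j⟩ ⟨y', j'⟩
  dsimp only
  by_cases h1 : Cc sy θ b y ∧ (t • sy.up y, j) = (y', j')
  · obtain ⟨h1, h2⟩ := h1
    obtain ⟨rfl, rfl⟩ := Prod.mk.inj h2
    rw [if_pos rfl, if_pos h1, h1.dw ht, if_pos rfl, if_pos ⟨y, h1, rfl⟩, star_one]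
  · refine Eq.trans (b := 0) ?_ (Eq.symm ?_)
    · split_ifs with h3 h4
      · exact absurd ⟨h4, h3⟩ h1
      · exact star_zero _
      · rfl
    · split_ifs with h3 h4
      · obtain ⟨rfl, rfl⟩ := Prod.mk.inj h3
        exact absurd ⟨h4.dw.1, Prod.ext h4.dw.2 rfl⟩ h1
      · rfl
      · rfl

variable (sy Kf θ b) in
/-- The vertical operator. -/
def IsVV (A : EX X H →L[ℂ] EX X H) : Prop :=
  IsW (IX Kf sy.slot) (fun ω => (sy.up ω.1, ω.2)) (fun ω => if Cc sy θ b ω.1 then 1 else 0) A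

theorem exists_vv (hK : IsHilbertSum ℂ (fun _ : ℕ => H) Kf) (θ : Fin 3) (b : ℕ) :
    ∃ V : FP X H, IsVV sy Kf θ b V.1 := by
  obtain ⟨A, hA⟩ := exists_W (hs_IX hK sy.slot) (fun ω => (sy.up ω.1, ω.2))
    (fun ω => if Cc sy θ b ω.1 then 1 else 0) 1 (fun ω => by
      split_ifs
      · exact ContinuousLinearMap.norm_id_le
      · simp) (by
      rintro ⟨y, j⟩ h ⟨y', j'⟩ h' e
      have h1 : Cc sy θ b y := by
        by_contra h1
        exact h (if_neg h1)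
      have h2 : Cc sy θ b y' := by
        by_contra h2
        exact h' (if_neg h2)
      obtain ⟨t, ht, -⟩ := (sy.tr θ).ex 1
      obtain ⟨e1, e2⟩ := Prod.mk.inj e
      exact Prod.ext (h1.inj h2 ht ht (congrArg (t • ·) e1)).2 e2)
  refine ⟨⟨A, hA.mem_FP hK 1 fun ω _ => ?_⟩, hA⟩
  rw [sy.slot_fst, sy.slot_fst]
  exact sy.disp_up _

theorem IsVV.diag (hK : IsHilbertSum ℂ (fun _ : ℕ => H) Kf) {V D : EX X H →L[ℂ] EX X H}
    (h : IsVV sy Kf θ b V) (F : ℕ → ℕ → H →L[ℂ] H)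
    (hD : IsW (IX Kf sy.slot) id (fun ω => F (sp.comp (sy.pr ω.1)) ω.2) D) : D * V = V * D := by
  refine IsW.ext (hs_IX hK sy.slot) (hD.mul h) (IsW.mul h hD) fun ω => ⟨?_, fun _ => rfl⟩
  simp only [id, sy.comp_up]
  split_ifs <;> simp

theorem IsVV.isU (o : Ops sy C Kf) {V : FP X H} (h : IsVV sy Kf θ b V.1) (t : Γ) :
    IsU sy Kf θ b t (o.u t * V).1 :=
  ((o.hu t).mul h).congr fun _ => ⟨one_mul _, fun _ => rfl⟩

end OpsV

open OpsV in
theorem Ops.exists_V (o : Ops sy C Kf) (hK : IsHilbertSum ℂ (fun _ : ℕ => H) Kf) (θ : Fin 3)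
    (b : ℕ) : ∃ V : FP X H,
      IsV o.u (sy.ψ θ) (sy.Tr θ) V (o.e (Cl sy.top sy.typ θ b)) (o.e (nxt (Cl sy.top sy.typ θ b))) ∧
      o.s * V = o.u (sy.gc θ) * V * o.s ∧ o.t0 * V = V * o.t0 ∧ o.t1 * V = V * o.t1 ∧
      star o.t1 * V = V * star o.t1 := by
  obtain ⟨V, hV⟩ := exists_vv (sy := sy) hK θ b
  have hI := hs_IX hK sy.slot
  have hs : ∀ t, star V * o.u t⁻¹ = star (o.u t * V) := fun t => by rw [star_mul, o.u_star]
  refine ⟨V, ⟨fun g => ?_, fun t ht t' ht' => ?_, ?_, ?_⟩, ?_, ?_, ?_, ?_⟩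
  · refine Subtype.ext (IsW.ext hI (IsW.mul hV (o.hu g)) (hV.isU o _) fun ω => ?_)
    simp only [cc_smul, mul_one, true_and]
    intro h
    have h1 : Cc sy θ b ω.1 := by
      by_contra h1
      exact h (if_neg h1)
    rw [sy.up_smul g _ h1.lt, h1.ty]
  · rw [hs]
    have h1 := ((hV.isU o t).adj hK ht).mul (hV.isU o t')
    split_ifs with h
    · subst h
      refine Subtype.ext (IsW.ext hI h1 (o.he _) fun ω => ?_)
      by_cases h2 : Cc sy θ b ω.1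
      · have h3 : sy.pos ω.1 ∈ Cl sy.top sy.typ θ b := h2
        have h4 : Rg sy θ b t (t • sy.up ω.1) := ⟨_, h2, rfl⟩
        simp [h2, h3, h4, h2.dw ht]
      · have h3 : sy.pos ω.1 ∉ Cl sy.top sy.typ θ b := h2
        simp [h2, h3]
    · refine Subtype.ext (IsW.ext hI h1 (IsW.zero id) fun ω => ?_)
      by_cases h2 : Cc sy θ b ω.1
      · have h4 : ¬ Rg sy θ b t (t' • sy.up ω.1) := fun h4 =>
          h (h4.dw.1.inj h2 ht ht' h4.dw.2).1
        simp [h4]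
      · simp [h2]
  · have h1 : ∀ t ∈ sy.Tr θ, IsW (IX Kf sy.slot) id
        (fun ω => if Rg sy θ b t ω.1 then 1 else 0) (o.u t * V * (star V * o.u t⁻¹)).1 := by
      intro t ht
      rw [hs]
      refine (IsW.mul (hV.isU o t) ((hV.isU o t).adj hK ht)).congr fun ω => ?_
      by_cases h2 : Rg sy θ b t ω.1
      · simp [h2, h2.dw.1, h2.dw.2]
      · simp [h2]
    refine Subtype.ext ?_
    rw [AddSubmonoidClass.coe_finsetSum]
    exact IsW.ext hI (IsW.sum _ h1) (o.he _) fun ω => ⟨sum_rg _, fun _ => rfl⟩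
  · refine Subtype.ext (IsW.ext hI (IsW.mul hV (o.he _)) hV fun ω => ⟨?_, fun _ => rfl⟩)
    by_cases h2 : Cc sy θ b ω.1
    · have h3 : sy.pos ω.1 ∈ Cl sy.top sy.typ θ b := h2
      simp [h3]
    · simp [h2]
  · refine Subtype.ext (IsW.ext hI (o.hs.mul hV) (IsW.mul (hV.isU o _) o.hs) fun ω => ?_)
    simp only [cc_S, mul_one, one_mul, true_and]
    intro h
    have h1 : Cc sy θ b ω.1 := by
      by_contra h1
      exact h (if_neg h1)
    rw [sy.S_up _ h1.lt, h1.ty]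
  · exact Subtype.ext (hV.diag hK (fun n j => if j = n then T0 C (LL j) else 0) o.ht0)
  · exact Subtype.ext (hV.diag hK (fun n j => if j = n then T1 C (LL j) else 0) o.ht1)
  · exact Subtype.ext (hV.diag hK (fun n j => star (if j = n then T1 C (LL j) else 0))
      (o.ht1.adj_id hI))

end Vale.Agent.P212
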