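import Vale.Agent.P212.Hsum
import Vale.Agent.P212.Top

/- Finite propagation operators. -/

noncomputable section

namespace Vale.Agent.P212

open scoped Classical

variable {X H : Type} [MetricSpace X] [NormedAddCommGroup H] [InnerProductSpace ℂ H]
  [CompleteSpace H]

theorem ent_inner (T : EX X H →L[ℂ] EX X H) (x y : X) (ξ η : H) :
    inner ℂ η (ent T x y ξ) = inner ℂ (JX X H x η) (T (JX X H y ξ)) := (inner_JX x η _).symm

theorem ent_ext {T T' : EX X H →L[ℂ] EX X H} (h : ∀ x y ξ, ent T x y ξ = ent T' x y ξ) :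
    T = T' :=
  hs_ext hs_JX fun y ξ => hs_vec_ext hs_JX fun x η => by rw [← ent_inner, ← ent_inner, h]

namespace RoeAlg

theorem cpt_star {T : H →L[ℂ] H} (hT : IsCompactOperator T) :
    IsCompactOperator (star T : H →L[ℂ] H) := by
  have h1 : IsCompactOperator (T * star T : H →L[ℂ] H) := hT.comp_clm (star T)
  have h2 := (IsCompactOperator.isCompact_closure_image_ball
    (f := (T * star T : H →L[ℂ] H).toLinearMap) h1 1).totallyBounded.subset subset_closure
  refine (isCompactOperator_iff_isCompact_closure_image_ball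
    (star T : H →L[ℂ] H).toLinearMap one_pos).2 ?_
  refine (totallyBounded_closure.2 (Metric.totallyBounded_iff.2 fun ε hε => ?_)).isCompact_of_isClosed
    isClosed_closure
  obtain ⟨t, h3, h4, h5⟩ := Set.exists_subset_image_finite_and.1
    (Metric.finite_approx_of_totallyBounded h2 (ε ^ 2 / 2) (by positivity))
  refine ⟨(star T : H →L[ℂ] H) '' t, h4.image _, ?_⟩
  rintro _ ⟨x, hx, rfl⟩
  obtain ⟨_, ⟨y, hy, rfl⟩, h6⟩ := Set.mem_iUnion₂.1 (h5 ⟨x, hx, rfl⟩)
  refine Set.mem_iUnion₂.2 ⟨_, ⟨y, hy, rfl⟩, ?_⟩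
  have k1 : ‖x - y‖ ≤ 2 := by
    have a1 := mem_ball_zero_iff.1 hx
    have a2 := mem_ball_zero_iff.1 (h3 hy)
    linarith [norm_sub_le x y]
  have k2 : ‖T (star T (x - y))‖ < ε ^ 2 / 2 := by
    rw [Metric.mem_ball, dist_eq_norm, ← map_sub] at h6
    exact h6
  have k3 : ‖star T (x - y)‖ ^ 2 ≤ ‖x - y‖ * ‖T (star T (x - y))‖ := by
    refine le_trans (le_of_eq ?_) (norm_inner_le_norm (𝕜 := ℂ) _ _)
    rw [← ContinuousLinearMap.adjoint_inner_left, ← ContinuousLinearMap.star_eq_adjoint,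
      inner_self_eq_norm_sq_to_K]
    simp
  rw [Metric.mem_ball, dist_eq_norm, ContinuousLinearMap.coe_coe, ← map_sub]
  refine lt_of_pow_lt_pow_left₀ 2 hε.le (k3.trans_lt ?_)
  nlinarith [norm_nonneg (T (star T (x - y)))]

theorem cpt_sum {ι E : Type} [NormedAddCommGroup E] [NormedSpace ℂ E] (s : Finset ι)
    {f : ι → H →L[ℂ] E} (h : ∀ i ∈ s, IsCompactOperator (f i)) :
    IsCompactOperator (∑ i ∈ s, f i : H →L[ℂ] E) :=
  Finset.sum_induction f (fun T : H →L[ℂ] E => IsCompactOperator T) (fun _ _ a b => a.add b)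
    isCompactOperator_zero h

/-- the entries as bounded operators -/
def entL (T : EX X H →L[ℂ] EX X H) (x y : X) : H →L[ℂ] H :=
  (ContinuousLinearMap.adjoint (JX X H x).toContinuousLinearMap).comp
    (T.comp (JX X H y).toContinuousLinearMap)

theorem adj_JX (x : X) (f : EX X H) :
    ContinuousLinearMap.adjoint (JX X H x).toContinuousLinearMap f = f x :=
  ext_inner_left ℂ fun η => by
    rw [ContinuousLinearMap.adjoint_inner_right]
    exact inner_JX x η f

theorem ent_eq (T : EX X H →L[ℂ] EX X H) (x y : X) : ent T x y = entL T x y :=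
  funext fun _ => (adj_JX x _).symm

theorem ent_zero {T : EX X H →L[ℂ] EX X H} {x y : X} : ent T x y = 0 ↔ entL T x y = 0 := by
  rw [ent_eq]
  exact ⟨fun h => ContinuousLinearMap.ext (congrFun h), fun h => by rw [h]; rfl⟩

theorem entL_star (T : EX X H →L[ℂ] EX X H) (x y : X) :
    entL (star T) x y = star (entL T y x) := by
  simp only [entL, ContinuousLinearMap.star_eq_adjoint, ContinuousLinearMap.adjoint_comp,
    ContinuousLinearMap.adjoint_adjoint, ContinuousLinearMap.comp_assoc]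

theorem entL_add (T S : EX X H →L[ℂ] EX X H) (x y : X) :
    entL (T + S) x y = entL T x y + entL S x y := by
  simp only [entL, ContinuousLinearMap.add_comp, ContinuousLinearMap.comp_add]

theorem entL_smul (c : ℂ) (T : EX X H →L[ℂ] EX X H) (x y : X) :
    entL (c • T) x y = c • entL T x y := by
  simp only [entL, ContinuousLinearMap.smul_comp, ContinuousLinearMap.comp_smul]

theorem col (S : EX X H →L[ℂ] EX X H) (y : X) (F : Finset X) (h : ∀ z ∉ F, entL S z y = 0) :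
    S.comp (JX X H y).toContinuousLinearMap =
      ∑ z ∈ F, (JX X H z).toContinuousLinearMap.comp (entL S z y) := by
  ext1 ξ
  refine hs_vec_ext hs_JX fun x η => ?_
  simp only [ContinuousLinearMap.sum_apply, ContinuousLinearMap.comp_apply, inner_sum,
    LinearIsometry.coe_toContinuousLinearMap, hs_inner hs_JX, Finset.sum_ite_eq]
  rw [← ent_inner, ent_eq]
  split_ifs with hx
  · rfl
  · rw [h x hx]; simp

theorem entL_mul (T S : EX X H →L[ℂ] EX X H) (x y : X) (F : Finset X)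
    (h : ∀ z ∉ F, entL S z y = 0) : entL (T * S) x y = ∑ z ∈ F, entL T x z * entL S z y := by
  rw [entL, ContinuousLinearMap.mul_def, ContinuousLinearMap.comp_assoc, col S y F h,
    ContinuousLinearMap.comp_finset_sum, ContinuousLinearMap.comp_finset_sum]
  rfl

theorem far (bg : BddGeom X) {S : EX X H →L[ℂ] EX X H} {R : ℝ}
    (h : ∀ x y, R < dist x y → ent S x y = 0) (y : X) :
    ∀ z ∉ (bg.ball_fin y R).toFinset, entL S z y = 0 := fun z hz =>
  ent_zero.1 (h z y (by simpa using hz))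

/-- the algebra of finite propagation operators -/
def FP0 (bg : BddGeom X) : StarSubalgebra ℂ (EX X H →L[ℂ] EX X H) where
  carrier := {T | ∃ R : ℝ, ∀ x y, R < dist x y → ent T x y = 0}
  mul_mem' := by
    rintro T S ⟨R, hR⟩ ⟨R', hR'⟩
    refine ⟨R + R', fun x y hxy => ent_zero.2 ?_⟩
    rw [entL_mul T S x y _ (far bg hR' y)]
    refine Finset.sum_eq_zero fun z hz => ?_
    have h1 : dist z y ≤ R' := by simpa using hz
    rw [ent_zero.1 (hR x z (by linarith [dist_triangle x z y])), zero_mul]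
  add_mem' := by
    rintro T S ⟨R, hR⟩ ⟨R', hR'⟩
    refine ⟨max R R', fun x y hxy => ent_zero.2 ?_⟩
    rw [entL_add, ent_zero.1 (hR x y (lt_of_le_of_lt (le_max_left _ _) hxy)),
      ent_zero.1 (hR' x y (lt_of_le_of_lt (le_max_right _ _) hxy)), add_zero]
  algebraMap_mem' c := by
    refine ⟨0, fun x y hxy => funext fun ξ => ?_⟩
    have : (JX X H y ξ : EX X H) x = 0 := by rw [JX_apply, if_neg (dist_pos.1 hxy)]
    change c • (JX X H y ξ : EX X H) x = 0
    rw [this, smul_zero]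
  star_mem' := by
    rintro T ⟨R, hR⟩
    refine ⟨R, fun x y hxy => ent_zero.2 ?_⟩
    rw [entL_star, ent_zero.1 (hR y x (by rwa [dist_comm])), star_zero]

end RoeAlg

open RoeAlg

theorem mem_FP (bg : BddGeom X) (T : EX X H →L[ℂ] EX X H) :
    T ∈ FP X H ↔ ∃ R : ℝ, ∀ x y, R < dist x y → ent T x y = 0 :=
  ⟨fun h => (StarAlgebra.adjoin_le (S := FP0 (H := H) bg) fun _ h => h) h,
    fun h => StarAlgebra.subset_adjoin ℂ _ h⟩

namespace RoeAlg

theorem cpt_mul (bg : BddGeom X) {T S : EX X H →L[ℂ] EX X H} (hS : S ∈ FP X H)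
    (h : (∀ x y, IsCompactOperator (ent T x y)) ∨ ∀ x y, IsCompactOperator (ent S x y)) (x y : X) :
    IsCompactOperator (ent (T * S) x y) := by
  obtain ⟨R, hR⟩ := (mem_FP bg S).1 hS
  simp only [ent_eq] at h ⊢
  rw [entL_mul T S x y _ (far bg hR y)]
  exact cpt_sum _ fun z _ => h.elim (fun h => (h x z).comp_clm (entL S z y))
    fun h => (h z y).clm_comp (entL T x z)

/-- the algebraic Roe algebra, described directly -/
def Roe0 (bg : BddGeom X) : NonUnitalStarSubalgebra ℂ (EX X H →L[ℂ] EX X H) where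
  carrier := {T | (∀ x y, IsCompactOperator (ent T x y)) ∧ T ∈ FP X H}
  mul_mem' := fun hT hS => ⟨cpt_mul bg hS.2 (Or.inl hT.1), mul_mem hT.2 hS.2⟩
  add_mem' := fun {T S} hT hS => ⟨fun x y => by
    have := (hT.1 x y).add (hS.1 x y)
    simp only [ent_eq] at this ⊢
    rwa [entL_add], add_mem hT.2 hS.2⟩
  zero_mem' := ⟨fun _ _ => isCompactOperator_zero, zero_mem _⟩
  smul_mem' := fun c T hT => ⟨fun x y => by
    have := (hT.1 x y).smul c
    simp only [ent_eq] at this ⊢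
    rwa [entL_smul], (FP X H).smul_mem hT.2 c⟩
  star_mem' := fun {T} hT => ⟨fun x y => by
    have := hT.1 y x
    simp only [ent_eq] at this ⊢
    rw [entL_star]
    exact cpt_star this, star_mem hT.2⟩

end RoeAlg

theorem mem_Roe (bg : BddGeom X) (T : EX X H →L[ℂ] EX X H) :
    T ∈ Roe X H ↔ (∀ x y, IsCompactOperator (ent T x y)) ∧ T ∈ FP X H :=
  ⟨fun h => (NonUnitalStarAlgebra.adjoin_le (S := Roe0 (H := H) bg) fun S h =>
      And.intro h.1 ((mem_FP bg S).2 h.2)) h,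
    fun h => NonUnitalStarAlgebra.subset_adjoin ℂ _ ⟨h.1, (mem_FP bg T).1 h.2⟩⟩

theorem FP_mul_Roe (bg : BddGeom X) {T A : EX X H →L[ℂ] EX X H} (hT : T ∈ FP X H)
    (hA : A ∈ Roe X H) : T * A ∈ Roe X H := by
  rw [mem_Roe bg] at hA ⊢
  exact ⟨cpt_mul bg hA.2 (Or.inr hA.1), mul_mem hT hA.2⟩

theorem Roe_mul_FP (bg : BddGeom X) {T A : EX X H →L[ℂ] EX X H} (hT : T ∈ FP X H)
    (hA : A ∈ Roe X H) : A * T ∈ Roe X H := by
  rw [mem_Roe bg] at hA ⊢
  exact ⟨cpt_mul bg hT (Or.inl hA.1), mul_mem hA.2 hT⟩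

theorem Roe_col (bg : BddGeom X) {T : EX X H →L[ℂ] EX X H} (hT : T ∈ Roe X H) (x : X) :
    IsCompactOperator (T.comp (JX X H x).toContinuousLinearMap) := by
  obtain ⟨h1, h2⟩ := (mem_Roe bg T).1 hT
  obtain ⟨R, hR⟩ := (mem_FP bg T).1 h2
  simp only [ent_eq] at h1
  rw [col T x _ (far bg hR x)]
  exact cpt_sum _ fun z _ => (h1 z x).clm_comp (JX X H z).toContinuousLinearMap

namespace RoeAlg

theorem ent_JX {T : X → H →L[ℂ] H} {A : EX X H →L[ℂ] EX X H} (h : IsW (JX X H) id T A) (x y : X) :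
    ent A x y = ⇑(if x = y then T y else 0) := funext fun ξ => by
  change A (JX X H y ξ) x = _
  rw [h y ξ, JX_apply, id]
  split_ifs <;> rfl

theorem prop_JX {T : X → H →L[ℂ] H} {A : EX X H →L[ℂ] EX X H} (h : IsW (JX X H) id T A) :
    ∃ R : ℝ, ∀ x y, R < dist x y → ent A x y = 0 :=
  ⟨0, fun x y hxy => by rw [ent_JX h, if_neg (dist_pos.1 hxy)]; rfl⟩

variable {Ω : Type} {Kf : ℕ → H →ₗᵢ[ℂ] H} {slot : Ω ≃ X × ℕ} {σ : Ω → Ω} {T : Ω → H →L[ℂ] H}
  {A : EX X H →L[ℂ] EX X H}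

theorem act (h : IsW (IX Kf slot) σ T A) (y : X) (j : ℕ) (ξ : H) :
    A (JX X H y (Kf j ξ)) = IX Kf slot (σ (slot.symm (y, j))) (T (slot.symm (y, j)) ξ) := by
  rw [← h]
  simp [IX]

theorem prop_IX (hK : IsHilbertSum ℂ (fun _ : ℕ => H) Kf) (h : IsW (IX Kf slot) σ T A) (R : ℝ)
    (hR : ∀ ω, T ω ≠ 0 → dist (slot (σ ω)).1 (slot ω).1 ≤ R) :
    ∃ R : ℝ, ∀ x y, R < dist x y → ent A x y = 0 := by
  refine ⟨R, fun x y hxy => ent_zero.2 (hs_ext hK fun j ξ => ?_)⟩
  rw [← ent_eq]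
  change A (JX X H y (Kf j ξ)) x = 0
  rw [act h]
  by_cases h0 : T (slot.symm (y, j)) = 0
  · simp [h0]
  · have := hR _ h0
    rw [Equiv.apply_symm_apply] at this
    change (JX X H _ _ : EX X H) x = 0
    rw [JX_apply, if_neg]
    rintro rfl
    exact absurd this (not_le.2 hxy)

theorem cpt_IX (hK : IsHilbertSum ℂ (fun _ : ℕ => H) Kf) (h : IsW (IX Kf slot) σ T A)
    (hc : ∀ ω, IsCompactOperator (T ω)) (hf : ∀ x, {ω | (slot ω).1 = x ∧ T ω ≠ 0}.Finite) (y : X) :
    IsCompactOperator (A.comp (JX X H y).toContinuousLinearMap) := by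
  have e : A.comp (JX X H y).toContinuousLinearMap = ∑ ω ∈ (hf y).toFinset,
      (IX Kf slot (σ ω)).toContinuousLinearMap.comp ((T ω).comp
        (ContinuousLinearMap.adjoint (Kf (slot ω).2).toContinuousLinearMap)) := by
    refine hs_ext hK fun j ξ => ?_
    have k : ∀ i, ContinuousLinearMap.adjoint (Kf i).toContinuousLinearMap (Kf j ξ) =
        if i = j then ξ else 0 := fun i => ext_inner_left ℂ fun η => by
      rw [ContinuousLinearMap.adjoint_inner_right, LinearIsometry.coe_toContinuousLinearMap,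
        hs_inner hK]
      split_ifs <;> simp
    simp only [ContinuousLinearMap.sum_apply, ContinuousLinearMap.comp_apply,
      LinearIsometry.coe_toContinuousLinearMap, k]
    rw [act h, Finset.sum_eq_single (slot.symm (y, j))]
    · simp
    · intro ω h1 h2
      rw [if_neg, map_zero, map_zero]
      rintro rfl
      exact h2 (by rw [← ((hf y).mem_toFinset.1 h1).1]; simp)
    · intro h1
      have : T (slot.symm (y, j)) = 0 := by simpa using h1
      simp [this]
  rw [e]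
  exact cpt_sum _ fun ω _ => ((hc ω).comp_clm (ContinuousLinearMap.adjoint
    (Kf (slot ω).2).toContinuousLinearMap)).clm_comp (IX Kf slot (σ ω)).toContinuousLinearMap

end RoeAlg

theorem IsW.mem_FP_JX {T : X → H →L[ℂ] H} {A : EX X H →L[ℂ] EX X H} (h : IsW (JX X H) id T A) :
    A ∈ FP X H := StarAlgebra.subset_adjoin ℂ _ (prop_JX h)

theorem IsW.mem_Roe_JX {T : X → H →L[ℂ] H} {A : EX X H →L[ℂ] EX X H} (h : IsW (JX X H) id T A)
    (hc : ∀ x, IsCompactOperator (T x)) : A ∈ Roe X H := by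
  refine NonUnitalStarAlgebra.subset_adjoin ℂ _ ⟨fun x y => ?_, prop_JX h⟩
  rw [ent_JX h]
  split_ifs
  exacts [hc y, isCompactOperator_zero]

theorem IsW.mem_FP {Ω : Type} {Kf : ℕ → H →ₗᵢ[ℂ] H} (hK : IsHilbertSum ℂ (fun _ : ℕ => H) Kf)
    {slot : Ω ≃ X × ℕ} {σ : Ω → Ω} {T : Ω → H →L[ℂ] H} {A : EX X H →L[ℂ] EX X H}
    (h : IsW (IX Kf slot) σ T A) (R : ℝ)
    (hR : ∀ ω, T ω ≠ 0 → dist (slot (σ ω)).1 (slot ω).1 ≤ R) : A ∈ FP X H :=
  StarAlgebra.subset_adjoin ℂ _ (prop_IX hK h R hR)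

theorem IsW.mem_Roe {Ω : Type} {Kf : ℕ → H →ₗᵢ[ℂ] H} (hK : IsHilbertSum ℂ (fun _ : ℕ => H) Kf)
    {slot : Ω ≃ X × ℕ} {σ : Ω → Ω} {T : Ω → H →L[ℂ] H} {A : EX X H →L[ℂ] EX X H}
    (h : IsW (IX Kf slot) σ T A) (R : ℝ)
    (hR : ∀ ω, T ω ≠ 0 → dist (slot (σ ω)).1 (slot ω).1 ≤ R)
    (hc : ∀ ω, IsCompactOperator (T ω)) (hf : ∀ x, {ω | (slot ω).1 = x ∧ T ω ≠ 0}.Finite) :
    A ∈ Roe X H := by
  refine NonUnitalStarAlgebra.subset_adjoin ℂ _ ⟨fun x y => ?_, prop_IX hK h R hR⟩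
  rw [ent_eq]
  exact (cpt_IX hK h hc hf y).clm_comp
    (ContinuousLinearMap.adjoint (JX X H x).toContinuousLinearMap)

end Vale.Agent.P212
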