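import Vale.Agent.P212.Stmt
import Vale.Agent.P212.Main

/- From the standard module to an arbitrary Hilbert sum. -/

noncomputable section

namespace Vale.Agent.P212

open scoped ZeroAtInfty Classical

/-- The vanishing condition for an algebra and a multiplier. -/
def IV {B : Type} [Ring B] [StarRing B] [Algebra ℂ B] (A : NonUnitalStarSubalgebra ℂ B) (P : B) :
    Prop :=
  ∀ (K : Type) [NormedAddCommGroup K] [InnerProductSpace ℂ K] [CompleteSpace K]
    (ρ : A →⋆ₙₐ[ℂ] (K →L[ℂ] K)), (∀ ξ : K, (∀ T, ρ T ξ = 0) → ξ = 0) →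
    ∃ G : K →L[ℂ] K, IsSelfAdjoint G ∧ (∀ T : A, ∃ S : A, S.1 = P * T.1 ∧ ρ S = G * ρ T) ∧
      JoinedIn {u : K →L[ℂ] K | u ∈ unitary (K →L[ℂ] K) ∧ u - 1 ∈ closure (Set.range ρ)}
        (NormedSpace.exp (((2 * Real.pi : ℝ) * Complex.I : ℂ) • G)) 1

theorem IV.map {B E K : Type} [Ring B] [StarRing B] [Algebra ℂ B] [NormedAddCommGroup E]
    [InnerProductSpace ℂ E] [CompleteSpace E] [NormedAddCommGroup K] [InnerProductSpace ℂ K]
    [CompleteSpace K] {A : NonUnitalStarSubalgebra ℂ B} {A' : Set (E →L[ℂ] E)}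
    (Φ : B ≃⋆ₐ[ℂ] (E →L[ℂ] E)) (hA : ∀ T, Φ T ∈ A' ↔ T ∈ A) {P : B} (h : IV A P)
    {ρ : (E →L[ℂ] E) → (K →L[ℂ] K)} (hρ : IsRep A' ρ) : ExpTrivial A' ρ (Φ P) := by
  have m : ∀ T : A, Φ T.1 ∈ A' := fun T => (hA _).2 T.2
  have hz : ρ 0 = 0 := by
    have := hρ.smul 0 _ (m 0)
    rwa [zero_smul, zero_smul] at this
  let ι : A →⋆ₙₐ[ℂ] (K →L[ℂ] K) :=
    { toFun := fun T => ρ (Φ T.1)
      map_smul' := fun c T => (congrArg ρ (map_smul Φ c T.1)).trans (hρ.smul c _ (m T))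
      map_zero' := (congrArg ρ (map_zero Φ)).trans hz
      map_add' := fun S T => (congrArg ρ (map_add Φ S.1 T.1)).trans (hρ.add _ (m S) _ (m T))
      map_mul' := fun S T => (congrArg ρ (map_mul Φ S.1 T.1)).trans (hρ.mul _ (m S) _ (m T))
      map_star' := fun T => (congrArg ρ (map_star Φ T.1)).trans (hρ.star _ (m T)) }
  have hι : ∀ S ∈ A', ∃ T : A, Φ T.1 = S := fun S hS => by
    obtain ⟨T, hT⟩ := Φ.surjective S
    exact ⟨⟨T, (hA T).1 (hT ▸ hS)⟩, hT⟩
  obtain ⟨G, hG, h1, h2⟩ := h K ι fun ξ hξ => hρ.nondeg ξ fun T hT => by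
    obtain ⟨S, rfl⟩ := hι T hT
    exact hξ S
  refine ⟨G, hG, fun T hT => ?_, ?_⟩
  · obtain ⟨T, rfl⟩ := hι T hT
    obtain ⟨S, e1, e2⟩ := h1 T
    rw [← map_mul, ← e1]
    exact ⟨m S, e2⟩
  · have : Set.range ι = ρ '' A' := by
      ext u
      constructor
      · rintro ⟨T, rfl⟩
        exact ⟨_, m T, rfl⟩
      · rintro ⟨S, hS, rfl⟩
        obtain ⟨T, rfl⟩ := hι S hS
        exact ⟨T, rfl⟩
    rwa [this] at h2

variable {X H E : Type} [MetricSpace X] [NormedAddCommGroup H] [InnerProductSpace ℂ H]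
  [CompleteSpace H] [NormedAddCommGroup E] [InnerProductSpace ℂ E] [CompleteSpace E]
  {J : X → H →ₗᵢ[ℂ] E}

omit [MetricSpace X] in
theorem entry_conj {E' : Type} [NormedAddCommGroup E'] [InnerProductSpace ℂ E'] [CompleteSpace E']
    {J' : X → H →ₗᵢ[ℂ] E'} (U : E' ≃ₗᵢ[ℂ] E) (h : ∀ x ξ, U (J' x ξ) = J x ξ) (T : E' →L[ℂ] E')
    (x y : X) (ξ η : H) :
    inner ℂ η (entry J (U.conjStarAlgEquiv T) x y ξ) = inner ℂ (J' x η) (T (J' y ξ)) := by
  rw [entry, ContinuousLinearMap.comp_apply, ContinuousLinearMap.adjoint_inner_right,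
    ContinuousLinearMap.comp_apply, LinearIsometryEquiv.conjStarAlgEquiv_apply_apply]
  simp only [LinearIsometry.coe_toContinuousLinearMap, ← h,
    LinearIsometryEquiv.symm_apply_apply, LinearIsometryEquiv.inner_map_map]

theorem IndexZero.transfer (bg : BddGeom X) (hJ : IsHilbertSum ℂ (fun _ : X => H) J) {r : ℝ}
    {y : Fred (Rips X r) H} (h : IndexZero y) : IndexVanishes J y := by
  obtain ⟨a, P, hP, h⟩ := h
  have h0 : ∀ x ξ, hJ.linearIsometryEquiv.symm (JX X H x ξ) = J x ξ := fun x ξ =>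
    hJ.linearIsometryEquiv_symm_apply_single ξ
  have h1 : ∀ T x y, (entry J (hJ.linearIsometryEquiv.symm.conjStarAlgEquiv T) x y : H → H) =
      ent T x y := fun T x y => funext fun ξ => ext_inner_left ℂ fun η => by
    rw [ent_inner]
    exact entry_conj _ h0 T x y ξ η
  have h2 : ∀ T x y, entry J (hJ.linearIsometryEquiv.symm.conjStarAlgEquiv T) x y = 0 ↔
      ent T x y = 0 := fun T x y => by
    rw [← h1]
    exact ⟨fun h => by rw [h]; rfl, fun h => DFunLike.coe_injective h⟩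
  refine ⟨a, hJ.linearIsometryEquiv.symm.conjStarAlgEquiv P, ⟨hP.bary, fun x x' => ?_⟩,
    fun K _ _ _ ρ hρ => IV.map (A := Roe X H) _ (fun T => ?_) h hρ⟩
  · ext ξ
    have hf : (Function.support fun z => y.π (a x * a z) * y.F * y.π (a z * a x')).Finite :=
      (bg.ball_fin x r).subset fun z hz => by
        by_contra hc
        rw [Metric.mem_closedBall, not_le, dist_comm] at hc
        exact hz (by simp [Bary.orth hP.bary hc])
    rw [h1, hP.entry, smul_apply, add_apply]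
    congr 2
    exact ((ContinuousLinearMap.apply ℂ H ξ).toLinearMap.toAddMonoidHom.map_finsum hf).symm
  · rw [mem_Roe bg, mem_FP bg]
    simp only [AlgRoe, Set.mem_ofPred_eq, h1, h2]

end Vale.Agent.P212
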