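import Vale.Agent.P212.Base

/- Weighted translations on a Hilbert sum. -/

set_option linter.unusedSectionVars false

noncomputable section

namespace Vale.Agent.P212

open scoped Classical

variable {Ω H E : Type} [NormedAddCommGroup H] [InnerProductSpace ℂ H] [CompleteSpace H]
  [NormedAddCommGroup E] [InnerProductSpace ℂ E] [CompleteSpace E] {I : Ω → H →ₗᵢ[ℂ] E}

theorem wop_sum (hI : IsHilbertSum ℂ (fun _ : Ω => H) I) (x : E) :
    HasSum (fun ω => I ω (hI.linearIsometryEquiv x ω)) x := by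
  simpa using hI.hasSum_linearIsometryEquiv_symm (hI.linearIsometryEquiv x)

theorem hs_ext (hI : IsHilbertSum ℂ (fun _ : Ω => H) I) {F : Type} [NormedAddCommGroup F]
    [NormedSpace ℂ F] {A B : E →L[ℂ] F} (h : ∀ ω ξ, A (I ω ξ) = B (I ω ξ)) : A = B := by
  ext x
  have h1 := A.hasSum (wop_sum hI x)
  simp only [h] at h1
  exact h1.unique (B.hasSum (wop_sum hI x))

theorem hs_inner (hI : IsHilbertSum ℂ (fun _ : Ω => H) I) (ω ω' : Ω) (ξ η : H) :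
    inner ℂ (I ω ξ) (I ω' η) = if ω = ω' then inner ℂ ξ η else 0 := by
  split_ifs with h
  · rw [h, LinearIsometry.inner_map_map]
  · exact hI.OrthogonalFamily h ξ η

theorem hs_vec_ext (hI : IsHilbertSum ℂ (fun _ : Ω => H) I) {x y : E}
    (h : ∀ ω ξ, inner ℂ (I ω ξ) x = inner ℂ (I ω ξ) y) : x = y := by
  have h1 : innerSL ℂ x = innerSL ℂ y := hs_ext hI fun ω ξ => by
    rw [innerSL_apply_apply, innerSL_apply_apply, ← inner_conj_symm, h, inner_conj_symm]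
  exact ext_inner_right ℂ fun v => congrArg (fun L : E →L[ℂ] ℂ => L v) h1

theorem wop_bd (T : Ω → H →L[ℂ] H) {C : ℝ} (hT : ∀ ω, ‖T ω‖ ≤ C)
    (f : lp (fun _ : Ω => H) 2) (s : Finset {ω | T ω ≠ 0}) :
    ∑ i ∈ s, ‖T i (f i)‖ ^ (2 : ENNReal).toReal ≤ (C * ‖f‖) ^ (2 : ENNReal).toReal := by
  have h1 := lp.sum_rpow_le_norm_rpow (p := 2) (by norm_num) f
    (s.map (Function.Embedding.subtype _))
  rw [Finset.sum_map] at h1
  simp only [ENNReal.toReal_ofNat, Real.rpow_ofNat, Function.Embedding.coe_subtype] at h1 ⊢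
  rw [mul_pow]
  refine le_trans ?_ (mul_le_mul_of_nonneg_left h1 (sq_nonneg C))
  rw [Finset.mul_sum]
  refine Finset.sum_le_sum fun i _ => ?_
  rw [← mul_pow]
  exact pow_le_pow_left₀ (norm_nonneg _) ((T i).le_of_opNorm_le (hT i) _) 2

theorem wop_ex (hI : IsHilbertSum ℂ (fun _ : Ω => H) I) (σ : Ω → Ω) (T : Ω → H →L[ℂ] H)
    {C : ℝ} (hC : 0 ≤ C) (hT : ∀ ω, ‖T ω‖ ≤ C) (hσ : Set.InjOn σ {ω | T ω ≠ 0}) :
    ∃ A, IsW I σ T A ∧ ‖A‖ ≤ C := by
  have hJ := hI.OrthogonalFamily.comp (f := fun s : {ω | T ω ≠ 0} => σ s) hσ.injective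
  let R : lp (fun _ : Ω => H) 2 →ₗ[ℂ] lp (fun _ : {ω | T ω ≠ 0} => H) 2 :=
    { toFun := fun f => ⟨fun i => T i (f i), memℓp_gen' (wop_bd T hT f)⟩
      map_add' := fun f g => by
        ext i
        exact map_add (T i) (f i) (g i)
      map_smul' := fun c f => by
        ext i
        simp }
  have hR : ∀ f, ‖R f‖ ≤ C * ‖f‖ := fun f =>
    lp.norm_le_of_forall_sum_le (by norm_num) (by positivity) (wop_bd T hT f)
  have hR' : ∀ f i, R f i = T i (f i) := fun _ _ => rfl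
  let A : E →ₗ[ℂ] E := hJ.linearIsometry.toLinearMap ∘ₗ R ∘ₗ
    hI.linearIsometryEquiv.toLinearEquiv.toLinearMap
  have hA' : ∀ x, A x = hJ.linearIsometry (R (hI.linearIsometryEquiv x)) := fun _ => rfl
  have hA : ∀ x, ‖A x‖ ≤ C * ‖x‖ := fun x => by
    rw [hA', LinearIsometry.norm_map]
    exact (hR _).trans_eq (by rw [LinearIsometryEquiv.norm_map])
  refine ⟨A.mkContinuous C hA, fun ω ξ => ?_, A.mkContinuous_norm_le hC hA⟩
  rw [LinearMap.mkContinuous_apply, hA', ← hI.linearIsometryEquiv_symm_apply_single,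
    LinearIsometryEquiv.apply_symm_apply]
  by_cases h : T ω = 0
  · have h1 : R (lp.single 2 ω ξ) = 0 := by
      ext i
      have h2 : (i : Ω) ≠ ω := fun h3 => i.2 (h3 ▸ h)
      simp [hR', lp.single_apply, h2]
    simp [h1, h]
  · have h1 : R (lp.single 2 ω ξ) = lp.single 2 ⟨ω, h⟩ (T ω ξ) := by
      ext i
      by_cases h2 : i = ⟨ω, h⟩
      · subst h2
        simp [hR']
      · have h3 : (i : Ω) ≠ ω := fun h3 => h2 (Subtype.ext h3)
        simp [hR', lp.single_apply, h2, h3]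
    rw [h1, hJ.linearIsometry_apply_single]

theorem exists_W (hI : IsHilbertSum ℂ (fun _ : Ω => H) I) (σ : Ω → Ω) (T : Ω → H →L[ℂ] H)
    (C : ℝ) (hT : ∀ ω, ‖T ω‖ ≤ C) (hσ : Set.InjOn σ {ω | T ω ≠ 0}) : ∃ A, IsW I σ T A :=
  (wop_ex hI σ T (le_max_right C 0) (fun ω => (hT ω).trans (le_max_left _ _)) hσ).imp
    fun _ h => h.1

theorem IsW.norm_le (hI : IsHilbertSum ℂ (fun _ : Ω => H) I) {σ : Ω → Ω} {T : Ω → H →L[ℂ] H}
    {A : E →L[ℂ] E} (h : IsW I σ T A) {C : ℝ} (hC : 0 ≤ C) (hT : ∀ ω, ‖T ω‖ ≤ C)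
    (hσ : Set.InjOn σ {ω | T ω ≠ 0}) : ‖A‖ ≤ C := by
  obtain ⟨B, h1, h2⟩ := wop_ex hI σ T hC hT hσ
  rwa [hs_ext hI fun ω ξ => (h ω ξ).trans (h1 ω ξ).symm]

theorem IsW.congr {σ σ' : Ω → Ω} {T T' : Ω → H →L[ℂ] H} {A : E →L[ℂ] E} (h : IsW I σ T A)
    (e : ∀ ω, T ω = T' ω ∧ (T ω ≠ 0 → σ ω = σ' ω)) : IsW I σ' T' A := by
  intro ω ξ
  rw [h ω ξ, ← (e ω).1]
  by_cases h1 : T ω = 0
  · simp [h1]
  · rw [(e ω).2 h1]

theorem IsW.ext (hI : IsHilbertSum ℂ (fun _ : Ω => H) I) {σ σ' : Ω → Ω}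
    {T T' : Ω → H →L[ℂ] H} {A B : E →L[ℂ] E} (h : IsW I σ T A) (h' : IsW I σ' T' B)
    (e : ∀ ω, T ω = T' ω ∧ (T ω ≠ 0 → σ ω = σ' ω)) : A = B :=
  hs_ext hI fun ω ξ => (h.congr e ω ξ).trans (h' ω ξ).symm

theorem IsW.mul {σ σ' : Ω → Ω} {T T' : Ω → H →L[ℂ] H} {A B : E →L[ℂ] E} (h : IsW I σ T A)
    (h' : IsW I σ' T' B) : IsW I (fun ω => σ (σ' ω)) (fun ω => T (σ' ω) * T' ω) (A * B) :=
  fun ω ξ => (congrArg A (h' ω ξ)).trans (h _ _)

theorem IsW.add {σ : Ω → Ω} {T T' : Ω → H →L[ℂ] H} {A B : E →L[ℂ] E} (h : IsW I σ T A)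
    (h' : IsW I σ T' B) : IsW I σ (fun ω => T ω + T' ω) (A + B) := fun ω ξ => by
  simp [h ω ξ, h' ω ξ]

theorem IsW.sub {σ : Ω → Ω} {T T' : Ω → H →L[ℂ] H} {A B : E →L[ℂ] E} (h : IsW I σ T A)
    (h' : IsW I σ T' B) : IsW I σ (fun ω => T ω - T' ω) (A - B) := fun ω ξ => by
  simp [h ω ξ, h' ω ξ]

theorem IsW.smul {σ : Ω → Ω} {T : Ω → H →L[ℂ] H} {A : E →L[ℂ] E} (h : IsW I σ T A) (c : ℂ) :
    IsW I σ (fun ω => c • T ω) (c • A) := fun ω ξ => by
  simp [h ω ξ]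

theorem IsW.one : IsW I id (fun _ => 1) 1 := fun _ _ => rfl

theorem IsW.zero (σ : Ω → Ω) : IsW I σ (fun _ => 0) 0 := fun _ _ => by simp

theorem IsW.sum {ι : Type} (s : Finset ι) {σ : Ω → Ω} {T : ι → Ω → H →L[ℂ] H}
    {A : ι → E →L[ℂ] E} (h : ∀ i ∈ s, IsW I σ (T i) (A i)) :
    IsW I σ (fun ω => ∑ i ∈ s, T i ω) (∑ i ∈ s, A i) := fun ω ξ => by
  simp only [sum_apply, map_sum]
  exact Finset.sum_congr rfl fun i hi => h i hi ω ξ

theorem IsW.adj (hI : IsHilbertSum ℂ (fun _ : Ω => H) I) {σ τ : Ω → Ω} {T T' : Ω → H →L[ℂ] H}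
    {A : E →L[ℂ] E} (h : IsW I σ T A)
    (e : ∀ ω ω', (if σ ω = ω' then star (T ω) else 0) = if τ ω' = ω then T' ω' else 0) :
    IsW I τ T' (star A) := by
  intro ω' η
  refine hs_vec_ext hI fun ω ξ => ?_
  rw [ContinuousLinearMap.star_eq_adjoint, ContinuousLinearMap.adjoint_inner_right, h ω ξ,
    hs_inner hI, hs_inner hI]
  have h1 := congrArg (fun L : H →L[ℂ] H => inner ℂ ξ (L η)) (e ω ω')
  simp only [apply_ite (fun L : H →L[ℂ] H => inner ℂ ξ (L η)), zero_apply, inner_zero_right,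
    ContinuousLinearMap.star_eq_adjoint, ContinuousLinearMap.adjoint_inner_right] at h1
  rw [h1]
  simp only [eq_comm]

theorem IsW.adj_id (hI : IsHilbertSum ℂ (fun _ : Ω => H) I) {T : Ω → H →L[ℂ] H}
    {A : E →L[ℂ] E} (h : IsW I id T A) : IsW I id (fun ω => star (T ω)) (star A) :=
  h.adj hI fun ω ω' => by
    by_cases h1 : ω = ω'
    · simp [h1]
    · simp [h1, Ne.symm h1]

theorem IsW.adj_perm (hI : IsHilbertSum ℂ (fun _ : Ω => H) I) (σ τ : Ω → Ω)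
    (h1 : ∀ ω, τ (σ ω) = ω) (h2 : ∀ ω, σ (τ ω) = ω) {T : Ω → H →L[ℂ] H} {A : E →L[ℂ] E}
    (h : IsW I σ T A) : IsW I τ (fun ω => star (T (τ ω))) (star A) :=
  h.adj hI fun ω ω' => by
    by_cases h3 : σ ω = ω'
    · subst h3
      simp [h1]
    · rw [if_neg h3, if_neg fun h4 => h3 (by rw [← h4, h2])]

theorem IsW.cpt_fin (hI : IsHilbertSum ℂ (fun _ : Ω => H) I) {σ : Ω → Ω} {T : Ω → H →L[ℂ] H}
    {A : E →L[ℂ] E} (h : IsW I σ T A) (hc : ∀ ω, IsCompactOperator (T ω))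
    (hf : {ω | T ω ≠ 0}.Finite) : IsCompactOperator A := by
  have h1 : ∀ ω ω' ξ, (I ω).toContinuousLinearMap.adjoint (I ω' ξ) = if ω = ω' then ξ else 0 := by
    intro ω ω' ξ
    refine ext_inner_left ℂ fun v => ?_
    rw [ContinuousLinearMap.adjoint_inner_right, LinearIsometry.coe_toContinuousLinearMap,
      hs_inner hI]
    split_ifs <;> simp
  have h2 : A = ∑ ω ∈ hf.toFinset, (I (σ ω)).toContinuousLinearMap ∘L T ω ∘L
      (I ω).toContinuousLinearMap.adjoint := by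
    refine hs_ext hI fun ω ξ => ?_
    rw [h ω ξ, sum_apply, Finset.sum_eq_single ω]
    · simp [h1]
    · intro ω' _ h3
      simp [h1, h3]
    · intro h3
      have h4 : T ω = 0 := by simpa using h3
      simp [h4]
  have h3 : A ∈ compactOperator (RingHom.id ℂ) E E := by
    rw [h2]
    exact sum_mem fun ω _ => ((hc ω).comp_clm _).clm_comp _
  exact h3

theorem IsW.cpt (hI : IsHilbertSum ℂ (fun _ : Ω => H) I) {T : Ω → H →L[ℂ] H}
    {A : E →L[ℂ] E} (h : IsW I id T A) (hc : ∀ ω, IsCompactOperator (T ω))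
    (hf : ∀ ε : ℝ, 0 < ε → {ω | ε ≤ ‖T ω‖}.Finite) : IsCompactOperator A := by
  obtain ⟨C, hC⟩ : ∃ C, ∀ ω, ‖T ω‖ ≤ C := by
    obtain ⟨C, hC⟩ := ((hf 1 one_pos).image fun ω => ‖T ω‖).bddAbove
    refine ⟨max C 1, fun ω => ?_⟩
    by_cases h1 : 1 ≤ ‖T ω‖
    · exact (hC ⟨ω, h1, rfl⟩).trans (le_max_left _ _)
    · exact (not_le.1 h1).le.trans (le_max_right _ _)
  refine isClosed_setOfPred_isCompactOperator.closure_subset
    (Metric.mem_closure_iff.2 fun ε hε => ?_)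
  obtain ⟨B, hB⟩ := exists_W hI id (fun ω => if ε / 2 ≤ ‖T ω‖ then T ω else 0) C
    (fun ω => by
      split_ifs
      · exact hC ω
      · simpa using (norm_nonneg _).trans (hC ω)) Function.injective_id.injOn
  refine ⟨B, hB.cpt_fin hI (fun ω => ?_) ((hf _ (half_pos hε)).subset fun ω hω => ?_), ?_⟩
  · split_ifs
    · exact hc ω
    · exact isCompactOperator_zero
  · by_contra h1
    exact hω (if_neg h1)
  · rw [dist_eq_norm]
    refine ((h.sub hB).norm_le hI (half_pos hε).le (fun ω => ?_)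
      Function.injective_id.injOn).trans_lt (half_lt_self hε)
    split_ifs with h1
    · simpa using (half_pos hε).le
    · simpa using (not_le.1 h1).le

end Vale.Agent.P212
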